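import Crest.Agent.R186.Tri

/-!
The three-fold extension attached to the cocycle of a seed (construction from the bar complex).
-/

set_option autoImplicit false

noncomputable section

namespace Crest.Agent.R186

open TensorProduct

section Closure

variable {k : Type*} [Field k]
variable {V W : Type*} [AddCommGroup V] [Module k V] [AddCommGroup W] [Module k W]
variable {R S T : Type*} [Ring R] [Algebra k R] [Ring S] [Algebra k S] [Ring T] [Algebra k T]

theorem Bim.RP.of_fintype {M : Bim k R S V} {ι : Type*} [Fintype ι] (v : ι → V)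
    (φ : ι → V →ₗ[k] S) (h1 : ∀ i a x, φ i (M.r a x) = φ i x * a)
    (h2 : ∀ x, ∑ i, M.r (φ i x) (v i) = x) : M.RP :=
  ⟨_, v ∘ (Fintype.equivFin ι).symm, φ ∘ (Fintype.equivFin ι).symm, fun _ => h1 _, fun x =>
    ((Fintype.equivFin ι).symm.sum_comp fun i => M.r (φ i x) (v i)).trans (h2 x)⟩

theorem Bim.LP.of_fintype {M : Bim k R S V} {ι : Type*} [Fintype ι] (v : ι → V)
    (φ : ι → V →ₗ[k] R) (h1 : ∀ i a x, φ i (M.l a x) = a * φ i x)
    (h2 : ∀ x, ∑ i, M.l (φ i x) (v i) = x) : M.LP :=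
  ⟨_, v ∘ (Fintype.equivFin ι).symm, φ ∘ (Fintype.equivFin ι).symm, fun _ => h1 _, fun x =>
    ((Fintype.equivFin ι).symm.sum_comp fun i => M.l (φ i x) (v i)).trans (h2 x)⟩

theorem Bim.RP.retract {M : Bim k R S V} {N : Bim k T S W} (h : N.RP) (f : W →ₗ[k] V)
    (g : V →ₗ[k] W) (hf : ∀ a x, f (N.r a x) = M.r a (f x))
    (hg : ∀ a x, g (M.r a x) = N.r a (g x)) (hfg : ∀ x, f (g x) = x) : M.RP := by
  obtain ⟨n, v, φ, h1, h2⟩ := h
  refine ⟨n, fun i => f (v i), fun i => φ i ∘ₗ g, fun i a x => by simp [hg, h1], fun x => ?_⟩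
  simp only [LinearMap.comp_apply, ← hf, ← map_sum, h2, hfg]

theorem Bim.LP.retract {M : Bim k R S V} {N : Bim k R T W} (h : N.LP) (f : W →ₗ[k] V)
    (g : V →ₗ[k] W) (hf : ∀ a x, f (N.l a x) = M.l a (f x))
    (hg : ∀ a x, g (M.l a x) = N.l a (g x)) (hfg : ∀ x, f (g x) = x) : M.LP := by
  obtain ⟨n, v, φ, h1, h2⟩ := h
  refine ⟨n, fun i => f (v i), fun i => φ i ∘ₗ g, fun i a x => by simp [hg, h1], fun x => ?_⟩
  simp only [LinearMap.comp_apply, ← hf, ← map_sum, h2, hfg]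

theorem Bim.RP.prod {M : Bim k R S V} {N : Bim k R S W} (hM : M.RP) (hN : N.RP) :
    (M.prod N).RP := by
  obtain ⟨n, v, φ, h1, h2⟩ := hM
  obtain ⟨m, w, ψ, h3, h4⟩ := hN
  refine Bim.RP.of_fintype (ι := Fin n ⊕ Fin m) (Sum.elim (fun i => (v i, 0)) fun i => (0, w i))
    (Sum.elim (fun i => φ i ∘ₗ LinearMap.fst k V W) fun i => ψ i ∘ₗ LinearMap.snd k V W) ?_ ?_
  · rintro (i | i) a x <;> simp [h1, h3]
  · intro x
    ext <;> simp [Prod.fst_sum, Prod.snd_sum, h2, h4]

theorem Bim.LP.prod {M : Bim k R S V} {N : Bim k R S W} (hM : M.LP) (hN : N.LP) :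
    (M.prod N).LP := by
  obtain ⟨n, v, φ, h1, h2⟩ := hM
  obtain ⟨m, w, ψ, h3, h4⟩ := hN
  refine Bim.LP.of_fintype (ι := Fin n ⊕ Fin m) (Sum.elim (fun i => (v i, 0)) fun i => (0, w i))
    (Sum.elim (fun i => φ i ∘ₗ LinearMap.fst k V W) fun i => ψ i ∘ₗ LinearMap.snd k V W) ?_ ?_
  · rintro (i | i) a x <;> simp [h1, h3]
  · intro x
    ext <;> simp [Prod.fst_sum, Prod.snd_sum, h2, h4]

theorem Bim.RP_reg : (Bim.reg k R).RP :=
  ⟨1, fun _ => 1, fun _ => LinearMap.id, fun _ _ _ => rfl, fun x => by simp⟩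

theorem Bim.LP_reg : (Bim.reg k R).LP :=
  ⟨1, fun _ => 1, fun _ => LinearMap.id, fun _ _ _ => rfl, fun x => by simp⟩

theorem Bim.RP.ind {M : Bim k R S V} [Module.Finite k R] (hM : M.RP) : M.ind.RP := by
  obtain ⟨n, v, φ, h1, h2⟩ := hM
  let b := Module.finBasis k R
  refine Bim.RP.of_fintype (ι := Fin (Module.finrank k R) × Fin n) (fun i => b i.1 ⊗ₜ v i.2)
    (fun i => φ i.2 ∘ₗ (TensorProduct.lid k V).toLinearMap ∘ₗ (b.coord i.1).rTensor V)
    (fun i a x => ?_) (fun x => ?_)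
  · induction x with
    | zero => simp
    | tmul y z => simp [h1]
    | add y z hy hz => simp only [map_add, hy, hz, add_mul]
  · induction x with
    | zero => simp
    | tmul y z =>
      simp [Fintype.sum_prod_type, ← tmul_sum, h2, smul_tmul', ← sum_tmul]
    | add y z hy hz => simp only [map_add, LinearMap.add_apply, Finset.sum_add_distrib, hy, hz]

end Closure

namespace Bar

universe u

variable {k : Type u} [Field k] {J : Type*} {A : Type u} [Ring A] [Algebra k A]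

theorem ind3 {P : A ⊗[k] (A ⊗[k] A) → Prop} (h0 : P 0) (ht : ∀ a b c, P (a ⊗ₜ (b ⊗ₜ c)))
    (ha : ∀ x y, P x → P y → P (x + y)) (x : A ⊗[k] (A ⊗[k] A)) : P x := by
  induction x with
  | zero => exact h0
  | add x y hx hy => exact ha x y hx hy
  | tmul a y =>
    induction y with
    | zero => simpa using h0
    | add y z hy hz => rw [tmul_add]; exact ha _ _ hy hz
    | tmul b c => exact ht a b c

variable (k A) in
abbrev B2 : Bim k A A (A ⊗[k] A) := (Bim.reg k A).ind
variable (k A) in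
abbrev B3 : Bim k A A (A ⊗[k] (A ⊗[k] A)) := (Bim.reg k A).ind.ind

variable (k A) in
/-- the bar differential -/
def bd : A ⊗[k] (A ⊗[k] A) →ₗ[k] A ⊗[k] A :=
  (LinearMap.mul' k A).rTensor A ∘ₗ (TensorProduct.assoc k A A A).symm.toLinearMap +
    (LinearMap.mul' k A).lTensor A

@[simp] theorem bd_tmul (a b c : A) : bd k A (a ⊗ₜ (b ⊗ₜ c)) = (a * b) ⊗ₜ c + a ⊗ₜ (b * c) := by
  simp [bd]

theorem bd_tmul' (a : A) (y : A ⊗[k] A) :
    bd k A (a ⊗ₜ y) = (B2 k A).l a y + a ⊗ₜ LinearMap.mul' k A y := by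
  induction y with
  | zero => simp
  | tmul b c => simp
  | add y z hy hz => simp only [tmul_add, map_add, hy, hz]; abel

theorem bd_l (a : A) (u : A ⊗[k] (A ⊗[k] A)) :
    bd k A ((B3 k A).l a u) = (B2 k A).l a (bd k A u) := by
  induction u using ind3 with
  | h0 => simp
  | ht b c d => simp [mul_assoc]
  | ha x y hx hy => simp only [map_add, hx, hy]

theorem bd_r (a : A) (u : A ⊗[k] (A ⊗[k] A)) :
    bd k A ((B3 k A).r a u) = (B2 k A).r a (bd k A u) := by
  induction u using ind3 with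
  | h0 => simp
  | ht b c d => simp [mul_assoc]
  | ha x y hx hy => simp only [map_add, hx, hy]

theorem mul_l (a : A) (y : A ⊗[k] A) :
    LinearMap.mul' k A ((B2 k A).l a y) = a * LinearMap.mul' k A y := by
  induction y with
  | zero => simp
  | tmul b c => simp [mul_assoc]
  | add y z hy hz => simp only [map_add, hy, hz, mul_add]

theorem mul_r (a : A) (y : A ⊗[k] A) :
    LinearMap.mul' k A ((B2 k A).r a y) = LinearMap.mul' k A y * a := by
  induction y with
  | zero => simp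
  | tmul b c => simp [mul_assoc]
  | add y z hy hz => simp only [map_add, hy, hz, add_mul]

variable (k A) in
abbrev Om : Submodule k (A ⊗[k] (A ⊗[k] A)) := LinearMap.ker (bd k A)

variable (k A) in
def BO : Bim k A A (Om k A) := (B3 k A).sub (Om k A)
  (fun a x hx => by rw [LinearMap.mem_ker] at *; rw [bd_l, hx, map_zero])
  (fun a x hx => by rw [LinearMap.mem_ker] at *; rw [bd_r, hx, map_zero])

@[simp] theorem BO_l (a : A) (x : Om k A) : ((BO k A).l a x : A ⊗[k] (A ⊗[k] A)) = (B3 k A).l a x :=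
  rfl
@[simp] theorem BO_r (a : A) (x : Om k A) : ((BO k A).r a x : A ⊗[k] (A ⊗[k] A)) = (B3 k A).r a x :=
  rfl

@[simp] theorem bd_Om (x : Om k A) : bd k A x = 0 := x.2

/-- the twisting term -/
def κ (S : Seed k A J) : A →ₗ[k] A ⊗[k] (A ⊗[k] A) →ₗ[k] A where
  toFun a := LinearMap.mul' k A ∘ₗ (TensorProduct.lift (S.τ a)).rTensor A ∘ₗ
    (TensorProduct.assoc k A A A).symm.toLinearMap
  map_add' a b := by ext x y z; simp [add_mul]
  map_smul' c a := by ext x y z; simp

@[simp] theorem κ_tmul (S : Seed k A J) (a b c d : A) :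
    κ S a (b ⊗ₜ (c ⊗ₜ d)) = S.τ a b c * d := by simp [κ]

theorem κ_tmul' (S : Seed k A J) (a b : A) (y : A ⊗[k] A) :
    κ S a (b ⊗ₜ y) = LinearMap.mul' k A ((S.τ a b).rTensor A y) := by
  induction y with
  | zero => simp
  | tmul c d => simp
  | add y z hy hz => simp only [tmul_add, map_add, hy, hz]

theorem κ_one (S : Seed k A J) (a : A) (y : A ⊗[k] A) : κ S a (1 ⊗ₜ y) = 0 := by
  induction y with
  | zero => simp
  | tmul c d => simp [S.τ_one]
  | add y z hy hz => simp only [tmul_add, map_add, hy, hz, add_zero]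

theorem κ_r (S : Seed k A J) (a b : A) (u : A ⊗[k] (A ⊗[k] A)) :
    κ S a ((B3 k A).r b u) = κ S a u * b := by
  induction u using ind3 with
  | h0 => simp
  | ht c d e => simp [mul_assoc]
  | ha x y hx hy => simp only [map_add, hx, hy, add_mul]

/-- the cocycle as a map on the triple tensor product -/
def τt (S : Seed k A J) : A ⊗[k] (A ⊗[k] A) →ₗ[k] A :=
  TensorProduct.lift (TensorProduct.uncurry (RingHom.id k) A A A ∘ₗ S.τ)

@[simp] theorem τt_tmul (S : Seed k A J) (a b c : A) : τt S (a ⊗ₜ (b ⊗ₜ c)) = S.τ a b c := by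
  simp [τt]

variable [CharP k 2]

theorem mul_bd (u : A ⊗[k] (A ⊗[k] A)) : LinearMap.mul' k A (bd k A u) = 0 := by
  induction u using ind3 with
  | h0 => simp
  | ht c d e => simp [mul_assoc, add_self k]
  | ha x y hx hy => simp only [map_add, hx, hy, add_zero]

theorem κ_mul' (S : Seed k A J) (a b : A) (u : A ⊗[k] (A ⊗[k] A)) :
    κ S (a * b) u = a * κ S b u + κ S a ((B3 k A).l b u) +
      LinearMap.mul' k A ((S.τ a b).rTensor A (bd k A u)) := by
  induction u using ind3 with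
  | h0 => simp
  | ht c d e =>
    have := congrArg (· * e) (S.τ_coc a b c d)
    simp only [add_mul, zero_mul, mul_assoc] at this
    simp only [κ_tmul, Bim.ind_l, bd_tmul, map_add, LinearMap.rTensor_tmul, LinearMap.mul'_apply]
    rw [← add_eq_zero_iff k, ← this]
    abel
  | ha x y hx hy => simp only [map_add, hx, hy, mul_add]; abel

theorem κ_mul (S : Seed k A J) (a b : A) (u : Om k A) :
    κ S (a * b) u = a * κ S b u + κ S a ((B3 k A).l b u) := by
  rw [κ_mul', bd_Om, map_zero, map_zero, add_zero]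

theorem κ_one' (S : Seed k A J) (u : Om k A) : κ S 1 u = 0 := by
  have := κ_mul S 1 1 u
  rwa [mul_one, one_mul, (B3 k A).l_one, add_self k] at this

theorem τt_l' (S : Seed k A J) (a : A) (u : A ⊗[k] (A ⊗[k] A)) :
    τt S ((B3 k A).l a u) = a * τt S u + κ S a u + TensorProduct.lift (S.τ a) (bd k A u) := by
  induction u using ind3 with
  | h0 => simp
  | ht c d e =>
    have := S.τ_coc a c d e
    simp only [κ_tmul, Bim.ind_l, bd_tmul, map_add, τt_tmul, lift.tmul]
    rw [← add_eq_zero_iff k, ← this]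
    abel
  | ha x y hx hy => simp only [map_add, hx, hy, mul_add]; abel

theorem τt_l (S : Seed k A J) (a : A) (u : Om k A) :
    τt S ((B3 k A).l a u) = a * τt S u + κ S a u := by
  rw [τt_l', bd_Om, map_zero, add_zero]

/-- the twisted left action -/
def twl (S : Seed k A J) : A →ₗ[k] (A × Om k A) →ₗ[k] (A × Om k A) :=
  ((Bim.reg k A).prod (BO k A)).l +
    ((κ S).compl₂ ((Om k A).subtype ∘ₗ LinearMap.snd k A _)).compr₂ (LinearMap.inl k A (Om k A))

omit [CharP k 2] in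
theorem twl_apply (S : Seed k A J) (a : A) (x : A × Om k A) :
    twl S a x = (a * x.1 + κ S a x.2, (BO k A).l a x.2) := by
  simp [twl]

/-- the twisted bimodule in degree two -/
def Tw (S : Seed k A J) : Bim k A A (A × Om k A) where
  l := twl S
  r := ((Bim.reg k A).prod (BO k A)).r
  l_one x := by rw [twl_apply, κ_one', (BO k A).l_one, one_mul, add_zero]
  l_mul a b x := by
    rw [twl_apply, twl_apply, twl_apply, κ_mul, (BO k A).l_mul, mul_add, mul_assoc, add_assoc]
    rfl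
  r_one := ((Bim.reg k A).prod (BO k A)).r_one
  r_mul := ((Bim.reg k A).prod (BO k A)).r_mul
  lr a b x := by
    simp only [twl_apply, Bim.prod_r, Bim.reg_r, BO_r, κ_r, (BO k A).lr, add_mul, mul_assoc]

@[simp] theorem Tw_l (S : Seed k A J) (a : A) (x : A × Om k A) :
    (Tw S).l a x = (a * x.1 + κ S a x.2, (BO k A).l a x.2) := twl_apply S a x
@[simp] theorem Tw_r (S : Seed k A J) (a : A) (x : A × Om k A) :
    (Tw S).r a x = (x.1 * a, (BO k A).r a x.2) := rfl

variable (k A) in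
/-- the right linear retraction onto the cycles -/
def sR : A ⊗[k] (A ⊗[k] A) →ₗ[k] Om k A :=
  (LinearMap.id + TensorProduct.mk k A (A ⊗[k] A) 1 ∘ₗ bd k A).codRestrict _ fun u => by
    simp [bd_tmul', (B2 k A).l_one, mul_bd, add_self k]

@[simp] theorem sR_val (u : A ⊗[k] (A ⊗[k] A)) :
    (sR k A u : A ⊗[k] (A ⊗[k] A)) = u + 1 ⊗ₜ bd k A u := rfl

omit [CharP k 2] in
theorem bd_assoc (y : A ⊗[k] A) : bd k A (TensorProduct.assoc k A A A (y ⊗ₜ 1)) =
    LinearMap.mul' k A y ⊗ₜ 1 + y := by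
  induction y with
  | zero => simp
  | tmul b c => simp
  | add y z hy hz => simp only [add_tmul, map_add, hy, hz]; abel

omit [CharP k 2] in
theorem assoc_l (a : A) (y : A ⊗[k] A) : TensorProduct.assoc k A A A ((B2 k A).l a y ⊗ₜ 1) =
    (B3 k A).l a (TensorProduct.assoc k A A A (y ⊗ₜ 1)) := by
  induction y with
  | zero => simp
  | tmul b c => simp
  | add y z hy hz => simp only [add_tmul, map_add, hy, hz]

variable (k A) in
/-- the left linear retraction onto the cycles -/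
def sL : A ⊗[k] (A ⊗[k] A) →ₗ[k] Om k A :=
  (LinearMap.id + (TensorProduct.assoc k A A A).toLinearMap ∘ₗ
    (TensorProduct.mk k (A ⊗[k] A) A).flip 1 ∘ₗ bd k A).codRestrict _ fun u => by
    simp [bd_assoc, mul_bd, add_self k]

@[simp] theorem sL_val (u : A ⊗[k] (A ⊗[k] A)) : (sL k A u : A ⊗[k] (A ⊗[k] A)) =
    u + TensorProduct.assoc k A A A (bd k A u ⊗ₜ 1) := rfl

theorem RP_BO [Module.Finite k A] : (BO k A).RP :=
  (Bim.RP_reg.ind.ind : (B3 k A).RP).retract (sR k A) (Om k A).subtype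
    (fun a x => Subtype.ext (by simp [bd_r])) (fun _ _ => rfl) (fun x => Subtype.ext (by simp))

theorem LP_BO [Module.Finite k A] : (BO k A).LP :=
  (Bim.LP_ind _ : (B3 k A).LP).retract (sL k A) (Om k A).subtype
    (fun a x => Subtype.ext (by simp only [sL_val, BO_l, bd_l, assoc_l, map_add]))
    (fun _ _ => rfl) (fun x => Subtype.ext (by simp))

theorem RP_Tw [Module.Finite k A] (S : Seed k A J) : (Tw S).RP :=
  (Bim.RP_reg.prod RP_BO).retract LinearMap.id LinearMap.id (fun _ _ => rfl) (fun _ _ => rfl)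
    (fun _ => rfl)

theorem LP_Tw [Module.Finite k A] (S : Seed k A J) : (Tw S).LP := by
  let g : (A × Om k A) →ₗ[k] (A × Om k A) := LinearMap.id +
    LinearMap.inl k A (Om k A) ∘ₗ τt S ∘ₗ (Om k A).subtype ∘ₗ LinearMap.snd k A _
  have hg : ∀ x, g x = (x.1 + τt S x.2, x.2) := fun x => by ext <;> simp [g]
  refine (Bim.LP_reg.prod LP_BO).retract g g (fun a x => ?_) (fun a x => ?_) (fun x => ?_)
  · simp only [hg, Bim.prod_l, Bim.reg_l, Tw_l, BO_l, τt_l, mul_add, add_assoc]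
  · simp only [hg, Bim.prod_l, Bim.reg_l, Tw_l, BO_l, τt_l, mul_add]
    congr 1
    char2 k
  · simp only [hg, add_assoc, add_self k, add_zero]

variable (k A) in
abbrev VV : Type u := (A × Om k A) × (A ⊗[k] (A ⊗[k] A)) × (A ⊗[k] A)

variable (k A) in
def dd : VV k A →ₗ[k] VV k A :=
  LinearMap.prod 0 (LinearMap.prod
    ((Om k A).subtype ∘ₗ LinearMap.snd k A _ ∘ₗ LinearMap.fst k _ _)
    (bd k A ∘ₗ LinearMap.fst k _ _ ∘ₗ LinearMap.snd k _ _))

variable (k A) in
def pp (m : ℤ) : VV k A →ₗ[k] VV k A :=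
  LinearMap.prodMap (if m = 2 then LinearMap.id else 0)
    (LinearMap.prodMap (if m = 1 then LinearMap.id else 0) (if m = 0 then LinearMap.id else 0))

omit [CharP k 2] in
@[simp] theorem dd_apply (x : VV k A) : dd k A x = (0, (x.1.2 : A ⊗[k] (A ⊗[k] A)), bd k A x.2.1) :=
  rfl

omit [CharP k 2] in
theorem pp_apply (m : ℤ) (x : VV k A) : pp k A m x =
    (if m = 2 then x.1 else 0, if m = 1 then x.2.1 else 0, if m = 0 then x.2.2 else 0) := by
  simp only [pp, LinearMap.prodMap_apply]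
  split_ifs <;> rfl

/-- the complex -/
def CC (S : Seed k A J) : DG k A A (VV k A) where
  toBim := (Tw S).prod ((B3 k A).prod (B2 k A))
  d := dd k A
  p := pp k A
  dd x := by simp
  dl a x := by simp [bd_l, Prod.ext_iff]
  dr a x := by simp [bd_r, Prod.ext_iff]
  pp m n x := by
    simp only [pp_apply]
    split_ifs <;> first | rfl | omega | simp
  pl m a x := by
    simp only [pp_apply, Bim.prod_l]
    split_ifs <;> simp only [map_zero]
  pr m a x := by
    simp only [pp_apply, Bim.prod_r]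
    split_ifs <;> simp only [map_zero]
  pd m x := by
    simp only [pp_apply, dd_apply]
    split_ifs <;> first | rfl | omega | simp

@[simp] theorem CC_l (S : Seed k A J) (a : A) (x : VV k A) : (CC S).l a x =
    ((a * x.1.1 + κ S a x.1.2, (BO k A).l a x.1.2), (B3 k A).l a x.2.1, (B2 k A).l a x.2.2) := by
  simp [CC]
@[simp] theorem CC_r (S : Seed k A J) (a : A) (x : VV k A) : (CC S).r a x =
    ((x.1.1 * a, (BO k A).r a x.1.2), (B3 k A).r a x.2.1, (B2 k A).r a x.2.2) := rfl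
@[simp] theorem CC_d (S : Seed k A J) (x : VV k A) :
    (CC S).d x = (0, (x.1.2 : A ⊗[k] (A ⊗[k] A)), bd k A x.2.1) := rfl
theorem CC_p (S : Seed k A J) (m : ℤ) (x : VV k A) : (CC S).p m x =
    (if m = 2 then x.1 else 0, if m = 1 then x.2.1 else 0, if m = 0 then x.2.2 else 0) :=
  pp_apply m x

variable (k A) in
def i2 : Om k A →ₗ[k] VV k A := LinearMap.inl k _ _ ∘ₗ LinearMap.inr k _ _
variable (k A) in
def i1 : A ⊗[k] (A ⊗[k] A) →ₗ[k] VV k A := LinearMap.inr k _ _ ∘ₗ LinearMap.inl k _ _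
variable (k A) in
def i0 : A ⊗[k] A →ₗ[k] VV k A := LinearMap.inr k _ _ ∘ₗ LinearMap.inr k _ _

omit [CharP k 2] in
@[simp] theorem i2_apply (x : Om k A) : i2 k A x = ((0, x), 0, 0) := rfl
omit [CharP k 2] in
@[simp] theorem i1_apply (x : A ⊗[k] (A ⊗[k] A)) : i1 k A x = (0, x, 0) := rfl
omit [CharP k 2] in
@[simp] theorem i0_apply (x : A ⊗[k] A) : i0 k A x = (0, 0, x) := rfl

omit [CharP k 2] in
theorem VV_ext {x y : VV k A} (h1 : x.1.1 = y.1.1)
    (h2 : (x.1.2 : A ⊗[k] (A ⊗[k] A)) = y.1.2) (h3 : x.2.1 = y.2.1) (h4 : x.2.2 = y.2.2) : x = y :=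
  Prod.ext (Prod.ext h1 (Subtype.ext h2)) (Prod.ext h3 h4)

/-- the interface -/
def tri (S : Seed k A J) : Tri S (CC S) where
  fin := by have := S.fin; infer_instance
  bdd m hm := by
    refine LinearMap.ext fun x => ?_
    rw [CC_p, if_neg (by omega), if_neg (by omega), if_neg (by omega)]
    rfl
  tot x := by simp [CC_p, Prod.ext_iff]
  RP := by
    have := S.fin
    exact (RP_Tw S).prod (Bim.RP_reg.ind.ind.prod Bim.RP_reg.ind)
  LP := by
    have := S.fin
    exact (LP_Tw S).prod ((Bim.LP_ind _).prod (Bim.LP_ind _))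
  ι := LinearMap.inl k _ _ ∘ₗ LinearMap.inl k _ _
  hι := ⟨fun a x => by simp [Prod.ext_iff], fun a x => by simp [Prod.ext_iff],
    fun x => by simp [Prod.ext_iff], fun m x => by
    rw [CC_p, Bim.at_p]
    by_cases h : m = 2
    · simp [h]
    · simp [h, sub_eq_zero, Prod.ext_iff]⟩
  ε := LinearMap.mul' k A ∘ₗ LinearMap.snd k _ _ ∘ₗ LinearMap.snd k _ _
  hε := ⟨fun a x => by simp [mul_l], fun a x => by simp [mul_r], fun x => by simp [mul_bd],
    fun m x => by
      rw [CC_p, Bim.at_p]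
      by_cases h : m = 0
      · simp [h]
      · simp [h]⟩
  h := i2 k A ∘ₗ sR k A ∘ₗ LinearMap.fst k _ _ ∘ₗ LinearMap.snd k _ _ +
    i1 k A ∘ₗ TensorProduct.mk k A (A ⊗[k] A) 1 ∘ₗ LinearMap.snd k _ _ ∘ₗ LinearMap.snd k _ _
  π := LinearMap.fst k _ _ ∘ₗ LinearMap.fst k _ _
  ρ₀ := i0 k A ∘ₗ TensorProduct.mk k A A 1
  ρ₁ := (TensorProduct.mk k A A).compr₂ (i1 k A ∘ₗ TensorProduct.mk k A (A ⊗[k] A) 1)
  ρ₂ := TensorProduct.lcurry (RingHom.id k) A A (VV k A) ∘ₗ
    (TensorProduct.mk k A (A ⊗[k] A)).compr₂ (i2 k A ∘ₗ sR k A)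
  dh x := VV_ext (by simp [add_self k]) (by simp) (by simp [add_assoc, add_self k])
    (by simp [bd_tmul', (B2 k A).l_one])
  ε_h x := by simp
  h_ι x := by simp
  π_ι x := rfl
  π_d x := rfl
  ε_ι x := by simp
  ε_ρ₀ x := by simp
  ε_ρ₁ a x := by simp
  ε_ρ₂ a b x := by simp
  ρ₀_r x y := by simp [Prod.ext_iff]
  ρ₁_r a x y := by simp [Prod.ext_iff]
  ρ₂_r a b x y := VV_ext (by simp) (by simp [mul_assoc]) (by simp) (by simp)
  d_ρ₀ x := by simp
  d_ρ₁ a x := by simp [Prod.ext_iff]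
  d_ρ₂ a b x := by simp [tmul_add, add_assoc, Prod.ext_iff]
  ρ₃ a b c x := VV_ext (by simp [κ_one]) (by
    simp [tmul_add, mul_assoc]
    char2 k) (by simp) (by simp)
  in₀ := i0 k A
  pr₀ := LinearMap.snd k _ _ ∘ₗ LinearMap.snd k _ _
  in₀_l a x := by simp [Prod.ext_iff]
  in₀_r a x := by simp [Prod.ext_iff]
  pr₀_l a x := by simp
  pr₀_r a x := by simp
  in_pr x := by simp [CC_p]
  ε_eq x := rfl
  tw c T := by
    have hz : ∀ a, (B2 k A).r (T.h a) T.z = (B2 k A).l a T.z := fun a => (T.z_comm a).symm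
    refine ⟨i1 k A (1 ⊗ₜ T.z), i2 k A ∘ₗ sR k A ∘ₗ (TensorProduct.mk k A (A ⊗[k] A)).flip T.z,
      by simp [CC_p], fun a => by simp [CC_p], by simp [bd_tmul', (B2 k A).l_one, T.z_mul],
      fun a => ?_, fun a b => ?_⟩
    · exact VV_ext (by simp) (by simp) (by simp [bd_tmul', T.z_mul, hz]) (by simp)
    · refine VV_ext (by simp [κ_one, κ_tmul' S a b, T.z_τ]) ?_ (by simp) (by simp)
      simp [bd_tmul', T.z_mul, hz, ← (B2 k A).lr, (B2 k A).l_mul]
      char2 k

end Bar

universe u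

theorem exists_tri {k : Type u} [Field k] [CharP k 2] {J : Type*} {A : Type u} [Ring A]
    [Algebra k A] (S : Seed k A J) :
    ∃ (V : Type u) (_ : AddCommGroup V) (_ : Module k V) (C : DG k A A V), Nonempty (Tri S C) :=
  ⟨Bar.VV k A, inferInstance, inferInstance, Bar.CC S, ⟨Bar.tri S⟩⟩

end Crest.Agent.R186
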