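import Crest.Agent.R186.ExtRes
import Crest.Prelude.Def_GorProjVanishing

/-!
Row 186: base change of `GorProjVanishingData` along a field extension.
-/

set_option autoImplicit false
set_option linter.unusedVariables false
set_option linter.unusedSectionVars false

open CategoryTheory Crest.AlgebraR
open scoped TensorProduct

namespace Crest.Agent.R186

universe u

namespace BC

variable (k : Type*) [Field k] (E : Type*) [Field E] [Algebra k E] (Λ : Type*) [Ring Λ]
  [Algebra k Λ]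

/-- The module structure of `E ⊗ M` over `E ⊗ Λ` is the expected one. -/
class IsBC (M : Type*) [AddCommGroup M] [Module k M] [Module Λ M]
    [Module (E ⊗[k] Λ) (E ⊗[k] M)] : Prop where
  smul_tmul : ∀ (a b : E) (r : Λ) (z : M), (a ⊗ₜ[k] r) • (b ⊗ₜ[k] z) = (a * b) ⊗ₜ[k] (r • z)

instance : IsBC k E Λ Λ := ⟨fun a b r z => Algebra.TensorProduct.tmul_mul_tmul a b r z⟩

/-- The base-changed module structure. -/
@[reducible] noncomputable def bcModule (M : Type*) [AddCommGroup M] [Module k M] [Module Λ M]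
    [IsScalarTower k Λ M] : Module (E ⊗[k] Λ) (E ⊗[k] M) :=
  Module.compHom (E ⊗[k] M) ((Module.endTensorEndAlgHom (R := k) (S := k) (A := k) (M := E)
    (N := M)).comp (Algebra.TensorProduct.map (Algebra.lsmul k k E (A := E))
      (Algebra.lsmul k k M (A := Λ)))).toRingHom

lemma isBC_bcModule (M : Type*) [AddCommGroup M] [Module k M] [Module Λ M]
    [IsScalarTower k Λ M] : @IsBC k _ E _ _ Λ _ _ M _ _ _ (bcModule k E Λ M) :=
  letI := bcModule k E Λ M
  ⟨fun a b r z => rfl⟩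

variable {k E Λ}
variable {M N L : Type*} [AddCommGroup M] [Module k M] [Module Λ M] [IsScalarTower k Λ M]
  [Module (E ⊗[k] Λ) (E ⊗[k] M)] [IsBC k E Λ M]
  [AddCommGroup N] [Module k N] [Module Λ N] [IsScalarTower k Λ N]
  [Module (E ⊗[k] Λ) (E ⊗[k] N)] [IsBC k E Λ N]
  [AddCommGroup L] [Module k L] [Module Λ L] [IsScalarTower k Λ L]
  [Module (E ⊗[k] Λ) (E ⊗[k] L)] [IsBC k E Λ L]

/-- The map `a ⊗ f`. -/
noncomputable def bc (a : E) (f : M →ₗ[Λ] N) : E ⊗[k] M →ₗ[E ⊗[k] Λ] E ⊗[k] N where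
  toFun := TensorProduct.map (LinearMap.mulLeft k a) (f.restrictScalars k)
  map_add' := map_add _
  map_smul' c x := by
    induction c using TensorProduct.induction_on with
    | zero => simp
    | add c c' h h' => simp only [add_smul, map_add, h, h', RingHom.id_apply]
    | tmul e r =>
      induction x using TensorProduct.induction_on with
      | zero => simp
      | add x x' h h' => simp only [smul_add, map_add, h, h', RingHom.id_apply]
      | tmul b z =>
        simp only [IsBC.smul_tmul, TensorProduct.map_tmul, LinearMap.mulLeft_apply,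
          LinearMap.restrictScalars_apply, map_smul, RingHom.id_apply, mul_left_comm]

@[simp] lemma bc_tmul (a b : E) (f : M →ₗ[Λ] N) (z : M) :
    bc (k := k) a f (b ⊗ₜ[k] z) = (a * b) ⊗ₜ[k] f z := rfl

lemma coe_bc_one (f : M →ₗ[Λ] N) :
    ⇑(bc (k := k) (1 : E) f) = LinearMap.lTensor E (f.restrictScalars k) := by
  funext x
  induction x using TensorProduct.induction_on with
  | zero => simp
  | add x x' h h' => simp only [map_add, h, h']
  | tmul b z => simp

lemma ext_tmul {W : Type*} [AddCommGroup W] [Module (E ⊗[k] Λ) W]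
    {g g' : E ⊗[k] M →ₗ[E ⊗[k] Λ] W} (h : ∀ z, g ((1 : E) ⊗ₜ[k] z) = g' ((1 : E) ⊗ₜ[k] z)) :
    g = g' := by
  ext x
  induction x using TensorProduct.induction_on with
  | zero => simp
  | add x x' h h' => simp only [map_add, h, h']
  | tmul b z =>
    have : b ⊗ₜ[k] z = (b ⊗ₜ[k] (1 : Λ)) • ((1 : E) ⊗ₜ[k] z) := by simp [IsBC.smul_tmul]
    rw [this, map_smul, map_smul, h]

lemma ext_span {W : Type*} [AddCommGroup W] [Module (E ⊗[k] Λ) W]
    {g g' : E ⊗[k] M →ₗ[E ⊗[k] Λ] W} {s : Set M} (hs : Submodule.span Λ s = ⊤)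
    (h : ∀ z ∈ s, g ((1 : E) ⊗ₜ[k] z) = g' ((1 : E) ⊗ₜ[k] z)) : g = g' := by
  refine ext_tmul fun z => ?_
  have hz : z ∈ Submodule.span Λ s := hs ▸ Submodule.mem_top
  induction hz using Submodule.span_induction with
  | mem x hx => exact h x hx
  | zero => simp
  | add x y _ _ hx hy => simp only [TensorProduct.tmul_add, map_add, hx, hy]
  | smul r x _ hx =>
    have : (1 : E) ⊗ₜ[k] (r • x) = ((1 : E) ⊗ₜ[k] r) • ((1 : E) ⊗ₜ[k] x) := by
      simp [IsBC.smul_tmul]
    rw [this, map_smul, map_smul, hx]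

lemma bc_comp (a : E) (f : N →ₗ[Λ] L) (g : M →ₗ[Λ] N) :
    bc (k := k) a f ∘ₗ bc (1 : E) g = bc a (f ∘ₗ g) := ext_tmul fun z => by simp

lemma bc_exact {f : M →ₗ[Λ] N} {g : N →ₗ[Λ] L} (h : Function.Exact f g) :
    Function.Exact (bc (k := k) (1 : E) f) (bc (k := k) (1 : E) g) := by
  rw [coe_bc_one, coe_bc_one]
  exact Module.Flat.lTensor_exact E (f := f.restrictScalars k) (g := g.restrictScalars k) h

lemma bc_surjective {f : M →ₗ[Λ] N} (h : Function.Surjective f) :
    Function.Surjective (bc (k := k) (1 : E) f) := by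
  rw [coe_bc_one]
  exact LinearMap.lTensor_surjective E (g := f.restrictScalars k) h

/-- Contraction with a linear form on `E`. -/
noncomputable def ctr (φ : E →ₗ[k] k) : E ⊗[k] N →ₗ[k] N :=
  TensorProduct.lid k N ∘ₗ LinearMap.rTensor N φ

@[simp] lemma ctr_tmul (φ : E →ₗ[k] k) (a : E) (z : N) : ctr φ (a ⊗ₜ[k] z) = φ a • z := by
  simp [ctr]

lemma ctr_smul (φ : E →ₗ[k] k) (r : Λ) (y : E ⊗[k] N) :
    ctr φ (((1 : E) ⊗ₜ[k] r) • y) = r • ctr φ y := by
  induction y using TensorProduct.induction_on with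
  | zero => simp
  | add x x' h h' => simp only [smul_add, map_add, h, h']
  | tmul b z => simp only [IsBC.smul_tmul, one_mul, ctr_tmul, smul_comm (φ b) r z]

lemma ctr_bc (φ : E →ₗ[k] k) (f : M →ₗ[Λ] N) (y : E ⊗[k] M) :
    ctr φ (bc (1 : E) f y) = f (ctr φ y) := by
  induction y using TensorProduct.induction_on with
  | zero => simp
  | add x x' h h' => simp only [map_add, h, h']
  | tmul b z => simp

/-- The coefficient of a map between base-changed modules. -/
noncomputable def coef (φ : E →ₗ[k] k) (g : E ⊗[k] M →ₗ[E ⊗[k] Λ] E ⊗[k] N) : M →ₗ[Λ] N where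
  toFun z := ctr φ (g ((1 : E) ⊗ₜ[k] z))
  map_add' x y := by simp only [TensorProduct.tmul_add, map_add]
  map_smul' r x := by
    have : (1 : E) ⊗ₜ[k] (r • x) = ((1 : E) ⊗ₜ[k] r) • ((1 : E) ⊗ₜ[k] x) := by
      simp [IsBC.smul_tmul]
    rw [this, map_smul, ctr_smul, RingHom.id_apply]

lemma coef_apply (φ : E →ₗ[k] k) (g : E ⊗[k] M →ₗ[E ⊗[k] Λ] E ⊗[k] N) (z : M) :
    coef φ g z = ctr φ (g ((1 : E) ⊗ₜ[k] z)) := rfl

lemma exists_sum_ctr {ι : Type*} (b : Module.Basis ι k E) (y : E ⊗[k] N) :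
    ∃ S₀ : Finset ι, ∀ S : Finset ι, S₀ ⊆ S → y = ∑ j ∈ S, b j ⊗ₜ[k] ctr (b.coord j) y := by
  classical
  induction y using TensorProduct.induction_on with
  | zero => exact ⟨∅, fun S _ => by simp⟩
  | add x x' h h' =>
    obtain ⟨S, hS⟩ := h
    obtain ⟨S', hS'⟩ := h'
    refine ⟨S ∪ S', fun T hT => ?_⟩
    simp only [map_add, TensorProduct.tmul_add, Finset.sum_add_distrib]
    rw [← hS T (Finset.union_subset_left hT), ← hS' T (Finset.union_subset_right hT)]
  | tmul a z =>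
    refine ⟨(b.repr a).support, fun T hT => ?_⟩
    simp only [ctr_tmul, ← TensorProduct.smul_tmul, ← TensorProduct.sum_tmul]
    congr 1
    conv_lhs => rw [← b.linearCombination_repr a, Finsupp.linearCombination_apply]
    exact Finsupp.sum_of_support_subset _ hT _ (by simp)

lemma exists_decomp [Module.Finite Λ M] {ι : Type*} (b : Module.Basis ι k E)
    (g : E ⊗[k] M →ₗ[E ⊗[k] Λ] E ⊗[k] N) :
    ∃ S : Finset ι, g = ∑ j ∈ S, bc (b j) (coef (b.coord j) g) := by
  classical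
  obtain ⟨s, hs⟩ := Module.Finite.fg_top (R := Λ) (M := M)
  choose S₀ hS₀ using fun z : M => exists_sum_ctr b (g ((1 : E) ⊗ₜ[k] z))
  refine ⟨s.biUnion S₀, ext_span hs fun z hz => ?_⟩
  rw [hS₀ z (s.biUnion S₀) (Finset.subset_biUnion_of_mem S₀ hz)]
  simp [coef_apply]

/-- Exactness of `Hom(-, W)` passes to the base change. -/
lemma hom_exact {W : Type*} [AddCommGroup W] [Module k W] [Module Λ W] [IsScalarTower k Λ W]
    [Module (E ⊗[k] Λ) (E ⊗[k] W)] [IsBC k E Λ W] [Module.Finite Λ N]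
    (d' : M →ₗ[Λ] N) (d : N →ₗ[Λ] L)
    (h : ∀ g : N →ₗ[Λ] W, g ∘ₗ d' = 0 → ∃ f : L →ₗ[Λ] W, f ∘ₗ d = g)
    (g : E ⊗[k] N →ₗ[E ⊗[k] Λ] E ⊗[k] W) (hg : g ∘ₗ bc (1 : E) d' = 0) :
    ∃ f : E ⊗[k] L →ₗ[E ⊗[k] Λ] E ⊗[k] W, f ∘ₗ bc (1 : E) d = g := by
  let b := Module.Basis.ofVectorSpace k E
  obtain ⟨S, hS⟩ := exists_decomp b g
  have h1 : ∀ j, coef (b.coord j) g ∘ₗ d' = 0 := fun j => by
    ext z
    have := LinearMap.congr_fun hg ((1 : E) ⊗ₜ[k] z)
    simp only [LinearMap.comp_apply, bc_tmul, mul_one, LinearMap.zero_apply] at this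
    simp [coef_apply, this]
  choose f hf using fun j => h _ (h1 j)
  refine ⟨∑ j ∈ S, bc (b j) (f j), ?_⟩
  rw [hS]
  refine ext_tmul fun z => ?_
  simp [← hf]

lemma finite_projective [Module.Finite Λ M] [Module.Projective Λ M] :
    Module.Finite (E ⊗[k] Λ) (E ⊗[k] M) ∧ Module.Projective (E ⊗[k] Λ) (E ⊗[k] M) := by
  classical
  obtain ⟨n, s, i, -, -, hsi⟩ := Module.Finite.exists_comp_eq_id_of_projective Λ M
  let i' : E ⊗[k] M →ₗ[E ⊗[k] Λ] (Fin n → E ⊗[k] Λ) :=
    LinearMap.pi fun j => bc (1 : E) (LinearMap.proj j ∘ₗ i)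
  let s' : (Fin n → E ⊗[k] Λ) →ₗ[E ⊗[k] Λ] E ⊗[k] M :=
    Fintype.linearCombination (E ⊗[k] Λ) fun j => (1 : E) ⊗ₜ[k] s (Pi.single j 1)
  have h : s' ∘ₗ i' = LinearMap.id := by
    refine ext_tmul fun z => ?_
    simp only [s', i', LinearMap.comp_apply, Fintype.linearCombination_apply, LinearMap.pi_apply,
      bc_tmul, IsBC.smul_tmul, mul_one, LinearMap.id_apply, ← TensorProduct.tmul_sum,
      ← map_smul, ← map_sum, LinearMap.proj_apply]
    congr 1
    refine Eq.trans ?_ (LinearMap.congr_fun hsi z)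
    rw [LinearMap.comp_apply]
    congr 1
    ext j
    simp [Pi.single_apply]
  exact ⟨Module.Finite.of_surjective s' fun y => ⟨i' y, LinearMap.congr_fun h y⟩,
    Module.Projective.of_split i' s' h⟩

lemma projective_of_bc [Module.Projective Λ M] (π : M →ₗ[Λ] N) (hπ : Function.Surjective π)
    [Module.Projective (E ⊗[k] Λ) (E ⊗[k] N)] : Module.Projective Λ N := by
  obtain ⟨φ, hφ⟩ := Module.Projective.exists_dual_eq_one k (one_ne_zero (α := E))
  obtain ⟨s, hs⟩ := Module.projective_lifting_property (bc (k := k) (1 : E) π) LinearMap.id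
    (bc_surjective hπ)
  refine Module.Projective.of_split (coef φ s) π ?_
  ext z
  have := LinearMap.congr_fun hs ((1 : E) ⊗ₜ[k] z)
  simp only [LinearMap.comp_apply, LinearMap.id_apply] at this
  simp [coef_apply, ← ctr_bc, this, hφ]

/-! ### The Jacobson radical -/

/-- The image of `E ⊗ I` in `E ⊗ Λ`. -/
def ext (E : Type*) [Field E] [Algebra k E] (I : Ideal Λ) : AddSubmonoid (E ⊗[k] Λ) :=
  AddSubmonoid.closure {x | ∃ a : E, ∃ r ∈ I, x = a ⊗ₜ[k] r}

lemma ext_mul {I J : Ideal Λ} {x y : E ⊗[k] Λ} (hx : x ∈ ext (k := k) E I)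
    (hy : y ∈ ext (k := k) E J) : x * y ∈ ext (k := k) E (I * J) := by
  induction hx using AddSubmonoid.closure_induction with
  | zero => simp
  | add x x' _ _ h h' => rw [add_mul]; exact add_mem h h'
  | mem x hx =>
    obtain ⟨a, r, hr, rfl⟩ := hx
    induction hy using AddSubmonoid.closure_induction with
    | zero => simp
    | add y y' _ _ h h' => rw [mul_add]; exact add_mem h h'
    | mem y hy =>
      obtain ⟨b, s, hs, rfl⟩ := hy
      exact AddSubmonoid.subset_closure ⟨a * b, r * s, Ideal.mul_mem_mul hr hs, by simp⟩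

lemma ext_pow {I : Ideal Λ} {x : E ⊗[k] Λ} (hx : x ∈ ext (k := k) E I) (m : ℕ) :
    x ^ (m + 1) ∈ ext (k := k) E (I ^ (m + 1)) := by
  induction m with
  | zero => simpa [Submodule.pow_one] using hx
  | succ m ih =>
    rw [pow_succ, Submodule.pow_succ]
    exact ext_mul ih hx

lemma ext_bot {x : E ⊗[k] Λ} (hx : x ∈ ext (k := k) E (⊥ : Ideal Λ)) : x = 0 := by
  induction hx using AddSubmonoid.closure_induction with
  | zero => rfl
  | add x x' _ _ h h' => rw [h, h', add_zero]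
  | mem x hx =>
    obtain ⟨a, r, hr, rfl⟩ := hx
    rw [(Submodule.mem_bot _).mp hr, TensorProduct.tmul_zero]

lemma radical [FiniteDimensional k Λ] {n : ℕ} (e : (Λ ⧸ Ring.jacobson Λ) ≃ₐ[k] (Fin n → k)) :
    Nonempty (((E ⊗[k] Λ) ⧸ Ring.jacobson (E ⊗[k] Λ)) ≃ₐ[E] (Fin n → E)) ∧
      ∀ r ∈ Ring.jacobson Λ, (1 : E) ⊗ₜ[k] r ∈ Ring.jacobson (E ⊗[k] Λ) := by
  classical
  set J := Ring.jacobson Λ with hJ
  let φ : Λ →ₐ[k] (Fin n → k) := e.toAlgHom.comp (Ideal.Quotient.mkₐ k J)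
  have hφs : Function.Surjective φ := e.surjective.comp Ideal.Quotient.mk_surjective
  have hφk : ∀ r, φ r = 0 ↔ r ∈ J := fun r => by
    simp [φ, Ideal.Quotient.eq_zero_iff_mem]
  let ψ : E ⊗[k] Λ →ₐ[E] (Fin n → E) :=
    (Algebra.TensorProduct.piScalarRight k E E (Fin n)).toAlgHom.comp
      (Algebra.TensorProduct.map (AlgHom.id E E) φ)
  have hmap : ⇑(Algebra.TensorProduct.map (AlgHom.id E E) φ) =
      LinearMap.lTensor E φ.toLinearMap := by
    funext x
    induction x using TensorProduct.induction_on with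
    | zero => simp
    | add x x' h h' => simp only [map_add, h, h']
    | tmul b z => simp
  have hψs : Function.Surjective ψ := by
    have h := LinearMap.lTensor_surjective E (g := φ.toLinearMap) hφs
    rw [← hmap] at h
    exact (Algebra.TensorProduct.piScalarRight k E E (Fin n)).surjective.comp h
  have hex : Function.Exact (J.restrictScalars k).subtype φ.toLinearMap := fun r => by
    simp [hφk]
  have hker : ∀ x, ψ x = 0 → x ∈ ext (k := k) E J := by
    intro x hx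
    have h1 : LinearMap.lTensor E φ.toLinearMap x = 0 := by
      rw [← hmap]
      exact (Algebra.TensorProduct.piScalarRight k E E (Fin n)).injective (by simpa [ψ] using hx)
    obtain ⟨y, rfl⟩ := (Module.Flat.lTensor_exact E hex x).mp h1
    clear hx h1
    induction y using TensorProduct.induction_on with
    | zero => simp
    | add y y' h h' => rw [map_add]; exact add_mem h h'
    | tmul a r => exact AddSubmonoid.subset_closure ⟨a, r.1, r.2, rfl⟩
  have : IsArtinianRing Λ := IsArtinianRing.of_finite k Λ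
  obtain ⟨m, hm⟩ := IsArtinianRing.isNilpotent_jacobson_bot (R := Λ)
  rw [Ideal.jacobson_bot, ← hJ] at hm
  have hm' : J ^ (m + 1) = ⊥ := by
    rw [Submodule.pow_succ, hm]
    simp
  have h1 : RingHom.ker ψ ≤ Ring.jacobson (E ⊗[k] Λ) := by
    intro x hx
    rw [← Ideal.jacobson_bot, Ideal.mem_jacobson_iff]
    intro y
    have h2 : IsNilpotent (y * x) := by
      refine ⟨m + 1, ext_bot ?_⟩
      rw [← hm']
      exact ext_pow (hker _ (Ideal.mul_mem_left _ y hx)) m
    obtain ⟨v, hv⟩ := h2.isUnit_one_add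
    refine ⟨↑v⁻¹, ?_⟩
    have h3 := v.inv_mul
    rw [hv, mul_add, mul_one] at h3
    rw [Submodule.mem_bot, mul_assoc, add_comm, h3, sub_self]
  have h2 : Ring.jacobson (E ⊗[k] Λ) ≤ RingHom.ker ψ := by
    have : RingHomSurjective ψ.toRingHom := ⟨hψs⟩
    have h3 := Ring.le_comap_jacobson ψ.toRingHom
    rw [IsSemisimpleRing.jacobson_eq_bot (Fin n → E)] at h3
    exact h3
  refine ⟨⟨(Ideal.quotientEquivAlgOfEq E (le_antisymm h2 h1)).trans
    (Ideal.quotientKerAlgEquivOfSurjective hψs)⟩, fun r hr => h1 ?_⟩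
  simp [RingHom.mem_ker, ψ, (hφk r).mpr hr]

lemma pow_ne_bot {I : Ideal Λ} {I' : Ideal (E ⊗[k] Λ)} (h : ∀ r ∈ I, (1 : E) ⊗ₜ[k] r ∈ I')
    {m : ℕ} (hm : I ^ m ≠ ⊥) : I' ^ m ≠ ⊥ := by
  have key : ∀ m : ℕ, ∀ r ∈ I ^ m, (1 : E) ⊗ₜ[k] r ∈ I' ^ m := by
    intro m
    induction m with
    | zero => intro r _; simp [Submodule.pow_zero]
    | succ m ih =>
      intro r hr
      rw [Submodule.pow_succ] at hr ⊢
      refine Submodule.mul_induction_on hr (fun a ha b hb => ?_) fun x y hx hy => ?_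
      · simpa using Ideal.mul_mem_mul (ih a ha) (h b hb)
      · rw [TensorProduct.tmul_add]
        exact add_mem hx hy
  obtain ⟨r, hr, hr0⟩ := Submodule.exists_mem_ne_zero_of_ne_bot hm
  intro hb
  have h1 := key m r hr
  rw [hb, Submodule.mem_bot] at h1
  obtain ⟨φ, hφ⟩ := Module.Projective.exists_dual_eq_one k (one_ne_zero (α := E))
  have h2 := congrArg (ctr φ) h1
  simp [hφ, hr0] at h2

end BC

open BC in
theorem gorProj_baseChange {k : Type} [Field k] {Λ Z : Type} [Ring Λ] [Algebra k Λ]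
    [AddCommGroup Z] [Module Λ Z] [Module k Z] [IsScalarTower k Λ Z]
    (h : GorProjVanishingData k Λ Z) (E : Type u) [Field E] [Algebra k E] :
    ∃ (_ : Module (E ⊗[k] Λ) (E ⊗[k] Z)),
      (∀ (a b : E) (r : Λ) (z : Z), (a ⊗ₜ[k] r) • (b ⊗ₜ[k] z) = (a * b) ⊗ₜ[k] (r • z)) ∧
      GorProjVanishingData E (E ⊗[k] Λ) (E ⊗[k] Z) := by
  obtain ⟨hfd, ⟨e⟩, h4, hfin, hnp, ⟨P, _, _, d, hP, hex, hhom, ⟨eZ⟩⟩, hZZ, hZΛ⟩ := h
  let _ := bcModule k E Λ Z
  have := isBC_bcModule k E Λ Z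
  let _ : ∀ n, Module k (P n) := fun n => Module.compHom (P n) (algebraMap k Λ)
  have : ∀ n, IsScalarTower k Λ (P n) := fun n => IsScalarTower.of_compHom k Λ (P n)
  let _ : ∀ n, Module (E ⊗[k] Λ) (E ⊗[k] P n) := fun n => bcModule k E Λ (P n)
  have : ∀ n, IsBC k E Λ (P n) := fun n => isBC_bcModule k E Λ (P n)
  have : ∀ n, Module.Finite Λ (P n) := fun n => (hP n).1
  have : ∀ n, Module.Projective Λ (P n) := fun n => (hP n).2
  have hP' : ∀ n, Module.Finite (E ⊗[k] Λ) (E ⊗[k] P n) ∧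
      Module.Projective (E ⊗[k] Λ) (E ⊗[k] P n) := fun n => finite_projective
  have : ∀ n, Module.Finite (E ⊗[k] Λ) (E ⊗[k] P n) := fun n => (hP' n).1
  have : ∀ n, Module.Projective (E ⊗[k] Λ) (E ⊗[k] P n) := fun n => (hP' n).2
  let π : P 0 →ₗ[Λ] Z := eZ.symm.toLinearMap ∘ₗ (LinearMap.range (d 0)).mkQ
  have hπ : Function.Surjective π := eZ.symm.surjective.comp (Submodule.mkQ_surjective _)
  have hπ0 : Function.Exact (d 0) π := fun x => by simp [π]
  have hπ' := bc_surjective (k := k) (E := E) hπ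
  have hπ0' := bc_exact (k := k) (E := E) hπ0
  obtain ⟨hq, hJ⟩ := radical (E := E) e
  have hext : ∀ (W : Type) [AddCommGroup W] [Module k W] [Module Λ W] [IsScalarTower k Λ W]
      [Module (E ⊗[k] Λ) (E ⊗[k] W)] [IsBC k E Λ W],
      (∀ i : ℕ, 0 < i → Subsingleton (Abelian.Ext (ModuleCat.of Λ Z) (ModuleCat.of Λ W) i)) →
      ∀ i : ℕ, 0 < i → Subsingleton (Abelian.Ext (ModuleCat.of (E ⊗[k] Λ) (E ⊗[k] Z))
        (ModuleCat.of (E ⊗[k] Λ) (E ⊗[k] W)) i) := by
    intro W _ _ _ _ _ _ hW i hi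
    obtain ⟨i, rfl⟩ := Nat.exists_eq_succ_of_ne_zero hi.ne'
    have h1 := (ext_subsingleton_iff (fun n : ℕ => P n) (fun n => d n) π hπ hπ0
      (fun n => hex n) W i).mp (hW _ hi)
    exact (ext_subsingleton_iff (fun n : ℕ => E ⊗[k] P n) (fun n => bc (1 : E) (d n))
      (bc (1 : E) π) hπ' hπ0' (fun n => bc_exact (hex n)) (E ⊗[k] W) i).mpr
      (hom_exact (d (i + 1)) (d i) h1)
  refine ⟨inferInstance, IsBC.smul_tmul, inferInstance, hq, pow_ne_bot hJ h4,
    Module.Finite.of_surjective _ hπ', fun hp => hnp (projective_of_bc (k := k) (E := E) π hπ),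
    ⟨fun n => E ⊗[k] P n, inferInstance, inferInstance, fun n => bc (1 : E) (d n), hP',
      fun n => bc_exact (hex n), fun n g => ⟨fun hg => ?_, ?_⟩,
      ⟨(hπ0'.linearEquivOfSurjective hπ').symm⟩⟩, hext Z hZZ, hext Λ hZΛ⟩
  · exact hom_exact (d (n + 1)) (d n) (fun g hg => (hhom n g).mp hg) g hg
  · rintro ⟨f, rfl⟩
    ext x
    simp [(bc_exact (k := k) (E := E) (hex n)).apply_apply_eq_zero]

end Crest.Agent.R186
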