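import Crest.Agent.R186.Cores2

/-! Consequences of a symmetric Tachikawa counterexample (Mueller correspondence). -/

set_option autoImplicit false

open CategoryTheory CategoryTheory.Abelian Crest.AlgebraR MulOpposite

universe u

namespace Crest.Agent.R186

section Hom

variable (T : Type u) [Ring T] (G : Type u) [AddCommGroup G] [Module T G]

/-- The opposite endomorphism ring. -/
abbrev Gam : Type u := (Module.End T G)ᵐᵒᵖ

/-- `Hom_T(G, X)` as a left module over the opposite endomorphism ring of `G`. -/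
def FH (X : Type u) [AddCommGroup X] [Module T X] : Type u := G →ₗ[T] X

variable {T G}
variable {X : Type u} [AddCommGroup X] [Module T X] {Y : Type u} [AddCommGroup Y] [Module T Y]

instance : AddCommGroup (FH T G X) := inferInstanceAs (AddCommGroup (G →ₗ[T] X))

/-- The underlying linear map. -/
def FH.val (f : FH T G X) : G →ₗ[T] X := f

/-- The element given by a linear map. -/
def FH.mk (f : G →ₗ[T] X) : FH T G X := f

@[simp] lemma FH.val_mk (f : G →ₗ[T] X) : (FH.mk f).val = f := rfl
@[simp] lemma FH.val_add (f g : FH T G X) : (f + g).val = f.val + g.val := rfl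
@[simp] lemma FH.val_zero : (0 : FH T G X).val = 0 := rfl

@[ext] lemma FH.ext {f g : FH T G X} (h : ∀ x, f.val x = g.val x) : f = g := LinearMap.ext h

instance : SMul (Gam T G) (FH T G X) := ⟨fun γ f => FH.mk (f.val ∘ₗ γ.unop)⟩

@[simp] lemma FH.val_smul (γ : Gam T G) (f : FH T G X) : (γ • f).val = f.val ∘ₗ γ.unop := rfl

instance : Module (Gam T G) (FH T G X) where
  one_smul f := by ext; simp
  mul_smul a b f := by ext; simp
  smul_zero a := by ext; simp
  smul_add a f g := by ext; simp
  add_smul a b f := by ext; simp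
  zero_smul f := by ext; simp

variable (G) in
/-- The functor `Hom_T(G, -)` on maps. -/
def FH.map (f : X →ₗ[T] Y) : FH T G X →ₗ[Gam T G] FH T G Y where
  toFun g := FH.mk (f ∘ₗ g.val)
  map_add' a b := by ext; simp
  map_smul' a b := by ext; simp

@[simp] lemma FH.val_map (f : X →ₗ[T] Y) (g : FH T G X) : (FH.map G f g).val = f ∘ₗ g.val := rfl

variable (G) in
/-- `Γ ≅ Hom(G, G)`, composed with a map out of `G`. -/
def FH.ofGam (f : G →ₗ[T] X) : Gam T G →ₗ[Gam T G] FH T G X where
  toFun γ := FH.mk (f ∘ₗ γ.unop)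
  map_add' a b := by ext; simp
  map_smul' a b := by ext; simp

@[simp] lemma FH.val_ofGam (f : G →ₗ[T] X) (γ : Gam T G) :
    (FH.ofGam G f γ).val = f ∘ₗ γ.unop := rfl

/-- The coresolution of `Γ` obtained from a coresolution of `G`. -/
def Cores.toGam (C : Cores T G) (hC : C.Lifts G) : Cores (Gam T G) (Gam T G) where
  I j := FH T G (C.I j)
  ε := FH.ofGam G C.ε
  d j := FH.map G (C.d j)
  inj := by
    intro a b h
    apply unop_injective
    ext x
    exact C.inj (LinearMap.congr_fun (congrArg FH.val h) x)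
  ex0 := by
    intro f
    constructor
    · intro hf
      have hf' : ∀ x, f.val x ∈ LinearMap.ker (C.d 0) := fun x =>
        LinearMap.congr_fun (congrArg FH.val hf) x
      refine ⟨op (C.equiv0.symm.toLinearMap ∘ₗ f.val.codRestrict _ hf'), FH.ext fun x => ?_⟩
      exact congrArg Subtype.val (C.equiv0.apply_symm_apply ⟨f.val x, hf' x⟩)
    · rintro ⟨γ, rfl⟩
      exact FH.ext fun x => C.ex0.apply_apply_eq_zero _
  ex j := by
    intro f
    constructor
    · intro hf
      obtain ⟨g, hg⟩ := hC j f.val (congrArg FH.val hf)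
      exact ⟨FH.mk g, hg⟩
    · rintro ⟨g, rfl⟩
      exact FH.ext fun x => (C.ex j).apply_apply_eq_zero _

lemma FH.inAdd [Module.Finite T X] [Module.Projective T X] :
    InAdd (Gam T G) (FH T G T) (FH T G X) := by
  obtain ⟨n, f, g, -, -, h⟩ := Module.Finite.exists_comp_eq_id_of_projective T X
  let s : (Fin n → FH T G T) →ₗ[Gam T G] FH T G X :=
    { toFun := fun w => FH.mk (f ∘ₗ LinearMap.pi fun k => (w k).val)
      map_add' := fun a b => FH.ext fun x => by
        simp only [FH.val_mk, LinearMap.comp_apply, FH.val_add, LinearMap.add_apply, ← map_add]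
        rfl
      map_smul' := fun a b => FH.ext fun x => rfl }
  refine inAdd_of_retract (LinearMap.pi fun k => FH.map G (LinearMap.proj k ∘ₗ g)) s ?_
  exact LinearMap.ext fun w => FH.ext fun x => LinearMap.congr_fun h (w.val x)

variable (π : G →ₗ[T] T) (g₀ : G) (hπ : π g₀ = 1)

include hπ

lemma FH.retract : ∃ (i : FH T G T →ₗ[Gam T G] Gam T G) (s : Gam T G →ₗ[Gam T G] FH T G T),
    s ∘ₗ i = LinearMap.id := by
  refine ⟨{ toFun := fun f => op (f.val.smulRight g₀)
            map_add' := fun a b => ?_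
            map_smul' := fun a b => ?_ }, FH.ofGam G π, ?_⟩
  · rw [← MulOpposite.op_add]
    congr 1
    ext x
    simp [add_smul]
  · apply unop_injective
    ext x
    simp
  · exact LinearMap.ext fun f => FH.ext fun x => by simp [hπ]

lemma FH.projective : Module.Projective (Gam T G) (FH T G T) := by
  obtain ⟨i, s, h⟩ := FH.retract π g₀ hπ
  exact Module.Projective.of_split i s h

lemma FH.finite : Module.Finite (Gam T G) (FH T G T) := by
  obtain ⟨i, s, h⟩ := FH.retract π g₀ hπ
  exact Module.Finite.of_surjective s fun x => ⟨i x, LinearMap.congr_fun h x⟩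

lemma FH.eval (f : FH T G X) (x : G) : ((op (π.smulRight x) : Gam T G) • f).val g₀ = f.val x := by
  simp [hπ]

lemma projective_of_gam_injective (ε : G →ₗ[T] X) (hε : Function.Injective ε)
    [Module.Projective T X] (h : Module.Injective (Gam T G) (Gam T G)) :
    Module.Projective T G := by
  obtain ⟨ρ, hρ⟩ := h.out (FH.ofGam G ε) (by
    intro a b h
    apply unop_injective
    ext x
    exact hε (LinearMap.congr_fun (congrArg FH.val h) x)) LinearMap.id
  let r : X →ₗ[T] G :=
    { toFun := fun p => (ρ (FH.mk (π.smulRight p))).unop g₀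
      map_add' := fun a b => by
        have : FH.mk (π.smulRight (a + b)) = FH.mk (π.smulRight a) + FH.mk (π.smulRight b) := by
          ext x; simp
        rw [this, map_add]
        rfl
      map_smul' := fun t p => by
        have : FH.mk (π.smulRight (t • p)) =
            (op (π.smulRight (t • g₀)) : Gam T G) • FH.mk (π.smulRight p) := by
          ext x; simp [hπ, mul_smul]
        rw [this, map_smul]
        simp [hπ] }
  refine Module.Projective.of_split ε r (LinearMap.ext fun x => ?_)
  have : FH.mk (π.smulRight (ε x)) = FH.ofGam G ε (op (π.smulRight x)) := by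
    ext y; simp
  change (ρ (FH.mk (π.smulRight (ε x)))).unop g₀ = x
  rw [this, hρ]
  simp [hπ]

omit hπ in
variable (T G) in
/-- The left ideal of endomorphisms that factor through a projective module. -/
def projIdeal : Ideal (Gam T G) where
  carrier := {γ | ∃ (Q : Type u) (_ : AddCommGroup Q) (_ : Module T Q) (_ : Module.Projective T Q)
    (a : G →ₗ[T] Q) (b : Q →ₗ[T] G), γ.unop = b ∘ₗ a}
  add_mem' := by
    rintro γ γ' ⟨Q, _, _, _, a, b, h⟩ ⟨Q', _, _, _, a', b', h'⟩
    exact ⟨Q × Q', inferInstance, inferInstance, inferInstance, a.prod a', b.coprod b', by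
      rw [MulOpposite.unop_add, h, h', LinearMap.coprod_comp_prod]⟩
  zero_mem' := ⟨T, inferInstance, inferInstance, inferInstance, 0, 0, by simp⟩
  smul_mem' := by
    rintro c γ ⟨Q, _, _, _, a, b, h⟩
    exact ⟨Q, inferInstance, inferInstance, inferInstance, a ∘ₗ c.unop, b, by
      rw [smul_eq_mul, unop_mul, h]; rfl⟩

lemma exists_simple (hG : ¬ Module.Projective T G) :
    ∃ S : ModuleCat.{u} (Gam T G), IsSimpleModule (Gam T G) S ∧
      ∀ (X : Type u) [AddCommGroup X] [Module T X] (f : S →ₗ[Gam T G] FH T G X), f = 0 := by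
  have hJ : projIdeal T G ≠ ⊤ := by
    intro h
    have : (1 : Gam T G) ∈ projIdeal T G := h ▸ Submodule.mem_top
    obtain ⟨Q, _, _, _, a, b, h⟩ := this
    exact hG (Module.Projective.of_split a b h.symm)
  obtain ⟨m, hm, hJm⟩ := Ideal.exists_le_maximal _ hJ
  refine ⟨ModuleCat.of _ (Gam T G ⧸ m), isSimpleModule_iff_isCoatom.2 hm.out, ?_⟩
  intro X _ _ f
  have h1 : f (Submodule.Quotient.mk 1) = 0 := by
    refine FH.ext fun x => ?_
    rw [← FH.eval π g₀ hπ, ← map_smul, ← Submodule.Quotient.mk_smul, smul_eq_mul, mul_one,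
      (Submodule.Quotient.mk_eq_zero m).2, map_zero]
    · rfl
    · exact hJm ⟨T, inferInstance, inferInstance, inferInstance, π,
        LinearMap.toSpanSingleton T G x, by ext; simp⟩
  refine LinearMap.ext fun y => ?_
  obtain ⟨γ, rfl⟩ := Submodule.Quotient.mk_surjective m y
  have : (Submodule.Quotient.mk γ : Gam T G ⧸ m) = γ • Submodule.Quotient.mk 1 := by
    rw [← Submodule.Quotient.mk_smul, smul_eq_mul, mul_one]
  rw [this, map_smul, h1, smul_zero]
  rfl

end Hom

section Inj

variable {K : Type u} [Field K] {T : Type u} [Ring T] [Algebra K T]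
  {G : Type u} [AddCommGroup G] [Module T G] [Module K G] [IsScalarTower K T G]

lemma FH.injective (φ : T ≃ₗ[K] Module.Dual K T)
    (hφ : ∀ a x b y : T, φ (a * x * b) y = φ x (b * y * a))
    (π : G →ₗ[T] T) (g₀ : G) (hπ : π g₀ = 1) : Module.Injective (Gam T G) (FH T G T) where
  out A B _ _ _ _ f hf g := by
    let _ : Module K A := Module.compHom A (algebraMap K (Gam T G))
    let _ : Module K B := Module.compHom B (algebraMap K (Gam T G))
    have : IsScalarTower K (Gam T G) A := IsScalarTower.of_algebraMap_smul fun _ _ => rfl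
    have : IsScalarTower K (Gam T G) B := IsScalarTower.of_algebraMap_smul fun _ _ => rfl
    obtain ⟨l, hl⟩ := (f.restrictScalars K).exists_leftInverse_of_injective
      (LinearMap.ker_eq_bot.2 hf)
    have hl' : ∀ a, l (f a) = a := fun a => LinearMap.congr_fun hl a
    let ψ : A →ₗ[K] K :=
      { toFun := fun a => φ ((g a).val g₀) 1
        map_add' := fun a b => by simp
        map_smul' := fun c a => by
          rw [← algebraMap_smul (Gam T G) c a, map_smul]
          simp [MulOpposite.algebraMap_apply, Module.algebraMap_end_apply] }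
    have hψ : ∀ a, ψ a = φ ((g a).val g₀) 1 := fun _ => rfl
    have hradd : ∀ x y : G, (op (π.smulRight (x + y)) : Gam T G) =
        op (π.smulRight x) + op (π.smulRight y) := fun x y => by
      rw [← MulOpposite.op_add]; congr 1; ext z; simp
    have hrsmul : ∀ (c : K) (x : G), (op (π.smulRight (c • x)) : Gam T G) =
        c • op (π.smulRight x) := fun c x => by
      rw [← op_smul]; congr 1; ext z; simp [smul_comm c]
    have hex : ∀ b : B, ∃ F : G →ₗ[T] T, ∀ x,
        φ (F x) 1 = ψ (l ((op (π.smulRight x) : Gam T G) • b)) := fun b =>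
      frob_exists φ hφ
        { toFun := fun x => ψ (l ((op (π.smulRight x) : Gam T G) • b))
          map_add' := fun x y => by rw [hradd, add_smul, map_add, map_add]
          map_smul' := fun c x => by rw [hrsmul, smul_assoc, map_smul, map_smul]; rfl }
    choose F hF using hex
    refine ⟨{ toFun := fun b => FH.mk (F b)
              map_add' := fun a b => ?_
              map_smul' := fun γ b => ?_ }, fun a => ?_⟩
    · refine frob_ext φ hφ _ _ fun x => ?_
      change φ (F (a + b) x) 1 = φ (F a x + F b x) 1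
      rw [map_add, LinearMap.add_apply, hF, hF, hF, smul_add, map_add, map_add]
    · refine frob_ext φ hφ _ _ fun x => ?_
      change φ (F (γ • b) x) 1 = φ (F b (γ.unop x)) 1
      rw [hF, hF, ← mul_smul]
      congr 3
      apply unop_injective
      ext z
      simp
    · refine frob_ext φ hφ _ _ fun x => ?_
      change φ (F (f a) x) 1 = φ ((g a).val x) 1
      rw [hF, ← map_smul, hl', hψ, map_smul, FH.eval π g₀ hπ]

lemma gam_finiteDimensional [FiniteDimensional K T] [Module.Finite T G] :
    FiniteDimensional K (Gam T G) := by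
  have : Module.Finite K G := Module.Finite.trans T G
  have : FiniteDimensional K (Module.End T G) :=
    FiniteDimensional.of_injective (LinearMap.restrictScalarsₗ K T G G K)
      (LinearMap.restrictScalars_injective K)
  infer_instance

end Inj

/-- The core data extracted from a symmetric Tachikawa counterexample. -/
theorem exists_core (K : Type u) [Field K] (T : Type u) [Ring T] [Algebra K T]
    (hs : IsSymmetricAlgebra K T) (M : Type u) [AddCommGroup M] [Module T M]
    (h : GorProjVanishingData K T M) :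
    ∃ (Γ : Type u) (_ : Ring Γ) (_ : Algebra K Γ), FiniteDimensional K Γ ∧
      ∃ (W : Type u) (_ : AddCommGroup W) (_ : Module Γ W), Module.Finite Γ W ∧
        Module.Projective Γ W ∧ Module.Injective Γ W ∧ ¬ Module.Injective Γ Γ ∧
        ∃ C : Cores Γ Γ, (∀ j, InAdd Γ W (C.I j)) ∧
          ∃ S : ModuleCat.{u} Γ, IsSimpleModule Γ S ∧ ∀ j (f : S →ₗ[Γ] C.I j), f = 0 := by
  obtain ⟨φ, hφ⟩ := hs
  obtain ⟨hfd, -, -, hfin, hnp, hgp, hMM, -⟩ := h
  obtain ⟨D, hD⟩ := exists_cores_of_gp hgp
  have hTinj : Module.Injective T T := frob_injective φ hφ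
  have hDinj : ∀ j, Module.Injective T (D.I j) := fun j =>
    have := (hD j).1
    have := (hD j).2
    injective_of_inAdd hTinj inAdd_of_finite_projective
  let C : Cores T (T × M) := (Cores.triv T T).prod D
  have hDM : D.Lifts M := fun j f hf => D.lift hDinj M hMM j f hf
  have hC : C.Lifts (T × M) :=
    Cores.Lifts.prod_left (C.lifts_of_projective T) ((Cores.triv_lifts M).prod hDM)
  have hCf : ∀ j, Module.Finite T (C.I j) := fun j =>
    have := (hD j).1
    inferInstanceAs (Module.Finite T ((T × T) × D.I j))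
  have hCp : ∀ j, Module.Projective T (C.I j) := fun j =>
    have := (hD j).2
    inferInstanceAs (Module.Projective T ((T × T) × D.I j))
  have hG : ¬ Module.Projective T (T × M) := fun hp =>
    hnp (Module.Projective.of_split (LinearMap.inr T T M) (LinearMap.snd T T M) (by ext; simp))
  let _ : Module K M := Module.compHom M (algebraMap K T)
  have : IsScalarTower K T M := IsScalarTower.of_algebraMap_smul fun _ _ => rfl
  have hπ : LinearMap.fst T T M (1, 0) = 1 := rfl
  obtain ⟨S, hS, hS'⟩ := exists_simple _ _ hπ hG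
  refine ⟨Gam T (T × M), inferInstance, inferInstance, gam_finiteDimensional, FH T (T × M) T,
    inferInstance, inferInstance, FH.finite _ _ hπ, FH.projective _ _ hπ,
    FH.injective φ hφ _ _ hπ, fun hinj => ?_, C.toGam hC, fun j => ?_, S, hS, fun j f => hS' _ f⟩
  · have := hCp 0
    exact hG (projective_of_gam_injective _ _ hπ C.ε C.inj hinj)
  · have := hCf j
    have := hCp j
    exact FH.inAdd

theorem conseq282 (K : Type u) [Field K] (T : Type u) [Ring T] [Algebra K T]
    (hs : IsSymmetricAlgebra K T) (M : Type u) [AddCommGroup M] [Module T M]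
    (h : GorProjVanishingData K T M) :
    ∃ (Γ : Type u) (_ : Ring Γ) (_ : Algebra K Γ), FiniteDimensional K Γ ∧
      ∃ S : ModuleCat.{u} Γ, IsSimpleModule Γ S ∧
        ∀ i : ℕ, Subsingleton (Abelian.Ext S (ModuleCat.of Γ Γ) i) := by
  obtain ⟨Γ, _, _, hfd, W, _, _, hf, hp, hi, hni, C, hC, S, hS, hS'⟩ := exists_core K T hs M h
  exact ⟨Γ, _, _, hfd, S, hS,
    C.ext_subsingleton_of_hom (fun j => injective_of_inAdd hi (hC j)) S hS'⟩

theorem conseq283 (K : Type u) [Field K] (T : Type u) [Ring T] [Algebra K T]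
    (hs : IsSymmetricAlgebra K T) (M : Type u) [AddCommGroup M] [Module T M]
    (h : GorProjVanishingData K T M) :
    ∃ (Γ : Type u) (_ : Ring Γ) (_ : Algebra K Γ), FiniteDimensional K Γ ∧
      ∀ n : ℕ, 1 ≤ n → ∃ C : ModuleCat.{u} Γ, Module.Finite Γ C ∧
        projectiveDimension C = (n : WithBot ℕ∞) := by
  obtain ⟨Γ, _, _, hfd, W, _, _, hf, hp, hi, hni, C, hC, -⟩ := exists_core K T hs M h
  exact ⟨Γ, _, _, hfd, fun n hn => ⟨ModuleCat.of Γ (C.Z n),
    C.finite_Z (fun j => finite_of_inAdd hf (hC j)) n hn,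
    C.projectiveDimension_Z (fun j => injective_of_inAdd hi (hC j))
      (fun j => projective_of_inAdd hp (hC j)) hni inferInstance n hn⟩⟩

theorem conseq284 (K : Type u) [Field K] (T : Type u) [Ring T] [Algebra K T]
    (hs : IsSymmetricAlgebra K T) (M : Type u) [AddCommGroup M] [Module T M]
    (h : GorProjVanishingData K T M) :
    ∃ (Γ : Type u) (_ : Ring Γ) (_ : Algebra K Γ), FiniteDimensional K Γ ∧
      (∃ (I : ℕ → ModuleCat.{u} Γ) (ε : Γ →ₗ[Γ] I 0) (d : ∀ j : ℕ, I j →ₗ[Γ] I (j + 1)),
        Function.Injective ε ∧ Function.Exact ε (d 0) ∧ (∀ j, Function.Exact (d j) (d (j + 1))) ∧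
        ∀ j, Module.Projective Γ (I j) ∧ Module.Injective Γ (I j)) ∧
      ∀ n : ℕ, ¬ HasInjectiveDimensionLT (ModuleCat.of Γ Γ) n := by
  obtain ⟨Γ, _, _, hfd, W, _, _, hf, hp, hi, hni, C, hC, -⟩ := exists_core K T hs M h
  exact ⟨Γ, _, _, hfd, ⟨fun j => ModuleCat.of Γ (C.I j), C.ε, C.d, C.inj, C.ex0, C.ex,
    fun j => ⟨projective_of_inAdd hp (hC j), injective_of_inAdd hi (hC j)⟩⟩,
    C.not_hasInjectiveDimensionLT (fun j => injective_of_inAdd hi (hC j))
      (fun j => projective_of_inAdd hp (hC j)) hni⟩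

lemma hom_exact_of_injective {R : Type u} [Ring R] {W A B D : Type u} [AddCommGroup W] [Module R W]
    [AddCommGroup A] [Module R A] [AddCommGroup B] [Module R B] [AddCommGroup D] [Module R D]
    (hW : Module.Injective R W) (f : A →ₗ[R] B) (g : B →ₗ[R] D) (h : Function.Exact f g) :
    Function.Exact (fun φ : D →ₗ[R] W => φ ∘ₗ g) (fun φ : B →ₗ[R] W => φ ∘ₗ f) := by
  intro φ
  constructor
  · intro hφ
    have hker : LinearMap.ker g ≤ LinearMap.ker φ := by
      intro x hx
      obtain ⟨y, rfl⟩ := (h x).1 hx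
      exact LinearMap.congr_fun hφ y
    obtain ⟨l, hl⟩ := hW.out ((LinearMap.ker g).liftQ g le_rfl)
      (LinearMap.ker_eq_bot.1 (Submodule.ker_liftQ_eq_bot _ _ _ le_rfl))
      ((LinearMap.ker g).liftQ φ hker)
    exact ⟨l, LinearMap.ext fun x => hl (Submodule.Quotient.mk x)⟩
  · rintro ⟨ψ, rfl⟩
    exact LinearMap.ext fun x => by simp [h.apply_apply_eq_zero]

theorem conseq285 (K : Type u) [Field K] (T : Type u) [Ring T] [Algebra K T]
    (hs : IsSymmetricAlgebra K T) (M : Type u) [AddCommGroup M] [Module T M]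
    (h : GorProjVanishingData K T M) :
    ∃ (Γ : Type u) (_ : Ring Γ) (_ : Algebra K Γ), FiniteDimensional K Γ ∧
      ∃ (W : Type u) (_ : AddCommGroup W) (_ : Module Γ W), Module.Finite Γ W ∧
        Module.Projective Γ W ∧ Module.Injective Γ W ∧
        IsWakamatsuTilting Γ W ∧ ¬ IsTilting Γ W := by
  obtain ⟨Γ, _, _, hfd, W, _, _, hf, hp, hi, hni, C, hC, -⟩ := exists_core K T hs M h
  refine ⟨Γ, _, _, hfd, W, _, _, hf, hp, hi, ⟨fun i hi0 => ?_, C.I, _, _, C.ε, C.d,
    ⟨hC, C.inj, C.ex0, C.ex⟩, fun f => ?_, hom_exact_of_injective hi _ _ C.ex0,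
    fun j => hom_exact_of_injective hi _ _ (C.ex j)⟩, ?_⟩
  · have : Injective (ModuleCat.of Γ W) := Module.injective_object_of_injective_module Γ W
    obtain ⟨k, rfl⟩ : ∃ k, i = k + 1 := ⟨i - 1, by omega⟩
    exact subsingleton_of_forall_eq 0 fun x => Ext.eq_zero_of_injective x
  · obtain ⟨l, hl⟩ := hi.out C.ε C.inj f
    exact ⟨l, LinearMap.ext hl⟩
  · rintro ⟨-, -, I, _, _, ε, d, r, ⟨h1, h2, h3, h4⟩, hr⟩
    let D : Cores Γ Γ := ⟨I, ε, d, h2, h3, h4⟩
    exact hni (D.injective_of_finite (fun j => injective_of_inAdd hi (h1 j))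
      (fun j => projective_of_inAdd hp (h1 j)) (r + 1) (hr _ (by omega)))

end Crest.Agent.R186
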