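import Crest.Agent.R186.Kos

/-!
The cohomology of the tensor square in coordinates.
-/

set_option autoImplicit false

noncomputable section

namespace Crest.Agent.R186

open TensorProduct

universe u

variable {k : Type u} [Field k] [CharP k 2]

/-- the degrees of the coordinates -/
def dT : (ℕ × ℕ) ⊕ (ℕ × ℕ) → ℤ
  | .inl x => 3 * (x.1 + x.2)
  | .inr x => -1 - 3 * (x.1 + x.2)

/-- cohomology with two operators in coordinates -/
structure Coord {U : Type*} [AddCommGroup U] [Module k U] (R : Cx k U) (t₁ t₂ : U →ₗ[k] U)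
    (ev : U →ₗ[k] (ℕ × ℕ) ⊕ (ℕ × ℕ) → k) : Prop where
  inj : ∀ n a, R.Z n a → ev a = 0 → R.B a
  evB : ∀ a, R.B a → ev a = 0
  surj : ∀ n (φ : (ℕ × ℕ) ⊕ (ℕ × ℕ) → k), (∀ x, φ x ≠ 0 → dT x = n) → ∃ a, R.Z n a ∧ ev a = φ
  deg : ∀ n a x, R.Z n a → ev a x ≠ 0 → dT x = n
  Z₁ : ∀ n a, R.Z n a → R.Z (n + 3) (t₁ a)
  Z₂ : ∀ n a, R.Z n a → R.Z (n + 3) (t₂ a)
  pos₁ : ∀ m b, ∃ α ≠ 0, ∀ a, ev (t₁ a) (.inl (m + 1, b)) = α * ev a (.inl (m, b))
  zero₁ : ∀ b a, ev (t₁ a) (.inl (0, b)) = 0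
  neg₁ : ∀ m b, ∃ α ≠ 0, ∀ a, ev (t₁ a) (.inr (m, b)) = α * ev a (.inr (m + 1, b))
  pos₂ : ∀ b m, ∃ α ≠ 0, ∀ a, ev (t₂ a) (.inl (b, m + 1)) = α * ev a (.inl (b, m))
  zero₂ : ∀ b a, ev (t₂ a) (.inl (b, 0)) = 0
  neg₂ : ∀ b m, ∃ α ≠ 0, ∀ a, ev (t₂ a) (.inr (b, m)) = α * ev a (.inr (b, m + 1))

namespace Coord

variable {U : Type*} [AddCommGroup U] [Module k U] {R : Cx k U} {t₁ t₂ : U →ₗ[k] U}
  {ev : U →ₗ[k] (ℕ × ℕ) ⊕ (ℕ × ℕ) → k} (h : Coord R t₁ t₂ ev)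
include h

omit [CharP k 2] in
theorem K0 {n : ℤ} (hn : n ≠ -1) {a : U} (ha : R.Z n a) (h₁ : R.B (t₁ a)) (h₂ : R.B (t₂ a)) :
    R.B a := by
  refine h.inj n a ha (funext fun x => ?_)
  have e₁ := h.evB _ h₁
  have e₂ := h.evB _ h₂
  rcases x with ⟨m, b⟩ | ⟨_ | m, _ | b⟩
  · obtain ⟨α, hα, e⟩ := h.pos₁ m b
    simpa [e₁, hα] using e a
  · by_contra h0
    exact hn (h.deg n a _ ha h0).symm
  · obtain ⟨α, hα, e⟩ := h.neg₂ 0 b
    simpa [e₂, hα] using e a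
  · obtain ⟨α, hα, e⟩ := h.neg₁ m 0
    simpa [e₁, hα] using e a
  · obtain ⟨α, hα, e⟩ := h.neg₁ m (b + 1)
    simpa [e₁, hα] using e a

theorem K1 (n : ℤ) (b b' : U) (hb : R.Z (n + 3) b) (_ : R.Z (n + 3) b')
    (hB : R.B (t₁ b + t₂ b')) : ∃ e, R.Z n e ∧ R.B (b + t₂ e) := by
  choose α hα eα using h.pos₂
  choose β hβ eβ using h.neg₂
  obtain ⟨e, he, he'⟩ := h.surj n (fun x => match x with
    | .inl (i, j) => ev b (.inl (i, j + 1)) / α i j
    | .inr (_, 0) => 0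
    | .inr (i, j + 1) => ev b (.inr (i, j)) / β i j) (fun x hx => by
      rcases x with ⟨i, j⟩ | ⟨i, _ | j⟩
      · have := h.deg _ _ _ hb (div_ne_zero_iff.1 hx).1
        simp only [dT] at this ⊢
        omega
      · exact absurd rfl hx
      · have := h.deg _ _ _ hb (div_ne_zero_iff.1 hx).1
        simp only [dT] at this ⊢
        omega)
  refine ⟨e, he, h.inj _ _ (hb.add (h.Z₂ _ _ he)) (funext fun x => ?_)⟩
  rw [map_add, Pi.add_apply, Pi.zero_apply, add_eq_zero_iff k]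
  rcases x with ⟨i, _ | j⟩ | ⟨i, j⟩
  · obtain ⟨γ, hγ, eγ⟩ := h.pos₁ i 0
    have := congrFun (h.evB _ hB) (.inl (i + 1, 0))
    rw [map_add, Pi.add_apply, h.zero₂, eγ] at this
    simpa [h.zero₂, hγ] using this
  · rw [eα, he', mul_div_cancel₀ _ (hα _ _)]
  · rw [eβ, he', mul_div_cancel₀ _ (hβ _ _)]

theorem K1' (n : ℤ) (a : U) (ha : R.Z (n + 3) a) (hB : R.B (t₂ a)) :
    ∃ e, R.Z n e ∧ R.B (t₂ e) ∧ R.B (a + t₁ e) := by
  choose β hβ eβ using h.neg₁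
  have e₂ := h.evB _ hB
  obtain ⟨e, he, he'⟩ := h.surj n (fun x => match x with
    | .inl _ => 0
    | .inr (0, _) => 0
    | .inr (i + 1, j) => ev a (.inr (i, j)) / β i j) (fun x hx => by
      rcases x with ⟨i, j⟩ | ⟨_ | i, j⟩
      · exact absurd rfl hx
      · exact absurd rfl hx
      · have := h.deg _ _ _ ha (div_ne_zero_iff.1 hx).1
        simp only [dT] at this ⊢
        omega)
  refine ⟨e, he, h.inj _ _ (h.Z₂ _ _ he) (funext fun x => ?_),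
    h.inj _ _ (ha.add (h.Z₁ _ _ he)) (funext fun x => ?_)⟩
  · rcases x with ⟨i, _ | j⟩ | ⟨_ | i, j⟩
    · exact h.zero₂ _ _
    · obtain ⟨γ, -, eγ⟩ := h.pos₂ i j
      simp [eγ, he']
    · obtain ⟨γ, -, eγ⟩ := h.neg₂ 0 j
      simp [eγ, he']
    · obtain ⟨γ, -, eγ⟩ := h.neg₂ (i + 1) j
      obtain ⟨γ', hγ', eγ'⟩ := h.neg₂ i j
      have : ev a (.inr (i, j + 1)) = 0 := by simpa [e₂, hγ'] using eγ' a
      simp [eγ, he', this]
  · rw [map_add, Pi.add_apply, Pi.zero_apply, add_eq_zero_iff k]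
    rcases x with ⟨i, j⟩ | ⟨i, j⟩
    · obtain ⟨γ, hγ, eγ⟩ := h.pos₂ i j
      have : ev a (.inl (i, j)) = 0 := by simpa [e₂, hγ] using eγ a
      rw [this]
      rcases i with _ | i
      · rw [h.zero₁]
      · obtain ⟨γ', -, eγ'⟩ := h.pos₁ i j
        simp [eγ', he']
    · rw [eβ, he', mul_div_cancel₀ _ (hβ _ _)]

theorem K2 (n : ℤ) (b : U) (hn : n + 3 ≠ 0) (hb : R.Z (n + 3) b) :
    ∃ e e', R.Z n e ∧ R.Z n e' ∧ R.B (b + t₁ e + t₂ e') := by
  choose α hα eα using h.pos₁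
  choose β hβ eβ using h.neg₁
  choose γ hγ eγ using h.pos₂
  obtain ⟨e, he, he'⟩ := h.surj n (fun x => match x with
    | .inl (i, j) => ev b (.inl (i + 1, j)) / α i j
    | .inr (0, _) => 0
    | .inr (i + 1, j) => ev b (.inr (i, j)) / β i j) (fun x hx => by
      rcases x with ⟨i, j⟩ | ⟨_ | i, j⟩
      · have := h.deg _ _ _ hb (div_ne_zero_iff.1 hx).1
        simp only [dT] at this ⊢
        omega
      · exact absurd rfl hx
      · have := h.deg _ _ _ hb (div_ne_zero_iff.1 hx).1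
        simp only [dT] at this ⊢
        omega)
  obtain ⟨f, hf, hf'⟩ := h.surj n (fun x => match x with
    | .inl (0, j) => ev b (.inl (0, j + 1)) / γ 0 j
    | .inl (_ + 1, _) => 0
    | .inr _ => 0) (fun x hx => by
      rcases x with ⟨_ | i, j⟩ | x
      · have := h.deg _ _ _ hb (div_ne_zero_iff.1 hx).1
        simp only [dT] at this ⊢
        omega
      · exact absurd rfl hx
      · exact absurd rfl hx)
  refine ⟨e, f, he, hf, h.inj _ _ ((hb.add (h.Z₁ _ _ he)).add (h.Z₂ _ _ hf)) (funext fun x => ?_)⟩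
  rw [map_add, map_add, Pi.add_apply, Pi.add_apply, Pi.zero_apply]
  rcases x with ⟨_ | i, _ | j⟩ | ⟨i, j⟩
  · rw [h.zero₁, h.zero₂, add_zero, add_zero]
    by_contra h0
    exact hn (h.deg _ _ _ hb h0).symm
  · rw [h.zero₁, eγ, hf', mul_div_cancel₀ _ (hγ _ _), add_zero, add_self k]
  · rw [h.zero₂, eα, he', mul_div_cancel₀ _ (hα _ _), add_zero, add_self k]
  · rw [eγ, hf', eα, he', mul_div_cancel₀ _ (hα _ _), mul_zero, add_zero, add_self k]
  · obtain ⟨γ', -, eγ'⟩ := h.neg₂ i j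
    rw [eγ', hf', eβ, he', mul_div_cancel₀ _ (hβ _ _), mul_zero, add_zero, add_self k]

end Coord

section Shift

variable {I J : Type*} {A E : Type u} [Ring A] [Algebra k A] [Ring E] [Algebra k E]

omit [CharP k 2] in
theorem χ_tmat (P : MC E I) (τ' : E →ₗ[k] E →ₗ[k] E →ₗ[k] E) (χ : E →ₐ[k] k) (φ : E →ₗ[k] A)
    (θ : A →ₗ[k] A →ₗ[k] A →ₗ[k] k) (hθ : ∀ x y z, χ (τ' x y z) = θ (φ x) (φ y) (φ z))
    (e : J → I) (he : Function.Injective e) (X : J → Finset J)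
    (hX : ∀ i y, φ (P.δ (e i) y) ≠ 0 → ∃ j ∈ X i, e j = y) (i : J) (y : I) :
    χ (tmat P τ' (e i) y) = ∑ j ∈ X i, ∑ j' ∈ X j,
      θ (φ (P.δ (e i) (e j))) (φ (P.δ (e j) (e j'))) (φ (P.δ (e j') y)) := by
  have key : ∀ (i : J) (F : I → A → k), (∀ y, F y 0 = 0) →
      ((P.δ (e i)).sum fun y x => F y (φ x)) = ∑ j ∈ X i, F (e j) (φ (P.δ (e i) (e j))) := by
    intro i F hF
    symm
    refine Finset.sum_bij_ne_zero (fun j _ _ => e j) (fun j _ hj => ?_)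
      (fun _ _ _ _ _ _ h => he h) (fun y _ hy => ?_) (fun _ _ _ => rfl)
    · exact Finsupp.mem_support_iff.2 fun h0 => hj (by rw [h0, map_zero, hF])
    · obtain ⟨j, hj, rfl⟩ := hX i y fun h0 => hy (by simp only [h0, hF])
      exact ⟨j, hj, hy, rfl⟩
  rw [tmat, mmul_apply, sum_mmul _ _ _ _ _ (by simp) (by simp)]
  simp only [map_finsuppSum, LinearMap.id_apply, hθ]
  rw [key i (fun y x => (P.δ y).sum fun j' b => θ x (φ b) (φ (P.δ j' _))) (by simp)]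
  exact Finset.sum_congr rfl fun j _ => key j (fun j' b => θ _ b (φ (P.δ j' y))) (by simp)

theorem χ_tcoc (P : MC E I) (τ' : E →ₗ[k] E →ₗ[k] E →ₗ[k] E) (χ : E →ₐ[k] k) (i j : I) :
    χ (tcoc P τ' i j) =
      if P.deg i - P.deg j = 3 then χ (P.ε i) * χ (P.ε j) * χ (tmat P τ' i j) else 0 := by
  rw [tcoc, cx_P_at]
  by_cases h : P.deg i - P.deg j = 3
  · rw [if_pos (by omega), if_pos h, Bim.reg_l, Bim.reg_r, map_mul, map_mul]
    ring
  · rw [if_neg (by omega), if_neg h, map_zero]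

namespace Seed

variable (S : Seed k A J)

/-- the tensor square of the resolution -/
abbrev sq : Half k (A ⊗[k] A) (J × J) := S.half.tensor S.half

omit [CharP k 2] in
theorem s_inj : Function.Injective S.s := fun a b h => by
  have := S.deg_s a
  rw [h, S.deg_s] at this
  omega

theorem shift (τ' : A ⊗[k] A →ₗ[k] A ⊗[k] A →ₗ[k] A ⊗[k] A →ₗ[k] A ⊗[k] A) (φ : A ⊗[k] A →ₗ[k] A)
    (e : J → J × J) (he : Function.Injective e) (c : ℤ)
    (hτ : ∀ x y z, S.sq.χ (τ' x y z) = S.χ (S.τ (φ x) (φ y) (φ z)))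
    (hσ : ∀ x, φ (S.sq.σ x) = S.σ (φ x)) (hω : φ S.sq.ω = 0)
    (h1 : ∀ i j, φ (S.sq.Q.δ (e i) (e j)) = S.Q.δ i j)
    (h2 : ∀ i l, φ (S.sq.Q.δ (e i) l) ≠ 0 → ∃ j, e j = l)
    (h3 : ∀ i l, φ (S.sq.Q.δ l (e i)) ≠ 0 → ∃ j, e j = l)
    (hε : ∀ j, S.sq.χ (S.sq.Q.ε (e j)) = S.χ (S.Q.ε j))
    (hd : ∀ j, S.sq.Q.deg (e j) = S.Q.deg j + c) :
    (∀ m, ∃ α ≠ 0, ∀ (a : Mat _ (J × J ⊕ J × J) _) o,
      S.sq.χ ((Bim.reg k _).ml (tcoc S.sq.splice τ') a (.inl (e (S.s (m + 1)))) o) =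
        α * S.sq.χ (a (.inl (e (S.s m))) o)) ∧
    (∀ (a : Mat _ (J × J ⊕ J × J) _) o,
      S.sq.χ ((Bim.reg k _).ml (tcoc S.sq.splice τ') a (.inl (e (S.s 0))) o) = 0) ∧
    ∀ m, ∃ α ≠ 0, ∀ (a : Mat _ (J × J ⊕ J × J) _) o,
      S.sq.χ ((Bim.reg k _).ml (tcoc S.sq.splice τ') a (.inr (e (S.s m))) o) =
        α * S.sq.χ (a (.inr (e (S.s (m + 1)))) o) := by
  have pos := χ_tmat S.sq.splice τ' S.sq.χ φ (S.τ.compr₂ ((LinearMap.llcomp k A A k) S.χ.toLinearMap))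
    hτ (fun j => .inl (e j)) (fun a b h => he (Sum.inl_injective h)) (fun j => (S.Q.δ j).support)
    (fun i y hy => by
      rcases y with y | y
      · obtain ⟨j, rfl⟩ := h2 i y hy
        exact ⟨j, Finsupp.mem_support_iff.2 (h1 i j ▸ hy), rfl⟩
      · refine absurd ?_ hy
        rw [Half.splice_δ, Half.sδ]
        split_ifs
        exacts [hω, map_zero _])
  have neg := χ_tmat S.sq.splice τ' S.sq.χ φ (S.τ.compr₂ ((LinearMap.llcomp k A A k) S.χ.toLinearMap))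
    hτ (fun j => .inr (e j)) (fun a b h => he (Sum.inr_injective h))
    (fun j => S.Q.fib (S.Q.deg j + 1)) (fun i y hy => by
      rcases y with y | y
      · exact absurd (map_zero φ) hy
      · rw [Half.splice_δ, Half.sδ, hσ] at hy
        obtain ⟨j, rfl⟩ := h3 i y fun h0 => hy (by rw [h0, map_zero])
        refine ⟨j, (S.Q.mem_fib _ _).2 ?_, rfl⟩
        have := S.Q.hom j i fun h0 => hy (by rw [h1, h0, map_zero])
        omega)
  have pos' : ∀ i y, S.sq.χ (tcoc S.sq.splice τ' (.inl (e i)) y) ≠ 0 →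
      ∃ m, y = .inl (e (S.s m)) ∧ S.Q.deg i = 3 * m + 3 := by
    intro i y hy
    rw [χ_tcoc] at hy
    split_ifs at hy with hdeg
    swap
    · exact absurd rfl hy
    have e1 := right_ne_zero_of_mul hy
    have e2 := right_ne_zero_of_mul (left_ne_zero_of_mul hy)
    rw [pos] at e1
    obtain ⟨j, -, e1⟩ := Finset.exists_ne_zero_of_sum_ne_zero e1
    obtain ⟨j', -, e1⟩ := Finset.exists_ne_zero_of_sum_ne_zero e1
    have e3 : φ (S.sq.splice.δ (.inl (e j')) y) ≠ 0 := fun h0 => e1 (by rw [h0, map_zero])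
    rcases y with y | y
    · obtain ⟨l, rfl⟩ := h2 j' y e3
      obtain ⟨m, rfl⟩ := S.χ_ε l (hε l ▸ e2)
      rw [Half.splice_deg_inl, Half.splice_deg_inl, hd, hd, S.deg_s] at hdeg
      exact ⟨m, rfl, by omega⟩
    · refine absurd ?_ e3
      rw [Half.splice_δ, Half.sδ]
      split_ifs
      exacts [hω, map_zero _]
  have neg' : ∀ i y, S.sq.χ (tcoc S.sq.splice τ' (.inr (e i)) y) ≠ 0 →
      ∃ m, y = .inr (e (S.s m)) ∧ S.Q.deg i + 3 = 3 * m := by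
    intro i y hy
    rw [χ_tcoc] at hy
    split_ifs at hy with hdeg
    swap
    · exact absurd rfl hy
    have e1 := right_ne_zero_of_mul hy
    have e2 := right_ne_zero_of_mul (left_ne_zero_of_mul hy)
    rw [neg] at e1
    obtain ⟨j, -, e1⟩ := Finset.exists_ne_zero_of_sum_ne_zero e1
    obtain ⟨j', -, e1⟩ := Finset.exists_ne_zero_of_sum_ne_zero e1
    have e3 : φ (S.sq.splice.δ (.inr (e j')) y) ≠ 0 := fun h0 => e1 (by rw [h0, map_zero])
    rcases y with y | y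
    · exact absurd (map_zero φ) e3
    · rw [Half.splice_δ, Half.sδ, hσ] at e3
      obtain ⟨l, rfl⟩ := h3 j' y fun h0 => e3 (by rw [h0, map_zero])
      obtain ⟨m, rfl⟩ := S.χ_ε l (hε l ▸ e2)
      rw [Half.splice_deg_inr, Half.splice_deg_inr, hd, hd, S.deg_s] at hdeg
      exact ⟨m, rfl, by omega⟩
  refine ⟨fun m => ⟨S.sq.χ (tcoc S.sq.splice τ' (.inl (e (S.s (m + 1)))) (.inl (e (S.s m)))), ?_,
    fun a o => ?_⟩, fun a o => ?_,
    fun m => ⟨S.sq.χ (tcoc S.sq.splice τ' (.inr (e (S.s m))) (.inr (e (S.s (m + 1))))), ?_,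
    fun a o => ?_⟩⟩
  · rw [χ_tcoc, if_pos (by simp only [Half.splice_deg_inl, hd, S.deg_s]; push_cast; ring),
      Half.splice_ε_inl, Half.splice_ε_inl, hε, hε, S.χ_ε_s, S.χ_ε_s, one_mul, one_mul, pos]
    simp only [Half.splice_δ, Half.sδ, h1]
    exact S.τ_pos m
  · rw [alg_mmul, Finsupp.sum_eq_single (.inl (e (S.s m))) (fun y _ hy => ?_) (by simp)]
    by_contra h0
    obtain ⟨m', rfl, h'⟩ := pos' _ y (left_ne_zero_of_mul h0)
    rw [S.deg_s] at h'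
    exact hy (by rw [show m' = m by omega])
  · rw [alg_mmul]
    refine Finset.sum_eq_zero fun y _ => ?_
    by_contra h0
    obtain ⟨m', rfl, h'⟩ := pos' _ y (left_ne_zero_of_mul h0)
    rw [S.deg_s] at h'
    omega
  · rw [χ_tcoc, if_pos (by simp only [Half.splice_deg_inr, hd, S.deg_s]; push_cast; ring),
      Half.splice_ε_inr, Half.splice_ε_inr, hε, hε, S.χ_ε_s, S.χ_ε_s, one_mul, one_mul, neg]
    simp only [Half.splice_δ, Half.sδ, hσ, h1]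
    convert S.τ_neg m using 1
    rw [MC.sum_δ _ _ _ (by simp), S.deg_s, S.deg_s, Finset.sum_congr rfl fun j hj => by
      rw [(S.Q.mem_fib _ _).1 hj], Finset.sum_comm,
      show (3 * ((m + 1 : ℕ) : ℤ) - 1) = 3 * m + 1 + 1 by push_cast; ring]
    refine Finset.sum_congr rfl fun j hj => ?_
    rw [MC.sum_δ _ _ _ (by simp), (S.Q.mem_fib _ _).1 hj, add_sub_cancel_right]
    rfl
  · rw [alg_mmul, Finsupp.sum_eq_single (.inr (e (S.s (m + 1)))) (fun y _ hy => ?_) (by simp)]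
    by_contra h0
    obtain ⟨m', rfl, h'⟩ := neg' _ y (left_ne_zero_of_mul h0)
    rw [S.deg_s] at h'
    exact hy (by rw [show m' = m + 1 by omega])

/-- the generators of the type of the simple module -/
def sT : (ℕ × ℕ) ⊕ (ℕ × ℕ) → (J × J) ⊕ (J × J) := Sum.map (Prod.map S.s S.s) (Prod.map S.s S.s)

omit [CharP k 2] in
theorem sT_inj : Function.Injective S.sT :=
  Sum.map_injective.2 ⟨S.s_inj.prodMap S.s_inj, S.s_inj.prodMap S.s_inj⟩

theorem deg_sT (x : (ℕ × ℕ) ⊕ (ℕ × ℕ)) : S.sq.splice.deg (S.sT x) = dT x := by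
  rcases x with x | x
  · change S.Q.deg (S.s x.1) + S.Q.deg (S.s x.2) = 3 * (x.1 + x.2)
    rw [S.deg_s, S.deg_s]
    ring
  · change -1 - (S.Q.deg (S.s x.1) + S.Q.deg (S.s x.2)) = -1 - 3 * (x.1 + x.2)
    rw [S.deg_s, S.deg_s]
    ring

theorem sq_χ (a b : A) : S.sq.χ (a ⊗ₜ b) = S.χ a * S.χ b := Half.tensor_χ _ _ a b

theorem χ_ε_sT (x : (ℕ × ℕ) ⊕ (ℕ × ℕ)) : S.sq.χ (S.sq.splice.ε (S.sT x)) = 1 := by
  rcases x with x | x <;> exact (S.sq_χ _ _).trans (by simp [Seed.half, S.χ_ε_s])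

theorem exists_sT {i : (J × J) ⊕ (J × J)} (h : S.sq.χ (S.sq.splice.ε i) ≠ 0) : ∃ x, S.sT x = i := by
  rcases i with ⟨i, j⟩ | ⟨i, j⟩
  all_goals
    have h' : S.χ (S.Q.ε i) * S.χ (S.Q.ε j) ≠ 0 := S.sq_χ _ _ ▸ h
    obtain ⟨a, rfl⟩ := S.χ_ε _ (left_ne_zero_of_mul h')
    obtain ⟨b, rfl⟩ := S.χ_ε _ (right_ne_zero_of_mul h')
  exacts [⟨.inl (a, b), rfl⟩, ⟨.inr (a, b), rfl⟩]

/-- the coordinates of a matrix -/
def ev : Mat ((J × J) ⊕ (J × J)) ((J × J) ⊕ (J × J)) (A ⊗[k] A) →ₗ[k] (ℕ × ℕ) ⊕ (ℕ × ℕ) → k where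
  toFun a x := S.sq.χ (a (S.sT x) S.sq.o)
  map_add' a b := by funext x; simp
  map_smul' c a := by funext x; simp

theorem coord (τ₁ τ₂ : A ⊗[k] A →ₗ[k] A ⊗[k] A →ₗ[k] A ⊗[k] A →ₗ[k] A ⊗[k] A)
    (h₁ : ∀ a a' b b' c c', τ₁ (a ⊗ₜ a') (b ⊗ₜ b') (c ⊗ₜ c') = S.τ a b c ⊗ₜ (a' * b' * c'))
    (h₂ : ∀ a a' b b' c c', τ₂ (a ⊗ₜ a') (b ⊗ₜ b') (c ⊗ₜ c') = (a * b * c) ⊗ₜ S.τ a' b' c')
    (Z₁ : (ecx k S.sq.splice).Z 3 (tcoc S.sq.splice τ₁))
    (Z₂ : (ecx k S.sq.splice).Z 3 (tcoc S.sq.splice τ₂)) :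
    Coord (ecx k S.sq.splice) ((Bim.reg k _).ml (tcoc S.sq.splice τ₁))
      ((Bim.reg k _).ml (tcoc S.sq.splice τ₂)) S.ev := by
  classical
  let φ₁ : A ⊗[k] A →ₗ[k] A := (TensorProduct.rid k A).toLinearMap ∘ₗ S.χ.toLinearMap.lTensor A
  let φ₂ : A ⊗[k] A →ₗ[k] A := (TensorProduct.lid k A).toLinearMap ∘ₗ S.χ.toLinearMap.rTensor A
  have e₁ : ∀ a b, φ₁ (a ⊗ₜ b) = S.χ b • a := fun a b => by simp [φ₁]
  have e₂ : ∀ a b, φ₂ (a ⊗ₜ b) = S.χ a • b := fun a b => by simp [φ₂]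
  have hδ : ∀ i j, S.sq.Q.δ i j = tδ k S.Q S.Q i j := fun _ _ => rfl
  have d₁ : ∀ i j, φ₁ (S.sq.Q.δ i j) =
      if i.2 = j.2 then S.χ (S.Q.ε i.2) • S.Q.δ i.1 j.1 else 0 := fun i j => by
    rw [hδ, tδ]
    split_ifs <;> simp [e₁, S.χ_δ]
  have d₂ : ∀ i j, φ₂ (S.sq.Q.δ i j) =
      if i.1 = j.1 then S.χ (S.Q.ε i.1) • S.Q.δ i.2 j.2 else 0 := fun i j => by
    rw [hδ, tδ]
    split_ifs <;> simp [e₂, S.χ_δ]
  have s₁ := fun b => S.shift τ₁ φ₁ (fun j => (j, S.s b)) (fun _ _ h => (Prod.ext_iff.1 h).1) (3 * b)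
    (fun x y z => by
      tind x with x x'
      tind y with y y'
      tind z with z z'
      simp only [h₁, e₁, sq_χ, map_mul, map_smul, LinearMap.smul_apply, smul_eq_mul]
      ring)
    (fun x => by
      tind x with x x'
      rw [Half.tensor_σ_tmul, e₁, e₁, map_smul]
      exact congrArg (· • _) (S.χ_σ _))
    (by rw [Half.tensor_ω, e₁]; exact (congrArg (· • _) S.χ_ω).trans (zero_smul _ _))
    (fun i j => by simp [d₁, S.χ_ε_s])
    (fun i l h => ⟨l.1, Prod.ext rfl (by_contra fun h' => h (by rw [d₁, if_neg h']))⟩)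
    (fun i l h => ⟨l.1, Prod.ext rfl (by_contra fun h' => h (by rw [d₁, if_neg (Ne.symm h')]))⟩)
    (fun j => (S.sq_χ _ _).trans (by simp [Seed.half, S.χ_ε_s])) (fun j => by rw [← S.deg_s]; rfl)
  have s₂ := fun b => S.shift τ₂ φ₂ (fun j => (S.s b, j)) (fun _ _ h => (Prod.ext_iff.1 h).2) (3 * b)
    (fun x y z => by
      tind x with x x'
      tind y with y y'
      tind z with z z'
      simp only [h₂, e₂, sq_χ, map_mul, map_smul, LinearMap.smul_apply, smul_eq_mul]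
      ring)
    (fun x => by
      tind x with x x'
      rw [Half.tensor_σ_tmul, e₂, e₂, map_smul]
      exact congrArg (· • _) (S.χ_σ _))
    (by rw [Half.tensor_ω, e₂]; exact (congrArg (· • _) S.χ_ω).trans (zero_smul _ _))
    (fun i j => by simp [d₂, S.χ_ε_s])
    (fun i l h => ⟨l.2, Prod.ext (by_contra fun h' => h (by rw [d₂, if_neg h'])) rfl⟩)
    (fun i l h => ⟨l.2, Prod.ext (by_contra fun h' => h (by rw [d₂, if_neg (Ne.symm h')])) rfl⟩)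
    (fun j => (S.sq_χ _ _).trans (by simp [Seed.half, S.χ_ε_s])) (fun j => by rw [← S.deg_s, add_comm]; rfl)
  exact
    { inj := fun n a ha h => S.sq.ev_inj ha fun i => by
        by_contra h0
        obtain ⟨x, rfl⟩ := S.exists_sT (S.sq.ev_zero ha.1 h0).2.1
        exact h0 (congrFun h x)
      evB := fun a ha => funext fun x => S.sq.ev_B ha _ _
      surj := fun n φ hφ => by
        obtain ⟨a, ha, ha'⟩ := S.sq.ev_surj n (Function.extend S.sT φ 0) fun i hi => by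
          by_cases h : ∃ x, S.sT x = i
          · obtain ⟨x, rfl⟩ := h
            rw [S.sT_inj.extend_apply] at hi
            exact ⟨(S.deg_sT x).trans (hφ x hi), by rw [S.χ_ε_sT]; exact one_ne_zero⟩
          · exact absurd (Function.extend_apply' _ _ _ h) hi
        exact ⟨a, ha, funext fun x => (ha' _).trans (S.sT_inj.extend_apply _ _ _)⟩
      deg := fun n a x ha h => by
        have := (S.sq.ev_zero ha.1 h).1
        rwa [S.deg_sT, Half.deg_o, sub_zero] at this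
      Z₁ := fun n a ha => Z_ml (by ring) Z₁ ha
      Z₂ := fun n a ha => Z_ml (by ring) Z₂ ha
      pos₁ := fun m b => ((s₁ b).1 m).imp fun α h => ⟨h.1, fun a => h.2 a _⟩
      zero₁ := fun b a => (s₁ b).2.1 a _
      neg₁ := fun m b => ((s₁ b).2.2 m).imp fun α h => ⟨h.1, fun a => h.2 a _⟩
      pos₂ := fun b m => ((s₂ b).1 m).imp fun α h => ⟨h.1, fun a => h.2 a _⟩
      zero₂ := fun b a => (s₂ b).2.1 a _
      neg₂ := fun b m => ((s₂ b).2.2 m).imp fun α h => ⟨h.1, fun a => h.2 a _⟩ }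

end Seed

end Shift

end Crest.Agent.R186
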