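import Mathlib

/-! Coresolutions of modules and their cosyzygies (generic homological algebra). -/

set_option autoImplicit false

open CategoryTheory CategoryTheory.Abelian

universe u

namespace Crest.Agent.R186

/-- An exact coresolution `0 → X → I 0 → I 1 → ⋯`. -/
structure Cores (R : Type u) [Ring R] (X : Type u) [AddCommGroup X] [Module R X] where
  I : ℕ → Type u
  [acg : ∀ j, AddCommGroup (I j)]
  [mod : ∀ j, Module R (I j)]
  ε : X →ₗ[R] I 0
  d : ∀ j, I j →ₗ[R] I (j + 1)
  inj : Function.Injective ε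
  ex0 : Function.Exact ε (d 0)
  ex : ∀ j, Function.Exact (d j) (d (j + 1))

attribute [instance] Cores.acg Cores.mod

lemma injective_of_retract {R : Type u} [Ring R] {X Y : Type u} [AddCommGroup X] [Module R X]
    [AddCommGroup Y] [Module R Y] [hY : Module.Injective R Y] (i : X →ₗ[R] Y) (r : Y →ₗ[R] X)
    (h : r ∘ₗ i = LinearMap.id) : Module.Injective R X where
  out A B _ _ _ _ f hf g := by
    obtain ⟨l, hl⟩ := hY.out f hf (i ∘ₗ g)
    refine ⟨r ∘ₗ l, fun x => ?_⟩
    have := LinearMap.congr_fun h (g x)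
    simp only [LinearMap.comp_apply, LinearMap.id_apply] at this hl ⊢
    rw [hl, this]

namespace Cores

variable {R : Type u} [Ring R] {X : Type u} [AddCommGroup X] [Module R X] (C : Cores R X)

/-- The `j`-th cosyzygy. -/
abbrev Z (j : ℕ) : Type u := LinearMap.ker (C.d j)

/-- The corestriction of `d j`. -/
def q (j : ℕ) : C.I j →ₗ[R] C.Z (j + 1) :=
  (C.d j).codRestrict _ (fun x => (C.ex j).apply_apply_eq_zero x)

lemma q_val (j : ℕ) (x : C.I j) : (C.q j x : C.I (j + 1)) = C.d j x := rfl

lemma q_surj (j : ℕ) : Function.Surjective (C.q j) := by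
  rintro ⟨y, hy⟩
  obtain ⟨x, hx⟩ := ((C.ex j) y).1 hy
  exact ⟨x, Subtype.ext hx⟩

lemma q_exact (j : ℕ) : Function.Exact (LinearMap.ker (C.d j)).subtype (C.q j) := by
  intro x
  constructor
  · intro hx
    exact ⟨⟨x, congrArg Subtype.val hx⟩, rfl⟩
  · rintro ⟨y, rfl⟩
    exact Subtype.ext y.2

/-- The short exact sequence `0 → Z j → I j → Z (j+1) → 0`. -/
abbrev ses (j : ℕ) : ShortComplex (ModuleCat.{u} R) :=
  ModuleCat.shortComplexOfCompEqZero (LinearMap.ker (C.d j)).subtype (C.q j)
    (LinearMap.ext fun x => (C.q_exact j).apply_apply_eq_zero x)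

lemma ses_shortExact (j : ℕ) : (C.ses j).ShortExact :=
  ModuleCat.shortComplex_shortExact _ (C.q_exact j) (LinearMap.ker (C.d j)).injective_subtype
    (C.q_surj j)

/-- `X ≅ Z 0`. -/
noncomputable def equiv0 : X ≃ₗ[R] C.Z 0 :=
  LinearEquiv.ofBijective (C.ε.codRestrict _ (fun x => C.ex0.apply_apply_eq_zero x))
    ⟨fun a b h => C.inj (congrArg Subtype.val h), by
      rintro ⟨y, hy⟩
      obtain ⟨x, hx⟩ := (C.ex0 y).1 hy
      exact ⟨x, Subtype.ext hx⟩⟩

/-- `X ≅ Z 0` in the category of modules. -/
noncomputable def iso0 : ModuleCat.of R X ≅ ModuleCat.of R (C.Z 0) := C.equiv0.toModuleIso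

lemma ext_of_iso {A B B' : ModuleCat.{u} R} (e : B ≅ B') (i : ℕ)
    (h : Subsingleton (Ext A B' i)) : Subsingleton (Ext A B i) := by
  refine subsingleton_of_forall_eq 0 fun x => ?_
  have : x = (x.comp (Ext.mk₀ e.hom) (add_zero i)).comp (Ext.mk₀ e.inv) (add_zero i) := by
    simp
  rw [this, Subsingleton.elim (x.comp (Ext.mk₀ e.hom) (add_zero i)) 0, Ext.zero_comp]

/-- Dimension shifting upward. -/
lemma ext_Z_subsingleton (hI : ∀ j, Module.Injective R (C.I j)) (A : ModuleCat.{u} R)
    (hX : ∀ i, 0 < i → Subsingleton (Ext A (ModuleCat.of R X) i)) (j : ℕ) :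
    ∀ i, 0 < i → Subsingleton (Ext A (ModuleCat.of R (C.Z j)) i) := by
  induction j with
  | zero => exact fun i hi => ext_of_iso C.iso0.symm i (hX i hi)
  | succ j ih =>
    intro i hi
    refine subsingleton_of_forall_eq 0 fun x => ?_
    have := ih (i + 1) (by omega)
    obtain ⟨y, rfl⟩ := Ext.covariant_sequence_exact₃ A (C.ses_shortExact j) x rfl
      (Subsingleton.elim _ _)
    have := hI j
    have : Injective (C.ses j).X₂ := Module.injective_object_of_injective_module R (C.I j)
    obtain ⟨i, rfl⟩ : ∃ k, i = k + 1 := ⟨i - 1, by omega⟩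
    rw [Ext.eq_zero_of_injective y, Ext.zero_comp]

/-- `Hom(A, -)` keeps the coresolution exact when `Ext^{>0}(A, X) = 0`. -/
lemma lift (hI : ∀ j, Module.Injective R (C.I j)) (A : Type u) [AddCommGroup A] [Module R A]
    (hX : ∀ i, 0 < i → Subsingleton (Ext (ModuleCat.of R A) (ModuleCat.of R X) i)) (j : ℕ)
    (f : A →ₗ[R] C.I (j + 1)) (hf : C.d (j + 1) ∘ₗ f = 0) :
    ∃ g : A →ₗ[R] C.I j, C.d j ∘ₗ g = f := by
  let f' : A →ₗ[R] C.Z (j + 1) := f.codRestrict _ (fun x => LinearMap.congr_fun hf x)
  have := C.ext_Z_subsingleton hI _ hX j 1 (by omega)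
  obtain ⟨y, hy⟩ := Ext.covariant_sequence_exact₃ (ModuleCat.of R A) (C.ses_shortExact j)
    (Ext.mk₀ (ModuleCat.ofHom f')) rfl (Subsingleton.elim _ _)
  obtain ⟨g, rfl⟩ := Ext.homEquiv₀.symm.surjective y
  rw [Ext.homEquiv₀_symm_apply, Ext.mk₀_comp_mk₀] at hy
  have hy' := (Ext.mk₀_bijective _ _).1 hy
  refine ⟨g.hom, LinearMap.ext fun x => ?_⟩
  have := congrArg (fun φ => ((ModuleCat.Hom.hom φ x : C.Z (j + 1)) : C.I (j + 1))) hy'
  exact this

lemma injective_Z_of_projective (hI : ∀ j, Module.Injective R (C.I j)) (j : ℕ)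
    (hp : Module.Projective R (C.Z (j + 1))) : Module.Injective R (C.Z j) := by
  obtain ⟨s, hs⟩ := Module.projective_lifting_property (C.q j) LinearMap.id (C.q_surj j)
  have hs' : ∀ z, C.q j (s z) = z := fun z => LinearMap.congr_fun hs z
  have := hI j
  have hmem : ∀ x, (LinearMap.id - s ∘ₗ C.q j : C.I j →ₗ[R] C.I j) x ∈ LinearMap.ker (C.d j) := by
    intro x
    rw [LinearMap.mem_ker, ← C.q_val]
    simp [hs']
  refine injective_of_retract (LinearMap.ker (C.d j)).subtype
    ((LinearMap.id - s ∘ₗ C.q j).codRestrict _ hmem) ?_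
  ext x
  have : C.q j (x : C.I j) = 0 := (C.q_exact j).apply_apply_eq_zero x
  simp [this]

/-- If some cosyzygy is injective, so is `X` (all terms projective and injective). -/
lemma injective_of_injective_Z (hI : ∀ j, Module.Injective R (C.I j))
    (hP : ∀ j, Module.Projective R (C.I j)) (j : ℕ) (h : Module.Injective R (C.Z j)) :
    Module.Injective R X := by
  induction j with
  | zero => exact injective_of_retract C.equiv0.toLinearMap C.equiv0.symm.toLinearMap (by ext; simp)
  | succ j ih =>
    apply ih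
    obtain ⟨r, hr⟩ := h.out (LinearMap.ker (C.d (j + 1))).subtype
      (LinearMap.ker (C.d (j + 1))).injective_subtype LinearMap.id
    have := hP (j + 1)
    have hp : Module.Projective R (C.Z (j + 1)) :=
      Module.Projective.of_split (LinearMap.ker (C.d (j + 1))).subtype r (LinearMap.ext hr)
    exact C.injective_Z_of_projective hI j hp

lemma not_hasInjectiveDimensionLT (hI : ∀ j, Module.Injective R (C.I j))
    (hP : ∀ j, Module.Projective R (C.I j)) (hX : ¬ Module.Injective R X) (n : ℕ) :
    ¬ HasInjectiveDimensionLT (ModuleCat.of R X) n := by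
  intro h
  have key : ∀ j k, HasInjectiveDimensionLT (ModuleCat.of R X) (j + k + 1) →
      HasInjectiveDimensionLT (ModuleCat.of R (C.Z j)) (k + 1) := by
    intro j
    induction j with
    | zero =>
      intro k hk
      rw [zero_add] at hk
      exact hasInjectiveDimensionLT_of_iso C.iso0 _
    | succ j ih =>
      intro k hk
      have := hI j
      have h2 : Injective (C.ses j).X₂ := Module.injective_object_of_injective_module R (C.I j)
      refine ((C.ses_shortExact j).hasInjectiveDimensionLT_X₃_iff k h2).2 (ih (k + 1) ?_)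
      rwa [show j + (k + 1) + 1 = j + 1 + k + 1 by omega]
  have h1 := key n 0 (hasInjectiveDimensionLT_of_ge _ n _ (by omega))
  have h2 : Injective (ModuleCat.of R (C.Z n)) :=
    (injective_iff_hasInjectiveDimensionLT_one).2 h1
  exact hX (C.injective_of_injective_Z hI hP n (Module.injective_module_of_injective_object R _))

lemma injective_of_finite (hI : ∀ j, Module.Injective R (C.I j))
    (hP : ∀ j, Module.Projective R (C.I j)) (r : ℕ) (hr : Subsingleton (C.I r)) :
    Module.Injective R X := by
  refine C.injective_of_injective_Z hI hP r ?_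
  have := hI r
  exact injective_of_retract (LinearMap.ker (C.d r)).subtype 0 (Subsingleton.elim _ _)

lemma ext_subsingleton_of_hom (hI : ∀ j, Module.Injective R (C.I j)) (S : ModuleCat.{u} R)
    (hS : ∀ j (f : S →ₗ[R] C.I j), f = 0) (i : ℕ) :
    Subsingleton (Ext S (ModuleCat.of R X) i) := by
  have key : ∀ i j, Subsingleton (Ext S (ModuleCat.of R (C.Z j)) i) := by
    intro i
    induction i with
    | zero =>
      intro j
      refine subsingleton_of_forall_eq 0 fun x => ?_
      obtain ⟨g, rfl⟩ := Ext.homEquiv₀.symm.surjective x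
      have : g = 0 := by
        ext x
        have := LinearMap.congr_fun (hS j ((LinearMap.ker (C.d j)).subtype ∘ₗ g.hom)) x
        simpa using this
      rw [this, Ext.homEquiv₀_symm_apply, Ext.mk₀_zero]
    | succ i ih =>
      intro j
      refine subsingleton_of_forall_eq 0 fun x => ?_
      have := hI j
      have : Injective (C.ses j).X₂ := Module.injective_object_of_injective_module R (C.I j)
      obtain ⟨y, rfl⟩ := Ext.covariant_sequence_exact₁ S (C.ses_shortExact j) x
        (Ext.eq_zero_of_injective _) rfl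
      have := ih (j + 1)
      rw [Subsingleton.elim y 0, Ext.zero_comp]
  exact ext_of_iso C.iso0 i (key i 0)

lemma projectiveDimension_Z (hI : ∀ j, Module.Injective R (C.I j))
    (hP : ∀ j, Module.Projective R (C.I j)) (hX : ¬ Module.Injective R X)
    (hXp : Module.Projective R X) (n : ℕ) (hn : 1 ≤ n) :
    projectiveDimension (ModuleCat.of R (C.Z n)) = (n : WithBot ℕ∞) := by
  have hP2 : ∀ j, Projective (C.ses j).X₂ := fun j =>
    have := hP j
    (IsProjective.iff_projective (C.I j)).1 (hP j)
  have h1 : ∀ j, HasProjectiveDimensionLT (ModuleCat.of R (C.Z j)) (j + 1) := by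
    intro j
    induction j with
    | zero =>
      have : Projective (ModuleCat.of R X) := (IsProjective.iff_projective X).1 hXp
      exact hasProjectiveDimensionLT_of_iso C.iso0 _
    | succ j ih =>
      exact ((C.ses_shortExact j).hasProjectiveDimensionLT_X₃_iff j (hP2 j)).2 ih
  have h2 : ∀ j, ¬ HasProjectiveDimensionLT (ModuleCat.of R (C.Z (j + 1))) (j + 1) := by
    intro j
    induction j with
    | zero =>
      intro h
      have hp : Projective (ModuleCat.of R (C.Z 1)) :=
        (projective_iff_hasProjectiveDimensionLT_one).2 h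
      have hp' : Module.Projective R (C.Z 1) := (IsProjective.iff_projective _).2 hp
      exact hX (C.injective_of_injective_Z hI hP 0 (C.injective_Z_of_projective hI 0 hp'))
    | succ j ih =>
      intro h
      exact ih (((C.ses_shortExact (j + 1)).hasProjectiveDimensionLT_X₃_iff j (hP2 _)).1 h)
  obtain ⟨m, rfl⟩ : ∃ m, n = m + 1 := ⟨n - 1, by omega⟩
  apply le_antisymm
  · exact (projectiveDimension_le_iff _ _).2 (h1 _)
  · exact (projectiveDimension_ge_iff _ _).2 (h2 m)

lemma finite_Z (hF : ∀ j, Module.Finite R (C.I j)) (n : ℕ) (hn : 1 ≤ n) :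
    Module.Finite R (C.Z n) := by
  obtain ⟨m, rfl⟩ : ∃ m, n = m + 1 := ⟨n - 1, by omega⟩
  have := hF m
  exact Module.Finite.of_surjective (C.q m) (C.q_surj m)

end Cores

end Crest.Agent.R186
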