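import Crest.Agent.R186.Cores
import Crest.Prelude.Def_Tilting
import Crest.Prelude.Def_SymmetricAlgebra
import Crest.Prelude.Def_GorProjVanishing

/-! More on coresolutions: products, the negative part of a complete resolution, add `W`. -/

set_option autoImplicit false

open CategoryTheory CategoryTheory.Abelian Crest.AlgebraR

universe u

namespace Crest.Agent.R186

namespace Cores

variable {R : Type u} [Ring R] {X : Type u} [AddCommGroup X] [Module R X]
  {Y : Type u} [AddCommGroup Y] [Module R Y]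

/-- `Hom(A, -)` keeps the coresolution exact. -/
def Lifts (C : Cores R X) (A : Type u) [AddCommGroup A] [Module R A] : Prop :=
  ∀ j (f : A →ₗ[R] C.I (j + 1)), C.d (j + 1) ∘ₗ f = 0 → ∃ g : A →ₗ[R] C.I j, C.d j ∘ₗ g = f

lemma lifts_of_projective (C : Cores R X) (A : Type u) [AddCommGroup A] [Module R A]
    [Module.Projective R A] : C.Lifts A := by
  intro j f hf
  obtain ⟨g, hg⟩ := Module.projective_lifting_property (C.q j)
    (f.codRestrict _ (fun x => LinearMap.congr_fun hf x)) (C.q_surj j)
  exact ⟨g, LinearMap.ext fun x => congrArg Subtype.val (LinearMap.congr_fun hg x)⟩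

lemma Lifts.prod_left {C : Cores R X} {A B : Type u} [AddCommGroup A] [Module R A]
    [AddCommGroup B] [Module R B] (hA : C.Lifts A) (hB : C.Lifts B) : C.Lifts (A × B) := by
  intro j f hf
  obtain ⟨g₁, h₁⟩ := hA j (f ∘ₗ LinearMap.inl R A B) (by rw [← LinearMap.comp_assoc, hf]; simp)
  obtain ⟨g₂, h₂⟩ := hB j (f ∘ₗ LinearMap.inr R A B) (by rw [← LinearMap.comp_assoc, hf]; simp)
  refine ⟨g₁.coprod g₂, ?_⟩
  rw [LinearMap.comp_coprod, h₁, h₂, LinearMap.coprod_comp_inl_inr]

/-- The product of two coresolutions. -/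
def prod (C : Cores R X) (D : Cores R Y) : Cores R (X × Y) where
  I j := C.I j × D.I j
  ε := C.ε.prodMap D.ε
  d j := (C.d j).prodMap (D.d j)
  inj := C.inj.prodMap D.inj
  ex0 := by
    rintro ⟨a, b⟩
    simp only [LinearMap.prodMap_apply, Prod.mk_eq_zero, Set.mem_range, Prod.mk.injEq, Prod.exists]
    rw [C.ex0 a, D.ex0 b]
    simp
  ex j := by
    rintro ⟨a, b⟩
    simp only [LinearMap.prodMap_apply, Prod.mk_eq_zero, Set.mem_range, Prod.mk.injEq, Prod.exists]
    rw [C.ex j a, D.ex j b]
    simp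

lemma Lifts.prod {C : Cores R X} {D : Cores R Y} {A : Type u} [AddCommGroup A] [Module R A]
    (hC : C.Lifts A) (hD : D.Lifts A) : (C.prod D).Lifts A := by
  intro j f hf
  obtain ⟨g₁, h₁⟩ := hC j (LinearMap.fst R _ _ ∘ₗ f)
    (LinearMap.ext fun x => congrArg Prod.fst (LinearMap.congr_fun hf x))
  obtain ⟨g₂, h₂⟩ := hD j (LinearMap.snd R _ _ ∘ₗ f)
    (LinearMap.ext fun x => congrArg Prod.snd (LinearMap.congr_fun hf x))
  exact ⟨g₁.prod g₂, LinearMap.ext fun x =>
    Prod.ext (LinearMap.congr_fun h₁ x) (LinearMap.congr_fun h₂ x)⟩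

variable (R X) in
/-- The split coresolution `0 → X → X × X → X × X → ⋯`. -/
def triv : Cores R X where
  I _ := X × X
  ε := LinearMap.inl R X X
  d _ := LinearMap.inl R X X ∘ₗ LinearMap.snd R X X
  inj := LinearMap.inl_injective
  ex0 := by
    rintro ⟨a, b⟩
    simp [Prod.ext_iff, eq_comm]
  ex j := by
    rintro ⟨a, b⟩
    simp [Prod.ext_iff, eq_comm]

lemma triv_lifts (A : Type u) [AddCommGroup A] [Module R A] : (triv R X).Lifts A := by
  intro j f hf
  refine ⟨LinearMap.inr R X X ∘ₗ LinearMap.fst R X X ∘ₗ f, LinearMap.ext fun x => ?_⟩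
  have h : (f x).2 = 0 := congrArg Prod.fst (LinearMap.congr_fun hf x)
  exact Prod.ext rfl h.symm

end Cores

section GP

variable {R : Type u} [Ring R]

/-- A differential transported along an equality of indices. -/
def dcast (P : ℤ → Type u) [∀ n, AddCommGroup (P n)] [∀ n, Module R (P n)]
    (d : ∀ n : ℤ, P (n + 1) →ₗ[R] P n) {n m : ℤ} (h : n + 1 = m) : P m →ₗ[R] P n :=
  h ▸ d n

lemma dcast_exact (P : ℤ → Type u) [∀ n, AddCommGroup (P n)] [∀ n, Module R (P n)]
    (d : ∀ n : ℤ, P (n + 1) →ₗ[R] P n) (hd : ∀ n : ℤ, Function.Exact (d (n + 1)) (d n))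
    {n m l : ℤ} (h : n + 1 = m) (h' : m + 1 = l) :
    Function.Exact (dcast P d h') (dcast P d h) := by
  subst h h'
  exact hd n

lemma exists_cores_of_gp {M : Type u} [AddCommGroup M] [Module R M]
    (h : IsGorensteinProjective R M) :
    ∃ C : Cores R M, ∀ j, Module.Finite R (C.I j) ∧ Module.Projective R (C.I j) := by
  obtain ⟨P, _, _, d, hP, hd, -, ⟨e⟩⟩ := h
  have h0 : Function.Exact (d 0) (dcast P d (show -((0 : ℕ) + 1 : ℤ) + 1 = 0 by simp)) :=
    dcast_exact P d hd _ rfl
  let ε : (P 0 ⧸ LinearMap.range (d 0)) →ₗ[R] P (-((0 : ℕ) + 1 : ℤ)) :=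
    (LinearMap.range (d 0)).liftQ (dcast P d (by simp)) (by rw [h0.linearMap_ker_eq])
  refine ⟨{ I := fun j => P (-(j + 1 : ℤ))
            ε := ε ∘ₗ e.toLinearMap
            d := fun j => dcast P d (by push_cast; ring)
            inj := ?_
            ex0 := ?_
            ex := fun j => dcast_exact P d hd _ _ }, fun j => hP _⟩
  · refine Function.Injective.comp (g := ε) ?_ e.injective
    rw [← LinearMap.ker_eq_bot]
    exact Submodule.ker_liftQ_eq_bot _ _ _ (by rw [h0.linearMap_ker_eq])
  · intro y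
    rw [dcast_exact P d hd _ (show -((0 : ℕ) + 1 : ℤ) + 1 = 0 by simp) y]
    constructor
    · rintro ⟨x, rfl⟩
      exact ⟨e.symm (Submodule.Quotient.mk x), by simp [ε]⟩
    · rintro ⟨x, rfl⟩
      obtain ⟨z, hz⟩ := Submodule.Quotient.mk_surjective _ (e x)
      exact ⟨z, by simp [ε, ← hz]⟩

end GP

section Add

variable {R : Type u} [Ring R] {W : Type u} [AddCommGroup W] [Module R W]
  {X : Type u} [AddCommGroup X] [Module R X]

lemma inAdd_of_retract {n : ℕ} (i : X →ₗ[R] (Fin n → W)) (s : (Fin n → W) →ₗ[R] X)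
    (h : s ∘ₗ i = LinearMap.id) : InAdd R W X := by
  have h' : ∀ x, s (i x) = x := fun x => LinearMap.congr_fun h x
  refine ⟨n, LinearMap.ker s, inferInstance, inferInstance,
    ⟨LinearEquiv.ofBijective (i.coprod (LinearMap.ker s).subtype) ⟨?_, fun w => ?_⟩⟩⟩
  · rw [injective_iff_map_eq_zero]
    rintro ⟨x, y⟩ hxy
    have h1 : i x + y = 0 := hxy
    have h2 : x = 0 := by
      have := congrArg s h1
      rwa [map_add, h', y.2, add_zero, map_zero] at this
    subst h2
    rw [map_zero, zero_add] at h1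
    exact Prod.ext rfl (Subtype.ext h1)
  · exact ⟨(s w, ⟨w - i (s w), by simp [h']⟩), by simp⟩

lemma retract_of_inAdd (h : InAdd R W X) : ∃ (n : ℕ) (i : X →ₗ[R] (Fin n → W))
    (s : (Fin n → W) →ₗ[R] X), s ∘ₗ i = LinearMap.id := by
  obtain ⟨n, Y, _, _, ⟨e⟩⟩ := h
  exact ⟨n, e.toLinearMap ∘ₗ LinearMap.inl R X Y, LinearMap.fst R X Y ∘ₗ e.symm.toLinearMap,
    by ext; simp⟩

lemma injective_of_inAdd (hW : Module.Injective R W) (h : InAdd R W X) : Module.Injective R X := by
  obtain ⟨n, i, s, h⟩ := retract_of_inAdd h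
  exact injective_of_retract i s h

lemma projective_of_inAdd (hW : Module.Projective R W) (h : InAdd R W X) :
    Module.Projective R X := by
  obtain ⟨n, i, s, h⟩ := retract_of_inAdd h
  have : Module.Projective R (Fin n → W) :=
    Module.Projective.of_equiv' (DFinsupp.linearEquivFunOnFintype (R := R)
      (M := fun _ : Fin n => W))
  exact Module.Projective.of_split i s h

lemma finite_of_inAdd (hW : Module.Finite R W) (h : InAdd R W X) : Module.Finite R X := by
  obtain ⟨n, i, s, h⟩ := retract_of_inAdd h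
  exact Module.Finite.of_surjective s fun x => ⟨i x, LinearMap.congr_fun h x⟩

lemma inAdd_of_finite_projective [Module.Finite R X] [Module.Projective R X] : InAdd R R X := by
  obtain ⟨n, f, g, -, -, h⟩ := Module.Finite.exists_comp_eq_id_of_projective R X
  exact inAdd_of_retract g f h

end Add

section Frob

variable {K : Type u} [Field K] {T : Type u} [Ring T] [Algebra K T]
  (φ : T ≃ₗ[K] Module.Dual K T) (hφ : ∀ a x b y : T, φ (a * x * b) y = φ x (b * y * a))

include hφ

lemma frob_ext {X : Type u} [AddCommGroup X] [Module T X] (f g : X →ₗ[T] T)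
    (h : ∀ x, φ (f x) 1 = φ (g x) 1) : f = g := by
  ext x
  apply φ.injective
  ext a
  have h1 := h (a • x)
  have h2 := hφ a (f x) 1 1
  have h3 := hφ a (g x) 1 1
  simp only [map_smul, smul_eq_mul, mul_one, one_mul] at h1 h2 h3
  rw [← h2, ← h3, h1]

lemma frob_exists {X : Type u} [AddCommGroup X] [Module T X] [Module K X] [IsScalarTower K T X]
    (ψ : X →ₗ[K] K) : ∃ f : X →ₗ[T] T, ∀ x, φ (f x) 1 = ψ x := by
  let F : X → Module.Dual K T := fun x =>
    { toFun := fun a => ψ (a • x)
      map_add' := fun a b => by rw [add_smul, map_add]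
      map_smul' := fun c a => by rw [smul_assoc, map_smul]; rfl }
  have hF : ∀ x a, F x a = ψ (a • x) := fun _ _ => rfl
  refine ⟨{ toFun := fun x => φ.symm (F x)
            map_add' := fun x y => ?_
            map_smul' := fun b x => ?_ }, fun x => ?_⟩
  · rw [← map_add]
    congr 1
    ext a
    simp [hF]
  · apply φ.injective
    ext a
    have := hφ b (φ.symm (F x)) 1 a
    simp only [mul_one, one_mul, LinearEquiv.apply_symm_apply] at this
    simp only [LinearEquiv.apply_symm_apply, RingHom.id_apply, smul_eq_mul]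
    rw [this, hF, hF, mul_smul]
  · simp [hF]

lemma frob_injective : Module.Injective T T where
  out A B _ _ _ _ f hf g := by
    let _ : Module K A := Module.compHom A (algebraMap K T)
    let _ : Module K B := Module.compHom B (algebraMap K T)
    have : IsScalarTower K T A := IsScalarTower.of_algebraMap_smul fun _ _ => rfl
    have : IsScalarTower K T B := IsScalarTower.of_algebraMap_smul fun _ _ => rfl
    obtain ⟨l, hl⟩ := (f.restrictScalars K).exists_leftInverse_of_injective
      (LinearMap.ker_eq_bot.2 hf)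
    obtain ⟨g', hg'⟩ := frob_exists φ hφ
      ((Module.Dual.eval K T 1) ∘ₗ φ.toLinearMap ∘ₗ g.restrictScalars K ∘ₗ l)
    have : g' ∘ₗ f = g := by
      refine frob_ext φ hφ _ _ fun x => ?_
      have h1 : l (f x) = x := LinearMap.congr_fun hl x
      rw [LinearMap.comp_apply, hg']
      simp [h1]
    exact ⟨g', fun x => LinearMap.congr_fun this x⟩

end Frob

end Crest.Agent.R186
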