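import Crest.Agent.R186.Seed

/-!
Differential spaces with degree projections in characteristic two and diagram chases.
-/

set_option autoImplicit false

noncomputable section

namespace Crest.Agent.R186

variable {k : Type*} [Field k]
variable {U V W : Type*} [AddCommGroup U] [Module k U] [AddCommGroup V] [Module k V]
  [AddCommGroup W] [Module k W]

theorem two_eq_zero (k : Type*) [Field k] [CharP k 2] : (2 : k) = 0 := CharTwo.two_eq_zero

variable (k) in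
theorem add_self [CharP k 2] (x : V) : x + x = 0 := by
  rw [← two_smul k x, two_eq_zero k, zero_smul]

variable (k) in
theorem neg_eq [CharP k 2] (x : V) : -x = x := neg_eq_of_add_eq_zero_left (add_self k x)

variable (k) in
theorem add_eq_zero_iff [CharP k 2] {x y : V} : x + y = 0 ↔ x = y := by
  rw [add_eq_zero_iff_eq_neg, neg_eq k]

variable (k) in
theorem eq_of_one_smul {x y : V} (h : (1 : k) • x = (1 : k) • y) : x = y := by simpa using h

/-- proves identities in vector spaces over a field of characteristic two -/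
macro "char2" k:term : tactic =>
  `(tactic| (refine eq_of_one_smul $k ?_; match_scalars <;> grind))

/-- a differential space with degree projections -/
structure Cx (k : Type*) [Field k] (V : Type*) [AddCommGroup V] [Module k V] where
  D : V →ₗ[k] V
  P : ℤ → V →ₗ[k] V
  DD : ∀ x, D (D x) = 0
  PP : ∀ n x, P n (P n x) = P n x
  PD : ∀ n x, P (n + 1) (D x) = D (P n x)

namespace Cx

variable (C : Cx k V)

/-- cocycles of degree `n` -/
def Z (n : ℤ) (x : V) : Prop := C.P n x = x ∧ C.D x = 0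
/-- coboundaries -/
def B (x : V) : Prop := ∃ b, C.D b = x
/-- vanishing of cohomology in degree `n` -/
def Van (n : ℤ) : Prop := ∀ x, C.Z n x → C.B x

variable {C}

theorem Z.add {n : ℤ} {x y : V} (hx : C.Z n x) (hy : C.Z n y) : C.Z n (x + y) :=
  ⟨by rw [map_add, hx.1, hy.1], by rw [map_add, hx.2, hy.2, add_zero]⟩
theorem Z.smul {n : ℤ} {x : V} (c : k) (hx : C.Z n x) : C.Z n (c • x) :=
  ⟨by rw [map_smul, hx.1], by rw [map_smul, hx.2, smul_zero]⟩
theorem Z.zero (n : ℤ) : C.Z n 0 := ⟨map_zero _, map_zero _⟩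
theorem B.add {x y : V} (hx : C.B x) (hy : C.B y) : C.B (x + y) := by
  obtain ⟨a, rfl⟩ := hx
  obtain ⟨b, rfl⟩ := hy
  exact ⟨a + b, map_add _ _ _⟩
theorem B.smul {x : V} (c : k) (hx : C.B x) : C.B (c • x) := by
  obtain ⟨a, rfl⟩ := hx
  exact ⟨c • a, map_smul _ _ _⟩
theorem B.zero : C.B 0 := ⟨0, map_zero _⟩
theorem B.D (x : V) : C.B (C.D x) := ⟨x, rfl⟩
theorem B.of_eq {x y : V} (hx : C.B x) (h : x = y) : C.B y := h ▸ hx

theorem PD' (C : Cx k V) {n m : ℤ} (h : m = n + 1) (x : V) : C.P m (C.D x) = C.D (C.P n x) :=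
  h ▸ C.PD n x

theorem B.graded {n m : ℤ} (h : m = n + 1) {x : V} (hx : C.B x) (hP : C.P m x = x) :
    ∃ b, C.P n b = b ∧ C.D b = x := by
  obtain ⟨b, rfl⟩ := hx
  exact ⟨C.P n b, C.PP _ _, by rw [← C.PD' h, hP]⟩

theorem Z.D {n m : ℤ} (h : m = n + 1) {x : V} (hx : C.P n x = x) : C.Z m (C.D x) :=
  ⟨by rw [C.PD' h, hx], C.DD x⟩

end Cx

/-- maps of differential spaces shifting the degree by `s` -/
structure CMap (C : Cx k V) (C' : Cx k W) (s : ℤ) (f : V →ₗ[k] W) : Prop where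
  hD : ∀ x, f (C.D x) = C'.D (f x)
  hP : ∀ n x, C'.P n (f x) = f (C.P (n + s) x)

namespace CMap

variable {C₁ : Cx k U} {C : Cx k V} {C' : Cx k W} {s : ℤ} {f : V →ₗ[k] W}

theorem Z (h : CMap C C' s f) {n m : ℤ} (hm : m = n + s) {x : V} (hx : C.Z m x) :
    C'.Z n (f x) :=
  ⟨by rw [h.hP, ← hm, hx.1], by rw [← h.hD, hx.2, map_zero]⟩

theorem B (h : CMap C C' s f) {x : V} (hx : C.B x) : C'.B (f x) := by
  obtain ⟨b, rfl⟩ := hx
  exact ⟨f b, (h.hD b).symm⟩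

theorem comp {t : ℤ} {g : U →ₗ[k] V} (h : CMap C C' s f) (hg : CMap C₁ C t g) :
    CMap C₁ C' (s + t) (f ∘ₗ g) where
  hD x := by simp [hg.hD, h.hD]
  hP n x := by simp [hg.hP, h.hP, add_assoc]

end CMap

/-- short exact sequences of differential spaces -/
structure CSES (C₁ : Cx k U) (C₂ : Cx k V) (C₃ : Cx k W) (s t : ℤ) (f : U →ₗ[k] V)
    (g : V →ₗ[k] W) : Prop where
  hf : CMap C₁ C₂ s f
  hg : CMap C₂ C₃ t g
  inj : Function.Injective f
  exact : Function.Exact f g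
  surj : Function.Surjective g

namespace CSES

variable [CharP k 2] {C₁ : Cx k U} {C₂ : Cx k V} {C₃ : Cx k W} {s t : ℤ} {f : U →ₗ[k] V}
  {g : V →ₗ[k] W} (h : CSES C₁ C₂ C₃ s t f g)
include h

omit [CharP k 2] in
theorem of_ker {n m : ℤ} (hm : m = n + s) {x : V} (hx : C₂.P n x = x) (hg : g x = 0) :
    ∃ y, C₁.P m y = y ∧ f y = x := by
  obtain ⟨y, rfl⟩ := (h.exact x).1 hg
  exact ⟨y, h.inj (by rw [hm, ← h.hf.hP, hx]), rfl⟩

omit [CharP k 2] in
theorem lift {n m : ℤ} (hm : m = n + t) {x : W} (hx : C₃.P n x = x) :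
    ∃ y, C₂.P m y = y ∧ g y = x := by
  obtain ⟨y, rfl⟩ := h.surj x
  exact ⟨C₂.P m y, C₂.PP _ _, by rw [hm, ← h.hg.hP, hx]⟩

/-- exactness in the middle -/
theorem mid {n m : ℤ} (hm : m = n + s) {x : V} (hx : C₂.Z n x) (hg : C₃.B (g x)) :
    ∃ y, C₁.Z m y ∧ C₂.B (x + f y) := by
  have e1 : C₃.P (n - t) (g x) = g x := by rw [h.hg.hP, sub_add_cancel, hx.1]
  obtain ⟨b, hb, hb'⟩ := hg.graded (n := n - t - 1) (by ring) e1
  obtain ⟨c, hc, rfl⟩ := h.lift (m := n - 1) (by ring) hb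
  obtain ⟨y, hy, hy'⟩ := h.of_ker hm (x := x + C₂.D c)
    (by rw [map_add, hx.1, C₂.PD' (n := n - 1) (by ring), hc])
    (by rw [map_add, h.hg.hD, hb', add_self k])
  refine ⟨y, ⟨hy, h.inj ?_⟩, c, ?_⟩
  · rw [h.hf.hD, hy', map_add, hx.2, C₂.DD, add_zero, map_zero]
  · rw [hy', ← add_assoc, add_self k, zero_add]

omit [CharP k 2] in
/-- the connecting map -/
theorem conn {n m l : ℤ} (hm : m = n + t) (hl : l = m + 1 + s) {x : W} (hx : C₃.Z n x) :
    ∃ c y, C₂.P m c = c ∧ g c = x ∧ C₁.Z l y ∧ f y = C₂.D c := by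
  obtain ⟨c, hc, rfl⟩ := h.lift hm hx.1
  obtain ⟨y, hy, hy'⟩ := h.of_ker hl (x := C₂.D c) (by rw [C₂.PD, hc]) (by rw [h.hg.hD, hx.2])
  exact ⟨c, y, hc, rfl, ⟨hy, h.inj (by rw [h.hf.hD, hy', C₂.DD, map_zero])⟩, hy'⟩

omit [CharP k 2] in
/-- exactness on the left -/
theorem left {n m l : ℤ} (hm : m = n + t) (hl : l = m + 1 + s) {y : U} (hy : C₁.Z l y)
    (hf : C₂.B (f y)) : ∃ c, C₂.P m c = c ∧ C₃.Z n (g c) ∧ f y = C₂.D c := by
  obtain ⟨c, hc, hc'⟩ := hf.graded (n := m) rfl (by rw [h.hf.hP, ← hl, hy.1])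
  refine ⟨c, hc, ⟨by rw [h.hg.hP, ← hm, hc], ?_⟩, hc'.symm⟩
  rw [← h.hg.hD, hc', h.exact.apply_apply_eq_zero]

/-- two lifts with cohomologous images have cohomologous boundaries -/
theorem conn_B {c : V} {y : U} (hc : C₃.B (g c)) (hy : f y = C₂.D c) : C₁.B y := by
  obtain ⟨b, hb⟩ := hc
  obtain ⟨b, rfl⟩ := h.surj b
  obtain ⟨w, hw⟩ := (h.exact (c + C₂.D b)).1 (by rw [map_add, h.hg.hD, hb, add_self k])
  exact ⟨w, h.inj (by rw [h.hf.hD, hw, map_add, C₂.DD, add_zero, hy])⟩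

theorem van₂ {n m l : ℤ} (hm : m = n + s) (hl : n = l + t) (h₁ : C₁.Van m) (h₃ : C₃.Van l) :
    C₂.Van n := by
  intro x hx
  obtain ⟨y, hy, hy'⟩ := h.mid hm hx (h₃ _ (h.hg.Z hl hx))
  exact (hy'.add (h.hf.B (h₁ y hy))).of_eq (by char2 k)

/-- the first map is injective on cohomology -/
theorem inj_f {n l : ℤ} (hl : l = n + t + 1 + s) (h₃ : C₃.Van n) {y : U} (hy : C₁.Z l y)
    (hf : C₂.B (f y)) : C₁.B y := by
  obtain ⟨c, -, hc, hc'⟩ := h.left rfl hl hy hf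
  exact h.conn_B (h₃ _ hc) hc'

/-- the first map is surjective on cohomology -/
theorem surj_f {n m l : ℤ} (hm : m = n + s) (hl : n = l + t) (h₃ : C₃.Van l) {x : V}
    (hx : C₂.Z n x) : ∃ y, C₁.Z m y ∧ C₂.B (x + f y) :=
  h.mid hm hx (h₃ _ (h.hg.Z hl hx))

/-- the second map is injective on cohomology -/
theorem inj_g {n m : ℤ} (hm : m = n + s) (h₁ : C₁.Van m) {x : V} (hx : C₂.Z n x)
    (hg : C₃.B (g x)) : C₂.B x := by
  obtain ⟨y, hy, hy'⟩ := h.mid hm hx hg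
  exact (hy'.add (h.hf.B (h₁ y hy))).of_eq (by char2 k)

/-- a lift of a cocycle whose boundary is trivial can be corrected to a cocycle -/
theorem lift_Z {m l : ℤ} (hl : l = m + 1 + s) {c : V} {y : U} (hc : C₂.P m c = c)
    (hy : f y = C₂.D c) (hy' : C₁.P l y = y) (hB : C₁.B y) : ∃ c', C₂.Z m c' ∧ g c' = g c := by
  obtain ⟨b, hb, rfl⟩ := hB.graded (n := m + s) (by rw [hl]; ring) hy'
  refine ⟨c + f b, ⟨by rw [map_add, hc, h.hf.hP, hb], ?_⟩, ?_⟩
  · rw [map_add, ← h.hf.hD, hy, add_self k]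
  · rw [map_add, h.exact.apply_apply_eq_zero, add_zero]

/-- the second map is surjective on cohomology -/
theorem surj_g {n m l : ℤ} (hm : m = n + t) (hl : l = m + 1 + s) (h₁ : C₁.Van l) {x : W}
    (hx : C₃.Z n x) : ∃ c, C₂.Z m c ∧ g c = x := by
  obtain ⟨c, y, hc, rfl, hy, hy'⟩ := h.conn hm hl hx
  exact h.lift_Z hl hc hy' hy.1 (h₁ y hy)

theorem van₁ {n l m : ℤ} (hl : l = n + t + 1 + s) (hm : l = m + s) (h₂ : C₂.Van m)
    (h₃ : C₃.Van n) : C₁.Van l :=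
  fun _ hy => h.inj_f hl h₃ hy (h₂ _ (h.hf.Z hm hy))

end CSES

/-- vanishing passes to finite sums of retracts -/
theorem Cx.Van.of_sum {C : Cx k V} {C' : Cx k W} {ι : Type*} (S : Finset ι) (f : ι → W →ₗ[k] V)
    (g : ι → V →ₗ[k] W) (hf : ∀ i, ∀ x, f i (C'.D x) = C.D (f i x)) (hg : ∀ i, CMap C C' 0 (g i))
    (hfg : ∀ x, ∑ i ∈ S, f i (g i x) = x) {n : ℤ} (h : C'.Van n) : C.Van n := by
  intro x hx
  choose b hb using fun i => h _ ((hg i).Z (add_zero n).symm hx)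
  exact ⟨∑ i ∈ S, f i (b i), by simp only [map_sum, ← hf, hb, hfg]⟩

end Crest.Agent.R186
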