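import Crest.Agent.R186.Half

/-!
Duality for complexes of matrices, and exactness of the spliced complex.
-/

set_option autoImplicit false

noncomputable section

namespace Crest.Agent.R186

variable {k : Type*} [Field k] [CharP k 2]
variable {V V' : Type*} [AddCommGroup V] [Module k V] [AddCommGroup V'] [Module k V']
variable {I J : Type*}
variable {R S : Type*} [Ring R] [Algebra k R] [Ring S] [Algebra k S]

/-- the elementary matrices -/
def sgl (k : Type*) [Field k] {V : Type*} [AddCommGroup V] [Module k V] (j : J) (i : I) :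
    V →ₗ[k] (J →₀ I →₀ V) :=
  Finsupp.lsingle j ∘ₗ Finsupp.lsingle i

/-- maps out of finite matrices from their values on elementary matrices -/
def fsum {W : Type*} [AddCommGroup W] [Module k W] (f : J → I → V →ₗ[k] W) :
    (J →₀ I →₀ V) →ₗ[k] W :=
  Finsupp.lsum k fun j => Finsupp.lsum k fun i => f j i

omit [CharP k 2] in
@[simp] theorem fsum_sgl {W : Type*} [AddCommGroup W] [Module k W] (f : J → I → V →ₗ[k] W)
    (j : J) (i : I) (x : V) : fsum f (sgl k j i x) = f j i x := by
  simp [fsum, sgl]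

omit [CharP k 2] in
theorem fin_ext {W : Type*} [AddCommGroup W] [Module k W] {f g : (J →₀ I →₀ V) →ₗ[k] W}
    (h : ∀ j i x, f (sgl k j i x) = g (sgl k j i x)) : f = g :=
  Finsupp.lhom_ext' fun j => Finsupp.lhom_ext' fun i => LinearMap.ext fun x => h j i x

omit [CharP k 2] in
open Classical in
theorem sgl_apply (j j' : J) (i i' : I) (x : V) :
    (sgl k j i x) j' i' = if j = j' ∧ i = i' then x else 0 := by
  simp only [sgl, LinearMap.comp_apply, Finsupp.lsingle_apply, Finsupp.single_apply]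
  by_cases h : j = j' <;> simp [h, Finsupp.single_apply]

section Core

variable (P : MC R I) (Q : MC S J) (M : Bim k S R V)

/-- the differential on finite matrices -/
def Dfin : (J →₀ I →₀ V) →ₗ[k] (J →₀ I →₀ V) :=
  fsum fun j i => ∑ j' ∈ Q.fib (Q.deg j + 1), sgl k j' i ∘ₗ M.l (Q.δ j' j) +
    ∑ i' ∈ P.fib (P.deg i - 1), sgl k j i' ∘ₗ M.r (P.δ i i')

/-- the degree projection on finite matrices -/
def Pfin (m : ℤ) : (J →₀ I →₀ V) →ₗ[k] (J →₀ I →₀ V) :=
  fsum fun j i => sgl k j i ∘ₗ (M.at 0).ep Q P m j i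

theorem coe_Dfin (a : J →₀ I →₀ V) :
    (Dfin P Q M a : Mat J I V) = (cx Q P (M.at 0)).D a := by
  classical
  have : Finsupp.lcoeFun ∘ₗ Dfin P Q M = (cx Q P (M.at 0)).D ∘ₗ Finsupp.lcoeFun (R := k) := by
    refine fin_ext fun j i x => Mat.ext' fun j' i' => ?_
    simp only [LinearMap.comp_apply, Finsupp.lcoeFun_apply, Dfin, fsum_sgl, LinearMap.add_apply,
      LinearMap.sum_apply, Finsupp.add_apply, Finsupp.finsetSum_apply, cx_D_at, Pi.add_apply]
    congr 1
    · rw [mmul_apply_single _ _ _ _ _ j (fun j'' hj => by simp [sgl_apply, hj.symm])]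
      simp only [sgl_apply, true_and]
      by_cases hi : i = i'
      · simp only [hi, and_true, if_true, Finset.sum_ite_eq', Q.mem_fib]
        split_ifs with h
        · rfl
        · have : Q.δ j' j = 0 := by
            by_contra h0
            have := Q.hom _ _ h0
            omega
          simp [this]
      · simp [hi]
    · rw [mmul_apply_single _ _ _ _ _ i (fun i'' hi => by simp [sgl_apply, hi.symm])]
      simp only [sgl_apply, and_true, LinearMap.flip_apply]
      by_cases hj : j = j'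
      · simp only [hj, true_and, if_true, Finset.sum_ite_eq', P.mem_fib]
        split_ifs with h
        · rfl
        · have : P.δ i i' = 0 := of_not_not (mt (P.hom _ _) h)
          simp [this]
      · simp [hj]
  exact LinearMap.congr_fun this a

theorem coe_Pfin (m : ℤ) (a : J →₀ I →₀ V) :
    (Pfin P Q M m a : Mat J I V) = (cx Q P (M.at 0)).P m a := by
  classical
  have : Finsupp.lcoeFun ∘ₗ Pfin P Q M m = (cx Q P (M.at 0)).P m ∘ₗ Finsupp.lcoeFun (R := k) := by
    refine fin_ext fun j i x => Mat.ext' fun j' i' => ?_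
    simp only [LinearMap.comp_apply, Finsupp.lcoeFun_apply, Pfin, fsum_sgl, cx_P', emap_apply,
      sgl_apply]
    split_ifs with h
    · rw [h.1, h.2]
    · rw [map_zero]
  exact LinearMap.congr_fun this a

/-- vanishing of cohomology with finite supports -/
def FinVan (m : ℤ) : Prop :=
  ∀ a : J →₀ I →₀ V, (cx Q P (M.at 0)).Z m a →
    ∃ b : J →₀ I →₀ V, (cx Q P (M.at 0)).D b = a

variable {P Q M} {M' : Bim k R S V'} (φ : V' ≃ₗ[k] Module.Dual k V)

/-- the pairing of a matrix with the finite matrices -/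
def pair (c : Mat I J V') : Module.Dual k (J →₀ I →₀ V) := fsum fun j i => φ (c i j)

omit [CharP k 2] in
theorem pair_sgl (c : Mat I J V') (j : J) (i : I) (x : V) :
    pair φ c (sgl k j i x) = φ (c i j) x := fsum_sgl _ _ _ _

omit [CharP k 2] in
theorem pair_inj {c c' : Mat I J V'} (h : pair φ c = pair φ c') : c = c' :=
  Mat.ext' fun i j => φ.injective (LinearMap.ext fun x => by rw [← pair_sgl, h, pair_sgl])

variable (hl : ∀ a x' x, φ (M'.l a x') x = φ x' (M.r a x))
  (hr : ∀ b x' x, φ (M'.r b x') x = φ x' (M.l b x))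
include hl hr

theorem pair_D (c : Mat I J V') :
    pair φ ((cx P Q (M'.at 0)).D c) = pair φ c ∘ₗ Dfin P Q M := by
  refine fin_ext fun j i x => ?_
  simp only [pair_sgl, LinearMap.comp_apply, Dfin, fsum_sgl, LinearMap.add_apply,
    LinearMap.sum_apply, map_add, map_sum, cx_D_at, Pi.add_apply, Finsupp.add_apply]
  rw [add_comm]
  congr 1
  · rw [mmul_apply_of_subset (S := Q.fib (Q.deg j + 1)), map_sum, LinearMap.sum_apply]
    · exact Finset.sum_congr rfl fun j' _ => hr _ _ _
    · intro j' hj'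
      rw [Q.mem_fib]
      have : Q.δ j' j ≠ 0 := fun h0 => hj' (by simp [h0])
      have := Q.hom _ _ this
      omega
  · rw [mmul_apply_of_subset (S := P.fib (P.deg i - 1)), map_sum, LinearMap.sum_apply]
    · exact Finset.sum_congr rfl fun i' _ => hl _ _ _
    · intro i' hi'
      rw [P.mem_fib]
      exact P.hom _ _ fun h0 => hi' (by simp [h0])

theorem pair_P (n : ℤ) (c : Mat I J V') :
    pair φ ((cx P Q (M'.at 0)).P n c) = pair φ c ∘ₗ Pfin P Q M (-n) := by
  refine fin_ext fun j i x => ?_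
  simp only [pair_sgl, LinearMap.comp_apply, Pfin, fsum_sgl, cx_P_at, DG.ep_apply, Bim.at_p,
    Bim.at_l, Bim.at_r]
  by_cases h : P.deg i - Q.deg j - n = 0
  · rw [if_pos h, if_pos (by omega), hl, hr]
  · rw [if_neg h, if_neg (by omega)]
    simp

/-- the core duality lemma -/
theorem van_of_finVan {n : ℤ} (h : FinVan P Q M (-n)) : (cx P Q (M'.at 0)).Van n := by
  intro c hc
  have hker : pair φ c ∈ (LinearMap.ker (Dfin P Q M)).dualAnnihilator := by
    rw [Submodule.mem_dualAnnihilator]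
    intro a ha
    rw [LinearMap.mem_ker] at ha
    have hD : (cx Q P (M.at 0)).D a = 0 := by rw [← coe_Dfin, ha]; rfl
    obtain ⟨b, hb⟩ := h (Pfin P Q M (-n) a) ⟨by rw [coe_Pfin, Cx.PP], by
      rw [coe_Pfin, ← Cx.PD, hD, map_zero]⟩
    have e : Dfin P Q M b = Pfin P Q M (-n) a :=
      DFunLike.coe_injective (by rw [coe_Dfin, hb])
    rw [← hc.1, pair_P φ hl hr, LinearMap.comp_apply, ← e, ← LinearMap.comp_apply,
      ← pair_D φ hl hr, hc.2, show pair φ (0 : Mat I J V') = 0 from
        fin_ext fun j i x => by simp [pair_sgl], LinearMap.zero_apply]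
  rw [← LinearMap.range_dualMap_eq_dualAnnihilator_ker] at hker
  obtain ⟨β, hβ⟩ := hker
  let β' := β ∘ₗ Pfin P Q M (-n + 1)
  let b : Mat I J V' := fun i => Finsupp.onFinset (Q.fib (P.deg i - n + 1))
    (fun j => φ.symm (β' ∘ₗ sgl k j i)) (fun j hj => by
      rw [Q.mem_fib]
      by_contra h0
      refine hj ?_
      rw [φ.symm.map_eq_zero_iff]
      ext x
      simp only [β', LinearMap.comp_apply, Pfin, fsum_sgl, DG.ep_apply, Bim.at_p]
      rw [if_neg (by omega)]
      simp)
  have hb : pair φ b = β' := fin_ext fun j i x => by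
    rw [pair_sgl]
    simp [b]
  refine ⟨b, pair_inj φ ?_⟩
  have e : Pfin P Q M (-n + 1) ∘ₗ Dfin P Q M = Dfin P Q M ∘ₗ Pfin P Q M (-n) :=
    LinearMap.ext fun a => DFunLike.coe_injective (by
      simp only [LinearMap.comp_apply, coe_Pfin, coe_Dfin, Cx.PD])
  rw [pair_D φ hl hr, hb, LinearMap.comp_assoc, e, ← LinearMap.comp_assoc,
    show β ∘ₗ Dfin P Q M = pair φ c from hβ, ← pair_P φ hl hr, hc.1]

end Core

omit [CharP k 2] in
theorem exists_fin (Q : MC S J) {T : Type*} [Zero T] (b : J → T) (N : ℤ)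
    (h : ∀ j, (Q.deg j < -N ∨ N < Q.deg j) → b j = 0) : ∃ b' : J →₀ T, (b' : J → T) = b := by
  classical
  refine ⟨Finsupp.onFinset ((Finset.Icc (-N) N).biUnion Q.fib) b fun j hj => ?_, rfl⟩
  simp only [Finset.mem_biUnion, Finset.mem_Icc, Q.mem_fib]
  refine ⟨_, ?_, rfl⟩
  by_contra h0
  exact hj (h j (by omega))

section

variable {P : MC R I} {Q : MC S J} {M : Bim k S R V}

theorem finVan_of_van (hrow : RowEx P M) (hcol : ColEx Q M) {m : ℤ}
    (h : (cx Q P (M.at 0)).Van (m - 1)) : FinVan P Q M m := by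
  intro a ha
  set C := cx Q P (M.at 0) with hC
  obtain ⟨N, hN1, hN⟩ : ∃ N : ℤ, 1 ≤ N ∧ ∀ j, (Q.deg j < -N ∨ N < Q.deg j) → a j = 0 := by
    refine ⟨((a.support.sup fun j => (Q.deg j).natAbs : ℕ) : ℤ) + 1, by omega, fun j hj => ?_⟩
    by_contra h0
    have := Finset.le_sup (f := fun j => (Q.deg j).natAbs) (Finsupp.mem_support_iff.2 h0)
    omega
  obtain ⟨b1, hb1, hb1'⟩ := hrow.solve (N := -N) ha (fun j hj => hN j (Or.inl hj))
  obtain ⟨b2, hb2, hb2'⟩ := hcol.solve (N := N) ha (fun j hj => hN j (Or.inr hj))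
  have e1 : C.D (C.P (m - 1) b1) = a := by rw [← C.PD' (m := m) (by ring), hb1', ha.1]
  have e2 : C.D (C.P (m - 1) b2) = a := by rw [← C.PD' (m := m) (by ring), hb2', ha.1]
  obtain ⟨c, hc⟩ := h (C.P (m - 1) b1 + C.P (m - 1) b2)
    ⟨by rw [map_add, C.PP, C.PP], by rw [map_add, e1, e2, add_self k]⟩
  have e : c = rows Q (0 ≤ ·) c + rows Q (· < 0) c := by
    funext j
    simp only [rows, Pi.add_apply]
    split_ifs with h1 h2 h2
    · omega
    · simp
    · simp
    · omega
  have e3 : C.P (m - 1) b1 + C.D (rows Q (0 ≤ ·) c) = C.P (m - 1) b2 + C.D (rows Q (· < 0) c) := by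
    rw [e, map_add] at hc
    rw [← add_eq_zero_iff k, add_add_add_comm, hc, add_self k]
  obtain ⟨b, hb⟩ := exists_fin Q (C.P (m - 1) b1 + C.D (rows Q (0 ≤ ·) c)) N fun j hj => by
    rcases hj with hj | hj
    · rw [Pi.add_apply, cx_P_row_zero _ _ _ _ (hb1 j hj),
        zero_add]
      exact D_row_zero Q P M 0 (fun j' hj' => if_neg (by omega)) (if_neg (by omega))
    · rw [e3, Pi.add_apply, cx_P_row_zero _ _ _ _ (hb2 j hj.le),
        zero_add]
      exact D_row_zero Q P M 0 (fun j' hj' => if_neg (by omega)) (if_neg (by omega))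
  exact ⟨b, by rw [hb, map_add, e1, C.DD, add_zero]⟩

variable {M' : Bim k R S V'} (φ : V' ≃ₗ[k] Module.Dual k V)
  (hl : ∀ a x' x, φ (M'.l a x') x = φ x' (M.r a x))
  (hr : ∀ b x' x, φ (M'.r b x') x = φ x' (M.l b x))
include hl hr

theorem van_dual (hrow : RowEx P M) (hcol : ColEx Q M) {n : ℤ}
    (h : (cx Q P (M.at 0)).Van (-n - 1)) : (cx P Q (M'.at 0)).Van n :=
  van_of_finVan φ hl hr (finVan_of_van hrow hcol h)

omit hl in
theorem row_van_dual {n : ℤ} (h : (cx Q (MC.pt k) (M.fR.at 0)).Van (-n)) :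
    (cx (MC.pt k) Q (M'.fL.at 0)).Van n := by
  refine van_of_finVan (M := M.fR) (M' := M'.fL) φ (fun a x' x => by simp) hr fun a ha => ?_
  obtain ⟨b, hb, hb'⟩ := (h _ ha).graded (n := -n - 1) (by ring) ha.1
  obtain ⟨b', rfl⟩ := exists_fin Q b |-n - 1| fun j hj => by
    refine Finsupp.ext fun u => (entry_of_P hb j u).2.2 ?_
    have := le_abs_self (-n - 1)
    have := neg_abs_le (-n - 1)
    simp only [MC.pt]
    omega
  exact ⟨b', hb'⟩

omit hr in
theorem col_van_dual {n : ℤ} (h : (cx (MC.pt k) P (M.fL.at 0)).Van (-n)) :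
    (cx P (MC.pt k) (M'.fR.at 0)).Van n := by
  refine van_of_finVan (M := M.fL) (M' := M'.fR) φ hl (fun a x' x => by simp) fun a ha => ?_
  obtain ⟨b, hb⟩ := h _ ha
  exact ⟨Finsupp.equivFunOnFinite.symm b, hb⟩

set_option linter.unusedSectionVars false in
theorem rowEx_dual (hcol : ColEx Q M) : RowEx Q M' := fun _ => row_van_dual φ hr (hcol _)

set_option linter.unusedSectionVars false in
theorem colEx_dual (hrow : RowEx P M) : ColEx P M' := fun _ => col_van_dual φ hl (hrow _)

end

namespace Half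

variable {E : Type*} [Ring E] [Algebra k E] (H : Half k E J)

omit [CharP k 2] in
theorem exists_dual : ∃ φ : E ≃ₗ[k] Module.Dual k E, ∀ a b, φ a b = H.tr (a * b) := by
  have := H.fin
  let f : E →ₗ[k] Module.Dual k E := (LinearMap.mul k E).compr₂ H.tr
  have hf : Function.Injective f := by
    rw [injective_iff_map_eq_zero]
    intro a ha
    exact H.tr_nondeg a fun b => LinearMap.congr_fun ha b
  exact ⟨LinearMap.linearEquivOfInjective f hf (Subspace.dual_finrank_eq).symm, fun _ _ => rfl⟩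

omit [CharP k 2] in
theorem δ_j₀ : H.Q.δ H.j₀ = 0 := by
  ext j
  by_contra h
  have := H.Q.hom _ _ h
  have := H.deg_nonneg j
  have := H.deg_j₀
  omega

omit [CharP k 2] in
theorem rmul_inl (r : J →₀ E) (l : J ⊕ J) :
    rmul (Bim.reg k E).r.flip H.splice.δ (r.mapDomain Sum.inl) l =
      r.sum fun j a => a * H.sδ (.inl j) l := by
  rw [rmul_apply, Finsupp.sum_mapDomain_index_inj Sum.inl_injective]
  rfl

omit [CharP k 2] in
theorem rmul_inl_inl (r : J →₀ E) (l : J) :
    rmul (Bim.reg k E).r.flip H.splice.δ (r.mapDomain Sum.inl) (.inl l) =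
      (r.sum fun j a => a • H.Q.δ j) l := by
  rw [rmul_inl, Finsupp.sum_apply]
  rfl

omit [CharP k 2] in
open Classical in
theorem rmul_inl_inr (r : J →₀ E) (l : J) :
    rmul (Bim.reg k E).r.flip H.splice.δ (r.mapDomain Sum.inl) (.inr l) =
      if l = H.j₀ then r H.j₀ * H.ω else 0 := by
  rw [rmul_inl, Finsupp.sum_eq_single H.j₀ (fun j _ hj => by simp [sδ, hj]) (fun _ => zero_mul _)]
  by_cases h : l = H.j₀ <;> simp [sδ, h]

theorem row_van_nonneg {m : ℤ} (hm : 0 ≤ m) :
    (cx (MC.pt k) H.splice ((Bim.reg k E).fL.at 0)).Van (-m) := by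
  classical
  rw [row_van_iff]
  intro r h1 h2 h3
  obtain ⟨r, rfl⟩ : ∃ r₁ : J →₀ E, r₁.mapDomain Sum.inl = r := by
    refine ⟨r.comapDomain Sum.inl Sum.inl_injective.injOn,
      Finsupp.mapDomain_comapDomain _ Sum.inl_injective _ fun j hj => ?_⟩
    rcases j with j | j
    · exact ⟨j, rfl⟩
    · refine absurd (h2 (.inr j) ?_) (Finsupp.mem_support_iff.1 hj)
      have := H.deg_nonneg j
      simp only [splice_deg_inr]
      omega
  have hχ : H.χ (r H.j₀) = 0 := by
    have e := H.rmul_inl_inr r H.j₀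
    rw [h3, if_pos rfl, H.mul_ω] at e
    have := congrArg H.tr e
    simpa [H.tr_ω] using this.symm
  obtain ⟨r', hr'⟩ := H.exact r (fun j => by
    simpa [Finsupp.mapDomain_apply Sum.inl_injective] using h1 (.inl j))
    (Finsupp.ext fun l => by rw [← rmul_inl_inl, h3]; rfl) hχ
  refine ⟨(r'.erase H.j₀).mapDomain Sum.inl, Finsupp.ext fun l => ?_⟩
  rcases l with l | l
  · rw [rmul_inl_inl, Finsupp.mapDomain_apply Sum.inl_injective, ← hr']
    congr 1
    conv_rhs => rw [← Finsupp.erase_add_single H.j₀ r']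
    rw [Finsupp.sum_add_index' (h := fun j a => a • H.Q.δ j) (fun _ => zero_smul _ _)
      (fun _ _ _ => add_smul _ _ _), Finsupp.sum_single_index (h := fun j a => a • H.Q.δ j)
      (zero_smul _ _), δ_j₀, smul_zero, add_zero]
  · rw [rmul_inl_inr, Finsupp.erase_same, zero_mul, ite_self,
      Finsupp.mapDomain_of_notMem_range _ _ (by simp)]

omit [CharP k 2] in
theorem splice_deg_swap (j : J ⊕ J) : H.splice.deg j.swap = -1 - H.splice.deg j := by
  rcases j with j | j <;> simp

omit [CharP k 2] in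
theorem splice_ε_swap (j : J ⊕ J) : H.σ (H.splice.ε j.swap) = H.splice.ε j := by
  rcases j with j | j <;> simp [H.σ_ε]

omit [CharP k 2] in
theorem splice_δ_swap (i j : J ⊕ J) : H.σ (H.splice.δ j.swap i.swap) = H.splice.δ i j := by
  rw [splice_δ, splice_δ]
  rcases i with i | i <;> rcases j with j | j <;> simp only [sδ, Sum.swap_inl, Sum.swap_inr]
  · exact H.σ_σ _
  · by_cases h1 : i = H.j₀ <;> by_cases h2 : j = H.j₀ <;> simp [h1, h2, H.σ_ω]
  · exact map_zero _

omit [CharP k 2] in
theorem rmul_swap (r : J ⊕ J →₀ E) (l : J ⊕ J) :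
    rmul (Bim.reg k E).r.flip H.splice.δ r l =
      H.σ ((H.splice.δ l.swap).sum fun j a => a * H.σ (r j.swap)) := by
  rw [MC.sum_δ _ _ _ (fun _ => zero_mul _), map_sum,
    rmul_apply_of_subset (S := H.splice.fib (H.splice.deg l + 1))]
  · refine Finset.sum_equiv (Equiv.sumComm J J) (fun j => ?_) (fun j _ => ?_)
    · simp only [MC.mem_fib, Equiv.sumComm_apply, splice_deg_swap]
      omega
    · simp [H.σ_mul, H.σ_σ, splice_δ_swap]
  · intro j hj
    have : H.splice.δ j l ≠ 0 := fun h0 => hj (by simp [h0])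
    have := H.splice.hom _ _ this
    rw [MC.mem_fib]
    omega

theorem col_van_mirror {m : ℤ}
    (h : (cx (MC.pt k) H.splice ((Bim.reg k E).fL.at 0)).Van (-(-1 - m))) :
    (cx H.splice (MC.pt k) ((Bim.reg k E).fR.at 0)).Van m := by
  rw [row_van_iff] at h
  rw [col_van_iff]
  intro y h1 h2 h3
  have h0 : ∀ j : J ⊕ J, H.splice.deg j ≠ -1 - m → H.σ (y j.swap) = 0 := fun j hj => by
    rw [h2 _ (by rw [splice_deg_swap]; omega), map_zero]
  let r : J ⊕ J →₀ E := Finsupp.onFinset (H.splice.fib (-1 - m)) (fun j => H.σ (y j.swap))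
    fun j hj => by
      rw [MC.mem_fib]
      by_contra h'
      exact hj (h0 j h')
  have hr : ∀ j, r j = H.σ (y j.swap) := fun j => rfl
  obtain ⟨r', hr'⟩ := h r (fun j => by
    rw [Bim.reg_r, hr, ← splice_ε_swap, ← H.σ_mul]
    exact congrArg H.σ (h1 _)) (fun j hj => h0 j hj) (Finsupp.ext fun l => by
    rw [rmul_swap]
    simp only [hr, H.σ_σ, Sum.swap_swap]
    exact (congrArg H.σ (h3 _)).trans (map_zero _))
  refine ⟨fun i => if H.splice.deg i = m - 1 then H.σ (r' i.swap) else 0, fun i hi => if_neg hi,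
    fun i => ?_⟩
  by_cases hi : H.splice.deg i = m
  · have e := H.rmul_swap r' i.swap
    rw [hr', hr, Sum.swap_swap] at e
    have e' := congrArg H.σ e
    rw [H.σ_σ, H.σ_σ] at e'
    rw [e']
    refine Finsupp.sum_congr fun j hj => ?_
    have := H.splice.hom _ _ (Finsupp.mem_support_iff.1 hj)
    beta_reduce
    rw [if_pos (by omega)]
    rfl
  · rw [h2 i hi]
    refine Finset.sum_eq_zero fun j hj => ?_
    have := H.splice.hom _ _ (Finsupp.mem_support_iff.1 hj)
    beta_reduce
    rw [if_neg (by omega), map_zero]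

theorem rowEx : RowEx H.splice (Bim.reg k E) := by
  obtain ⟨φ, hφ⟩ := H.exists_dual
  intro n
  by_cases hn : n ≤ 0
  · simpa using H.row_van_nonneg (m := -n) (by omega)
  · exact row_van_dual (M := Bim.reg k E) φ (fun b x' x => by simp [hφ, mul_assoc])
      (H.col_van_mirror (H.row_van_nonneg (by omega)))

theorem colEx : ColEx H.splice (Bim.reg k E) := by
  obtain ⟨φ, hφ⟩ := H.exists_dual
  exact fun _ => col_van_dual (M := Bim.reg k E) φ (fun a x' x => by
    simp only [hφ, Bim.reg_l, Bim.reg_r]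
    rw [mul_assoc, H.tr_comm, mul_assoc]) (H.rowEx _)

end Half

end Crest.Agent.R186
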