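import Crest.Agent.R186.Red
import Crest.Agent.R186.Dual

/-!
The cohomology of the endomorphism complex of a complete resolution, read off by evaluation.
-/

set_option autoImplicit false

noncomputable section

namespace Crest.Agent.R186

universe u

variable {k : Type u} [Field k] [CharP k 2] {J : Type*} {E : Type u} [Ring E] [Algebra k E]

omit [CharP k 2] in
theorem alg_mmul {I J L : Type*} (χ : E →ₐ[k] k) (t : Mat I J E) (a : Mat J L E) (i : I) (l : L) :
    χ ((Bim.reg k E).ml t a i l) = (t i).sum fun j x => χ x * χ (a j l) := by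
  rw [mmul_apply, map_finsuppSum]
  simp

namespace Half

variable (H : Half k E J)

/-- the generator of degree zero -/
abbrev o : J ⊕ J := .inl H.j₀

omit [CharP k 2] in
theorem deg_o : H.splice.deg H.o = 0 := H.deg_j₀

omit [CharP k 2] in
theorem χ_ε_o : H.χ (H.splice.ε H.o) = 1 := H.χ_ε₀

omit [CharP k 2] in
theorem eq_o {i : J ⊕ J} (h : H.splice.deg i = 0) : i = H.o := by
  rcases i with i | i
  · rw [H.deg_zero i h]
  · have := H.deg_nonneg i
    rw [splice_deg_inr] at h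
    omega

omit [CharP k 2] in
open Classical in
theorem δ_o (j : J ⊕ J) : H.splice.δ H.o j = if j = .inr H.j₀ then H.ω else 0 := by
  rcases j with j | j
  · simp [splice_δ, sδ, H.δ_j₀]
  · simp [splice_δ, sδ]

theorem row_B (r : J ⊕ J →₀ E) (h1 : ∀ j, j ≠ H.o → r j = 0)
    (h2 : r H.o * H.splice.ε H.o = r H.o) (h3 : H.χ (r H.o) = 0) :
    ∃ r', rmul (Bim.reg k E).r.flip H.splice.δ r' = r := by
  refine (row_van_iff H.splice (Bim.reg k E) 0).1 (H.rowEx _) r (fun j => ?_)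
    (fun j hj => h1 j fun e => hj (e ▸ H.deg_o)) (Finsupp.ext fun l => ?_)
  · by_cases hj : j = H.o
    · rw [hj]
      exact h2
    · simp [h1 j hj]
  · rw [rmul_apply, Finsupp.sum_eq_single H.o (fun j hj hj' => absurd (h1 j hj') hj) (by simp),
      δ_o]
    split_ifs <;> simp [H.mul_ω, h3]

/-- a cocycle with trivial evaluation is a coboundary -/
theorem ev_inj {n : ℤ} {a : Mat (J ⊕ J) (J ⊕ J) E} (ha : (ecx k H.splice).Z n a)
    (h : ∀ i, H.χ (a i H.o) = 0) : (ecx k H.splice).B a := by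
  have key : ∀ i, H.splice.deg i = n → ∃ r', rmul (Bim.reg k E).r.flip H.splice.δ r' = a i :=
    fun i hi => H.row_B _ (fun j hj => (entry_of_P ha.1 i j).2.2 fun e => hj (H.eq_o (by omega)))
      (entry_of_P ha.1 i _).2.1 (h i)
  choose! b hb using key
  exact R186.ev_inj H.rowEx H.colEx (N := n) (b := b) ha fun i hi => (hb i hi).symm

theorem ev_B {a : Mat (J ⊕ J) (J ⊕ J) E} (ha : (ecx k H.splice).B a) (i j : J ⊕ J) :
    H.χ (a i j) = 0 := by
  obtain ⟨b, rfl⟩ := ha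
  rw [cx_D_at, Pi.add_apply, Finsupp.add_apply, map_add, mmul_apply, mmul_apply, map_finsuppSum,
    map_finsuppSum]
  simp [H.χ_splice_δ, Finsupp.sum]

theorem ev_zero {n : ℤ} {a : Mat (J ⊕ J) (J ⊕ J) E} (ha : (ecx k H.splice).P n a = a)
    {i j : J ⊕ J} (h : H.χ (a i j) ≠ 0) : H.splice.deg i - H.splice.deg j = n ∧
      H.χ (H.splice.ε i) ≠ 0 ∧ H.χ (H.splice.ε j) ≠ 0 := by
  obtain ⟨h1, h2, h3⟩ := entry_of_P ha i j
  refine ⟨?_, fun e => h ?_, fun e => h ?_⟩
  · by_contra e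
    exact h (by rw [h3 (by omega), map_zero])
  · rw [← h1, Bim.reg_l, map_mul, e, zero_mul]
  · rw [← h2, Bim.reg_r, map_mul, e, mul_zero]

theorem ev_surj (n : ℤ) (c : J ⊕ J → k)
    (hc : ∀ i, c i ≠ 0 → H.splice.deg i = n ∧ H.χ (H.splice.ε i) ≠ 0) :
    ∃ a, (ecx k H.splice).Z n a ∧ ∀ i, H.χ (a i H.o) = c i := by
  let x : Mat (J ⊕ J) (J ⊕ J) E := fun i =>
    Finsupp.single H.o (c i • (H.splice.ε i * H.splice.ε H.o))
  have hx0 : ∀ i, H.splice.deg i ≠ n → x i = 0 := fun i hi => by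
    simp [x, of_not_not (mt (fun h => (hc i h).1) hi)]
  have hx : (ecx k H.splice).P n x = x := Mat.ext' fun i j => by
    rw [cx_P_at]
    by_cases hj : j = H.o
    · subst hj
      split_ifs with h
      · simp only [x, Finsupp.single_eq_same, Bim.reg_l, Bim.reg_r, smul_mul_assoc, mul_smul_comm,
          mul_assoc, MC.εε]
        rw [← mul_assoc, MC.εε]
      · rw [hx0 i (by rw [H.deg_o] at h; omega)]
        rfl
    · simp [x, Finsupp.single_eq_of_ne hj]
  have key : ∀ i, ∃ r', rmul (Bim.reg k E).r.flip H.splice.δ r' =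
      (Bim.reg k E).ml H.splice.δ x i := fun i => by
    refine H.row_B _ (fun j hj => mmul_apply_eq_zero _ _ _ _ _ fun l => ?_) ?_ ?_
    · simp [x, Finsupp.single_eq_of_ne hj]
    · rw [mmul_apply, Finsupp.sum, Finset.sum_mul]
      refine Finset.sum_congr rfl fun j _ => ?_
      rw [Bim.reg_l, mul_assoc]
      exact congrArg _ (entry_of_P hx j _).2.1
    · simp [alg_mmul, H.χ_splice_δ, Finsupp.sum]
  choose x' hx' using key
  obtain ⟨a, ha, ha'⟩ := R186.ev_surj H.rowEx H.colEx (N := n) (x' := x') hx hx0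
    (funext fun i => (hx' i).symm)
  refine ⟨a, ha, fun i => ?_⟩
  by_cases hi : H.splice.deg i = n
  · by_cases h0 : c i = 0
    · simp [ha' i hi, x, h0]
    · have e : H.χ (H.splice.ε i) = 1 := by
        have := congrArg H.χ (H.splice.εε i)
        rw [map_mul] at this
        exact mul_left_cancel₀ (hc i h0).2 (by rw [this, mul_one])
      simp only [ha' i hi, x, Finsupp.single_eq_same, map_smul, map_mul, e, H.χ_ε_o, mul_one,
        smul_eq_mul]
  · rw [of_not_not (mt (fun h => (hc i h).1) hi)]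
    by_contra h
    have := (H.ev_zero ha.1 h).1
    rw [H.deg_o] at this
    omega

end Half

/-- The properties of the Koszul bimodule used by the gluing. -/
structure Kos (H : Half k E J) {V : Type u} [AddCommGroup V] [Module k V] (K : DG k E E V) where
  fin : Module.Finite k V
  bdd : ∀ m, m < 0 ∨ 4 < m → K.p m = 0
  row : RowEx H.splice K.toBim
  col : ColEx H.splice K.toBim
  van₀ : ∀ n, (cx H.splice H.splice ((K.comp 0).at 0)).Van n
  van : ∀ n, n ≠ -1 → n ≠ -4 → (cx H.splice H.splice K).Van n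
  e : V →ₗ[k] E
  he : DHom K ((Bim.reg k E).at 0) 0 e
  inj : ∀ c, (cx H.splice H.splice K).Z (-1) c → (ecx k H.splice).B (mmap e c) →
    (cx H.splice H.splice K).B c
  lam : V →ₗ[k] k
  lam_l : ∀ x, lam (K.l H.ω x) = H.χ (e x)
  lam_r : ∀ a x, lam (K.r a x) = H.χ a * lam x
  wt : J ⊕ J → ℤ
  wt_o : wt H.o = 0
  wt_eq : ∀ i j, H.χ (H.splice.ε i) ≠ 0 → H.χ (H.splice.ε j) ≠ 0 →
    H.splice.deg i = H.splice.deg j → wt i = wt j
  wt_ne : ∀ i, H.χ (H.splice.ε i) ≠ 0 → i ≠ H.o → wt i ≠ 0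

/-- A twist of the Koszul bimodule. -/
structure KTw {H : Half k E J} {V : Type u} [AddCommGroup V] [Module k V] {K : DG k E E V}
    (G : Kos H K) (c : k) where
  g : E →ₐ[k] E
  χ_g : ∀ a, H.χ (g a) = H.χ a
  g_ε : ∀ i, g (H.splice.ε i) = H.splice.ε i
  g_δ : ∀ i j, g (H.splice.δ i j) = c ^ (G.wt i - G.wt j) • H.splice.δ i j
  η₀ : V
  η₁ : E →ₗ[k] V
  p_η₀ : K.p 1 η₀ = η₀
  p_η₁ : ∀ a, K.p 2 (η₁ a) = η₁ a
  d_η₁ : ∀ a, K.d (η₁ a) = K.l a η₀ + K.r (g a) η₀
  η₁_mul : ∀ a b, η₁ (a * b) = K.l a (η₁ b) + K.r (g b) (η₁ a)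
  val : G.lam (K.d η₀) = 1

end Crest.Agent.R186
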