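import Mathlib

/-!
Row 186, explicit part: the shape of the resolution.
-/

set_option autoImplicit false
set_option linter.unusedVariables false
set_option linter.unusedSectionVars false

noncomputable section

namespace Crest.Agent.R186.Ex

open Finsupp

variable {k R : Type*} [Field k] [Ring R] [Algebra k R] (d c : ℕ → R)

/-- The vertical part of the differential. -/
def dv : ℕ × ℕ → (ℕ × ℕ →₀ R)
  | (_, 0) => 0
  | (j, n + 1) => single (j, n) (d n)

/-- The part of the differential lowering the weight. -/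
def dh : ℕ × ℕ → (ℕ × ℕ →₀ R)
  | (0, _) => 0
  | (j + 1, n) => single (j, n + 2) (c n)

@[simp] lemma dv_zero (j : ℕ) : dv d (j, 0) = 0 := rfl
@[simp] lemma dv_succ (j n : ℕ) : dv d (j, n + 1) = single (j, n) (d n) := rfl
@[simp] lemma dh_zero (n : ℕ) : dh c (0, n) = 0 := rfl
@[simp] lemma dh_succ (j n : ℕ) : dh c (j + 1, n) = single (j, n + 2) (c n) := rfl

/-- The differential of the generators. -/
def dl (p : ℕ × ℕ) : ℕ × ℕ →₀ R := dv d p + dh c p

/-- The differential. -/
def DD : (ℕ × ℕ →₀ R) →ₗ[R] (ℕ × ℕ →₀ R) := linearCombination R (dl d c)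

lemma DD_single (p : ℕ × ℕ) (a : R) : DD d c (single p a) = a • dl d c p := by
  simp [DD]

lemma DD_eq (r : ℕ × ℕ →₀ R) : DD d c r = r.sum fun j a => a • dl d c j := rfl

lemma DD_apply' (r : ℕ × ℕ →₀ R) (l : ℕ × ℕ) : DD d c r l = r.sum fun j a => a * dl d c j l := by
  rw [DD_eq, Finsupp.sum_apply]
  rfl

lemma dl_cases (i j : ℕ × ℕ) : dl d c i j = 0 ∨
    (i.1 = j.1 ∧ i.2 = j.2 + 1 ∧ dl d c i j = d j.2) ∨
      (i.1 = j.1 + 1 ∧ j.2 = i.2 + 2 ∧ dl d c i j = c i.2) := by
  obtain ⟨a, n⟩ := i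
  obtain ⟨b, m⟩ := j
  by_cases h1 : a = b ∧ n = m + 1
  · obtain ⟨rfl, rfl⟩ := h1
    refine Or.inr (Or.inl ⟨rfl, rfl, ?_⟩)
    cases a <;> simp [dl]
  by_cases h2 : a = b + 1 ∧ m = n + 2
  · obtain ⟨rfl, rfl⟩ := h2
    refine Or.inr (Or.inr ⟨rfl, rfl, ?_⟩)
    cases n <;> simp [dl]
  left
  have e1 : dv d (a, n) (b, m) = 0 := by
    cases n with
    | zero => rfl
    | succ n =>
      rw [dv_succ, single_apply, if_neg]
      simp only [Prod.mk.injEq]
      omega
  have e2 : dh c (a, n) (b, m) = 0 := by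
    cases a with
    | zero => rfl
    | succ a =>
      rw [dh_succ, single_apply, if_neg]
      simp only [Prod.mk.injEq]
      omega
  rw [dl, Finsupp.add_apply, e1, e2, add_zero]

lemma dl_v (j n : ℕ) : dl d c (j, n + 1) (j, n) = d n := by
  cases j <;> simp [dl]

lemma dl_h (j n : ℕ) : dl d c (j + 1, n) (j, n + 2) = c n := by
  cases n <;> simp [dl]

lemma DD_top (r : ℕ × ℕ →₀ R) (j n : ℕ) (h : ∀ m, r (j + 1, m) = 0) :
    DD d c r (j, n) = r (j, n + 1) * d n := by
  rw [DD_apply', Finsupp.sum_eq_single (j, n + 1), dl_v]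
  · intro p hp hne
    rcases dl_cases d c p (j, n) with h0 | ⟨h1, h2, _⟩ | ⟨h1, h2, _⟩
    · rw [h0, mul_zero]
    · exact absurd (Prod.ext (y := (j, n + 1)) h1 h2) hne
    · obtain ⟨a, m⟩ := p
      obtain rfl : a = j + 1 := h1
      exact absurd (h m) hp
  · intro _
    exact zero_mul _

lemma DD_two (r : ℕ × ℕ →₀ R) (j : ℕ) :
    DD d c r (j, 2) = r (j, 3) * d 2 + r (j + 1, 0) * c 0 := by
  induction r using Finsupp.induction_linear with
  | zero => simp
  | add f g hf hg =>
    simp only [map_add, Finsupp.add_apply, hf, hg, add_mul]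
    abel
  | single p a =>
    rw [DD_single, Finsupp.smul_apply, smul_eq_mul]
    by_cases h1 : p = (j, 3)
    · subst h1
      simp [dl_v d c j 2]
    by_cases h2 : p = (j + 1, 0)
    · subst h2
      simp [dl_h d c j 0]
    rw [single_eq_of_ne (Ne.symm h1), single_eq_of_ne (Ne.symm h2)]
    rcases dl_cases d c p (j, 2) with h0 | ⟨h3, h4, _⟩ | ⟨h3, h4, _⟩
    · simp [h0]
    · exact absurd (Prod.ext (y := (j, 3)) h3 h4) h1
    · exact absurd (Prod.ext h3 (by simp at h4 ⊢; omega)) h2

lemma DD_dl (hdd : ∀ n, d (n + 1) * d n = 0) (hcd : c 0 * d 1 = 0)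
    (hdc : ∀ n, d n * c n + c (n + 1) * d (n + 2) = 0) (hcc : ∀ n, c n * c (n + 2) = 0)
    (p : ℕ × ℕ) : DD d c (dl d c p) = 0 := by
  obtain ⟨j, n⟩ := p
  have key : ∀ j n : ℕ, single (j, n + 2) (d n * c n) + single (j, n + 2) (c (n + 1) * d (n + 2)) =
      (0 : ℕ × ℕ →₀ R) := fun j n => by rw [← single_add, hdc, single_zero]
  rcases j with _ | _ | j <;> rcases n with _ | _ | n <;>
    simp only [dl, map_add, dv_zero, dv_succ, dh_zero, dh_succ, DD_single, map_zero, add_zero,
      zero_add, smul_add, smul_single, smul_eq_mul, hdd, hcd, hcc, single_zero, smul_zero] <;>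
    exact key _ _

theorem exact_abs (ε : ℕ → R) (χ : R →ₐ[k] k) (hDD : ∀ p, DD d c (dl d c p) = 0)
    (hδε : ∀ i j, dl d c i j * ε j.2 = dl d c i j) (hχ : ∀ i j, χ (dl d c i j) = 0)
    (hχε : χ (ε 0) = 1)
    (h0 : ∀ a, a * ε 0 = a → ∃ (a' : R) (t : k), a = a' * d 0 + t • ε 0)
    (h1 : ∀ n, n ≠ 1 → ∀ a, a * ε (n + 1) = a → a * d n = 0 → ∃ a', a = a' * d (n + 1))
    (h2 : ∀ a, a * ε 2 = a → a * d 1 = 0 → ∃ a' a'', a = a' * d 2 + a'' * c 0)
    (h3 : ∀ (a : R) (t : k), a * d 2 + (t • ε 0) * c 0 = 0 → t = 0)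
    (r : ℕ × ℕ →₀ R) (hε : ∀ j, r j * ε j.2 = r j) (hr : DD d c r = 0) (hχr : χ (r (0, 0)) = 0) :
    ∃ r', DD d c r' = r := by
  have hDD' : ∀ s, DD d c (DD d c s) = 0 := fun s => by
    induction s using Finsupp.induction_linear with
    | zero => simp
    | add f g hf hg => simp only [map_add, hf, hg, add_zero]
    | single p a => rw [DD_single, map_smul, hDD, smul_zero]
  have hε' : ∀ s j, DD d c s j * ε j.2 = DD d c s j := fun s j => by
    rw [DD_apply', Finsupp.sum_mul]
    simp only [mul_assoc, hδε]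
  have hχ' : ∀ s j, χ (DD d c s j) = 0 := fun s j => by
    rw [DD_apply', map_finsuppSum]
    simp [hχ, Finsupp.sum]
  obtain ⟨N, hN⟩ : ∃ N, ∀ p : ℕ × ℕ, N ≤ p.1 → r p = 0 := by
    refine ⟨r.support.sup Prod.fst + 1, fun p hp => ?_⟩
    by_contra h
    have := Finset.le_sup (f := Prod.fst) (Finsupp.mem_support_iff.2 h)
    omega
  induction N generalizing r with
  | zero => exact ⟨0, by rw [map_zero]; exact (Finsupp.ext fun p => hN p (Nat.zero_le _)).symm⟩
  | succ N ih =>
    set W : Submodule R (ℕ × ℕ →₀ R) := supported R R {p | p.1 < N} with hW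
    set U : Submodule R (ℕ × ℕ →₀ R) := LinearMap.range (DD d c) ⊔ W with hU
    have hv : ∀ n a, single (N, n) (a * d n) ∈ U := fun n a => by
      have e : single (N, n) (a * d n) = DD d c (single (N, n + 1) a) - a • dh c (N, n + 1) := by
        simp [DD_single, dl]
      rw [e]
      refine U.sub_mem (Submodule.mem_sup_left ⟨_, rfl⟩) (U.smul_mem _ (Submodule.mem_sup_right ?_))
      cases N with
      | zero => exact W.zero_mem
      | succ M => exact single_mem_supported R _ (Nat.lt_succ_self M)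
    have hh : ∀ a, single (N, 2) (a * c 0) ∈ U := fun a =>
      Submodule.mem_sup_left ⟨single (N + 1, 0) a, by simp [DD_single, dl]⟩
    have hcyc : ∀ n, r (N, n + 1) * d n = 0 := fun n => by
      rw [← DD_top d c r N n fun m => hN _ le_rfl, hr]
      rfl
    obtain ⟨a₀, t, ht⟩ := h0 _ (hε (N, 0))
    have key : ∀ p, single p ((r - single (N, 0) (t • ε 0) : ℕ × ℕ →₀ R) p) ∈ U := by
      rintro ⟨j, n⟩
      rcases lt_trichotomy j N with hj | rfl | hj
      · exact Submodule.mem_sup_right (single_mem_supported R _ hj)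
      · rw [Finsupp.sub_apply]
        cases n with
        | zero =>
          rw [single_eq_same, ht, add_sub_cancel_right]
          exact hv _ _
        | succ n =>
          rw [single_eq_of_ne (by simp), sub_zero]
          by_cases hn : n = 1
          · subst hn
            obtain ⟨a', a'', h⟩ := h2 _ (hε (j, 2)) (hcyc 1)
            rw [h, single_add]
            exact U.add_mem (hv _ _) (hh _)
          · obtain ⟨a', h⟩ := h1 n hn _ (hε (j, n + 1)) (hcyc n)
            rw [h]
            exact hv _ _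
      · rw [Finsupp.sub_apply, hN (j, n) hj, single_eq_of_ne (by simp; omega), sub_zero, single_zero]
        exact U.zero_mem
    have hmem : r - single (N, 0) (t • ε 0) ∈ U := by
      rw [← Finsupp.sum_single (r - single (N, 0) (t • ε 0))]
      exact U.sum_mem fun p _ => key p
    obtain ⟨_, ⟨r', rfl⟩, w, hw, e⟩ := Submodule.mem_sup.1 hmem
    have hw0 : ∀ p : ℕ × ℕ, N ≤ p.1 → w p = 0 := fun p hp =>
      (mem_supported' R w).1 hw p (by simpa using hp)
    have e2 : r - DD d c r' = w + single (N, 0) (t • ε 0) := by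
      rw [← sub_add_cancel r (single (N, 0) (t • ε 0)), ← e]
      abel
    have c1 : DD d c (r - DD d c r') = 0 := by rw [map_sub, hr, hDD', sub_zero]
    have c2 : χ ((r - DD d c r') (0, 0)) = 0 := by
      rw [Finsupp.sub_apply, map_sub, hχr, hχ', sub_zero]
    have c3 : (r - DD d c r') (N, 0) = t • ε 0 := by
      rw [e2, Finsupp.add_apply, hw0 _ le_rfl, single_eq_same, zero_add]
    have ht0 : t = 0 := by
      cases N with
      | zero => rwa [c3, map_smul, hχε, smul_eq_mul, mul_one] at c2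
      | succ M =>
        refine h3 ((r - DD d c r') (M, 3)) t ?_
        rw [← c3, ← DD_two, c1]
        rfl
    obtain ⟨r'', h⟩ := ih (r - DD d c r')
      (fun j => by rw [Finsupp.sub_apply, sub_mul, hε, hε']) c1 c2
      (fun p hp => by rw [e2, ht0, zero_smul, single_zero, add_zero, hw0 p hp])
    exact ⟨r' + r'', by rw [map_add, h, add_sub_cancel]⟩

end Crest.Agent.R186.Ex
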