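import Crest.Agent.R186.ExplicitSym

/-!
Row 186, explicit part: the symbolic identities.
-/

set_option autoImplicit false
set_option maxRecDepth 100000

namespace Crest.Agent.R186.Ex

/-- The table of the anti-involution. -/
def SIG : List (ℕ × ℕ × ℕ) :=
  [(0, 0, 0), (1, 1, 0), (2, 3, 0), (3, 2, 0), (4, 4, 0), (5, 7, 0), (6, 8, 0), (7, 5, 0),
   (8, 6, 0), (9, 9, 0), (10, 10, 0), (11, 11, 0), (12, 13, 0), (13, 12, 0), (14, 14, 0),
   (15, 17, 0), (16, 18, 0), (17, 15, 0), (18, 16, 0), (19, 19, 0)]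

/-- The table of the automorphism. -/
def HH : List (ℕ × ℕ × ℕ) :=
  [(0, 0, 0), (1, 1, 0), (2, 2, 0), (3, 3, 0), (4, 4, 0), (5, 5, 0), (6, 6, 0), (7, 7, 0),
   (8, 8, 0), (9, 9, 0), (10, 10, 1), (11, 11, 1), (12, 12, 1), (13, 13, 1), (14, 14, 1),
   (15, 15, 1), (16, 16, 1), (17, 17, 1), (18, 18, 1), (19, 19, 1)]

/-- The terms of the twisted central element. -/
def ZZ : List (SV × SV) :=
  [([(3, 1)], [(1, 11)]), ([(3, 5)], [(1, 15)]), ([(3, 6)], [(1, 16)]), ([(3, 9)], [(1, 19)]),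
   ([(1, 11)], [(1, 1)]), ([(1, 17)], [(1, 7)]), ([(1, 18)], [(1, 8)]), ([(1, 19)], [(1, 9)])]

/-- The unit. -/
def sone : SV := [(1, 0), (1, 1)]

lemma chk_assoc : isZ (smul (smul gen0 gen1) gen2 ++ smul gen0 (smul gen1 gen2)) = true := by
  decide +kernel

lemma chk_one_mul : isZ (smul sone gen0 ++ gen0) = true := by decide +kernel

lemma chk_mul_one : isZ (smul gen0 sone ++ gen0) = true := by decide +kernel

lemma chk_coc : isZ (smul gen0 (stau gen1 gen2 gen3) ++ stau (smul gen0 gen1) gen2 gen3 ++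
    stau gen0 (smul gen1 gen2) gen3 ++ stau gen0 gen1 (smul gen2 gen3) ++
    smul (stau gen0 gen1 gen2) gen3) = true := by
  decide +kernel

lemma chk_tau_one : isZ (stau gen0 sone gen1) = true := by decide +kernel

lemma chk_sig_mul :
    isZ (slin SIG (smul gen0 gen1) ++ smul (slin SIG gen1) (slin SIG gen0)) = true := by
  decide +kernel

lemma chk_sig_sig : isZ (slin SIG (slin SIG gen0) ++ gen0) = true := by decide +kernel

lemma chk_h_mul :
    isZ (slin HH (smul gen0 gen1) ++ smul (slin HH gen0) (slin HH gen1)) = true := by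
  decide +kernel

lemma chk_h_one : isZ (slin HH sone ++ sone) = true := by decide +kernel

lemma chk_h_sig : isZ (slin HH (slin SIG gen0) ++ slin SIG (slin HH gen0)) = true := by
  decide +kernel

lemma chk_z_comm : isZ2 ((ZZ.flatMap fun t => stens (smul gen0 t.1) t.2) ++
    ZZ.flatMap fun t => stens t.1 (smul t.2 (slin HH gen0))) = true := by
  decide +kernel

lemma chk_z_mul : isZ (ZZ.flatMap fun t => smul t.1 t.2) = true := by decide +kernel

lemma chk_z_tau : isZ (ZZ.flatMap fun t => smul (stau gen0 gen1 t.1) t.2) = true := by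
  decide +kernel

/-- The filtration degree of the basis vectors. -/
def wtB (l : ℕ) : ℕ := [0, 0, 2, 2, 4, 1, 3, 1, 3, 2, 5, 5, 3, 3, 1, 4, 2, 4, 2, 3].getD l 0

lemma chk_wt : ∀ t ∈ MULT, wtB t.2.2.1 = wtB t.1 + wtB t.2.1 := by decide +kernel

lemma chk_wt_lt : ∀ l < 20, wtB l < 6 ∧ (wtB l < 1 → l = 0 ∨ l = 1) := by decide +kernel

end Crest.Agent.R186.Ex
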