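import Crest.Agent.R186.ExplicitAlg
import Crest.Agent.R186.ExplicitChk

/-!
Row 186, explicit part: the ring structure and the identities of the seed algebra.
-/

set_option autoImplicit false
set_option linter.unusedVariables false
set_option linter.unusedSectionVars false
set_option linter.unusedSimpArgs false

noncomputable section

namespace Crest.Agent.R186.Ex

open TensorProduct

universe u

variable {k : Type u} [Field k] {q : k}

/-- The product. -/
irreducible_def mulA (a b : Alg q) : Alg q := mulT MULT a b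

instance : Mul (Alg q) := ⟨mulA⟩
instance : One (Alg q) := ⟨B 0 + B 1⟩

lemma mul_def (a b : Alg q) : a * b = mulT MULT a b := mulA_def a b
lemma one_def : (1 : Alg q) = B 0 + B 1 := rfl

lemma co_mul (i : ℕ) (a b : Alg q) : co i (a * b) = (MULT.map fun t =>
    if i = t.2.2.1 ∧ i < 20 then q ^ t.2.2.2 * co t.1 a * co t.2.1 b else 0).sum := by
  rw [mul_def, mulT_apply, map_list_sum, List.map_map]
  congr 1
  refine List.map_congr_left fun t _ => ?_
  simp only [Function.comp, map_smul, co_B, smul_eq_mul, mul_ite, mul_one, mul_zero]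

lemma co_mul_0 (a b : Alg q) : co 0 (a * b) =
    co 0 a * co 0 b := by
  simp [co_mul, MULT, add_assoc]

lemma co_mul_1 (a b : Alg q) : co 1 (a * b) =
    co 1 a * co 1 b := by
  simp [co_mul, MULT, add_assoc]

lemma co_mul_2 (a b : Alg q) : co 2 (a * b) =
    co 0 a * co 2 b + co 2 a * co 0 b + co 5 a * co 7 b := by
  simp [co_mul, MULT, add_assoc]

lemma co_mul_3 (a b : Alg q) : co 3 (a * b) =
    co 0 a * co 3 b + co 3 a * co 0 b + co 5 a * co 7 b := by
  simp [co_mul, MULT, add_assoc]

lemma co_mul_4 (a b : Alg q) : co 4 (a * b) =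
    co 0 a * co 4 b + q * co 2 a * co 3 b + co 3 a * co 2 b + co 4 a * co 0 b + co 5 a * co 8 b +
      co 6 a * co 7 b := by
  simp [co_mul, MULT, add_assoc]

lemma co_mul_5 (a b : Alg q) : co 5 (a * b) =
    co 0 a * co 5 b + co 5 a * co 1 b := by
  simp [co_mul, MULT, add_assoc]

lemma co_mul_6 (a b : Alg q) : co 6 (a * b) =
    co 0 a * co 6 b + q * co 2 a * co 5 b + co 3 a * co 5 b + co 5 a * co 9 b +
      q * co 5 a * co 9 b + co 6 a * co 1 b := by
  simp [co_mul, MULT, add_assoc]

lemma co_mul_7 (a b : Alg q) : co 7 (a * b) =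
    co 1 a * co 7 b + co 7 a * co 0 b := by
  simp [co_mul, MULT, add_assoc]

lemma co_mul_8 (a b : Alg q) : co 8 (a * b) =
    co 1 a * co 8 b + co 7 a * co 2 b + q * co 7 a * co 3 b + co 8 a * co 0 b + co 9 a * co 7 b +
      q * co 9 a * co 7 b := by
  simp [co_mul, MULT, add_assoc]

lemma co_mul_9 (a b : Alg q) : co 9 (a * b) =
    co 1 a * co 9 b + co 7 a * co 5 b + co 9 a * co 1 b := by
  simp [co_mul, MULT, add_assoc]

lemma co_mul_10 (a b : Alg q) : co 10 (a * b) =
    co 0 a * co 10 b + co 2 a * co 12 b + co 3 a * co 13 b + co 4 a * co 14 b +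
      co 5 a * co 15 b + co 6 a * co 16 b + co 10 a * co 0 b + co 12 a * co 2 b +
      co 13 a * co 3 b + co 14 a * co 4 b + co 17 a * co 7 b + co 18 a * co 8 b := by
  simp [co_mul, MULT, add_assoc]

lemma co_mul_11 (a b : Alg q) : co 11 (a * b) =
    co 1 a * co 11 b + co 7 a * co 17 b + co 8 a * co 18 b + co 9 a * co 19 b +
      co 11 a * co 1 b + co 15 a * co 5 b + co 16 a * co 6 b + co 19 a * co 9 b := by
  simp [co_mul, MULT, add_assoc]

lemma co_mul_12 (a b : Alg q) : co 12 (a * b) =
    co 0 a * co 12 b + q * co 3 a * co 14 b + q * co 5 a * co 16 b + co 12 a * co 0 b +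
      co 14 a * co 3 b + co 18 a * co 7 b := by
  simp [co_mul, MULT, add_assoc]

lemma co_mul_13 (a b : Alg q) : co 13 (a * b) =
    co 0 a * co 13 b + co 2 a * co 14 b + co 5 a * co 16 b + co 13 a * co 0 b +
      q * co 14 a * co 2 b + q * co 18 a * co 7 b := by
  simp [co_mul, MULT, add_assoc]

lemma co_mul_14 (a b : Alg q) : co 14 (a * b) =
    co 0 a * co 14 b + co 14 a * co 0 b := by
  simp [co_mul, MULT, add_assoc]

lemma co_mul_15 (a b : Alg q) : co 15 (a * b) =
    co 1 a * co 15 b + co 7 a * co 12 b + co 7 a * co 13 b + co 8 a * co 14 b +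
      co 9 a * co 16 b + q * co 9 a * co 16 b + co 15 a * co 0 b + q * co 16 a * co 2 b +
      co 16 a * co 3 b + co 19 a * co 7 b := by
  simp [co_mul, MULT, add_assoc]

lemma co_mul_16 (a b : Alg q) : co 16 (a * b) =
    co 1 a * co 16 b + co 7 a * co 14 b + co 16 a * co 0 b := by
  simp [co_mul, MULT, add_assoc]

lemma co_mul_17 (a b : Alg q) : co 17 (a * b) =
    co 0 a * co 17 b + co 2 a * co 18 b + q * co 3 a * co 18 b + co 5 a * co 19 b +
      co 12 a * co 5 b + co 13 a * co 5 b + co 14 a * co 6 b + co 17 a * co 1 b +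
      co 18 a * co 9 b + q * co 18 a * co 9 b := by
  simp [co_mul, MULT, add_assoc]

lemma co_mul_18 (a b : Alg q) : co 18 (a * b) =
    co 0 a * co 18 b + co 14 a * co 5 b + co 18 a * co 1 b := by
  simp [co_mul, MULT, add_assoc]

lemma co_mul_19 (a b : Alg q) : co 19 (a * b) =
    co 1 a * co 19 b + co 7 a * co 18 b + q * co 7 a * co 18 b + co 16 a * co 5 b +
      q * co 16 a * co 5 b + co 19 a * co 1 b := by
  simp [co_mul, MULT, add_assoc]

variable [CharP k 2]

lemma ev_mul {val : ℕ → k} (h : val 2 = q) (u v : SV) :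
    (ev val (smul u v) : Alg q) = ev val u * ev val v := by
  rw [mul_def, ev_smul h]

lemma ev_sone {val : ℕ → k} : (ev val sone : Alg q) = 1 := ev_one

lemma mul_assoc' (a b c : Alg q) : a * b * c = a * (b * c) := by
  have := ev_of_isZ (q := q) (env q 0 (vec a b c 0)) chk_assoc
  simp only [ev_append, ev_mul (env_two _ _), ev_gen0, ev_gen1, ev_gen2] at this
  exact eq_of_add (k := k) this

lemma one_mul' (a : Alg q) : 1 * a = a := by
  have := ev_of_isZ (q := q) (env q 0 (vec a 0 0 0)) chk_one_mul
  simp only [ev_append, ev_mul (env_two _ _), ev_gen0, ev_sone] at this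
  exact eq_of_add (k := k) this

lemma mul_one' (a : Alg q) : a * 1 = a := by
  have := ev_of_isZ (q := q) (env q 0 (vec a 0 0 0)) chk_mul_one
  simp only [ev_append, ev_mul (env_two _ _), ev_gen0, ev_sone] at this
  exact eq_of_add (k := k) this

instance : NonUnitalNonAssocRing (Alg q) where
  __ := (inferInstance : AddCommGroup (Alg q))
  left_distrib a b c := by simp only [mul_def, map_add]
  right_distrib a b c := by simp only [mul_def, map_add, LinearMap.add_apply]
  zero_mul a := by simp only [mul_def, map_zero, LinearMap.zero_apply]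
  mul_zero a := by simp only [mul_def, map_zero]

instance : Monoid (Alg q) where
  mul_assoc := mul_assoc'
  one_mul := one_mul'
  mul_one := mul_one'
  npow := npowRec
  npow_zero _ := rfl
  npow_succ _ _ := rfl

instance : Ring (Alg q) where
  __ := (inferInstance : NonUnitalNonAssocRing (Alg q))
  __ := (inferInstance : Monoid (Alg q))

instance : Algebra k (Alg q) :=
  Algebra.ofModule (fun r x y => by simp only [mul_def, map_smul, LinearMap.smul_apply])
    fun r x y => by simp only [mul_def, map_smul]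

/-- The cocycle. -/
irreducible_def tau (q : k) : Alg q →ₗ[k] Alg q →ₗ[k] Alg q →ₗ[k] Alg q := tauT TAU

/-- The anti-involution. -/
irreducible_def sig (q : k) : Alg q →ₗ[k] Alg q := linT 0 SIG

/-- The automorphism. -/
irreducible_def hL (q H : k) : Alg q →ₗ[k] Alg q := linT H HH

lemma ev_tau {val : ℕ → k} (h : val 2 = q) (u v w : SV) :
    (ev val (stau u v w) : Alg q) = tau q (ev val u) (ev val v) (ev val w) := by
  rw [tau_def, ev_stau h]

lemma linT_SIG (H : k) : linT H SIG = sig q := by
  simp [sig_def, linT, SIG]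

lemma ev_sig {val : ℕ → k} (u : SV) : (ev val (slin SIG u) : Alg q) = sig q (ev val u) := by
  rw [ev_slin rfl, linT_SIG]

lemma ev_h {val : ℕ → k} {H : k} (h : val 3 = H) (u : SV) :
    (ev val (slin HH u) : Alg q) = hL q H (ev val u) := by
  rw [hL_def, ev_slin h]

lemma tau_coc (a b c d : Alg q) : a * tau q b c d + tau q (a * b) c d + tau q a (b * c) d +
    tau q a b (c * d) + tau q a b c * d = 0 := by
  have := ev_of_isZ (q := q) (env q 0 (vec a b c d)) chk_coc
  simpa only [ev_append, ev_mul (env_two _ _), ev_tau (env_two _ _), ev_gen0, ev_gen1, ev_gen2,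
    ev_gen3] using this

lemma tau_one (a b : Alg q) : tau q a 1 b = 0 := by
  have := ev_of_isZ (q := q) (env q 0 (vec a b 0 0)) chk_tau_one
  simpa only [ev_tau (env_two _ _), ev_gen0, ev_gen1, ev_sone] using this

lemma sig_mul (a b : Alg q) : sig q (a * b) = sig q b * sig q a := by
  have := ev_of_isZ (q := q) (env q 0 (vec a b 0 0)) chk_sig_mul
  simp only [ev_append, ev_mul (env_two _ _), ev_sig, ev_gen0, ev_gen1] at this
  exact eq_of_add (k := k) this

lemma sig_sig (a : Alg q) : sig q (sig q a) = a := by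
  have := ev_of_isZ (q := q) (env q 0 (vec a 0 0 0)) chk_sig_sig
  simp only [ev_append, ev_sig, ev_gen0] at this
  exact eq_of_add (k := k) this

lemma h_mul (H : k) (a b : Alg q) : hL q H (a * b) = hL q H a * hL q H b := by
  have := ev_of_isZ (q := q) (env q H (vec a b 0 0)) chk_h_mul
  simp only [ev_append, ev_mul (env_two _ _), ev_h (env_three _ _), ev_gen0, ev_gen1] at this
  exact eq_of_add (k := k) this

lemma h_one (H : k) : hL q H 1 = 1 := by
  have := ev_of_isZ (q := q) (env q H (vec 0 0 0 0)) chk_h_one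
  simp only [ev_append, ev_h (env_three _ _), ev_sone] at this
  exact eq_of_add (k := k) this

lemma h_sig (H : k) (a : Alg q) : hL q H (sig q a) = sig q (hL q H a) := by
  have := ev_of_isZ (q := q) (env q H (vec a 0 0 0)) chk_h_sig
  simp only [ev_append, ev_h (env_three _ _), ev_sig, ev_gen0] at this
  exact eq_of_add (k := k) this

/-- The twisted central element. -/
def zz (q H : k) : Alg q ⊗[k] Alg q :=
  (H • B 1) ⊗ₜ B 11 + (H • B 5) ⊗ₜ B 15 + (H • B 6) ⊗ₜ B 16 + (H • B 9) ⊗ₜ B 19 +
    B 11 ⊗ₜ B 1 + B 17 ⊗ₜ B 7 + B 18 ⊗ₜ B 8 + B 19 ⊗ₜ B 9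

lemma ev_HB (H : k) (x : ℕ → Alg q) (i : ℕ) : (ev (env q H x) [(3, i)] : Alg q) = H • B i := by
  simp [ev, evc_prime _ Nat.prime_three, env_three]

lemma z_comm (H : k) (a : Alg q) : (LinearMap.mulLeft k a).rTensor (Alg q) (zz q H) =
    (LinearMap.mulRight k (hL q H a)).lTensor (Alg q) (zz q H) := by
  have := ev2_of_isZ2 (q := q) (env q H (vec a 0 0 0)) chk_z_comm
  rw [ev2_append] at this
  have := eq_of_add (k := k) this
  simp only [ZZ, List.flatMap_cons, List.flatMap_nil, List.append_nil, ev2_append, ev2_stens,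
    ev_mul (env_two _ _), ev_h (env_three _ _), ev_gen0, ev_HB, ev_B] at this
  simp only [zz, map_add, LinearMap.rTensor_tmul, LinearMap.lTensor_tmul, LinearMap.mulLeft_apply,
    LinearMap.mulRight_apply, add_assoc]
  exact this

lemma z_mul (H : k) : LinearMap.mul' k (Alg q) (zz q H) = 0 := by
  have := ev_of_isZ (q := q) (env q H (vec 0 0 0 0)) chk_z_mul
  simp only [ZZ, List.flatMap_cons, List.flatMap_nil, List.append_nil, ev_append,
    ev_mul (env_two _ _), ev_HB, ev_B] at this
  simp only [zz, map_add, LinearMap.mul'_apply, add_assoc]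
  exact this

lemma z_tau (H : k) (a b : Alg q) :
    LinearMap.mul' k (Alg q) ((tau q a b).rTensor (Alg q) (zz q H)) = 0 := by
  have := ev_of_isZ (q := q) (env q H (vec a b 0 0)) chk_z_tau
  simp only [ZZ, List.flatMap_cons, List.flatMap_nil, List.append_nil, ev_append,
    ev_mul (env_two _ _), ev_tau (env_two _ _), ev_gen0, ev_gen1, ev_HB, ev_B] at this
  simp only [zz, map_add, LinearMap.rTensor_tmul, LinearMap.mul'_apply, add_assoc]
  exact this

lemma sig_B (i j : ℕ) (h : (i, j, 0) ∈ SIG) : sig q (B i) = B j := by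
  simp only [SIG, List.mem_cons, Prod.mk.injEq, List.not_mem_nil, or_false, and_true] at h
  rcases h with h | h | h | h | h | h | h | h | h | h | h | h | h | h | h | h | h | h | h | h <;>
    obtain ⟨rfl, rfl⟩ := h <;> simp [sig_def, linT_apply, SIG, co_B]

lemma co_one_sig (a : Alg q) : co 1 (sig q a) = co 1 a := by
  simp [sig_def, linT_apply, SIG, co_B]

lemma h_B (H : k) (i e : ℕ) (h : (i, i, e) ∈ HH) : hL q H (B i) = H ^ e • B i := by
  simp only [HH, List.mem_cons, Prod.mk.injEq, List.not_mem_nil, or_false, and_self_left] at h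
  rcases h with h | h | h | h | h | h | h | h | h | h | h | h | h | h | h | h | h | h | h | h <;>
    obtain ⟨rfl, rfl⟩ := h <;> simp [hL_def, linT_apply, HH, co_B]

lemma co_one_h (H : k) (a : Alg q) : co 1 (hL q H a) = co 1 a := by
  simp [hL_def, linT_apply, HH, co_B]

end Crest.Agent.R186.Ex
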