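import Crest.Agent.R186.Seed
import Crest.Agent.R186.ExplicitRing
import Crest.Agent.R186.ExplicitRes

/-!
Row 186, explicit part: the seed algebra.
-/

set_option autoImplicit false
set_option linter.unusedVariables false
set_option linter.unusedSectionVars false
set_option linter.unusedSimpArgs false
set_option linter.unusedTactic false
set_option linter.unreachableTactic false
set_option linter.unnecessarySeqFocus false

noncomputable section

namespace Crest.Agent.R186.Ex

open TensorProduct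

universe u

variable {k : Type u} [Field k] [CharP k 2] {q : k}

/-- Compute the coordinates of products. -/
macro "co_simp" : tactic => `(tactic| simp [co_mul_0, co_mul_1, co_mul_2, co_mul_3, co_mul_4,
  co_mul_5, co_mul_6, co_mul_7, co_mul_8, co_mul_9, co_mul_10, co_mul_11, co_mul_12, co_mul_13,
  co_mul_14, co_mul_15, co_mul_16, co_mul_17, co_mul_18, co_mul_19, co_B])

/-- Prove an identity coordinatewise. -/
macro "co_ext" : tactic => `(tactic| (refine Alg.ext' (forall_lt_20.2 ?_); co_simp))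

lemma two_eq (k : Type u) [Field k] [CharP k 2] : (2 : k) = 0 := CharTwo.two_eq_zero

/-- The character of the simple module. -/
def chi (q : k) : Alg q →ₐ[k] k :=
  AlgHom.ofLinearMap (co 1) (by simp [one_def, co_B]) co_mul_1

lemma chi_apply (a : Alg q) : chi q a = co 1 a := rfl

/-- The semisimple quotient. -/
def piL (q : k) : Alg q →ₗ[k] (Fin 2 → k) := LinearMap.pi fun i => co i

/-- The semisimple quotient. -/
def piA (q : k) : Alg q →ₐ[k] (Fin 2 → k) :=
  AlgHom.ofLinearMap (piL q) (by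
    funext i
    fin_cases i <;> simp [piL, one_def, co_B]) fun a b => by
    funext i
    fin_cases i <;> simp [piL, co_mul_0, co_mul_1]

lemma piA_apply (a : Alg q) (i : Fin 2) : piA q a i = co i a := rfl

lemma piA_surj : Function.Surjective (piA q) := fun f =>
  ⟨f 0 • B 0 + f 1 • B 1, by
    funext i
    fin_cases i <;> simp [piA_apply, co_B]⟩

/-- The filtration. -/
def Fil (q : k) (m : ℕ) : Submodule k (Alg q) where
  carrier := {a | ∀ l, wtB l < m → co l a = 0}
  add_mem' ha hb l hl := by rw [map_add, ha l hl, hb l hl, add_zero]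
  zero_mem' l _ := map_zero _
  smul_mem' t a ha l hl := by rw [map_smul, ha l hl, smul_zero]

lemma Fil_mul (m n : ℕ) : Fil q m * Fil q n ≤ Fil q (m + n) := by
  refine Submodule.mul_le.2 fun a ha b hb l hl => ?_
  rw [co_mul]
  refine List.sum_eq_zero fun x hx => ?_
  obtain ⟨t, ht, rfl⟩ := List.mem_map.1 hx
  split_ifs with h
  · have := chk_wt t ht
    rw [← h.1] at this
    by_cases h1 : wtB t.1 < m
    · rw [ha _ h1, mul_zero, zero_mul]
    · rw [hb _ (by omega), mul_zero]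
  · rfl

lemma piA_nil : (LinearMap.ker (piA q).toLinearMap) ^ 6 = ⊥ := by
  have h1 : LinearMap.ker (piA q).toLinearMap ≤ Fil q 1 := fun a ha l hl => by
    have h0 : piA q a = 0 := ha
    by_cases h : l < 20
    · rcases (chk_wt_lt l h).2 hl with rfl | rfl
      · exact congrFun h0 0
      · exact congrFun h0 1
    · exact co_of_le (not_lt.1 h) a
  have h2 : ∀ n, (LinearMap.ker (piA q).toLinearMap) ^ (n + 1) ≤ Fil q (n + 1) := fun n => by
    induction n with
    | zero => simpa using h1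
    | succ n ih => exact (pow_succ _ _).le.trans ((mul_le_mul' ih h1).trans (Fil_mul _ _))
  refine le_bot_iff.1 ((h2 5).trans fun a ha => ?_)
  exact Alg.ext' fun l hl => by rw [ha l (chk_wt_lt l hl).1, map_zero]

/-- The symmetrizing form. -/
def trL (q : k) : Alg q →ₗ[k] k := co 10 + co 11

lemma tr_comm (a b : Alg q) : trL q (a * b) = trL q (b * a) := by
  simp only [trL, LinearMap.add_apply, co_mul_10, co_mul_11]
  ring

lemma tr_nondeg (a : Alg q) (h : ∀ b, trL q (a * b) = 0) : a = 0 := by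
  have h' : ∀ j < 20, trL q (a * B j) = 0 := fun j _ => h _
  rw [forall_lt_20] at h'
  simp [trL, co_mul_10, co_mul_11, co_B] at h'
  refine Alg.ext' (forall_lt_20.2 ?_)
  simp only [map_zero]
  tauto

/-- The elements `x + q ^ n y`. -/
def uu (q : k) (n : ℕ) : Alg q := B 2 + q ^ n • B 3

/-- The vertical differentials. -/
def dd (q : k) : ℕ → Alg q
  | 0 => B 5
  | n + 1 => uu q (n + 1)

/-- The differentials lowering the weight. -/
def cc (q : k) : ℕ → Alg q
  | 0 => B 16
  | n + 1 => q⁻¹ ^ (n + 1) • B 14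

/-- The types of the generators. -/
def ee (q : k) : ℕ → Alg q
  | 0 => B 1
  | _ + 1 => B 0

lemma dd_zero : dd q 0 = B 5 := rfl
lemma dd_succ (n : ℕ) : dd q (n + 1) = B 2 + q ^ (n + 1) • B 3 := rfl
lemma cc_zero : cc q 0 = B 16 := rfl
lemma cc_succ (n : ℕ) : cc q (n + 1) = q⁻¹ ^ (n + 1) • B 14 := rfl
lemma ee_zero : ee q 0 = B 1 := rfl
lemma ee_succ (n : ℕ) : ee q (n + 1) = B 0 := rfl

lemma dd_dd (n : ℕ) : dd q (n + 1) * dd q n = 0 := by
  cases n with
  | zero =>
    rw [dd_succ, dd_zero]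
    co_ext
    linear_combination q * two_eq k
  | succ n =>
    rw [dd_succ, dd_succ]
    co_ext
    linear_combination q ^ (n + 2) * two_eq k

lemma cc_dd : cc q 0 * dd q 1 = 0 := by
  rw [dd_succ, cc_zero]
  co_ext
  linear_combination q * two_eq k

lemma dd_cc (hq : q ≠ 0) (n : ℕ) : dd q n * cc q n + cc q (n + 1) * dd q (n + 2) = 0 := by
  cases n with
  | zero =>
    rw [dd_succ, dd_zero, cc_succ, cc_zero]
    co_ext
    constructor
    · field_simp
      linear_combination q * two_eq k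
    · field_simp
      linear_combination two_eq k
  | succ n =>
    rw [dd_succ, dd_succ, cc_succ, cc_succ]
    co_ext
    constructor
    · field_simp
      linear_combination q ^ (n + 3) * two_eq k
    · field_simp
      linear_combination q ^ (n + 2) * two_eq k

lemma cc_cc (n : ℕ) : cc q n * cc q (n + 2) = 0 := by
  cases n <;> simp only [cc_succ, cc_zero] <;> co_ext

lemma ee_ee (n : ℕ) : ee q n * ee q n = ee q n := by
  cases n <;> simp only [ee_succ, ee_zero] <;> co_ext

lemma ee_dd (n : ℕ) : ee q (n + 1) * dd q n = dd q n := by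
  cases n <;> simp only [ee_succ, dd_succ, dd_zero] <;> co_ext

lemma dd_ee (n : ℕ) : dd q n * ee q n = dd q n := by
  cases n <;> simp only [ee_succ, ee_zero, dd_succ, dd_zero] <;> co_ext

lemma ee_cc (n : ℕ) : ee q n * cc q n = cc q n := by
  cases n <;> simp only [ee_succ, ee_zero, cc_succ, cc_zero] <;> co_ext

lemma cc_ee (n : ℕ) : cc q n * ee q (n + 2) = cc q n := by
  cases n <;> simp only [ee_succ, cc_succ, cc_zero] <;> co_ext

lemma co_dd (n : ℕ) : co 1 (dd q n) = 0 := by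
  cases n <;> simp [dd_succ, dd_zero, co_B]

lemma co_cc (n : ℕ) : co 1 (cc q n) = 0 := by
  cases n <;> simp [cc_succ, cc_zero, co_B]

lemma coords {a b : Alg q} (h : a = b) : ∀ i < 20, co i a = co i b := fun _ _ => by rw [h]

lemma one_add_ne (hq : ∀ n : ℕ, 0 < n → q ^ n ≠ 1) {n : ℕ} (hn : 0 < n) : 1 + q ^ n ≠ 0 :=
  fun h => hq n hn (by linear_combination h - two_eq k)

lemma ker_zero (hq : ∀ n : ℕ, 0 < n → q ^ n ≠ 1) (a : Alg q) (h : a * ee q 0 = a) :
    ∃ (a' : Alg q) (t : k), a = a' * dd q 0 + t • ee q 0 := by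
  have h1 := one_add_ne hq Nat.one_pos
  rw [pow_one] at h1
  have e := forall_lt_20.1 (coords h)
  rw [ee_zero] at e
  revert e
  co_simp
  intro e0 e2 e3 e4 e7 e8 e10 e12 e13 e14 e15 e16
  refine ⟨co 5 a • B 0 + co 6 a • B 3 + co 9 a • B 7 + co 17 a • B 12 + co 18 a • B 14 +
    co 11 a • B 15 + (co 19 a / (1 + q)) • B 16, co 1 a, ?_⟩
  rw [dd_zero, ee_zero]
  co_ext
  simp only [← e0, ← e2, ← e3, ← e4, ← e7, ← e8, ← e10, ← e12, ← e13, ← e14, ← e15, ← e16,
    true_and]
  field_simp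

lemma coords_e1 {a : Alg q} (h : a * B 0 = a) : co 1 a = 0 ∧ co 5 a = 0 ∧ co 6 a = 0 ∧
    co 9 a = 0 ∧ co 11 a = 0 ∧ co 17 a = 0 ∧ co 18 a = 0 ∧ co 19 a = 0 := by
  have e := forall_lt_20.1 (coords h)
  revert e
  co_simp
  intro e1 e5 e6 e9 e11 e17 e18 e19
  simp only [← e1, ← e5, ← e6, ← e9, ← e11, ← e17, ← e18, ← e19, and_self]

lemma ker_i (hq0 : q ≠ 0) (hq : ∀ n : ℕ, 0 < n → q ^ n ≠ 1) (a : Alg q) (h : a * B 0 = a)
    (h' : a * dd q 0 = 0) : ∃ a', a = a' * dd q 1 := by
  have h1 := one_add_ne hq Nat.one_pos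
  have h2 := one_add_ne hq Nat.two_pos
  rw [pow_one] at h1
  obtain ⟨e1, e5, e6, e9, e11, e17, e18, e19⟩ := coords_e1 h
  have e := forall_lt_20.1 (coords h')
  rw [dd_zero] at e
  revert e
  co_simp
  intro e0 e3 e7 e15 e13 e14 e16
  have e16' : co 16 a = 0 := by
    refine (mul_eq_zero.1 (?_ : (1 + q) * co 16 a = 0)).resolve_left h1
    linear_combination e16
  have e3' : co 3 a = q * co 2 a := by linear_combination e3 - q * co 2 a * two_eq k
  have e13' : co 12 a = co 13 a := by linear_combination e13 - co 13 a * two_eq k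
  refine ⟨co 2 a • B 0 + co 4 a • B 3 + (co 8 a / (1 + q ^ 2)) • B 7 + co 10 a • B 12 +
    (co 13 a / q) • B 14, ?_⟩
  rw [dd_succ]
  co_ext
  simp only [e0, e1, e5, e6, e7, e9, e11, e14, e15, e16', e17, e18, e19, e3', e13', true_and,
    and_true]
  refine ⟨?_, ?_, ?_, ?_⟩ <;> field_simp

lemma ker_u (hq0 : q ≠ 0) (hq : ∀ n : ℕ, 0 < n → q ^ n ≠ 1) (n : ℕ) (a : Alg q)
    (h : a * B 0 = a) (h' : a * dd q (n + 1) = 0) :
    (n ≠ 0 → co 16 a = 0) ∧ ∃ a', a = a' * dd q (n + 2) + co 16 a • B 16 := by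
  have h1 := one_add_ne hq (Nat.succ_pos n)
  have h2 := one_add_ne hq (Nat.succ_pos (n + 1))
  have h3 := one_add_ne hq (Nat.succ_pos (n + 2))
  have ht : q ^ (n + 1) ≠ 0 := pow_ne_zero _ hq0
  obtain ⟨e1, e5, e6, e9, e11, e17, e18, e19⟩ := coords_e1 h
  have e := forall_lt_20.1 (coords h')
  rw [dd_succ] at e
  revert e
  co_simp
  simp only [hq0, false_and, false_or, or_false]
  intro e0 _ e3 e7 e12 e14 _ e16
  constructor
  · intro hn
    obtain ⟨m, rfl⟩ : ∃ m, n = m + 1 := Nat.exists_eq_succ_of_ne_zero hn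
    have h4 := one_add_ne hq (Nat.succ_pos m)
    refine (mul_eq_zero.1 (?_ : (q * (1 + q ^ (m + 1))) * co 16 a = 0)).resolve_left
      (mul_ne_zero hq0 h4)
    linear_combination e16
  have e7' : co 7 a = 0 := by
    refine (mul_eq_zero.1 (?_ : (1 + q ^ (n + 2)) * co 7 a = 0)).resolve_left h2
    linear_combination e7
  have e3' : co 3 a = q ^ (n + 2) * co 2 a := by
    linear_combination e3 - q ^ (n + 2) * co 2 a * two_eq k
  have e12' : co 12 a = q ^ (n + 1) * co 13 a := by
    linear_combination e12 - q ^ (n + 1) * co 13 a * two_eq k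
  refine ⟨co 2 a • B 0 + co 4 a • B 3 + (co 8 a / (1 + q ^ (n + 3))) • B 7 + co 10 a • B 12 +
    (co 13 a / q) • B 14 + (co 15 a / (q * (1 + q ^ (n + 1)))) • B 16, ?_⟩
  rw [dd_succ]
  co_ext
  simp only [e0, e1, e5, e6, e7', e9, e11, e14, e17, e18, e19, e3', e12', true_and, and_true]
  refine ⟨?_, ?_, ?_, ?_, ?_⟩ <;> field_simp <;> ring

lemma not_mem_u (a : Alg q) (t : k) (h : a * dd q 2 + (t • ee q 0) * cc q 0 = 0) : t = 0 := by
  have e := coords h 16 (by norm_num)
  rw [dd_succ, ee_zero, cc_zero] at e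
  revert e
  co_simp

/-- The resolution. -/
def QQ {q : k} (hq0 : q ≠ 0) : MC (Alg q) (ℕ × ℕ) where
  deg p := 3 * p.1 + p.2
  fib n := (Finset.range (n.toNat + 1) ×ˢ Finset.range (n.toNat + 1)).filter
    fun p => (3 * p.1 + p.2 : ℤ) = n
  mem_fib n p := by
    simp only [Finset.mem_filter, Finset.mem_product, Finset.mem_range]
    omega
  ε p := ee q p.2
  δ := dl (dd q) (cc q)
  εε p := ee_ee _
  εδ i j := by
    rcases dl_cases (dd q) (cc q) i j with h | ⟨_, h1, h⟩ | ⟨_, h1, h⟩ <;> rw [h]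
    · exact mul_zero _
    · rw [h1, ee_dd]
    · exact ee_cc _
  δε i j := by
    rcases dl_cases (dd q) (cc q) i j with h | ⟨_, h1, h⟩ | ⟨_, h1, h⟩ <;> rw [h]
    · exact zero_mul _
    · exact dd_ee _
    · rw [h1, cc_ee]
  hom i j hij := by
    rcases dl_cases (dd q) (cc q) i j with h | ⟨h0, h1, h⟩ | ⟨h0, h1, h⟩
    · exact absurd h hij
    · omega
    · omega
  δδ i l := by
    rw [← DD_apply', DD_dl _ _ dd_dd cc_dd (dd_cc hq0) cc_cc]
    rfl

lemma chi_dl (i j : ℕ × ℕ) : chi q (dl (dd q) (cc q) i j) = 0 := by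
  rcases dl_cases (dd q) (cc q) i j with h | ⟨_, h1, h⟩ | ⟨_, h1, h⟩ <;> rw [h]
  exacts [map_zero _, co_dd _, co_cc _]

lemma co_tauT (T : List (ℕ × ℕ × ℕ × ℕ × ℕ)) (a b c : Alg q) : co 1 (tauT T a b c) =
    ((T.filter fun t => t.2.2.2.1 == 1).map fun t =>
      q ^ t.2.2.2.2 * co t.1 a * co t.2.1 b * co t.2.2.1 c).sum := by
  rw [tauT_apply]
  induction T with
  | nil => simp
  | cons t T ih =>
    rw [List.map_cons, List.sum_cons, map_add, ih, map_smul, co_B, List.filter_cons]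
    by_cases h : t.2.2.2.1 = 1
    · simp [h]
    · simp [h, Ne.symm h]

lemma filter_TAU : (TAU.filter fun t => t.2.2.2.1 == 1) =
    [(7, 2, 18, 1, 0), (7, 2, 18, 1, 2), (7, 5, 19, 1, 0), (7, 5, 19, 1, 1), (7, 13, 5, 1, 0),
     (7, 13, 5, 1, 2), (16, 2, 5, 1, 1), (16, 2, 5, 1, 3), (19, 7, 5, 1, 1), (19, 7, 5, 1, 2)] := by
  decide +kernel

lemma co_one_tau (a b c : Alg q) : co 1 (tau q a b c) =
    (1 + q ^ 2) * co 7 a * co 2 b * co 18 c + (1 + q) * co 7 a * co 5 b * co 19 c +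
      (1 + q ^ 2) * co 7 a * co 13 b * co 5 c + (q + q ^ 3) * co 16 a * co 2 b * co 5 c +
        (q + q ^ 2) * co 19 a * co 7 b * co 5 c := by
  rw [tau_def, co_tauT, filter_TAU]
  simp
  ring

lemma sum_path (m : ℕ) (φ : Alg q → Alg q → Alg q → k) (h2 : ∀ a c, φ a 0 c = 0)
    (h3 : ∀ a b, φ a b 0 = 0) (h2' : ∀ a b b' c, φ a (b + b') c = φ a b c + φ a b' c)
    (h1 : ∀ b c, φ 0 b c = 0) :
    ((dl (dd q) (cc q) (m + 1, 0)).sum fun j a => (dl (dd q) (cc q) j).sum fun j' b =>
      φ a b (dl (dd q) (cc q) j' (m, 0))) = φ (B 16) (B 2 + q • B 3) (B 5) := by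
  rw [dl, dv_zero, dh_succ, zero_add, Finsupp.sum_single_index (by simp [h1, Finsupp.sum]),
    Finsupp.sum_eq_single (m, 1), dl_v, dl_v, cc_zero, dd_succ, dd_zero, zero_add, pow_one]
  · intro j _ hj
    rcases dl_cases (dd q) (cc q) j (m, 0) with h | ⟨h0, h1, h⟩ | ⟨h0, h1, h⟩
    · rw [h, h3]
    · exact absurd (Prod.ext (y := (m, 1)) h0 h1) hj
    · simp at h1
  · intro _
    exact h2 _ _

lemma val_ne (hq0 : q ≠ 0) (hq : ∀ n : ℕ, 0 < n → q ^ n ≠ 1) : q + q ^ 3 ≠ 0 := by
  have := mul_ne_zero hq0 (one_add_ne hq Nat.two_pos)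
  intro h
  exact this (by linear_combination h)

/-- The seed. -/
def seed {q : k} (hq0 : q ≠ 0) (hq : ∀ n : ℕ, 0 < n → q ^ n ≠ 1) : Seed k (Alg q) (ℕ × ℕ) where
  fin := inferInstance
  π := piA q
  π_surj := piA_surj
  π_nil := ⟨6, piA_nil⟩
  π_two := ⟨B 3, B 2, by
    funext i
    fin_cases i <;> simp [piA_apply, co_B], by
    funext i
    fin_cases i <;> simp [piA_apply, co_B], fun h => by
    have e := coords h 4 (by norm_num)
    revert e
    co_simp⟩
  χ := chi q
  tr := trL q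
  tr_comm := tr_comm
  tr_nondeg := tr_nondeg
  ω := B 11
  mul_ω a := by
    rw [chi_apply]
    co_ext
  ω_mul a := by
    rw [chi_apply]
    co_ext
  χ_ω := by simp [chi_apply, co_B]
  tr_ω := by simp [trL, co_B]
  σ := sig q
  σ_mul := sig_mul
  σ_σ := sig_sig
  σ_ω := sig_B _ _ (by decide)
  χ_σ := co_one_sig
  Q := QQ hq0
  deg_nonneg j := by
    change (0 : ℤ) ≤ 3 * j.1 + j.2
    omega
  σ_ε j := by
    change sig q (ee q j.2) = ee q j.2
    cases j.2 <;> exact sig_B _ _ (by decide)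
  χ_δ := chi_dl
  s m := (m, 0)
  deg_s m := by
    change (3 * m + (0 : ℕ) : ℤ) = 3 * m
    omega
  deg_zero j hj := by
    change (3 * j.1 + j.2 : ℤ) = 0 at hj
    exact Prod.ext (by simp only; omega) (by simp only; omega)
  χ_ε_s m := by
    change co 1 (B 1 : Alg q) = 1
    simp [co_B]
  χ_ε j hj := by
    obtain ⟨m, n⟩ := j
    cases n with
    | zero => exact ⟨m, rfl⟩
    | succ n =>
      refine absurd ?_ hj
      change co 1 (B 0 : Alg q) = 0
      simp [co_B]
  exact r hε hr hχ := by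
    refine exact_abs (dd q) (cc q) (ee q) (chi q) (DD_dl _ _ dd_dd cc_dd (dd_cc hq0) cc_cc)
      (QQ hq0).δε chi_dl (by simp [chi_apply, ee_zero, co_B]) (ker_zero hq) ?_ ?_ not_mem_u r hε hr hχ
    · intro n hn a ha ha'
      cases n with
      | zero => exact ker_i hq0 hq a ha ha'
      | succ n =>
        obtain ⟨h1, a', h2⟩ := ker_u hq0 hq n a ha ha'
        exact ⟨a', by rwa [h1 (by omega), zero_smul, add_zero] at h2⟩
    · intro a ha ha'
      obtain ⟨_, a', h2⟩ := ker_u hq0 hq 0 a ha ha'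
      refine ⟨a', co 16 a • 1, ?_⟩
      rw [smul_mul_assoc, one_mul, cc_zero]
      exact h2
  wt p := p.1
  wt_s m := rfl
  τ := tau q
  τ_coc := tau_coc
  τ_one := tau_one
  τ_pos m := by
    have := sum_path (q := q) m (fun a b c => chi q (tau q a b c)) (by simp) (by simp) (by simp)
      (by simp)
    refine this.trans_ne ?_
    rw [chi_apply, co_one_tau]
    simpa [co_B] using val_ne hq0 hq
  τ_neg m := by
    have := sum_path (q := q) m (fun a b c => chi q (tau q (sig q c) (sig q b) (sig q a)))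
      (by simp) (by simp) (by simp) (by simp)
    refine this.trans_ne ?_
    rw [chi_apply, co_one_tau, map_add, map_smul, sig_B 16 18 (by decide), sig_B 5 7 (by decide),
      sig_B 2 3 (by decide), sig_B 3 2 (by decide)]
    have h2 := one_add_ne hq Nat.two_pos
    simp [co_B, hq0, h2]

/-- The twist. -/
def twist {q : k} (hq0 : q ≠ 0) (hq : ∀ n : ℕ, 0 < n → q ^ n ≠ 1) (H : k) :
    Twist (seed hq0 hq) H where
  h := AlgHom.ofLinearMap (hL q H) (h_one H) (h_mul H)
  χ_h := co_one_h H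
  h_σ := h_sig H
  h_ω := (h_B H 11 1 (by decide)).trans (by rw [pow_one]; rfl)
  h_ε j := by
    change hL q H (ee q j.2) = ee q j.2
    cases j.2
    · rw [ee_zero, h_B H 1 0 (by decide), pow_zero, one_smul]
    · rw [ee_succ, h_B H 0 0 (by decide), pow_zero, one_smul]
  h_δ i j := by
    change hL q H (dl (dd q) (cc q) i j) = H ^ ((i.1 : ℤ) - j.1) • dl (dd q) (cc q) i j
    rcases dl_cases (dd q) (cc q) i j with h | ⟨h0, h1, h⟩ | ⟨h0, h1, h⟩ <;> rw [h]
    · rw [map_zero, smul_zero]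
    · rw [h0, sub_self, zpow_zero, one_smul]
      cases j.2
      · rw [dd_zero, h_B H 5 0 (by decide), pow_zero, one_smul]
      · rw [dd_succ, map_add, map_smul, h_B H 2 0 (by decide), h_B H 3 0 (by decide), pow_zero,
          one_smul, one_smul]
    · rw [h0, Nat.cast_succ, add_sub_cancel_left, zpow_one]
      cases i.2
      · rw [cc_zero, h_B H 16 1 (by decide), pow_one]
      · rw [cc_succ, map_smul, h_B H 14 1 (by decide), pow_one, smul_comm]
  z := zz q H
  z_comm := z_comm H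
  z_mul := z_mul H
  z_τ := z_tau H
  z_val := by
    change LinearMap.mul' k k (TensorProduct.map (trL q) (chi q).toLinearMap (zz q H)) = 1
    simp [zz, trL, chi_apply, co_B]

end Crest.Agent.R186.Ex

namespace Crest.Agent.R186

universe u

theorem exists_seed (k : Type u) [Field k] [CharP k 2] (q : k) (hq0 : q ≠ 0)
    (hq : ∀ n : ℕ, 0 < n → q ^ n ≠ 1) :
    ∃ (A : Type u) (_ : Ring A) (_ : Algebra k A) (S : Seed k A (ℕ × ℕ)),
      ∀ H : k, H ≠ 0 → Nonempty (Twist S H) :=
  ⟨Ex.Alg q, inferInstance, inferInstance, Ex.seed hq0 hq, fun H _ => ⟨Ex.twist hq0 hq H⟩⟩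

end Crest.Agent.R186
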