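import Crest.Agent.R186.ExplicitSym

/-!
Row 186, explicit part: the algebra, and soundness of the symbolic computation.
-/

set_option autoImplicit false
set_option linter.unusedVariables false
set_option linter.unusedSectionVars false

noncomputable section

namespace Crest.Agent.R186.Ex

open TensorProduct

universe u

/-- The underlying vector space of the seed algebra. -/
def Alg {k : Type u} [Field k] (q : k) : Type u := Fin 20 → k

variable {k : Type u} [Field k] {q : k}

instance : AddCommGroup (Alg q) := inferInstanceAs (AddCommGroup (Fin 20 → k))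
instance : Module k (Alg q) := inferInstanceAs (Module k (Fin 20 → k))
instance : Module.Finite k (Alg q) := inferInstanceAs (Module.Finite k (Fin 20 → k))

/-- Coordinates. -/
def co (i : ℕ) : Alg q →ₗ[k] k :=
  if h : i < 20 then LinearMap.proj (R := k) (φ := fun _ : Fin 20 => k) ⟨i, h⟩ else 0

/-- Basis vectors. -/
def B (l : ℕ) : Alg q := fun j : Fin 20 => if j.val = l then 1 else 0

lemma co_B (i l : ℕ) : co i (B l : Alg q) = if i = l ∧ i < 20 then 1 else 0 := by
  unfold co
  split_ifs with h1 h2 h2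
  · exact if_pos h2.1
  · exact if_neg fun h => h2 ⟨h, h1⟩
  · exact absurd h2.2 h1
  · rfl

lemma co_of_le {i : ℕ} (h : 20 ≤ i) (x : Alg q) : co i x = 0 := by
  rw [co, dif_neg (by omega)]
  rfl

lemma Alg.ext' {x y : Alg q} (h : ∀ i < 20, co i x = co i y) : x = y := by
  funext j
  have := h j j.2
  rwa [co, dif_pos j.2] at this

lemma forall_lt_20 {P : ℕ → Prop} : (∀ i < 20, P i) ↔ P 0 ∧ P 1 ∧ P 2 ∧ P 3 ∧ P 4 ∧ P 5 ∧ P 6 ∧
    P 7 ∧ P 8 ∧ P 9 ∧ P 10 ∧ P 11 ∧ P 12 ∧ P 13 ∧ P 14 ∧ P 15 ∧ P 16 ∧ P 17 ∧ P 18 ∧ P 19 := by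
  constructor
  · intro h
    refine ⟨?_, ?_, ?_, ?_, ?_, ?_, ?_, ?_, ?_, ?_, ?_, ?_, ?_, ?_, ?_, ?_, ?_, ?_, ?_, ?_⟩ <;>
      exact h _ (by norm_num)
  · intro h i hi
    interval_cases i <;> tauto

lemma B_of_le {l : ℕ} (h : 20 ≤ l) : (B l : Alg q) = 0 :=
  Alg.ext' fun i hi => by rw [co_B, if_neg (by omega), map_zero]

lemma B_min (l : ℕ) : (B (min l 31) : Alg q) = B l := by
  rcases le_total l 31 with h | h
  · rw [min_eq_left h]
  · rw [min_eq_right h, B_of_le (by norm_num), B_of_le (by omega)]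

lemma sum_co_B (x : Alg q) : ((List.range 20).map fun i => co i x • (B i : Alg q)).sum = x := by
  refine Alg.ext' fun i hi => ?_
  rw [map_list_sum, List.map_map, ← List.sum_toFinset _ List.nodup_range, List.toFinset_range,
    Finset.sum_eq_single i]
  · simp [co_B, hi]
  · intro j _ hj
    simp [co_B, hj.symm]
  · intro h
    exact absurd (Finset.mem_range.2 hi) h

/-- The bilinear map given by a table. -/
def mulT (T : List (ℕ × ℕ × ℕ × ℕ)) : Alg q →ₗ[k] Alg q →ₗ[k] Alg q :=
  (T.map fun t => (co t.1).smulRight ((co t.2.1).smulRight (q ^ t.2.2.2 • B t.2.2.1))).sum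

lemma mulT_apply (T : List (ℕ × ℕ × ℕ × ℕ)) (x y : Alg q) : mulT T x y =
    (T.map fun t => (q ^ t.2.2.2 * co t.1 x * co t.2.1 y) • (B t.2.2.1 : Alg q)).sum := by
  induction T with
  | nil => simp [mulT]
  | cons t T ih =>
    simp only [mulT, List.map_cons, List.sum_cons, LinearMap.add_apply] at ih ⊢
    rw [ih]
    simp only [LinearMap.smulRight_apply, LinearMap.smul_apply, smul_smul]
    congr 2
    ring

/-- The trilinear map given by a table. -/
def tauT (T : List (ℕ × ℕ × ℕ × ℕ × ℕ)) : Alg q →ₗ[k] Alg q →ₗ[k] Alg q →ₗ[k] Alg q :=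
  (T.map fun t => (co t.1).smulRight ((co t.2.1).smulRight
    ((co t.2.2.1).smulRight (q ^ t.2.2.2.2 • B t.2.2.2.1)))).sum

lemma tauT_apply (T : List (ℕ × ℕ × ℕ × ℕ × ℕ)) (x y z : Alg q) : tauT T x y z =
    (T.map fun t => (q ^ t.2.2.2.2 * co t.1 x * co t.2.1 y * co t.2.2.1 z) •
      (B t.2.2.2.1 : Alg q)).sum := by
  induction T with
  | nil => simp [tauT]
  | cons t T ih =>
    simp only [tauT, List.map_cons, List.sum_cons, LinearMap.add_apply] at ih ⊢
    rw [ih]
    simp only [LinearMap.smulRight_apply, LinearMap.smul_apply, smul_smul]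
    congr 2
    ring

/-- The linear map given by a table. -/
def linT (H : k) (T : List (ℕ × ℕ × ℕ)) : Alg q →ₗ[k] Alg q :=
  (T.map fun t => (co t.1).smulRight (H ^ t.2.2 • B t.2.1)).sum

lemma linT_apply (H : k) (T : List (ℕ × ℕ × ℕ)) (x : Alg q) : linT H T x =
    (T.map fun t => (H ^ t.2.2 * co t.1 x) • (B t.2.1 : Alg q)).sum := by
  induction T with
  | nil => simp [linT]
  | cons t T ih =>
    simp only [linT, List.map_cons, List.sum_cons, LinearMap.add_apply] at ih ⊢
    rw [ih]
    simp only [LinearMap.smulRight_apply, smul_smul]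
    congr 2
    ring

/-! ### Evaluation of symbolic vectors -/

/-- The value of a symbolic vector. -/
def ev (val : ℕ → k) (v : SV) : Alg q := (v.map fun t => evc val t.1 • (B t.2 : Alg q)).sum

variable (val : ℕ → k)

lemma ev_nil : (ev val [] : Alg q) = 0 := rfl

lemma ev_cons (t : ℕ × ℕ) (v : SV) : (ev val (t :: v) : Alg q) = evc val t.1 • B t.2 + ev val v := by
  simp [ev]

lemma ev_append (u v : SV) : (ev val (u ++ v) : Alg q) = ev val u + ev val v := by
  simp [ev]

lemma ev_flatMap {α : Type} (L : List α) (f : α → SV) :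
    (ev val (L.flatMap f) : Alg q) = (L.map fun t => ev val (f t)).sum := by
  induction L with
  | nil => rfl
  | cons t L ih => rw [List.flatMap_cons, ev_append, ih, List.map_cons, List.sum_cons]

lemma co_ev (v : SV) (i : ℕ) : co i (ev val v : Alg q) = ((get v i).map (evc val)).sum := by
  unfold get
  cases h : Nat.ble 20 i
  · have hi : i < 20 := by
      by_contra h'
      rw [Nat.ble_eq_true_of_le (not_lt.1 h')] at h
      exact absurd h (by simp)
    rw [cond_false]
    induction v with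
    | nil => simp [ev_nil]
    | cons t v ih =>
      rw [ev_cons, map_add, ih, map_smul, co_B]
      cases h' : Nat.beq t.2 i
      · rw [if_neg fun h'' => Nat.ne_of_beq_eq_false h' h''.1.symm]
        simp [h']
      · rw [if_pos ⟨(Nat.eq_of_beq_eq_true h').symm, hi⟩]
        simp [h']
  · rw [cond_true, co_of_le (Nat.le_of_ble_eq_true h)]
    rfl

lemma ev_map (L : List ℕ) (m l : ℕ) : (ev val (L.map fun c => (m * c, l)) : Alg q) =
    (evc val m * (L.map (evc val)).sum) • B l := by
  induction L with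
  | nil => simp [ev_nil]
  | cons c L ih =>
    rw [List.map_cons, ev_cons, ih, evc_mul, List.map_cons, List.sum_cons, mul_add, add_smul]

lemma ev_map₂ (L L' : List ℕ) (m l : ℕ) :
    (ev val (L.flatMap fun c => L'.map fun c' => (m * c * c', l)) : Alg q) =
      (evc val m * (L.map (evc val)).sum * (L'.map (evc val)).sum) • B l := by
  induction L with
  | nil => simp [ev_nil]
  | cons c L ih =>
    rw [List.flatMap_cons, ev_append, ih, ev_map, evc_mul, List.map_cons, List.sum_cons, mul_add,
      add_mul, add_smul]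

lemma ev_map₃ (L L' L'' : List ℕ) (m l : ℕ) :
    (ev val (L.flatMap fun c => L'.flatMap fun c' => L''.map fun c'' => (m * c * c' * c'', l)) :
      Alg q) = (evc val m * (L.map (evc val)).sum * (L'.map (evc val)).sum *
        (L''.map (evc val)).sum) • B l := by
  induction L with
  | nil => simp [ev_nil]
  | cons c L ih =>
    rw [List.flatMap_cons, ev_append, ih, ev_map₂, evc_mul, List.map_cons, List.sum_cons, mul_add,
      add_mul, add_mul, add_smul]

variable {val}

lemma ev_smul (h : val 2 = q) (u v : SV) :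
    (ev val (smul u v) : Alg q) = mulT MULT (ev val u) (ev val v) := by
  rw [smul, ev_flatMap, mulT_apply]
  simp only [ev_map₂, co_ev, evc_pow, evc_prime val Nat.prime_two, h]

lemma ev_stau (h : val 2 = q) (u v w : SV) :
    (ev val (stau u v w) : Alg q) = tauT TAU (ev val u) (ev val v) (ev val w) := by
  rw [stau, ev_flatMap, tauT_apply]
  simp only [ev_map₃, co_ev, evc_pow, evc_prime val Nat.prime_two, h]

lemma ev_slin {H : k} (h : val 3 = H) (T : List (ℕ × ℕ × ℕ)) (u : SV) :
    (ev val (slin T u) : Alg q) = linT H T (ev val u) := by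
  rw [slin, ev_flatMap, linT_apply]
  simp only [ev_map, co_ev, evc_pow, evc_prime val Nat.prime_three, h]

lemma ev_B (i : ℕ) : (ev val [(1, i)] : Alg q) = B i := by
  simp [ev, evc_one]

lemma ev_one : (ev val [(1, 0), (1, 1)] : Alg q) = B 0 + B 1 := by
  simp [ev, evc_one]

/-- The value of a symbolic tensor. -/
def ev2 (val : ℕ → k) (v : List (ℕ × ℕ × ℕ)) : Alg q ⊗[k] Alg q :=
  (v.map fun t => evc val t.1 • ((B t.2.1 : Alg q) ⊗ₜ[k] (B t.2.2 : Alg q))).sum

lemma ev2_append (u v : List (ℕ × ℕ × ℕ)) :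
    (ev2 val (u ++ v) : Alg q ⊗[k] Alg q) = ev2 val u + ev2 val v := by
  simp [ev2]

lemma ev2_stens (u v : SV) :
    (ev2 val (stens u v) : Alg q ⊗[k] Alg q) = ev val u ⊗ₜ[k] ev val v := by
  unfold stens
  induction u with
  | nil => simp [ev2, ev_nil]
  | cons s u ih =>
    rw [List.flatMap_cons, ev2_append, ih, ev_cons, add_tmul]
    congr 1
    clear ih
    induction v with
    | nil => simp [ev2, ev_nil]
    | cons t v ih =>
      rw [ev_cons, tmul_add, ← ih]
      simp only [ev2, List.map_cons, List.sum_cons, evc_mul, smul_tmul_smul]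

/-- The values of the primes. -/
def env (q : k) (H : k) (x : ℕ → Alg q) (p : ℕ) : k :=
  if p = 2 then q else if p = 3 then H else co (PR.idxOf p % 20) (x (PR.idxOf p / 20))

lemma env_two (H : k) (x : ℕ → Alg q) : env q H x 2 = q := rfl
lemma env_three (H : k) (x : ℕ → Alg q) : env q H x 3 = H := rfl

lemma ev_gen (H : k) (x : ℕ → Alg q) (s : ℕ) (v : SV) (h1 : v.map Prod.snd = List.range 20)
    (h2 : ∀ t ∈ v, t.1.Prime ∧ t.1 ≠ 2 ∧ t.1 ≠ 3 ∧ PR.idxOf t.1 % 20 = t.2 ∧ PR.idxOf t.1 / 20 = s) :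
    ev (env q H x) v = x s := by
  rw [← sum_co_B (x s), ← h1, List.map_map, ev]
  congr 1
  refine List.map_congr_left fun t ht => ?_
  obtain ⟨a, b, c, d, e⟩ := h2 t ht
  rw [evc_prime _ a, env, if_neg b, if_neg c, d, e]
  rfl

/-- Four elements. -/
def vec (a b c d : Alg q) : ℕ → Alg q
  | 0 => a
  | 1 => b
  | 2 => c
  | _ => d

lemma ev_gen0 (H : k) (a b c d : Alg q) : ev (env q H (vec a b c d)) gen0 = a :=
  ev_gen H _ 0 gen0 (by decide +kernel) (by decide +kernel)
lemma ev_gen1 (H : k) (a b c d : Alg q) : ev (env q H (vec a b c d)) gen1 = b :=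
  ev_gen H _ 1 gen1 (by decide +kernel) (by decide +kernel)
lemma ev_gen2 (H : k) (a b c d : Alg q) : ev (env q H (vec a b c d)) gen2 = c :=
  ev_gen H _ 2 gen2 (by decide +kernel) (by decide +kernel)
lemma ev_gen3 (H : k) (a b c d : Alg q) : ev (env q H (vec a b c d)) gen3 = d :=
  ev_gen H _ 3 gen3 (by decide +kernel) (by decide +kernel)

variable [CharP k 2]

lemma add_self {M : Type*} [AddCommGroup M] [Module k M] (m : M) : m + m = 0 := by
  rw [← two_smul k m, CharTwo.two_eq_zero, zero_smul]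

lemma eq_of_add {M : Type*} [AddCommGroup M] [Module k M] {x y : M} (h : x + y = 0) : x = y := by
  rw [← add_zero x, ← add_self (k := k) y, ← add_assoc, h, zero_add]

lemma ev_of_isZ (val : ℕ → k) {v : SV} (h : isZ v = true) : (ev val v : Alg q) = 0 := by
  have := sum_eq_zero_of_even (fun n => evc val (n / 32) • (B (n % 32) : Alg q))
    (add_self (k := k)) _ h
  rw [List.map_map] at this
  rw [ev, ← this]
  congr 1
  refine List.map_congr_left fun t _ => ?_
  have h1 : (t.1 * 32 + min t.2 31) / 32 = t.1 := by omega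
  have h2 : (t.1 * 32 + min t.2 31) % 32 = min t.2 31 := by omega
  simp only [Function.comp, h1, h2, B_min]

lemma ev2_of_isZ2 (val : ℕ → k) {v : List (ℕ × ℕ × ℕ)} (h : isZ2 v = true) :
    (ev2 val v : Alg q ⊗[k] Alg q) = 0 := by
  have := sum_eq_zero_of_even
    (fun n => evc val (n / 32 / 32) • ((B (n / 32 % 32) : Alg q) ⊗ₜ[k] (B (n % 32) : Alg q)))
    (add_self (k := k)) _ h
  rw [List.map_map] at this
  rw [ev2, ← this]
  congr 1
  refine List.map_congr_left fun t _ => ?_
  have h0 : ((t.1 * 32 + min t.2.1 31) * 32 + min t.2.2 31) / 32 = t.1 * 32 + min t.2.1 31 := by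
    omega
  have h1 : (t.1 * 32 + min t.2.1 31) / 32 = t.1 := by omega
  have h2 : (t.1 * 32 + min t.2.1 31) % 32 = min t.2.1 31 := by omega
  have h3 : ((t.1 * 32 + min t.2.1 31) * 32 + min t.2.2 31) % 32 = min t.2.2 31 := by omega
  simp only [Function.comp, h0, h1, h2, h3, B_min]

end Crest.Agent.R186.Ex
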