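import Crest.Agent.R186.ExplicitTab

/-!
Row 186, explicit part: symbolic computation with the tables.
-/

set_option autoImplicit false

namespace Crest.Agent.R186.Ex

universe u

/-! ### Cancellation in pairs -/

/-- Search trees with a parity bit. -/
inductive Tr : Type
  | nil : Tr
  | node : Tr → ℕ → Bool → Tr → Tr

/-- Toggle the parity of `x`. -/
noncomputable def Tr.tog (x : ℕ) (t : Tr) : Tr :=
  Tr.rec (Tr.node .nil x true .nil)
    (fun l y b r tl tr => bif Nat.beq x y then .node l y (!b) r
      else bif Nat.ble (x % 1000003) (y % 1000003) then .node tl y b r else .node l y b tr) t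

/-- All parities are even. -/
noncomputable def Tr.zero (t : Tr) : Bool :=
  Tr.rec true (fun _ _ b _ zl zr => bif b then false else bif zl then zr else false) t

/-- The sum of the entries of odd parity. -/
noncomputable def Tr.ev {M : Type*} [AddCommGroup M] (f : ℕ → M) (t : Tr) : M :=
  Tr.rec 0 (fun _ y b _ el er => el + (bif b then f y else 0) + er) t

section
variable {M : Type*} [AddCommGroup M] (f : ℕ → M)

lemma Tr.ev_nil : Tr.ev f .nil = 0 := rfl

lemma Tr.ev_node (l : Tr) (y : ℕ) (b : Bool) (r : Tr) :
    Tr.ev f (.node l y b r) = Tr.ev f l + (bif b then f y else 0) + Tr.ev f r := rfl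

lemma Tr.tog_node (x : ℕ) (l : Tr) (y : ℕ) (b : Bool) (r : Tr) :
    Tr.tog x (.node l y b r) = bif Nat.beq x y then .node l y (!b) r
      else bif Nat.ble (x % 1000003) (y % 1000003) then .node (Tr.tog x l) y b r
        else .node l y b (Tr.tog x r) := rfl

lemma Tr.ev_tog (h2 : ∀ m : M, m + m = 0) (x : ℕ) (t : Tr) :
    Tr.ev f (Tr.tog x t) = Tr.ev f t + f x := by
  induction t with
  | nil => simp [Tr.tog, Tr.ev]
  | node l y b r ihl ihr =>
    rw [Tr.tog_node]
    cases h : Nat.beq x y
    · cases Nat.ble (x % 1000003) (y % 1000003)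
      · simp only [cond_false, Tr.ev_node, ihr]
        abel
      · simp only [cond_false, cond_true, Tr.ev_node, ihl]
        abel
    · obtain rfl := Nat.eq_of_beq_eq_true h
      cases b
      · simp only [cond_true, Tr.ev_node, Bool.not_false, cond_false]
        abel
      · simp only [cond_true, Tr.ev_node, Bool.not_true, cond_false]
        rw [add_right_comm _ (Tr.ev f r) (f x), add_assoc (Tr.ev f l) (f x), h2]

lemma Tr.ev_of_zero (t : Tr) (h : t.zero = true) : Tr.ev f t = 0 := by
  induction t with
  | nil => rfl
  | node l y b r ihl ihr =>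
    have h' : (bif b then false else bif l.zero then r.zero else false) = true := h
    cases b
    · cases hl : l.zero
      · simp [hl] at h'
      · simp only [hl, cond_false, cond_true] at h'
        simp [Tr.ev_node, ihl hl, ihr h']
    · simp at h'

/-- Evaluate a number before passing it on. -/
noncomputable def force {β : Type} (n : ℕ) (g : ℕ → β) : β :=
  Nat.rec (g 0) (fun m _ => g (Nat.succ m)) n

lemma force_eq {β : Type} (n : ℕ) (g : ℕ → β) : force n g = g n := by
  cases n <;> rfl

/-- Every entry of the list occurs an even number of times. -/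
noncomputable def even (L : List ℕ) : Bool :=
  (List.rec (fun t => t) (fun x _ ih t => force x fun x' => ih (Tr.tog x' t)) L Tr.nil : Tr).zero

lemma sum_eq_zero_of_even (h2 : ∀ m : M, m + m = 0) (L : List ℕ) (h : even L = true) :
    (L.map f).sum = 0 := by
  have key : ∀ t : Tr, Tr.ev f (List.rec (motive := fun _ => Tr → Tr) (fun t => t)
      (fun x _ ih t => force x fun x' => ih (Tr.tog x' t)) L t) = Tr.ev f t + (L.map f).sum := by
    clear h
    induction L with
    | nil => simp
    | cons x L ih =>
      intro t
      have := ih (Tr.tog x t)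
      rw [Tr.ev_tog f h2, add_assoc] at this
      rw [List.map_cons, List.sum_cons, ← this]
      exact congrArg _ (force_eq _ _)
  have := key .nil
  rw [Tr.ev_of_zero f _ h, Tr.ev_nil, zero_add] at this
  exact this.symm

end

/-! ### Monomials coded by natural numbers -/

variable {k : Type u} [Field k]

/-- The value of the monomial with code `n`. -/
noncomputable def evc (val : ℕ → k) (n : ℕ) : k :=
  if n = 0 then 0 else (n.primeFactorsList.map val).prod

lemma evc_mul (val : ℕ → k) (a b : ℕ) : evc val (a * b) = evc val a * evc val b := by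
  unfold evc
  by_cases ha : a = 0
  · simp [ha]
  by_cases hb : b = 0
  · simp [hb]
  rw [if_neg ha, if_neg hb, if_neg (mul_ne_zero ha hb), ← List.prod_append, ← List.map_append]
  exact ((Nat.perm_primeFactorsList_mul ha hb).map val).prod_eq

lemma evc_one (val : ℕ → k) : evc val 1 = 1 := by
  simp [evc]

lemma evc_prime (val : ℕ → k) {p : ℕ} (hp : p.Prime) : evc val p = val p := by
  simp [evc, hp.ne_zero, Nat.primeFactorsList_prime hp]

lemma evc_pow (val : ℕ → k) (a e : ℕ) : evc val (a ^ e) = evc val a ^ e := by
  induction e with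
  | zero => simp [evc_one]
  | succ e ih => rw [pow_succ, evc_mul, ih, pow_succ]

/-! ### Symbolic vectors -/

/-- Symbolic vectors: lists of (code of the coefficient, index of the basis vector). -/
abbrev SV : Type := List (ℕ × ℕ)

/-- The codes of the coefficients at index `i`. -/
noncomputable def get (v : SV) (i : ℕ) : List ℕ :=
  bif Nat.ble 20 i then [] else
    List.rec [] (fun t _ ih => bif Nat.beq t.2 i then t.1 :: ih else ih) v

/-- Symbolic product. -/
noncomputable def smul (u v : SV) : SV :=
  MULT.flatMap fun t => (get u t.1).flatMap fun c₁ => (get v t.2.1).map fun c₂ =>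
    (2 ^ t.2.2.2 * c₁ * c₂, t.2.2.1)

/-- Symbolic cocycle. -/
noncomputable def stau (u v w : SV) : SV :=
  TAU.flatMap fun t => (get u t.1).flatMap fun c₁ => (get v t.2.1).flatMap fun c₂ =>
    (get w t.2.2.1).map fun c₃ => (2 ^ t.2.2.2.2 * c₁ * c₂ * c₃, t.2.2.2.1)

/-- Symbolic linear map given by a table. -/
noncomputable def slin (T : List (ℕ × ℕ × ℕ)) (u : SV) : SV :=
  T.flatMap fun t => (get u t.1).map fun c => (3 ^ t.2.2 * c, t.2.1)

/-- Symbolic tensor product. -/
noncomputable def stens (u v : SV) : List (ℕ × ℕ × ℕ) :=
  u.flatMap fun s => v.map fun t => (s.1 * t.1, s.2, t.2)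

/-- Test for zero. -/
noncomputable def isZ (v : SV) : Bool := even (v.map fun t => t.1 * 32 + min t.2 31)

/-- Test for zero, tensors. -/
noncomputable def isZ2 (v : List (ℕ × ℕ × ℕ)) : Bool :=
  even (v.map fun t => (t.1 * 32 + min t.2.1 31) * 32 + min t.2.2 31)

end Crest.Agent.R186.Ex
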