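import Mathlib

/-!
Row 186: computing the vanishing of `Ext` with an explicit projective resolution or an explicit
injective coresolution.
-/

set_option autoImplicit false
set_option linter.unusedVariables false

open CategoryTheory

namespace Crest.Agent.R186

universe u

section Proj
variable {R : Type u} [Ring R] (P : ℕ → Type u) [∀ n, AddCommGroup (P n)]
  [∀ n, Module R (P n)] (d : ∀ n, P (n + 1) →ₗ[R] P n)

/-- The chain complex of an exact sequence of modules. -/
noncomputable abbrev chainOf (hd : ∀ n, Function.Exact (d (n + 1)) (d n)) :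
    ChainComplex (ModuleCat.{u} R) ℕ :=
  ChainComplex.of (fun n => ModuleCat.of R (P n)) (fun n => ModuleCat.ofHom (d n)) fun n => by
    ext x
    exact (hd n).apply_apply_eq_zero x

lemma chainOf_d (hd : ∀ n, Function.Exact (d (n + 1)) (d n)) (n : ℕ) :
    (chainOf P d hd).d (n + 1) n = ModuleCat.ofHom (d n) :=
  ChainComplex.of_d (fun n => ModuleCat.of R (P n)) (fun n => ModuleCat.ofHom (d n)) n

/-- The projective resolution given by an exact sequence of projective modules. -/
noncomputable def projRes [∀ n, Module.Projective R (P n)] {Z : Type u} [AddCommGroup Z]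
    [Module R Z] (π : P 0 →ₗ[R] Z) (hπ : Function.Surjective π) (h0 : Function.Exact (d 0) π)
    (hd : ∀ n, Function.Exact (d (n + 1)) (d n)) : ProjectiveResolution (ModuleCat.of R Z) where
  complex := chainOf P d hd
  projective n := inferInstanceAs (Projective (ModuleCat.of R (P n)))
  π := (ChainComplex.toSingle₀Equiv _ _).symm ⟨ModuleCat.ofHom π, by
    rw [chainOf_d]
    ext x
    exact h0.apply_apply_eq_zero x⟩
  quasiIso := ⟨fun n => by
    cases n with
    | zero =>
      rw [ChainComplex.quasiIsoAt₀_iff, ShortComplex.quasiIso_iff_of_zeros' _ rfl rfl rfl]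
      refine (ShortComplex.exact_and_epi_g_iff_of_iso (S₂ := ShortComplex.mk
        (ModuleCat.ofHom (d 0)) (ModuleCat.ofHom π) (by
          ext x
          exact h0.apply_apply_eq_zero x)) ?_).2 ⟨?_, ?_⟩
      · refine ShortComplex.isoMk (Iso.refl _) (Iso.refl _) (Iso.refl _) ?_ ?_
        · exact ((Category.id_comp _).trans (chainOf_d P d hd 0).symm).trans
            (Category.comp_id _).symm
        · refine (Category.id_comp _).trans (Eq.trans ?_ (Category.comp_id _).symm)
          exact (ChainComplex.toSingle₀Equiv_symm_apply_f_zero (C := chainOf P d hd)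
            (ModuleCat.ofHom π) _).symm
      · exact (ShortComplex.ShortExact.moduleCat_exact_iff_function_exact _).mpr h0
      · exact (ModuleCat.epi_iff_surjective _).mpr hπ
    | succ n =>
      rw [quasiIsoAt_iff_exactAt' _ _ (ChainComplex.exactAt_succ_single_obj _ _),
        HomologicalComplex.exactAt_iff' _ (n + 1 + 1) (n + 1) n (by simp) (by simp)]
      refine (ShortComplex.ShortExact.moduleCat_exact_iff_function_exact _).mpr ?_
      change Function.Exact ((chainOf P d hd).d (n + 1 + 1) (n + 1)).hom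
        ((chainOf P d hd).d (n + 1) n).hom
      rw [chainOf_d, chainOf_d]
      exact hd n⟩

theorem ext_subsingleton_iff {R : Type u} [Ring R] (P : ℕ → Type u) [∀ n, AddCommGroup (P n)]
    [∀ n, Module R (P n)] [∀ n, Module.Projective R (P n)] (d : ∀ n, P (n+1) →ₗ[R] P n)
    {Z : Type u} [AddCommGroup Z] [Module R Z] (π : P 0 →ₗ[R] Z) (hπ : Function.Surjective π)
    (h0 : Function.Exact (d 0) π) (hd : ∀ n, Function.Exact (d (n+1)) (d n))
    (N : Type u) [AddCommGroup N] [Module R N] (i : ℕ) :
    Subsingleton (CategoryTheory.Abelian.Ext (ModuleCat.of R Z) (ModuleCat.of R N) (i+1)) ↔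
      ∀ g : P (i+1) →ₗ[R] N, g ∘ₗ d (i+1) = 0 → ∃ f : P i →ₗ[R] N, f ∘ₗ d i = g := by
  set Q := projRes P d π hπ h0 hd with hQ
  have hQd : ∀ n, Q.complex.d (n + 1) n = ModuleCat.ofHom (d n) := chainOf_d P d hd
  constructor
  · intro h g hg
    have hg' : Q.complex.d (i + 1 + 1) (i + 1) ≫ ModuleCat.ofHom g = 0 := by
      rw [hQd]
      ext x
      exact LinearMap.congr_fun hg x
    obtain ⟨f, hf⟩ := (Q.extMk_eq_zero_iff (ModuleCat.ofHom g) _ rfl hg' i rfl).mp
      (Subsingleton.elim _ _)
    rw [hQd] at hf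
    exact ⟨f.hom, congrArg ModuleCat.Hom.hom hf⟩
  · intro h
    refine subsingleton_of_forall_eq 0 fun α => ?_
    obtain ⟨g, hg, rfl⟩ := Q.extMk_surjective α _ rfl
    rw [Q.extMk_eq_zero_iff _ _ _ _ i rfl]
    have hg' := hg
    rw [hQd] at hg'
    obtain ⟨f, hf⟩ := h g.hom (congrArg ModuleCat.Hom.hom hg')
    refine ⟨ModuleCat.ofHom f, ?_⟩
    rw [hQd]
    ext x
    exact LinearMap.congr_fun hf x

end Proj

section Inj
variable {R : Type u} [Ring R] (I : ℕ → Type u) [∀ n, AddCommGroup (I n)]
  [∀ n, Module R (I n)] (d : ∀ n, I n →ₗ[R] I (n + 1))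

/-- The cochain complex of an exact sequence of modules. -/
noncomputable abbrev cochainOf (hd : ∀ n, Function.Exact (d n) (d (n + 1))) :
    CochainComplex (ModuleCat.{u} R) ℕ :=
  CochainComplex.of (fun n => ModuleCat.of R (I n)) (fun n => ModuleCat.ofHom (d n)) fun n => by
    ext x
    exact (hd n).apply_apply_eq_zero x

lemma cochainOf_d (hd : ∀ n, Function.Exact (d n) (d (n + 1))) (n : ℕ) :
    (cochainOf I d hd).d n (n + 1) = ModuleCat.ofHom (d n) :=
  CochainComplex.of_d (fun n => ModuleCat.of R (I n)) (fun n => ModuleCat.ofHom (d n)) n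

/-- The injective resolution given by an exact sequence of injective modules. -/
noncomputable def injRes [∀ n, Module.Injective R (I n)] {Z : Type u} [AddCommGroup Z]
    [Module R Z] (ε : Z →ₗ[R] I 0) (hε : Function.Injective ε) (h0 : Function.Exact ε (d 0))
    (hd : ∀ n, Function.Exact (d n) (d (n + 1))) : InjectiveResolution (ModuleCat.of R Z) where
  cocomplex := cochainOf I d hd
  injective n := Module.injective_object_of_injective_module R (I n)
  ι := (CochainComplex.fromSingle₀Equiv _ _).symm ⟨ModuleCat.ofHom ε, by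
    rw [cochainOf_d]
    ext x
    exact h0.apply_apply_eq_zero x⟩
  quasiIso := ⟨fun n => by
    cases n with
    | zero =>
      rw [CochainComplex.quasiIsoAt₀_iff, ShortComplex.quasiIso_iff_of_zeros _ rfl rfl rfl]
      refine (ShortComplex.exact_and_mono_f_iff_of_iso (S₂ := ShortComplex.mk
        (ModuleCat.ofHom ε) (ModuleCat.ofHom (d 0)) (by
          ext x
          exact h0.apply_apply_eq_zero x)) ?_).2 ⟨?_, ?_⟩
      · refine ShortComplex.isoMk (Iso.refl _) (Iso.refl _) (Iso.refl _) ?_ ?_
        · refine (Category.id_comp _).trans (Eq.trans ?_ (Category.comp_id _).symm)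
          exact (CochainComplex.fromSingle₀Equiv_symm_apply_f_zero (C := cochainOf I d hd)
            (ModuleCat.ofHom ε) _).symm
        · exact ((Category.id_comp _).trans (cochainOf_d I d hd 0).symm).trans
            (Category.comp_id _).symm
      · exact (ShortComplex.ShortExact.moduleCat_exact_iff_function_exact _).mpr h0
      · exact (ModuleCat.mono_iff_injective _).mpr hε
    | succ n =>
      rw [quasiIsoAt_iff_exactAt _ _ (CochainComplex.exactAt_succ_single_obj _ _),
        HomologicalComplex.exactAt_iff' _ n (n + 1) (n + 1 + 1) (by simp) (by simp)]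
      refine (ShortComplex.ShortExact.moduleCat_exact_iff_function_exact _).mpr ?_
      change Function.Exact ((cochainOf I d hd).d n (n + 1)).hom
        ((cochainOf I d hd).d (n + 1) (n + 1 + 1)).hom
      rw [cochainOf_d, cochainOf_d]
      exact hd n⟩

/-- Vanishing of positive `Ext` groups computed with an injective coresolution. -/
theorem ext_subsingleton_iff_inj [∀ n, Module.Injective R (I n)] {Z : Type u} [AddCommGroup Z]
    [Module R Z] (ε : Z →ₗ[R] I 0) (hε : Function.Injective ε) (h0 : Function.Exact ε (d 0))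
    (hd : ∀ n, Function.Exact (d n) (d (n + 1))) (N : Type u) [AddCommGroup N] [Module R N]
    (i : ℕ) :
    Subsingleton (CategoryTheory.Abelian.Ext (ModuleCat.of R N) (ModuleCat.of R Z) (i+1)) ↔
      ∀ g : N →ₗ[R] I (i+1), d (i+1) ∘ₗ g = 0 → ∃ f : N →ₗ[R] I i, d i ∘ₗ f = g := by
  set Q := injRes I d ε hε h0 hd with hQ
  have hQd : ∀ n, Q.cocomplex.d n (n + 1) = ModuleCat.ofHom (d n) := cochainOf_d I d hd
  constructor
  · intro h g hg
    have hg' : ModuleCat.ofHom g ≫ Q.cocomplex.d (i + 1) (i + 1 + 1) = 0 := by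
      rw [hQd]
      ext x
      exact LinearMap.congr_fun hg x
    obtain ⟨f, hf⟩ := (Q.extMk_eq_zero_iff (ModuleCat.ofHom g) _ rfl hg' i rfl).mp
      (Subsingleton.elim _ _)
    rw [hQd] at hf
    exact ⟨f.hom, congrArg ModuleCat.Hom.hom hf⟩
  · intro h
    refine subsingleton_of_forall_eq 0 fun α => ?_
    obtain ⟨g, hg, rfl⟩ := Q.extMk_surjective α _ rfl
    rw [Q.extMk_eq_zero_iff _ _ _ _ i rfl]
    have hg' := hg
    rw [hQd] at hg'
    obtain ⟨f, hf⟩ := h g.hom (congrArg ModuleCat.Hom.hom hg')
    refine ⟨ModuleCat.ofHom f, ?_⟩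
    rw [hQd]
    ext x
    exact LinearMap.congr_fun hf x

end Inj

/-- `Ext⁰` vanishes iff there is no nonzero homomorphism. -/
theorem ext_zero_subsingleton_iff {R : Type u} [Ring R] (N Z : Type u) [AddCommGroup N]
    [Module R N] [AddCommGroup Z] [Module R Z] :
    Subsingleton (CategoryTheory.Abelian.Ext (ModuleCat.of R N) (ModuleCat.of R Z) 0) ↔
      ∀ g : N →ₗ[R] Z, g = 0 := by
  rw [← (Abelian.Ext.homEquiv₀ (X := ModuleCat.of R N) (Y := ModuleCat.of R Z)).symm.subsingleton_congr,
    ModuleCat.homEquiv.subsingleton_congr]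
  exact ⟨fun h g => Subsingleton.elim _ _, fun h => subsingleton_of_forall_eq 0 h⟩

end Crest.Agent.R186
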