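import Crest.Agent.R186.Mat

/-!
Exact rows and columns, and the construction of homotopies by induction on the degree.
-/

set_option autoImplicit false

noncomputable section

namespace Crest.Agent.R186

variable {k : Type*} [Field k] [CharP k 2]
variable {U V W : Type*} [AddCommGroup U] [Module k U] [AddCommGroup V] [Module k V]
  [AddCommGroup W] [Module k W]
variable {I J L : Type*}
variable {R S : Type*} [Ring R] [Algebra k R] [Ring S] [Algebra k S]

/-- the rows with entries in `M` form an exact complex -/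
def RowEx (Q : MC S J) (M : Bim k R S V) : Prop := ∀ n, (cx (MC.pt k) Q (M.fL.at 0)).Van n

/-- the columns with entries in `M` form an exact complex -/
def ColEx (P : MC R I) (M : Bim k R S V) : Prop := ∀ n, (cx P (MC.pt k) (M.fR.at 0)).Van n

theorem row_D (Q : MC S J) (M : Bim k R S V) (x : Mat Unit J V) (i : Unit) :
    (cx (MC.pt k) Q (M.fL.at 0)).D x i = rmul M.r.flip Q.δ (x i) := by
  rw [cx_D_at, Pi.add_apply, mmul_row, mmul_row]
  simp [MC.pt]

theorem row_van_iff (Q : MC S J) (M : Bim k R S V) (m : ℤ) :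
    (cx (MC.pt k) Q (M.fL.at 0)).Van (-m) ↔ ∀ r : J →₀ V, (∀ j, M.r (Q.ε j) (r j) = r j) →
      (∀ j, Q.deg j ≠ m → r j = 0) → rmul M.r.flip Q.δ r = 0 → ∃ r', rmul M.r.flip Q.δ r' = r := by
  constructor
  · intro h r h1 h2 h3
    obtain ⟨b, hb⟩ := h (fun _ => r) ⟨Mat.ext' fun i j => by
      rw [cx_P_at]
      split_ifs with hj
      · simp [MC.pt, h1]
      · exact (h2 j (fun e => hj (by simp [MC.pt, e]))).symm, funext fun i => by
      rw [row_D]; exact h3⟩
    exact ⟨b (), by rw [← row_D, hb]⟩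
  · intro h x hx
    have e : ∀ j, x () j = if Q.deg j = m then M.r (Q.ε j) (x () j) else 0 := by
      intro j
      conv_lhs => rw [← hx.1, cx_P_at]
      simp only [MC.pt, Bim.fL_l, one_smul, Bim.fL_r]
      congr 1
      simp only [eq_iff_iff]
      omega
    obtain ⟨r', hr'⟩ := h (x ()) (fun j => by
      by_cases hj : Q.deg j = m
      · exact ((e j).trans (if_pos hj)).symm
      · rw [e, if_neg hj, map_zero]) (fun j hj => by rw [e, if_neg hj])
      (by rw [← row_D, hx.2]; rfl)
    exact ⟨fun _ => r', funext fun i => by rw [row_D]; exact hr'⟩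

theorem col_D (P : MC R I) (M : Bim k R S V) (x : Mat I Unit V) (i : I) (j : Unit) :
    (cx P (MC.pt k) (M.fR.at 0)).D x i j = (P.δ i).sum fun j a => M.l a (x j ()) := by
  rw [cx_D_at, Pi.add_apply, Finsupp.add_apply, mmul_apply, mmul_apply_eq_zero]
  · simp
  · simp [MC.pt]

theorem col_van_iff (P : MC R I) (M : Bim k R S V) (m : ℤ) :
    (cx P (MC.pt k) (M.fR.at 0)).Van m ↔ ∀ y : I → V, (∀ i, M.l (P.ε i) (y i) = y i) →
      (∀ i, P.deg i ≠ m → y i = 0) → (∀ i, ((P.δ i).sum fun j a => M.l a (y j)) = 0) →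
      ∃ x : I → V, (∀ i, P.deg i ≠ m - 1 → x i = 0) ∧
        ∀ i, ((P.δ i).sum fun j a => M.l a (x j)) = y i := by
  constructor
  · intro h y h1 h2 h3
    have hZ : (cx P (MC.pt k) (M.fR.at 0)).Z m (fun i => Finsupp.single () (y i)) :=
      ⟨Mat.ext' fun i j => by
        rw [cx_P_at]
        split_ifs with hj
        · simp [MC.pt, h1]
        · simp [h2 i (fun e => hj (by simp [MC.pt, e]))], Mat.ext' fun i j => by
        rw [col_D]; simpa using h3 i⟩
    obtain ⟨b, hb, hb'⟩ := (h _ hZ).graded (n := m - 1) (by ring) hZ.1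
    refine ⟨fun i => b i (), fun i hi => ?_, fun i => ?_⟩
    · beta_reduce
      rw [← hb, cx_P_at, if_neg]
      simp only [MC.pt]
      omega
    · rw [← col_D P M b i (), hb']
      simp
  · intro h x hx
    have e : ∀ i, x i () = if P.deg i = m then M.l (P.ε i) (x i ()) else 0 := by
      intro j
      conv_lhs => rw [← hx.1, cx_P_at]
      simp only [MC.pt, Bim.fR_r, one_smul, Bim.fR_l]
      congr 1
      simp only [eq_iff_iff]
      omega
    obtain ⟨y, -, hy⟩ := h (fun i => x i ()) (fun j => by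
      by_cases hj : P.deg j = m
      · exact ((e j).trans (if_pos hj)).symm
      · rw [e, if_neg hj, map_zero]) (fun j hj => by rw [e, if_neg hj])
      (fun i => by rw [← col_D P M x i (), hx.2]; rfl)
    exact ⟨fun i => Finsupp.single () (y i), Mat.ext' fun i j => by
      rw [col_D]; simpa using hy i⟩

/-- solving a triangular system -/
theorem Cx.solve {T : Type*} [AddCommGroup T] [Module k T] (C : Cx k (I → T)) (n : ℤ)
    (lev lev' : I → ℤ)
    (hD : ∀ N b, (∀ i, lev' i < N → b i = 0) → ∀ i, lev i < N → C.D b i = 0)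
    (step : ∀ N a, C.Z n a → (∀ i, lev i < N → a i = 0) → ∃ b, C.P (n - 1) b = b ∧
      (∀ i, lev' i < N → b i = 0) ∧ ∀ i, lev i < N + 1 → (a + C.D b) i = 0)
    (N₀ : ℤ) (a : I → T) (ha : C.Z n a) (ha' : ∀ i, lev i < N₀ → a i = 0) :
    ∃ b, (∀ i, lev' i < N₀ → b i = 0) ∧ C.D b = a := by
  choose! f hf1 hf2 hf3 using step
  let s : ℕ → I → T := fun m => Nat.rec 0 (fun m t => t + f (N₀ + m) (a + C.D t)) m
  have s_succ : ∀ m : ℕ, s (m + 1) = s m + f (N₀ + m) (a + C.D (s m)) := fun m => rfl
  have inv : ∀ m : ℕ, C.Z n (a + C.D (s m)) ∧ ∀ i, lev i < N₀ + m → (a + C.D (s m)) i = 0 := by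
    intro m
    induction m with
    | zero => simpa [s] using ⟨ha, ha'⟩
    | succ m ih =>
      rw [s_succ, map_add, ← add_assoc]
      exact ⟨ih.1.add (Cx.Z.D (by ring) (hf1 _ _ ih.1 ih.2)), fun i hi =>
        hf3 _ _ ih.1 ih.2 i (by push_cast at hi; omega)⟩
  have stab : ∀ (m d : ℕ) i, lev' i < N₀ + m → s (m + d) i = s m i := by
    intro m d i hi
    induction d with
    | zero => rfl
    | succ d ih =>
      rw [← add_assoc, s_succ, Pi.add_apply, ih,
        hf2 _ _ (inv _).1 (inv _).2 i (by push_cast; omega), add_zero]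
  have stab' : ∀ (m m' : ℕ) i, lev' i < N₀ + m → lev' i < N₀ + m' → s m i = s m' i := by
    intro m m' i h h'
    rw [← stab m m' i h, ← stab m' m i h', add_comm]
  let b : I → T := fun i => s (lev' i - N₀ + 1).toNat i
  have hb : ∀ (m : ℕ) i, lev' i < N₀ + m → b i = s m i := fun m i hi =>
    stab' _ _ i (by omega) hi
  refine ⟨b, fun i hi => hb 0 i (by simpa using hi), funext fun i => ?_⟩
  have h1 := (inv (lev i - N₀ + 1).toNat).2 i (by omega)
  have h2 := hD (N₀ + (lev i - N₀ + 1).toNat) (b + s (lev i - N₀ + 1).toNat)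
    (fun j hj => by rw [Pi.add_apply, hb _ j hj, add_self k]) i (by omega)
  rw [map_add, Pi.add_apply, add_eq_zero_iff k] at h2
  rw [Pi.add_apply, add_eq_zero_iff k] at h1
  rw [h1, h2]

section

variable (P : MC R I) (Q : MC S J) (M : Bim k R S V)

omit [CharP k 2] in
theorem ml_row_congr {x y : Mat I J V} {i : I} (h : ∀ j, P.deg j = P.deg i - 1 → x j = y j) :
    M.ml P.δ x i = M.ml P.δ y i := by
  ext l
  rw [mmul_apply, mmul_apply]
  exact Finsupp.sum_congr fun j hj => by rw [h j (P.hom i j (Finsupp.mem_support_iff.1 hj))]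

omit [CharP k 2] in
theorem ml_row_zero {x : Mat I J V} {i : I} (h : ∀ j, P.deg j = P.deg i - 1 → x j = 0) :
    M.ml P.δ x i = 0 := by
  rw [ml_row_congr P M (y := 0) h, map_zero, Pi.zero_apply]

theorem D_row (s : ℤ) (x : Mat I J V) (i : I) :
    (cx P Q (M.at s)).D x i = M.ml P.δ x i + rmul M.r.flip Q.δ (x i) := by
  rw [cx_D_at, Pi.add_apply]
  rfl

theorem D_row_zero (s : ℤ) {x : Mat I J V} {i : I} (h : ∀ j, P.deg j = P.deg i - 1 → x j = 0)
    (hi : x i = 0) : (cx P Q (M.at s)).D x i = 0 := by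
  rw [D_row, ml_row_zero P M h, hi, map_zero, add_zero]

variable {P Q M}

theorem entry_of_P {s n : ℤ} {x : Mat I J V} (hx : (cx P Q (M.at s)).P n x = x) (i : I) (j : J) :
    M.l (P.ε i) (x i j) = x i j ∧ M.r (Q.ε j) (x i j) = x i j ∧
      (P.deg i - Q.deg j - n ≠ s → x i j = 0) := by
  rw [← hx, cx_P_at]
  split_ifs with h
  · refine ⟨by rw [← M.l_mul, P.εε], by rw [← M.lr, ← M.r_mul, Q.εε], fun h' => absurd h h'⟩
  · simp

/-- a cocycle with rows of degree bounded below is a coboundary -/
theorem RowEx.solve (h : RowEx Q M) {s n N : ℤ} {a : Mat I J V} (ha : (cx P Q (M.at s)).Z n a)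
    (ha' : ∀ i, P.deg i < N → a i = 0) :
    ∃ b, (∀ i, P.deg i < N → b i = 0) ∧ (cx P Q (M.at s)).D b = a := by
  refine Cx.solve _ n P.deg P.deg (fun N b hb i hi => ?_) (fun N a ha ha' => ?_) N a ha ha'
  · exact D_row_zero P Q M s (fun j hj => hb j (by omega)) (hb i hi)
  · have key : ∀ i, P.deg i = N → ∃ r', rmul M.r.flip Q.δ r' = a i := by
      intro i hi
      refine (row_van_iff Q M (N - n - s)).1 (h _) (a i) (fun j => (entry_of_P ha.1 i j).2.1)
        (fun j hj => (entry_of_P ha.1 i j).2.2 (by omega)) ?_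
      have := congrFun ha.2 i
      rwa [D_row, ml_row_zero P M (fun j hj => ha' j (by omega)), zero_add] at this
    choose! g hg using key
    let b : Mat I J V := fun i => if P.deg i = N then g i else 0
    refine ⟨(cx P Q (M.at s)).P (n - 1) b, Cx.PP _ _ _,
      fun i hi => cx_P_row_zero _ _ _ _ (if_neg (by omega)), fun i hi => ?_⟩
    rw [← Cx.PD' _ (m := n) (by ring), ← ha.1, ← map_add]
    refine cx_P_row_zero _ _ _ _ ?_
    rw [Pi.add_apply, D_row, ml_row_zero P M (fun j hj => if_neg (by omega)), zero_add]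
    by_cases hi' : P.deg i = N
    · rw [show b i = g i from if_pos hi', hg i hi', add_self k]
    · rw [show b i = 0 from if_neg hi', ha' i (by omega), map_zero, add_zero]

/-- a cocycle with rows of degree bounded above is a coboundary -/
theorem ColEx.solve (h : ColEx P M) {s n N : ℤ} {a : Mat I J V} (ha : (cx P Q (M.at s)).Z n a)
    (ha' : ∀ i, N < P.deg i → a i = 0) :
    ∃ b, (∀ i, N ≤ P.deg i → b i = 0) ∧ (cx P Q (M.at s)).D b = a := by
  have := Cx.solve (cx P Q (M.at s)) n (fun i => -P.deg i) (fun i => -P.deg i - 1)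
    (fun N b hb i hi => ?_) (fun N a ha ha' => ?_) (-N) a ha (fun i hi => ha' i (by omega))
  · obtain ⟨b, hb, hb'⟩ := this
    exact ⟨b, fun i hi => hb i (by omega), hb'⟩
  · exact D_row_zero P Q M s (fun j hj => hb j (by omega)) (hb i (by omega))
  · have key : ∀ l, ∃ x : I → V, (∀ i, P.deg i ≠ -N - 1 → x i = 0) ∧
        ∀ i, ((P.δ i).sum fun j a => M.l a (x j)) = if P.deg i = -N then a i l else 0 := by
      intro l
      refine (col_van_iff P M (-N)).1 (h _) _ (fun i => ?_) (fun i hi => if_neg hi) fun i => ?_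
      · split_ifs
        exacts [(entry_of_P ha.1 i l).1, map_zero _]
      · by_cases hi : P.deg i = -N + 1
        · have := congrFun ha.2 i
          rw [D_row, ha' i (by omega), map_zero, add_zero] at this
          have := congrArg (fun r => r l) this
          simp only [mmul_apply, Pi.zero_apply, Finsupp.coe_zero] at this
          rw [← this]
          exact Finsupp.sum_congr fun j hj => by
            rw [if_pos (by have := P.hom i j (Finsupp.mem_support_iff.1 hj); omega)]
        · refine Finset.sum_eq_zero fun j hj => ?_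
          beta_reduce
          rw [if_neg (by have := P.hom i j (Finsupp.mem_support_iff.1 hj); omega), map_zero]
    choose g hg hg' using key
    classical
    let b : Mat I J V := fun i => Finsupp.onFinset (Q.fib (-N - n - s))
      (fun l => if l ∈ Q.fib (-N - n - s) then g l i else 0) (fun l hl => by
        by_contra h'
        exact hl (if_neg h'))
    have hb : ∀ i, P.deg i ≠ -N - 1 → b i = 0 := fun i hi => by
      ext l
      simp [b, hg l i hi]
    refine ⟨(cx P Q (M.at s)).P (n - 1) b, Cx.PP _ _ _,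
      fun i hi => cx_P_row_zero _ _ _ _ (hb i (by omega)), fun i hi => ?_⟩
    rw [← Cx.PD' _ (m := n) (by ring), ← ha.1, ← map_add]
    refine cx_P_row_zero _ _ _ _ ?_
    rw [Pi.add_apply, D_row, hb i (by omega), map_zero, add_zero, add_eq_zero_iff k]
    ext l
    rw [mmul_apply]
    by_cases hl : l ∈ Q.fib (-N - n - s)
    · simp only [b, Finsupp.onFinset_apply, if_pos hl, hg']
      split_ifs with hi'
      · rfl
      · rw [ha' i (by omega)]; rfl
    · simp only [b, Finsupp.onFinset_apply, if_neg hl, map_zero, Finsupp.sum_fun_zero]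
      by_cases hi' : P.deg i = -N
      · exact (entry_of_P ha.1 i l).2.2 (by rw [Q.mem_fib] at hl; omega)
      · rw [ha' i (by omega)]; rfl

/-- the rows of a matrix selected by a condition on the degree -/
def rows (P : MC R I) (p : ℤ → Prop) [DecidablePred p] (x : Mat I J V) : Mat I J V :=
  fun i => if p (P.deg i) then x i else 0

theorem P_rows {s n : ℤ} (p : ℤ → Prop) [DecidablePred p] {x : Mat I J V}
    (hx : (cx P Q (M.at s)).P n x = x) : (cx P Q (M.at s)).P n (rows P p x) = rows P p x := by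
  funext i
  by_cases h : p (P.deg i)
  · rw [cx_P_row _ _ _ _ (show rows P p x i = x i from if_pos h), hx, rows, if_pos h]
  · rw [cx_P_row_zero _ _ _ _ (show rows P p x i = 0 from if_neg h), rows, if_neg h]

/-- extension of a map between syzygies to a chain map -/
theorem ev_surj (hr : RowEx Q M) (hc : ColEx P M) {s n N : ℤ} {x x' : Mat I J V}
    (hx : (cx P Q (M.at s)).P n x = x) (hx' : ∀ i, P.deg i ≠ N → x i = 0)
    (h : M.ml P.δ x = M.mr x' Q.δ) :
    ∃ a, (cx P Q (M.at s)).Z n a ∧ ∀ i, P.deg i = N → a i = x i := by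
  set C := cx P Q (M.at s) with hC
  let y := C.P n (rows P (· = N + 1) x')
  have hy0 : ∀ i, P.deg i ≠ N + 1 → y i = 0 := fun i hi => cx_P_row_zero _ _ _ _ (if_neg hi)
  have hy : M.ml P.δ x = M.mr y Q.δ := by
    have e1 : M.ml P.δ x = M.mr (rows P (· = N + 1) x') Q.δ := by
      funext i
      by_cases hi : P.deg i = N + 1
      · rw [h, mmul_row, mmul_row, rows, if_pos hi]
      · rw [ml_row_zero P M (fun j hj => hx' j (by omega)), mmul_row, rows, if_neg hi, map_zero]
    have e2 := (M.at s).ep_mr P Q n (rows P (· = N + 1) x')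
    have e3 := (M.at s).ep_ml P Q n x
    rw [← cx_P' (k := k), ← cx_P' (k := k), hx] at e3
    rw [← cx_P' (k := k), ← cx_P' (k := k)] at e2
    exact e3.symm.trans ((congrArg _ e1).trans e2)
  have hyP : C.P n y = y := C.PP _ _
  have z1 : C.Z (n + 1) (M.ml P.δ y) := by
    refine ⟨?_, ?_⟩
    · have := (M.at s).ep_ml P Q n y
      rwa [← cx_P' (k := k), ← cx_P' (k := k), hyP] at this
    · rw [cx_D_at, M.ml_ml, M.mr_ml, ← hy, M.ml_ml, MC.δδ']
      simp
  have z2 : C.Z (n + 1) (M.mr x Q.δ) := by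
    refine ⟨?_, ?_⟩
    · have := (M.at s).ep_mr P Q n x
      rwa [← cx_P' (k := k), ← cx_P' (k := k), hx] at this
    · rw [cx_D_at, M.mr_mr, ← M.mr_ml, hy, M.mr_mr, MC.δδ']
      simp
  obtain ⟨b1, hb1, hb1'⟩ := hr.solve (N := N + 2) z1
    (fun i hi => ml_row_zero P M fun j hj => hy0 j (by omega))
  obtain ⟨b2, hb2, hb2'⟩ := hc.solve (N := N) z2
    (fun i hi => by rw [mmul_row, hx' i (by omega), map_zero])
  refine ⟨x + y + C.P n b1 + C.P n b2, ⟨by simp only [map_add, hx, hyP, C.PP], ?_⟩, fun i hi => ?_⟩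
  · rw [map_add, map_add, map_add, ← C.PD n b1, ← C.PD n b2, hb1', hb2', z1.1, z2.1, cx_D_at,
      cx_D_at, hy]
    char2 k
  · simp only [Pi.add_apply]
    rw [hy0 i (by omega), cx_P_row_zero _ _ _ _ (hb1 i (by omega)),
      cx_P_row_zero _ _ _ _ (hb2 i (by omega))]
    simp

/-- a cocycle vanishing on the rows of one degree is a coboundary -/
theorem B_of_rows_zero (hr : RowEx Q M) (hc : ColEx P M) {s n N : ℤ} {a : Mat I J V}
    (ha : (cx P Q (M.at s)).Z n a) (h : ∀ i, P.deg i = N → a i = 0) : (cx P Q (M.at s)).B a := by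
  have e : a = rows P (N < ·) a + rows P (· < N) a := by
    funext i
    simp only [rows, Pi.add_apply]
    split_ifs with h1 h2 h2
    · omega
    · simp
    · simp
    · rw [h i (by omega), add_zero]
  have e1 : ∀ i, P.deg i ≤ N → (cx P Q (M.at s)).D (rows P (N < ·) a) i = 0 := fun i hi =>
    D_row_zero P Q M s (fun j hj => if_neg (by omega)) (if_neg (by omega))
  have e2 : ∀ i, N < P.deg i → (cx P Q (M.at s)).D (rows P (· < N) a) i = 0 := fun i hi =>
    D_row_zero P Q M s (fun j hj => if_neg (by omega)) (if_neg (by omega))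
  have e3 := ha.2
  rw [e, map_add] at e3
  have z1 : (cx P Q (M.at s)).D (rows P (N < ·) a) = 0 := by
    funext i
    by_cases hi : N < P.deg i
    · simpa [e2 i hi] using congrFun e3 i
    · exact e1 i (by omega)
  have z2 : (cx P Q (M.at s)).D (rows P (· < N) a) = 0 := by rwa [z1, zero_add] at e3
  obtain ⟨b1, -, hb1⟩ := hr.solve (N := N) ⟨P_rows _ ha.1, z1⟩ (fun i hi => if_neg (by omega))
  obtain ⟨b2, -, hb2⟩ := hc.solve (N := N) ⟨P_rows _ ha.1, z2⟩ (fun i hi => if_neg (by omega))
  exact ⟨b1 + b2, by rw [map_add, hb1, hb2, ← e]⟩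

/-- a cocycle whose rows of one degree are boundaries is a coboundary -/
theorem ev_inj (hr : RowEx Q M) (hc : ColEx P M) {s n N : ℤ} {a b : Mat I J V}
    (ha : (cx P Q (M.at s)).Z n a) (h : ∀ i, P.deg i = N → a i = M.mr b Q.δ i) :
    (cx P Q (M.at s)).B a := by
  set C := cx P Q (M.at s) with hC
  let y := rows P (· = N) b
  have := B_of_rows_zero hr hc (N := N)
    (ha.add (Cx.Z.D (n := n - 1) (by ring) (C.PP (n - 1) y))) fun i hi => ?_
  · exact (this.add (Cx.B.D (C.P (n - 1) y))).of_eq (by char2 k)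
  · rw [← C.PD' (m := n) (by ring), ← ha.1, ← map_add]
    refine cx_P_row_zero _ _ _ _ ?_
    rw [Pi.add_apply, D_row, ml_row_zero P M (x := y) (fun j hj => if_neg (by omega)), zero_add,
      h i hi,
      show y i = b i from if_pos hi, mmul_row, add_self k]

end

end Crest.Agent.R186
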