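import Crest.Agent.R186.Fill
import Crest.Agent.R186.ExtRes
import Crest.Prelude.Def_GorProjVanishing

/-!
From a matrix complex to the Gorenstein-projective module with vanishing self-extensions.
-/

set_option autoImplicit false

noncomputable section

namespace Crest.Agent.R186

open Finsupp CategoryTheory

universe u

namespace FinD

section

variable {T : Type*} [Ring T] {I : Type*} (P : MC T I)

/-- the differential on rows -/
def DD : (I →₀ T) →ₗ[T] (I →₀ T) := linearCombination T P.δ

/-- the rows of degree `n` -/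
def Pn (n : ℤ) : Submodule T (I →₀ T) where
  carrier := {r | (∀ j, r j * P.ε j = r j) ∧ ∀ j, P.deg j ≠ n → r j = 0}
  add_mem' ha hb := ⟨fun j => by rw [Finsupp.add_apply, add_mul, ha.1, hb.1],
    fun j hj => by rw [Finsupp.add_apply, ha.2 j hj, hb.2 j hj, add_zero]⟩
  zero_mem' := ⟨fun j => by simp, fun j _ => rfl⟩
  smul_mem' c r hr := ⟨fun j => by rw [Finsupp.smul_apply, smul_eq_mul, mul_assoc, hr.1],
    fun j hj => by rw [Finsupp.smul_apply, hr.2 j hj, smul_zero]⟩

/-- the projection on the rows of degree `n` -/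
def pr (n : ℤ) : (I →₀ T) →ₗ[T] (I →₀ T) :=
  linearCombination T fun i => if P.deg i = n then single i (P.ε i) else 0

lemma pr_single (n : ℤ) (i : I) (a : T) :
    pr P n (single i a) = if P.deg i = n then single i (a * P.ε i) else 0 := by
  rw [pr, linearCombination_single]
  split_ifs <;> simp

lemma pr_apply (n : ℤ) (r : I →₀ T) (j : I) :
    pr P n r j = if P.deg j = n then r j * P.ε j else 0 := by
  induction r using Finsupp.induction_linear with
  | zero => simp
  | add x y hx hy =>
    rw [map_add, Finsupp.add_apply, hx, hy, Finsupp.add_apply]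
    split_ifs
    · rw [add_mul]
    · rw [add_zero]
  | single i a =>
    rw [pr_single]
    by_cases h : j = i
    · subst h
      split_ifs <;> simp
    · split_ifs <;> simp [Finsupp.single_eq_of_ne h]

lemma pr_mem (n : ℤ) (r : I →₀ T) : pr P n r ∈ Pn P n := by
  refine ⟨fun j => ?_, fun j hj => ?_⟩
  · rw [pr_apply]
    split_ifs
    · rw [mul_assoc, P.εε]
    · rw [zero_mul]
  · rw [pr_apply, if_neg hj]

variable {P} in
lemma pr_of_mem {n : ℤ} {r : I →₀ T} (h : r ∈ Pn P n) : pr P n r = r := by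
  ext j
  rw [pr_apply]
  split_ifs with hj
  · exact h.1 j
  · exact (h.2 j hj).symm

/-- the module of rows of degree `n` -/
def Pm (n : ℤ) : Type _ := Pn P n

instance (n : ℤ) : AddCommGroup (Pm P n) := Submodule.addCommGroup (Pn P n)

instance (n : ℤ) : Module T (Pm P n) := Submodule.module (Pn P n)

/-- the projection with values in the submodule -/
def prc (n : ℤ) : (I →₀ T) →ₗ[T] Pm P n := (pr P n).codRestrict _ (pr_mem P n)

/-- the inclusion of the submodule -/
def inc (n : ℤ) : Pm P n →ₗ[T] (I →₀ T) := (Pn P n).subtype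

variable {P} in
lemma inc_mem {n : ℤ} (r : Pm P n) : inc P n r ∈ Pn P n := r.2

lemma inc_injective (n : ℤ) : Function.Injective (inc P n) := Subtype.val_injective

lemma coe_prc (n : ℤ) (r : I →₀ T) : inc P n (prc P n r) = pr P n r := rfl

lemma prc_coe (n : ℤ) (r : Pm P n) : prc P n (inc P n r) = r :=
  inc_injective P n (pr_of_mem (inc_mem r))

lemma prc_pr (n : ℤ) (r : I →₀ T) : prc P n (pr P n r) = prc P n r :=
  inc_injective P n (pr_of_mem (pr_mem P n r))

lemma DD_single (i : I) (a : T) : DD P (single i a) = a • P.δ i := linearCombination_single _ _ _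

lemma ε_smul_δ (i : I) : P.ε i • P.δ i = P.δ i := Finsupp.ext fun j => P.εδ i j

lemma DD_pr (n : ℤ) (r : I →₀ T) : DD P (pr P (n + 1) r) = pr P n (DD P r) := by
  induction r using Finsupp.induction_linear with
  | zero => simp
  | add x y hx hy => simp only [map_add, hx, hy]
  | single i a =>
    rw [pr_single, DD_single, map_smul]
    split_ifs with h
    · rw [DD_single, mul_smul, ε_smul_δ, pr_of_mem ⟨P.δε i, fun j hj => ?_⟩]
      by_contra h0
      have := P.hom i j h0
      omega
    · rw [map_zero]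
      ext j
      rw [Finsupp.smul_apply, pr_apply]
      split_ifs with hj
      · by_cases h0 : P.δ i j = 0
        · simp [h0]
        · have := P.hom i j h0
          omega
      · simp

lemma DD_apply (r : I →₀ T) (l : I) : DD P r l = r.sum fun j a => a * P.δ j l := by
  rw [DD, linearCombination_apply, Finsupp.sum_apply]
  rfl

lemma DD_DD (r : I →₀ T) : DD P (DD P r) = 0 := by
  induction r using Finsupp.induction_linear with
  | zero => simp
  | add x y hx hy => simp only [map_add, hx, hy, add_zero]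
  | single i a =>
    rw [DD_single, map_smul]
    have : DD P (P.δ i) = 0 := Finsupp.ext fun l => by rw [DD_apply]; exact P.δδ i l
    rw [this, smul_zero]

/-- the differential of the complex of projective modules -/
def dd (n : ℤ) : Pm P (n + 1) →ₗ[T] Pm P n := prc P n ∘ₗ DD P ∘ₗ inc P (n + 1)

lemma coe_dd (n : ℤ) (r : Pm P (n + 1)) : inc P n (dd P n r) = DD P (inc P (n + 1) r) := by
  change pr P n (DD P (inc P (n + 1) r)) = _
  rw [← DD_pr, pr_of_mem (inc_mem r)]

lemma dd_prc (n : ℤ) (r : I →₀ T) : dd P n (prc P (n + 1) r) = prc P n (DD P r) :=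
  inc_injective P n (by rw [coe_dd, coe_prc, coe_prc, DD_pr])

lemma projective (n : ℤ) : Module.Projective T (Pm P n) :=
  Module.Projective.of_split (inc P n) (prc P n) (LinearMap.ext (prc_coe P n))

lemma finite (n : ℤ) : Module.Finite T (Pm P n) := by
  refine Module.Finite.of_surjective
    (prc P n ∘ₗ Finsupp.lmapDomain T T (Subtype.val : P.fib n → I)) fun r => ?_
  refine ⟨Finsupp.subtypeDomain (· ∈ P.fib n) (inc P n r), ?_⟩
  rw [LinearMap.comp_apply, Finsupp.lmapDomain_apply]
  refine Eq.trans ?_ (prc_coe P n r)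
  congr 1
  ext j
  by_cases hj : j ∈ P.fib n
  · exact Finsupp.mapDomain_apply Subtype.val_injective _ (⟨j, hj⟩ : P.fib n)
  · rw [Finsupp.mapDomain_of_notMem_range _ _ (by simpa using hj)]
    exact ((inc_mem r).2 j (fun h => hj ((P.mem_fib _ _).2 h))).symm

variable {W : Type*} [AddCommGroup W] [Module T W]

lemma lc_eq (G : (I →₀ T) →ₗ[T] W) (r : I →₀ T) :
    linearCombination T (fun i => G (single i 1)) r = G r := by
  induction r using Finsupp.induction_linear with
  | zero => simp
  | add x y hx hy => simp only [map_add, hx, hy]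
  | single i a => rw [linearCombination_single, ← map_smul, smul_single, smul_eq_mul, mul_one]

lemma lc_DD (x : I → W) (r : I →₀ T) : linearCombination T x (DD P r) =
    linearCombination T (fun i => linearCombination T x (P.δ i)) r :=
  apply_linearCombination _ _ _ _

variable {P} in
lemma lc_congr {n : ℤ} {r : I →₀ T} (hr : r ∈ Pn P n) {x y : I → W}
    (h : ∀ i, P.deg i = n → x i = y i) : linearCombination T x r = linearCombination T y r := by
  rw [linearCombination_apply, linearCombination_apply]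
  refine Finsupp.sum_congr fun j hj => ?_
  rw [h j]
  by_contra h0
  exact Finsupp.mem_support_iff.1 hj (hr.2 j h0)

lemma δ_eq (i : I) : P.δ i = DD P (single i 1) := by rw [DD_single, one_smul]

/-- the class of a row in the cokernel -/
def qq : (I →₀ T) →ₗ[T] (Pm P 0 ⧸ LinearMap.range (dd P 0)) :=
  (LinearMap.range (dd P 0)).mkQ ∘ₗ prc P 0

lemma qq_DD (r : I →₀ T) : qq P (DD P r) = 0 := by
  rw [qq, LinearMap.comp_apply, ← dd_prc, Submodule.mkQ_apply, Submodule.Quotient.mk_eq_zero]
  exact ⟨_, rfl⟩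

lemma qq_pr (r : I →₀ T) : qq P (pr P 0 r) = qq P r := by
  rw [qq, LinearMap.comp_apply, LinearMap.comp_apply, prc_pr]

lemma qq_coe (r : Pm P 0) : qq P (inc P 0 r) = (LinearMap.range (dd P 0)).mkQ r := by
  rw [qq, LinearMap.comp_apply, prc_coe]

lemma qq_surjective : Function.Surjective (qq P) := fun m => by
  obtain ⟨r, rfl⟩ := Submodule.mkQ_surjective _ m
  exact ⟨inc P 0 r, qq_coe P r⟩

variable {P} in
lemma exists_of_qq {r : I →₀ T} (hr : r ∈ Pn P 0) (h : qq P r = 0) : ∃ r', DD P r' = r := by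
  rw [qq, LinearMap.comp_apply, Submodule.mkQ_apply, Submodule.Quotient.mk_eq_zero] at h
  obtain ⟨r', hr'⟩ := h
  exact ⟨inc P _ r', by rw [← coe_dd, hr', coe_prc, pr_of_mem hr]⟩

end

section

variable {K : Type*} [Field K] [CharP K 2] {T : Type*} [Ring T] [Algebra K T] {I : Type*}
  {P : MC T I}

omit [CharP K 2] in
lemma rmul_eq (r : I →₀ T) : rmul (Bim.reg K T).r.flip P.δ r = DD P r := by
  ext l
  rw [rmul_apply, DD_apply]
  rfl

omit [CharP K 2] in
lemma ml_eq (x : Mat I I T) (i : I) :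
    (Bim.reg K T).ml P.δ x i = linearCombination T x (P.δ i) := by
  ext l
  rw [mmul_apply, linearCombination_apply, Finsupp.sum_apply]
  rfl

lemma exact_dd (hr : RowEx P (Bim.reg K T)) (n : ℤ) : Function.Exact (dd P (n + 1)) (dd P n) := by
  intro r
  constructor
  · intro h
    have h0 : DD P (inc P _ r) = 0 := by rw [← coe_dd, h, map_zero]
    obtain ⟨r', hr'⟩ := (row_van_iff P (Bim.reg K T) (n + 1)).1 (hr _) (inc P _ r)
      (inc_mem r).1 (inc_mem r).2 (by rw [rmul_eq, h0])
    rw [rmul_eq] at hr'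
    exact ⟨prc P _ r', by rw [dd_prc, hr', prc_coe]⟩
  · rintro ⟨r', rfl⟩
    exact inc_injective P n (by rw [coe_dd, coe_dd, DD_DD, map_zero])

lemma col_solve (hc : ColEx P (Bim.reg K T)) (m : ℤ) (G : (I →₀ T) →ₗ[T] T)
    (h1 : ∀ r, G (pr P m r) = G r) (h2 : ∀ r, G (DD P r) = 0) :
    ∃ x : I → T, ∀ r, linearCombination T x (DD P r) = G r := by
  obtain ⟨x, -, hx⟩ := (col_van_iff P (Bim.reg K T) m).1 (hc m) (fun i => G (single i 1))
    (fun i => by
      rw [Bim.reg_l, ← smul_eq_mul, ← map_smul, smul_single, ← h1, ← h1 (single i 1), pr_single,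
        pr_single, smul_eq_mul, mul_one, one_mul, P.εε])
    (fun i hi => by rw [← h1, pr_single, if_neg hi, map_zero])
    (fun i => (lc_eq G (P.δ i)).trans (by rw [δ_eq, h2]))
  refine ⟨x, fun r => ?_⟩
  rw [lc_DD, ← lc_eq G r]
  congr 2
  exact funext hx

lemma hom_exact (hc : ColEx P (Bim.reg K T)) (n : ℤ) (g : Pm P (n + 1) →ₗ[T] T)
    (hg : g ∘ₗ dd P (n + 1) = 0) : ∃ f : Pm P n →ₗ[T] T, f ∘ₗ dd P n = g := by
  obtain ⟨x, hx⟩ := col_solve hc (n + 1) (g ∘ₗ prc P (n + 1))
    (fun r => by rw [LinearMap.comp_apply, LinearMap.comp_apply, prc_pr])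
    (fun r => by rw [LinearMap.comp_apply, ← dd_prc]; exact LinearMap.congr_fun hg _)
  refine ⟨linearCombination T x ∘ₗ inc P n, LinearMap.ext fun r => ?_⟩
  rw [LinearMap.comp_apply, LinearMap.comp_apply, coe_dd, hx,
    LinearMap.comp_apply, prc_coe]

lemma self_exact (hr : RowEx P (Bim.reg K T)) (hc : ColEx P (Bim.reg K T)) (n : ℤ)
    (hv : (cx P P ((Bim.reg K T).at 0)).Van (n + 1))
    (g : Pm P (n + 1) →ₗ[T] (Pm P 0 ⧸ LinearMap.range (dd P 0))) (hg : g ∘ₗ dd P (n + 1) = 0) :
    ∃ f : Pm P n →ₗ[T] (Pm P 0 ⧸ LinearMap.range (dd P 0)), f ∘ₗ dd P n = g := by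
  set G := g ∘ₗ prc P (n + 1) with hG
  have h1 : ∀ r, G (pr P (n + 1) r) = G r := fun r => by
    rw [hG, LinearMap.comp_apply, LinearMap.comp_apply, prc_pr]
  have h2 : ∀ r, G (DD P r) = 0 := fun r => by
    rw [hG, LinearMap.comp_apply, ← dd_prc]; exact LinearMap.congr_fun hg _
  choose x₀ hx₀ using fun i => qq_surjective P (G (single i 1))
  set x : Mat I I T := fun i => if P.deg i = n + 1 then P.ε i • pr P 0 (x₀ i) else 0 with hx
  have hxm : ∀ i, x i ∈ Pn P 0 := fun i => by
    simp only [hx]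
    split_ifs
    exacts [Submodule.smul_mem _ _ (pr_mem P 0 _), zero_mem _]
  have hxq : ∀ i, qq P (x i) = G (single i 1) := fun i => by
    simp only [hx]
    split_ifs with hi
    · rw [map_smul, qq_pr, hx₀, ← map_smul, smul_single, ← h1, ← h1 (single i 1), pr_single,
        pr_single, smul_eq_mul, mul_one, one_mul, P.εε]
    · rw [← h1, pr_single, if_neg hi, map_zero, map_zero]
  have hxP : (cx P P ((Bim.reg K T).at 0)).P (n + 1) x = x := Mat.ext' fun i j => by
    rw [cx_P_at, Bim.reg_l, Bim.reg_r, (hxm i).1]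
    split_ifs with h
    · simp only [hx]
      split_ifs
      · rw [Finsupp.smul_apply, smul_eq_mul, ← mul_assoc, P.εε]
      · simp
    · by_cases hi : P.deg i = n + 1
      · exact ((hxm i).2 j (by omega)).symm
      · simp only [hx, if_neg hi, Finsupp.coe_zero, Pi.zero_apply]
  have hx' : ∀ i, ∃ r', DD P r' = linearCombination T x (P.δ i) := fun i => by
    refine exists_of_qq ?_ ?_
    · rw [linearCombination_apply]
      exact Submodule.sum_mem _ fun j _ => Submodule.smul_mem _ _ (hxm j)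
    · rw [apply_linearCombination]
      have : (qq P) ∘ x = fun i => G (single i 1) := funext hxq
      rw [this, lc_eq, δ_eq, h2]
  choose x' hx' using hx'
  obtain ⟨a, ha, hax⟩ := ev_surj hr hc (N := n + 1) (x' := x') hxP
    (fun i hi => by simp only [hx, if_neg hi])
    (funext fun i => by rw [ml_eq, mmul_row, rmul_eq, hx'])
  obtain ⟨b, hb⟩ := hv a ha
  refine ⟨qq P ∘ₗ linearCombination T b ∘ₗ inc P n, LinearMap.ext fun r => ?_⟩
  have e : g r = G (inc P _ r) := by rw [hG, LinearMap.comp_apply, prc_coe]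
  rw [LinearMap.comp_apply, LinearMap.comp_apply, LinearMap.comp_apply,
    coe_dd, lc_DD, apply_linearCombination, e, ← lc_eq G]
  refine lc_congr (inc_mem r) fun i hi => ?_
  have := congrFun hb i
  rw [D_row, ml_eq, rmul_eq, hax i hi] at this
  rw [← hxq, ← this, map_add, qq_DD, add_zero]
  rfl

lemma not_projective (hc : ColEx P (Bim.reg K T)) (χ : T →ₐ[K] K) (hχ : ∀ i j, χ (P.δ i j) = 0)
    (i₀ : I) (h₀ : P.deg i₀ = 0) (hχ₀ : χ (P.ε i₀) = 1) :
    ¬ Module.Projective T (Pm P 0 ⧸ LinearMap.range (dd P 0)) := by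
  intro hp
  obtain ⟨s, hs⟩ := Module.projective_lifting_property (LinearMap.range (dd P 0)).mkQ
    LinearMap.id (Submodule.mkQ_surjective _)
  obtain ⟨x, hx⟩ := col_solve hc 0 (Finsupp.lapply i₀ ∘ₗ inc P 0 ∘ₗ s ∘ₗ qq P)
    (fun r => by simp only [LinearMap.comp_apply, qq_pr])
    (fun r => by simp only [LinearMap.comp_apply, qq_DD, map_zero])
  have h1 := hx (single i₀ 1)
  rw [← δ_eq] at h1
  have h2 : χ (linearCombination T x (P.δ i₀)) = 0 := by
    rw [linearCombination_apply, map_finsuppSum]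
    exact Finset.sum_eq_zero fun j _ => by simp [hχ]
  obtain ⟨r', hr'⟩ := exists_of_qq (P := P)
    (r := pr P 0 (single i₀ 1) - inc P 0 (s (qq P (single i₀ 1))))
    (sub_mem (pr_mem P 0 _) (inc_mem _)) (by
      rw [map_sub, qq_pr, qq_coe]
      exact sub_eq_zero.2 (LinearMap.congr_fun hs _).symm)
  have h3 : χ (DD P r' i₀) = 0 := by
    rw [DD_apply, map_finsuppSum]
    exact Finset.sum_eq_zero fun j _ => by simp [hχ]
  rw [hr', Finsupp.sub_apply, map_sub, pr_apply, if_pos h₀, single_eq_same, one_mul, hχ₀] at h3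
  rw [h1] at h2
  simp only [LinearMap.comp_apply, Finsupp.lapply_apply] at h2
  rw [h2, sub_zero] at h3
  exact one_ne_zero h3

omit [CharP K 2] in
lemma jacobson_eq {n : ℕ} (π : T →ₐ[K] (Fin n → K)) (hπ : Function.Surjective π)
    (hnil : ∀ x, π x = 0 → IsNilpotent x) : Ring.jacobson T = RingHom.ker π := by
  refine le_antisymm ?_ fun x hx => ?_
  · have : RingHomSurjective π.toRingHom := ⟨hπ⟩
    have h3 := Ring.le_comap_jacobson π.toRingHom
    rw [IsSemisimpleRing.jacobson_eq_bot (Fin n → K)] at h3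
    exact h3
  · rw [← Ideal.jacobson_bot, Ideal.mem_jacobson_iff]
    intro y
    obtain ⟨v, hv⟩ := (hnil (y * x) (Ideal.mul_mem_left _ y hx)).isUnit_one_add
    refine ⟨↑v⁻¹, ?_⟩
    have h3 := v.inv_mul
    rw [hv, mul_add, mul_one] at h3
    rw [Submodule.mem_bot, mul_assoc, add_comm, h3, sub_self]

end

end FinD

open FinD in
theorem gorProj_of_mc (K : Type u) [Field K] [CharP K 2] (T : Type u) [Ring T] [Algebra K T] [Module.Finite K T] {I : Type} (P : MC T I) (hr : RowEx P (Bim.reg K T)) (hc : ColEx P (Bim.reg K T)) (hv : ∀ n : ℤ, 0 < n → (cx P P ((Bim.reg K T).at 0)).Van n) (χ : T →ₐ[K] K) (hχ : ∀ i j, χ (P.δ i j) = 0) (i₀ : I) (h₀ : P.deg i₀ = 0) (hχ₀ : χ (P.ε i₀) = 1) (π : T →ₐ[K] (Fin 8 → K)) (hπ : Function.Surjective π) (hnil : ∀ x, π x = 0 → IsNilpotent x) (h4 : ∃ a b c d : T, π a = 0 ∧ π b = 0 ∧ π c = 0 ∧ π d = 0 ∧ a * b * c * d ≠ 0) : ∃ (M : Type u) (_ : AddCommGroup M) (_ : Module T M) (_ : Module K M) (_ : IsScalarTower K T M), Crest.AlgebraR.GorProjVanishingData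 K T M := by
  have : ∀ n, Module.Projective T (Pm P n) := projective P
  have : ∀ n, Module.Finite T (Pm P n) := finite P
  have hJ := jacobson_eq π hπ hnil
  have h0 : Function.Exact (dd P 0) (LinearMap.range (dd P 0)).mkQ :=
    LinearMap.exact_iff.2 (Submodule.ker_mkQ _)
  refine ⟨Pm P 0 ⧸ LinearMap.range (dd P 0), inferInstance, inferInstance,
    Module.compHom _ (algebraMap K T), IsScalarTower.of_compHom K T _, inferInstance,
    ⟨(Ideal.quotientEquivAlgOfEq K hJ).trans (Ideal.quotientKerAlgEquivOfSurjective hπ)⟩, ?_,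
    inferInstance, not_projective hc χ hχ i₀ h₀ hχ₀,
    ⟨fun n => Pm P n, inferInstance, inferInstance, dd P, fun n => ⟨inferInstance, inferInstance⟩,
      exact_dd hr, fun n g => ⟨fun hg => hom_exact hc n g hg, ?_⟩, ⟨LinearEquiv.refl _ _⟩⟩,
    fun i hi => ?_, fun i hi => ?_⟩
  · obtain ⟨a, b, c, d, ha, hb, hc, hd, hne⟩ := h4
    intro hbot
    have key : 1 * a * b * c * d ∈ Ring.jacobson T ^ 4 := by
      rw [Submodule.pow_succ, Submodule.pow_succ, Submodule.pow_succ, Submodule.pow_succ, hJ]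
      exact Ideal.mul_mem_mul (Ideal.mul_mem_mul (Ideal.mul_mem_mul (Ideal.mul_mem_mul
        (by simp [Submodule.pow_zero]) ha) hb) hc) hd
    rw [hbot, one_mul] at key
    exact hne key
  · rintro ⟨f, rfl⟩
    ext x
    simp [(exact_dd hr n).apply_apply_eq_zero]
  · obtain ⟨i, rfl⟩ := Nat.exists_eq_succ_of_ne_zero hi.ne'
    exact (ext_subsingleton_iff (fun n : ℕ => Pm P n) (fun n => dd P n) _
      (Submodule.mkQ_surjective _) h0 (fun n => exact_dd hr n) _ i).2
      (self_exact hr hc i (hv _ (by omega)))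
  · obtain ⟨i, rfl⟩ := Nat.exists_eq_succ_of_ne_zero hi.ne'
    exact (ext_subsingleton_iff (fun n : ℕ => Pm P n) (fun n => dd P n) _
      (Submodule.mkQ_surjective _) h0 (fun n => exact_dd hr n) _ i).2 (hom_exact hc i)

end Crest.Agent.R186
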