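import Crest.Agent.R186.Ev

/-!
The gluing bimodule.
-/

set_option autoImplicit false
set_option linter.unusedSectionVars false
set_option linter.unusedVariables false

noncomputable section

namespace Crest.Agent.R186

universe u

variable {k : Type u} [Field k] [CharP k 2] {J : Type*} {E : Type u} [Ring E] [Algebra k E]

namespace Glue

section General

variable {I I' S V X Y : Type*} [Ring S] [Algebra k S] [AddCommGroup V] [Module k V]
  [AddCommGroup X] [Module k X] [AddCommGroup Y] [Module k Y]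

/-! ### Truncation -/

theorem d_p0 {K : DG k E E V} (h : K.p (-1) = 0) (x : V) : K.d (K.p 0 x) = 0 := by
  have := K.pd (-1) x
  rw [h, neg_add_cancel] at this
  exact this.symm

/-- the projection killing the component of degree zero -/
def tπ (K : DG k E E V) : V →ₗ[k] LinearMap.ker (K.p 0) :=
  (LinearMap.id - K.p 0).codRestrict _ fun x => by simp [K.p_p]

@[simp] theorem tπ_coe (K : DG k E E V) (x : V) : (tπ K x : V) = x - K.p 0 x := rfl

theorem tπ_self (K : DG k E E V) (x : LinearMap.ker (K.p 0)) : tπ K x = x :=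
  Subtype.ext (by rw [tπ_coe, LinearMap.mem_ker.1 x.2, sub_zero])

/-- the truncation -/
def trunc (K : DG k E E V) (h : K.p (-1) = 0) : DG k E E (LinearMap.ker (K.p 0)) where
  toBim := K.toBim.sub _ (fun a x hx => by simp [K.pl, LinearMap.mem_ker.1 hx])
    (fun a x hx => by simp [K.pr, LinearMap.mem_ker.1 hx])
  d := tπ K ∘ₗ K.d ∘ₗ Submodule.subtype _
  p m := (K.p (m + 2)).restrict fun x hx => by
    rw [LinearMap.mem_ker, K.pp]
    split_ifs with h
    · rw [← h]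
      exact hx
    · rfl
  dd x := Subtype.ext (by simp [K.dd, d_p0 h])
  dl a x := Subtype.ext (by simp [K.dl, K.pl])
  dr a x := Subtype.ext (by simp [K.dr, K.pr])
  pp m n x := Subtype.ext (by
    by_cases h : m = n
    · rw [if_pos h]
      exact (K.pp _ _ _).trans (if_pos (by rw [h]))
    · rw [if_neg h]
      exact (K.pp _ _ _).trans (if_neg (by omega)))
  pl m a x := Subtype.ext (K.pl _ _ _)
  pr m a x := Subtype.ext (K.pr _ _ _)
  pd m x := Subtype.ext (by
    change K.p (m + 2) (K.d x - K.p 0 (K.d x)) =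
      K.d (K.p (m + 1 + 2) x) - K.p 0 (K.d (K.p (m + 1 + 2) x))
    rw [show m + 1 + 2 = m + 2 + 1 by ring, ← K.pd, map_sub, K.pp, K.pp]
    by_cases h : m + 2 = 0
    · simp [h]
    · simp [h, Ne.symm h])

section
variable (K : DG k E E V) (h : K.p (-1) = 0)

@[simp] theorem trunc_l (a : E) (x : LinearMap.ker (K.p 0)) :
    ((trunc K h).l a x : V) = K.l a x := rfl
@[simp] theorem trunc_r (a : E) (x : LinearMap.ker (K.p 0)) :
    ((trunc K h).r a x : V) = K.r a x := rfl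
@[simp] theorem trunc_d (x : LinearMap.ker (K.p 0)) :
    ((trunc K h).d x : V) = K.d x - K.p 0 (K.d x) := rfl
@[simp] theorem trunc_p (m : ℤ) (x : LinearMap.ker (K.p 0)) :
    ((trunc K h).p m x : V) = K.p (m + 2) x := rfl

theorem dhom_tπ : DHom K (trunc K h) (-2) (tπ K) where
  hl a x := Subtype.ext (by simp [K.pl])
  hr a x := Subtype.ext (by simp [K.pr])
  hd x := Subtype.ext (by simp [d_p0 h])
  hp m x := Subtype.ext (by
    rw [trunc_p, tπ_coe, tπ_coe, map_sub, K.pp, K.pp, sub_neg_eq_add]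
    by_cases h : m + 2 = 0
    · simp [h]
    · simp [h, Ne.symm h])

include h in
theorem dhom_incl : DHom ((K.comp 0).at 0) K 0 (Submodule.subtype _) where
  hl _ _ := rfl
  hr _ _ := rfl
  hd := fun ⟨_, x, rfl⟩ => (d_p0 h x).symm
  hp m x := by
    rw [Bim.at_p, sub_zero, Submodule.subtype_apply, K.p_comp]
    split_ifs <;> rfl

theorem trunc_ses (P : MC E I) : CSES (cx P P ((K.comp 0).at 0)) (cx P P K) (cx P P (trunc K h)) 0
    (-2) (mmap (Submodule.subtype _)) (mmap (tπ K)) := by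
  refine cses (dhom_incl K h) (dhom_tπ K h) (Submodule.injective_subtype _) (fun x => ?_)
    (fun x => ⟨x, tπ_self K x⟩) P P
  constructor
  · intro hx
    exact ⟨⟨K.p 0 x, x, rfl⟩, (sub_eq_zero.1 (congrArg Subtype.val hx)).symm⟩
  · rintro ⟨⟨_, y, rfl⟩, rfl⟩
    exact Subtype.ext (by simp [K.p_p])

end

/-! ### Twisted bimodules -/

/-- twisting the left action -/
def tw (M : Bim k E S V) (g : E →ₐ[k] E) : Bim k E S V where
  l := M.l ∘ₗ g.toLinearMap
  r := M.r
  l_one x := by simp [M.l_one]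
  l_mul a b x := by simp [M.l_mul]
  r_one := M.r_one
  r_mul := M.r_mul
  lr a b x := M.lr _ _ _

@[simp] theorem tw_l (M : Bim k E S V) (g : E →ₐ[k] E) (a : E) (x : V) :
    (tw M g).l a x = M.l (g a) x := rfl
@[simp] theorem tw_r (M : Bim k E S V) (g : E →ₐ[k] E) : (tw M g).r = M.r := rfl

/-- scaling the rows -/
def sc (wt : I → ℤ) (c : k) : Mat I I' V →ₗ[k] Mat I I' V := emap fun i _ => c ^ wt i • LinearMap.id

@[simp] theorem sc_apply (wt : I → ℤ) (c : k) (x : Mat I I' V) (i : I) (j : I') :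
    sc wt c x i j = c ^ wt i • x i j := rfl

theorem sc_sc (wt : I → ℤ) {c : k} (hc : c ≠ 0) (x : Mat I I' V) : sc wt c (sc wt c⁻¹ x) = x :=
  Mat.ext' fun i j => by simp [smul_smul, zpow_ne_zero _ hc]

theorem sc_sc' (wt : I → ℤ) {c : k} (hc : c ≠ 0) (x : Mat I I' V) : sc wt c⁻¹ (sc wt c x) = x :=
  Mat.ext' fun i j => by simp [smul_smul, zpow_ne_zero _ hc]

theorem cmap_sc {P : MC E I} (Q : MC S I') (M : Bim k E S V) {g : E →ₐ[k] E} {wt : I → ℤ} {c : k}
    (hc : c ≠ 0) (hε : ∀ i, g (P.ε i) = P.ε i)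
    (hδ : ∀ i j, g (P.δ i j) = c ^ (wt i - wt j) • P.δ i j) :
    CMap (cx P Q (M.at 0)) (cx P Q ((tw M g).at 0)) 0 (sc wt c) where
  hD x := by
    rw [cx_D_at, cx_D_at, map_add]
    congr 1
    · refine emap_mmul _ _ _ _ fun i j l => ?_
      simp [hδ, smul_smul, ← zpow_add₀ hc]
    · refine emap_mmul _ _ _ _ fun i j l => ?_
      simp
  hP n x := Mat.ext' fun i j => by
    rw [add_zero, sc_apply, cx_P_at, cx_P_at]
    split_ifs <;> simp [hε]

theorem cmap_inv {C : Cx k X} {C' : Cx k Y} {f : X →ₗ[k] Y} {g : Y →ₗ[k] X} (h : CMap C C' 0 f)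
    (h1 : ∀ x, g (f x) = x) (h2 : ∀ y, f (g y) = y) : CMap C' C 0 g where
  hD y := by rw [← h2 y, ← h.hD, h1, h1]
  hP n y := by rw [← h2 y, add_zero, h.hP, add_zero, h1, h1]

/-! ### Extensions -/

/-- the data of an extension of a bimodule in degree zero -/
structure ExtD (B : Bim k E E Y) (N : DG k E E X) where
  θ₀ : Y →ₗ[k] X
  θ₁ : E →ₗ[k] Y →ₗ[k] X
  one : ∀ b, θ₁ 1 b = 0
  mul : ∀ a a' b, θ₁ (a * a') b = N.l a (θ₁ a' b) + θ₁ a (B.l a' b)
  r₁ : ∀ a s b, θ₁ a (B.r s b) = N.r s (θ₁ a b)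
  r₀ : ∀ s b, θ₀ (B.r s b) = N.r s (θ₀ b)
  d₀ : ∀ b, N.d (θ₀ b) = 0
  d₁ : ∀ a b, θ₀ (B.l a b) + N.d (θ₁ a b) = N.l a (θ₀ b)
  p₀ : ∀ b, N.p (-1) (θ₀ b) = θ₀ b
  p₁ : ∀ a b, N.p 0 (θ₁ a b) = θ₁ a b

variable {B : Bim k E E Y} {N : DG k E E X}

/-- the extension -/
def ExtD.dg (T : ExtD B N) : DG k E E (Y × X) where
  l := LinearMap.mk₂ k (fun a w => (B.l a w.1, N.l a w.2 + T.θ₁ a w.1))
    (fun a a' w => by simp; abel) (fun c a w => by simp) (fun a w w' => by simp; abel)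
    (fun c a w => by simp)
  r := (B.prod N.toBim).r
  l_one w := by simp [B.l_one, N.l_one, T.one]
  l_mul a a' w := by simp [B.l_mul, N.l_mul, T.mul, add_assoc]
  r_one := (B.prod N.toBim).r_one
  r_mul := (B.prod N.toBim).r_mul
  lr a s w := by simp [B.lr, N.lr, T.r₁]
  d := LinearMap.inr k Y X ∘ₗ T.θ₀.coprod N.d
  p m := ((B.at 0).p m).prodMap (N.p m)
  dd w := by simp [T.d₀, N.dd]
  dl a w := by
    simp [N.dl, ← T.d₁]
    abel
  dr a w := by simp [N.dr, T.r₀]
  pp m n x := by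
    rw [LinearMap.prodMap_apply, LinearMap.prodMap_apply, DG.pp, DG.pp]
    split_ifs <;> rfl
  pl m a w := by
    have := N.pp m 0 (T.θ₁ a w.1)
    rw [T.p₁] at this
    by_cases h : m = 0 <;> simp [Bim.at_p, N.pl, this, h, T.p₁]
  pr m a w := Prod.ext ((B.at 0).pr m a _) (N.pr m a _)
  pd m w := by
    have := N.pp m (-1) (T.θ₀ w.1)
    rw [T.p₀] at this
    by_cases h : m = -1
    · simp [Bim.at_p, N.pd, h, T.p₀]
    · simp [Bim.at_p, N.pd, this, h, show m + 1 ≠ 0 by omega]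

@[simp] theorem ExtD.dg_l (T : ExtD B N) (a : E) (w : Y × X) :
    T.dg.l a w = (B.l a w.1, N.l a w.2 + T.θ₁ a w.1) := rfl
@[simp] theorem ExtD.dg_r (T : ExtD B N) (a : E) (w : Y × X) :
    T.dg.r a w = (B.r a w.1, N.r a w.2) := rfl
@[simp] theorem ExtD.dg_d (T : ExtD B N) (w : Y × X) : T.dg.d w = (0, T.θ₀ w.1 + N.d w.2) := rfl
@[simp] theorem ExtD.dg_p (T : ExtD B N) (m : ℤ) (w : Y × X) :
    T.dg.p m w = ((B.at 0).p m w.1, N.p m w.2) := rfl

theorem ExtD.dhom_inr (T : ExtD B N) : DHom N T.dg 0 (LinearMap.inr k Y X) :=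
  ⟨by simp, by simp, by simp, by simp⟩

theorem ExtD.dhom_fst (T : ExtD B N) : DHom T.dg (B.at 0) 0 (LinearMap.fst k Y X) :=
  ⟨by simp, by simp, by simp, by simp⟩

/-- the entry `(o, o)` of a coboundary -/
theorem func_D (H : Half k E J) (M : DG k E E V) (Λ : V →ₗ[k] k)
    (hΛ : ∀ a x, Λ (M.r a x) = H.χ a * Λ x) (c : Mat (J ⊕ J) (J ⊕ J) V) :
    Λ ((cx H.splice H.splice M).D c H.o H.o) =
      Λ (M.l H.ω (c (.inr H.j₀) H.o)) + Λ (M.d (c H.o H.o)) := by
  rw [cx_D, Pi.add_apply, Pi.add_apply, Finsupp.add_apply, Finsupp.add_apply, map_add, map_add,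
    mmul_apply_single _ _ _ _ _ (.inr H.j₀) (fun j hj => by simp [H.δ_o, hj]), H.δ_o, if_pos rfl,
    mmul_apply, map_finsuppSum]
  simp [hΛ, H.χ_splice_δ, Finsupp.sum]

end General

variable {H : Half k E J} {V : Type u} [AddCommGroup V] [Module k V] {K : DG k E E V}

theorem eq_inr {i : J ⊕ J} (h : H.splice.deg i = -1) : i = .inr H.j₀ := by
  rcases i with i | i
  · have := H.deg_nonneg i
    rw [Half.splice_deg_inl] at h
    omega
  · rw [Half.splice_deg_inr] at h
    rw [H.deg_zero i (by omega)]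

section Trunc

variable (G : Kos H K)
include G

theorem hneg : K.p (-1) = 0 := G.bdd _ (by omega)

/-- the truncated Koszul bimodule -/
abbrev Kb : DG k E E (LinearMap.ker (K.p 0)) := trunc K (hneg G)

/-- the functional detecting the class of degree one -/
def lamb : LinearMap.ker (K.p 0) →ₗ[k] k := G.lam ∘ₗ K.d ∘ₗ Submodule.subtype _

theorem lamb_apply (x : LinearMap.ker (K.p 0)) : lamb G x = G.lam (K.d x) := rfl

theorem lamb_r (a : E) (x : LinearMap.ker (K.p 0)) : lamb G ((Kb G).r a x) = H.χ a * lamb G x := by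
  rw [lamb_apply, trunc_r, K.dr, G.lam_r, lamb_apply]

theorem lamb_l (x : LinearMap.ker (K.p 0)) : lamb G ((Kb G).l H.ω x) = 0 := by
  rw [lamb_apply, trunc_l, K.dl, G.lam_l, G.he.hd]
  simp

theorem lamb_d (x : LinearMap.ker (K.p 0)) : lamb G ((Kb G).d x) = 0 := by
  rw [lamb_apply, trunc_d, map_sub, K.dd, d_p0 (hneg G), sub_zero, map_zero]

theorem Kb_van {n : ℤ} (h1 : n ≠ 1) (h2 : n ≠ -2) : (cx H.splice H.splice (Kb G)).Van n := by
  intro x hx
  have s := trunc_ses K (hneg G) H.splice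
  obtain ⟨c, hc, rfl⟩ := s.surj_g rfl rfl (G.van₀ _) hx
  exact s.hg.B (G.van _ (by omega) (by omega) c hc)

theorem Kb_one {x : Mat (J ⊕ J) (J ⊕ J) (LinearMap.ker (K.p 0))}
    (hx : (cx H.splice H.splice (Kb G)).Z 1 x) (h : lamb G (x H.o H.o) = 0) :
    (cx H.splice H.splice (Kb G)).B x := by
  have s := trunc_ses K (hneg G) H.splice
  obtain ⟨c, hc, rfl⟩ := s.surj_g (m := -1) (by ring) rfl (G.van₀ _) hx
  have hz := (G.he.cmap H.splice H.splice).Z (n := -1) (by ring) hc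
  refine s.hg.B (G.inj c hc (H.ev_inj hz fun i => ?_))
  by_contra hi
  have h1 := (H.ev_zero hz.1 hi).1
  rw [H.deg_o, sub_zero] at h1
  obtain rfl := eq_inr h1
  have h2 := func_D H K G.lam G.lam_r c
  rw [lamb_apply, mmap_apply, tπ_coe, map_sub, d_p0 (hneg G), sub_zero] at h
  rw [hc.2, h, G.lam_l, add_zero] at h2
  exact hi (h2.symm.trans (map_zero _))

end Trunc

section Twist

variable {G : Kos H K} {c : k} (T : KTw G c)

/-- the twisted regular bimodule -/
abbrev Eg : Bim k E E E := tw (Bim.reg k E) T.g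

variable (G c) in
/-- the generator -/
def gw : Mat (J ⊕ J) (J ⊕ J) E := diag fun i => c ^ G.wt i • H.splice.ε i

theorem cmap_Eg (hc : c ≠ 0) :
    CMap (ecx k H.splice) (cx H.splice H.splice ((Eg T).at 0)) 0 (sc G.wt c) :=
  cmap_sc _ _ hc T.g_ε T.g_δ

theorem cmap_Eg' (hc : c ≠ 0) :
    CMap (cx H.splice H.splice ((Eg T).at 0)) (ecx k H.splice) 0 (sc G.wt c⁻¹) :=
  cmap_inv (cmap_Eg T hc) (sc_sc' _ hc) (sc_sc _ hc)

theorem Z_gw (hc : c ≠ 0) : (cx H.splice H.splice ((Eg T).at 0)).Z 0 (gw G c) := by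
  constructor
  · refine Mat.ext' fun i j => ?_
    rw [cx_P_at]
    by_cases h : j = i
    · subst h
      simp [gw, diag, T.g_ε, MC.εε]
    · simp [gw, diag, Finsupp.single_eq_of_ne h]
  · refine Mat.ext' fun i j => ?_
    rw [cx_D_at, Pi.add_apply, Finsupp.add_apply, gw, mmul_diag_right, mmul_diag_left]
    simp [T.g_δ, smul_smul, ← zpow_add₀ hc, MC.εδ, MC.δε, add_self k]

theorem Eg_B (hc : c ≠ 0) {x : Mat (J ⊕ J) (J ⊕ J) E}
    (hx : (cx H.splice H.splice ((Eg T).at 0)).B x) (i j : J ⊕ J) : H.χ (x i j) = 0 := by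
  simpa [zpow_ne_zero _ hc] using H.ev_B ((cmap_Eg' T hc).B hx) i j

theorem Eg_inj (hc : c ≠ 0) {n : ℤ} {x : Mat (J ⊕ J) (J ⊕ J) E}
    (hx : (cx H.splice H.splice ((Eg T).at 0)).Z n x) (h : ∀ i, H.χ (x i H.o) = 0) :
    (cx H.splice H.splice ((Eg T).at 0)).B x := by
  have := (cmap_Eg T hc).B (H.ev_inj ((cmap_Eg' T hc).Z (add_zero n).symm hx) fun i => by simp [h])
  rwa [sc_sc _ hc] at this

theorem Eg_zero (hc : c ≠ 0) {n : ℤ} {x : Mat (J ⊕ J) (J ⊕ J) E}
    (hx : (cx H.splice H.splice ((Eg T).at 0)).Z n x) {i : J ⊕ J} (h : H.χ (x i H.o) ≠ 0) :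
    H.splice.deg i = n ∧ H.χ (H.splice.ε i) ≠ 0 := by
  have := H.ev_zero ((cmap_Eg' T hc).Z (add_zero n).symm hx).1 (i := i) (j := H.o)
    (by simpa [zpow_ne_zero _ hc] using h)
  rw [H.deg_o, sub_zero] at this
  exact ⟨this.1, this.2.1⟩

theorem Eg_val {n : ℤ} (a : Mat (J ⊕ J) (J ⊕ J) E) {b : Mat (J ⊕ J) (J ⊕ J) E}
    (hb : (ecx k H.splice).Z n b) (i : J ⊕ J) :
    H.χ (((Eg T).ml a (gw G c) + (Eg T).mr (gw G c) b) i H.o) =
      H.χ (a i H.o) + c ^ G.wt i * H.χ (b i H.o) := by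
  have h1 := congrArg H.χ (entry_of_P hb.1 i H.o).1
  rw [Bim.reg_l, map_mul] at h1
  rw [Pi.add_apply, Finsupp.add_apply, gw, mmul_diag_right, mmul_diag_left]
  simp [T.χ_g, G.wt_o, H.χ_ε₀, h1]

theorem Eg_row : RowEx H.splice (Eg T) := H.rowEx

theorem Eg_col (hc : c ≠ 0) : ColEx H.splice (Eg T) := fun n x hx => by
  have h := cmap_sc (MC.pt k) (Bim.reg k E).fR hc T.g_ε T.g_δ
  have h' := cmap_inv h (sc_sc' _ hc) (sc_sc _ hc)
  have := h.B (H.colEx n _ (h'.Z (add_zero n).symm hx))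
  rwa [sc_sc _ hc] at this

theorem p0_η₀ : K.p 0 T.η₀ = 0 := by rw [← T.p_η₀, K.pp, if_neg (by norm_num)]
theorem p0_η₁ (a : E) : K.p 0 (T.η₁ a) = 0 := by rw [← T.p_η₁, K.pp, if_neg (by norm_num)]

/-- the extension attached to a twist -/
def extT : ExtD (Eg T) (Kb G) where
  θ₀ := (Kb G).r.flip ⟨T.η₀, p0_η₀ T⟩
  θ₁ := (Kb G).r.flip ∘ₗ T.η₁.codRestrict _ (p0_η₁ T)
  one b := Subtype.ext (by
    have := T.η₁_mul 1 1
    rw [mul_one, map_one T.g, K.l_one, K.r_one, add_self k] at this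
    simp [this])
  mul a a' b := Subtype.ext (by simp [T.η₁_mul, K.lr, K.r_mul])
  r₁ a s b := Subtype.ext (by simp [K.r_mul])
  r₀ s b := Subtype.ext (by simp [K.r_mul])
  d₀ b := Subtype.ext (by
    have := K.pd 0 T.η₀
    rw [zero_add, T.p_η₀] at this
    simp [K.dr, K.pr, this])
  d₁ a b := Subtype.ext (by
    simp [K.dr, K.pr, K.pl, T.d_η₁, p0_η₀, K.r_mul, K.lr]
    char2 k)
  p₀ b := Subtype.ext (by simp [K.pr, T.p_η₀])
  p₁ a b := Subtype.ext (by simp [K.pr, T.p_η₁])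

theorem lamb_θ₀ (x : E) : lamb G ((extT T).θ₀ x) = H.χ x := by
  have := lamb_r G x ⟨T.η₀, p0_η₀ T⟩
  rw [show lamb G ⟨T.η₀, p0_η₀ T⟩ = 1 from T.val, mul_one] at this
  exact this

end Twist

section Sum

variable {X Y Y' : Type*} [AddCommGroup X] [Module k X] [AddCommGroup Y] [Module k Y]
  [AddCommGroup Y'] [Module k Y'] {B : Bim k E E Y} {B' : Bim k E E Y'} {N : DG k E E X}

/-- the sum of two extensions -/
def ExtD.sum (T : ExtD B N) (T' : ExtD B' N) : ExtD (B.prod B') N where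
  θ₀ := T.θ₀.coprod T'.θ₀
  θ₁ := LinearMap.mk₂ k (fun a w => T.θ₁ a w.1 + T'.θ₁ a w.2) (fun a a' w => by simp; abel)
    (fun c a w => by simp) (fun a w w' => by simp; abel) (fun c a w => by simp)
  one b := by simp [T.one, T'.one]
  mul a a' b := by
    simp [T.mul, T'.mul]
    abel
  r₁ a s b := by simp [T.r₁, T'.r₁]
  r₀ s b := by simp [T.r₀, T'.r₀]
  d₀ b := by simp [T.d₀, T'.d₀]
  d₁ a b := by
    simp [← T.d₁, ← T'.d₁]
    abel
  p₀ b := by simp [T.p₀, T'.p₀]
  p₁ a b := by simp [T.p₁, T'.p₁]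

theorem dfst : DHom ((B.prod B').at 0) (B.at 0) 0 (LinearMap.fst k Y Y') :=
  dhom_at 0 (by simp) (by simp)
theorem dsnd : DHom ((B.prod B').at 0) (B'.at 0) 0 (LinearMap.snd k Y Y') :=
  dhom_at 0 (by simp) (by simp)
theorem dinl : DHom (B.at 0) ((B.prod B').at 0) 0 (LinearMap.inl k Y Y') :=
  dhom_at 0 (by simp) (by simp)
theorem dinr : DHom (B'.at 0) ((B.prod B').at 0) 0 (LinearMap.inr k Y Y') :=
  dhom_at 0 (by simp) (by simp)

end Sum

end Glue

open Glue in
theorem glue {H : Half k E J} {V : Type u} [AddCommGroup V] [Module k V] {K : DG k E E V}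
    (G : Kos H K) (q : k) (hq0 : q ≠ 0) (hq : ∀ n : ℕ, 0 < n → q ^ n ≠ 1) (T : KTw G 1)
    (T' : KTw G q) :
    ∃ (W : Type u) (_ : AddCommGroup W) (_ : Module k W) (_ : Module.Finite k W) (M : DG k E E W),
      (∀ m, m < -1 ∨ 2 < m → M.p m = 0) ∧ RowEx H.splice M.toBim ∧ ColEx H.splice M.toBim ∧
        Good H.splice M := by
  have := G.fin
  have := H.fin
  let X := (extT T).sum (extT T')
  have hqz : ∀ N : ℤ, N ≠ 0 → 1 + q ^ N ≠ 0 := fun N hN h => by
    rw [add_eq_zero_iff k] at h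
    obtain ⟨n, rfl | rfl⟩ := N.eq_nat_or_neg
    · exact hq n (by omega) (by simpa using h.symm)
    · exact hq n (by omega) (by simpa using h.symm)
  have ex : Function.Exact (LinearMap.inr k (E × E) (LinearMap.ker (K.p 0)))
      (LinearMap.fst k (E × E) (LinearMap.ker (K.p 0))) := Function.Exact.inr_fst
  refine ⟨(E × E) × LinearMap.ker (K.p 0), inferInstance, inferInstance, inferInstance, X.dg,
    fun m hm => ?_, ?_, ?_, ?_⟩
  · refine LinearMap.ext fun w => Prod.ext ?_ (Subtype.ext ?_)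
    · simp [Bim.at_p, show m ≠ 0 by omega]
    · change K.p (m + 2) w.2 = 0
      by_cases h : m + 2 = 0
      · rw [h]
        exact w.2.2
      · rw [G.bdd _ (by omega), LinearMap.zero_apply]
  · exact RowEx.ses₂ (G.row.retract (tπ K) (Submodule.subtype _) (dhom_tπ K (hneg G)).hr
      (fun _ _ => rfl) (tπ_self K)) ((Eg_row T).prod (Eg_row T')) X.dhom_inr.hr X.dhom_fst.hr
      LinearMap.inr_injective ex Prod.fst_surjective
  · exact ColEx.ses₂ (G.col.retract (tπ K) (Submodule.subtype _) (dhom_tπ K (hneg G)).hl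
      (fun _ _ => rfl) (tπ_self K)) ((Eg_col T one_ne_zero).prod (Eg_col T' hq0)) X.dhom_inr.hl
      X.dhom_fst.hl LinearMap.inr_injective ex Prod.fst_surjective
  have s := cses X.dhom_inr X.dhom_fst LinearMap.inr_injective ex Prod.fst_surjective H.splice
    H.splice
  have key : ∀ c : Mat (J ⊕ J) (J ⊕ J) ((E × E) × LinearMap.ker (K.p 0)),
      (c (.inr H.j₀) H.o).1 = 0 → lamb G ((cx H.splice H.splice X.dg).D c H.o H.o).2 =
        H.χ (c H.o H.o).1.1 + H.χ (c H.o H.o).1.2 := fun c hc => by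
    have := func_D H X.dg (lamb G ∘ₗ LinearMap.snd k _ _) (fun a x => lamb_r G a x.2) c
    simp only [LinearMap.comp_apply, LinearMap.snd_apply, ExtD.dg_l, ExtD.dg_d, hc, map_zero,
      add_zero, lamb_l, zero_add, map_add, lamb_d] at this
    rw [this, ← lamb_θ₀ T, ← lamb_θ₀ T', ← map_add]
    rfl
  have conn : ∀ α α' : k, ∃ c y, (cx H.splice H.splice X.dg).P 0 c = c ∧
      mmap (LinearMap.fst k _ _) c = mmap (LinearMap.inl k E E) (α • gw G 1) +
        mmap (LinearMap.inr k E E) (α' • gw G q) ∧ (cx H.splice H.splice (Kb G)).Z 1 y ∧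
      mmap (LinearMap.inr k _ _) y = (cx H.splice H.splice X.dg).D c ∧
      lamb G (y H.o H.o) = α + α' := fun α α' => by
    obtain ⟨c, y, h1, h2, h3, h4⟩ := s.conn (n := 0) (m := 0) (l := 1) (by ring) (by ring)
      ((((dinl (B' := Eg T')).cmap _ _).Z (add_zero 0).symm ((Z_gw T one_ne_zero).smul α)).add
        (((dinr (B := Eg T)).cmap _ _).Z (add_zero 0).symm ((Z_gw T' hq0).smul α')))
    refine ⟨c, y, h1, h2, h3, h4, ?_⟩
    have e1 : ∀ i j, (c i j).1 = (α • gw G 1 i j, α' • gw G q i j) := fun i j => by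
      simpa using congrArg (fun x => x i j) h2
    have := key c (by simp [e1, gw, diag])
    rw [← h4, e1] at this
    simpa [gw, diag, G.wt_o, H.χ_ε₀] using this
  obtain ⟨c₁, y₁, a1, a2, a3, a4, a5⟩ := conn 1 1
  obtain ⟨v, hv, hv'⟩ := s.lift_Z (m := 0) (l := 1) (by ring) a1 a4 a3.1
    (Kb_one G a3 (by rw [a5, add_self k]))
  rw [a2, one_smul, one_smul] at hv'
  have v1 : mmap (LinearMap.fst k E E) (mmap (LinearMap.fst k _ _) v) = gw G 1 := by
    rw [hv']
    exact Mat.ext' fun i j => by simp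
  have v2 : mmap (LinearMap.snd k E E) (mmap (LinearMap.fst k _ _) v) = gw G q := by
    rw [hv']
    exact Mat.ext' fun i j => by simp
  have w1 : ∀ a b, mmap (LinearMap.fst k E E) (mmap (LinearMap.fst k _ _)
      (X.dg.ml a v + X.dg.mr v b)) = (Eg T).ml a (gw G 1) + (Eg T).mr (gw G 1) b := fun a b => by
    rw [map_add, map_add, X.dhom_fst.ml, X.dhom_fst.mr, dfst.ml, dfst.mr, v1]
    rfl
  have w2 : ∀ a b, mmap (LinearMap.snd k E E) (mmap (LinearMap.fst k _ _)
      (X.dg.ml a v + X.dg.mr v b)) = (Eg T').ml a (gw G q) + (Eg T').mr (gw G q) b := fun a b => by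
    rw [map_add, map_add, X.dhom_fst.ml, X.dhom_fst.mr, dsnd.ml, dsnd.mr, v2]
    rfl
  refine ⟨v, hv, fun n hn a b ha hb hB => ?_, fun n hn c hc => ?_⟩
  · have h1 := fun i => Eg_B T one_ne_zero (w1 a b ▸ (dfst.cmap _ _).B (s.hg.B hB)) i H.o
    have h2 := fun i => Eg_B T' hq0 (w2 a b ▸ (dsnd.cmap _ _).B (s.hg.B hB)) i H.o
    simp only [Eg_val T a hb, Eg_val T' a hb, one_zpow, one_mul] at h1 h2
    have h3 : ∀ i, H.χ (b i H.o) = 0 := fun i => by
      by_contra h
      obtain ⟨e1, e2, -⟩ := H.ev_zero hb.1 h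
      rw [H.deg_o, sub_zero] at e1
      have e3 := hqz _ (G.wt_ne i e2 fun e => hn (by rw [← e1, e, H.deg_o]))
      refine h ((mul_eq_zero.1 ?_).resolve_left e3)
      linear_combination h1 i + h2 i - H.χ (a i H.o) * two_eq_zero k
    exact ⟨H.ev_inj ha fun i => by simpa [h3] using h1 i, H.ev_inj hb h3⟩
  · have hx := s.hg.Z (add_zero n).symm hc
    have hx1 := (dfst.cmap _ _).Z (add_zero n).symm hx
    have hx2 := (dsnd.cmap _ _).Z (add_zero n).symm hx
    set u : J ⊕ J → k := fun i => H.χ (c i H.o).1.1 with hu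
    set u' : J ⊕ J → k := fun i => H.χ (c i H.o).1.2 with hu'
    have z : ∀ i, u i ≠ 0 ∨ u' i ≠ 0 → H.splice.deg i = n ∧ H.χ (H.splice.ε i) ≠ 0 :=
      fun i h => h.elim (Eg_zero T one_ne_zero hx1) (Eg_zero T' hq0 hx2)
    have zo : u H.o + u' H.o = 0 := by
      by_cases h : u H.o ≠ 0 ∨ u' H.o ≠ 0
      · have hn0 : n = 0 := (z _ h).1.symm.trans H.deg_o
        subst hn0
        have := key c ((entry_of_P hx.1 (.inr H.j₀) H.o).2.2 (by simp [H.deg_j₀]))
        rw [hc.2] at this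
        exact this.symm.trans (map_zero _)
      · push Not at h
        rw [h.1, h.2, add_zero]
    let β : J ⊕ J → k := fun i => (u i + u' i) / (1 + q ^ G.wt i)
    have hβ : ∀ i, (1 + q ^ G.wt i) * β i = u i + u' i := fun i => by
      by_cases h : u i + u' i = 0
      · simp [β, h]
      · have h1 : u i ≠ 0 ∨ u' i ≠ 0 := by
          by_contra h1
          push Not at h1
          exact h (by rw [h1.1, h1.2, add_zero])
        exact mul_div_cancel₀ _ (hqz _ (G.wt_ne i (z i h1).2 fun e => h (e ▸ zo)))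
    obtain ⟨a, ha, ha'⟩ := H.ev_surj n (fun i => u i + β i) fun i h => z i (by
      by_contra h1
      push Not at h1
      exact h (by simp [β, h1.1, h1.2]))
    obtain ⟨b, hb, hb'⟩ := H.ev_surj n β fun i h => z i (by
      by_contra h1
      push Not at h1
      exact h (by simp [β, h1.1, h1.2]))
    refine ⟨a, b, ha, hb, ?_⟩
    have hc2 := hc.add ((Z_ml (by ring) ha hv).add (Z_mr (by ring) hb hv))
    have hx' := s.hg.Z (add_zero n).symm hc2
    have b1 := Eg_inj T one_ne_zero ((dfst.cmap _ _).Z (add_zero n).symm hx') fun i => by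
      rw [map_add, map_add, w1, Pi.add_apply, Finsupp.add_apply, map_add, Eg_val T a hb, ha', hb']
      change u i + _ = 0
      rw [one_zpow]
      linear_combination (u i + β i) * two_eq_zero k
    have b2 := Eg_inj T' hq0 ((dsnd.cmap _ _).Z (add_zero n).symm hx') fun i => by
      rw [map_add, map_add, w2, Pi.add_apply, Finsupp.add_apply, map_add, Eg_val T' a hb, ha', hb']
      change u' i + _ = 0
      linear_combination hβ i + (u i + u' i) * two_eq_zero k
    obtain ⟨y, hy, hy'⟩ := s.mid (add_zero n).symm hc2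
      (((((dinl (B' := Eg T')).cmap _ _).B b1).add (((dinr (B := Eg T)).cmap _ _).B b2)).of_eq
        (Mat.ext' fun i j => Prod.ext (by simp) (by simp)))
    have hBy : (cx H.splice H.splice X.dg).B (mmap (LinearMap.inr k _ _) y) := by
      by_cases h1 : n = 1
      · subst h1
        obtain ⟨c₀, y₀, -, -, c3, c4, c5⟩ := conn (lamb G (y H.o H.o)) 0
        have := s.hf.B (Kb_one G (hy.add c3) (by
          rw [Pi.add_apply, Finsupp.add_apply, map_add, c5, add_zero, add_self k]))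
        rw [map_add, c4] at this
        exact (this.add (Cx.B.D c₀)).of_eq (by char2 k)
      · exact s.hf.B (Kb_van G h1 hn y hy)
    exact (hy'.add hBy).of_eq (by char2 k)

end Crest.Agent.R186
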