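import Crest.Agent.R186.Fill

/-!
Tensor products of resolutions and complete resolutions obtained by splicing.
-/

set_option autoImplicit false

noncomputable section

namespace Crest.Agent.R186

open TensorProduct

variable {k : Type*} [Field k]
variable {I J J' : Type*} {R : Type*} [Ring R]

/-- a matrix complex from the entries of its differential -/
def MC.ofFun (deg : I → ℤ) (fib : ℤ → Finset I) (mem_fib : ∀ n i, i ∈ fib n ↔ deg i = n)
    (ε : I → R) (f : I → I → R) (εε : ∀ i, ε i * ε i = ε i) (εf : ∀ i j, ε i * f i j = f i j)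
    (fε : ∀ i j, f i j * ε j = f i j) (hom : ∀ i j, f i j ≠ 0 → deg j = deg i - 1)
    (ff : ∀ i l, ∑ j ∈ fib (deg i - 1), f i j * f j l = 0) : MC R I where
  deg := deg
  fib := fib
  mem_fib := mem_fib
  ε := ε
  δ i := Finsupp.onFinset (fib (deg i - 1)) (f i) fun j hj => (mem_fib _ _).2 (hom i j hj)
  εε := εε
  εδ := εf
  δε := fε
  hom := hom
  δδ i l := by
    rw [Finsupp.sum_of_support_subset _ Finsupp.support_onFinset_subset _ (by simp)]
    exact ff i l

theorem MC.sum_δ {M : Type*} [AddCommMonoid M] (P : MC R I) (i : I) (g : I → R → M)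
    (hg : ∀ j, g j 0 = 0) : (P.δ i).sum g = ∑ j ∈ P.fib (P.deg i - 1), g j (P.δ i j) :=
  Finsupp.sum_of_support_subset _
    (fun j hj => (P.mem_fib _ _).2 (P.hom i j (Finsupp.mem_support_iff.1 hj))) _ fun j _ => hg j

theorem MC.sum_δδ (P : MC R I) (i l : I) :
    ∑ j ∈ P.fib (P.deg i - 1), P.δ i j * P.δ j l = 0 := by
  rw [← P.δδ i l, P.sum_δ _ _ (by simp)]

theorem MC.sum_δδ' (P : MC R I) (i l : I) :
    ∑ j ∈ P.fib (P.deg l + 1), P.δ i j * P.δ j l = 0 := by
  by_cases h : P.deg l + 1 = P.deg i - 1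
  · rw [h, P.sum_δδ]
  · refine Finset.sum_eq_zero fun j hj => ?_
    rw [P.mem_fib] at hj
    by_cases h' : P.δ i j = 0
    · rw [h', zero_mul]
    · exact absurd (hj.symm.trans (P.hom i j h')) h

theorem MC.δ_self (P : MC R I) (i : I) : P.δ i i = 0 := by
  by_contra h
  have := P.hom i i h
  omega

section Tensor

variable {A B : Type*} [Ring A] [Algebra k A] [Ring B] [Algebra k B]

open Classical in
/-- the entries of the differential of a tensor product -/
def tδ (k : Type*) [Field k] {A B : Type*} [Ring A] [Algebra k A] [Ring B] [Algebra k B]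
    (P : MC A J) (Q : MC B J') (i j : J × J') : A ⊗[k] B :=
  (if i.2 = j.2 then P.δ i.1 j.1 ⊗ₜ Q.ε i.2 else 0) +
    (if i.1 = j.1 then P.ε i.1 ⊗ₜ Q.δ i.2 j.2 else 0)

open Classical in
/-- the fibres of the total degree -/
def tfib (P : MC A J) (Q : MC B J') (n : ℤ) : Finset (J × J') :=
  (Finset.Icc 0 n).biUnion fun a => P.fib a ×ˢ Q.fib (n - a)

omit [Algebra k A] [Algebra k B] in
theorem mem_tfib (P : MC A J) (Q : MC B J') (hP : ∀ j, 0 ≤ P.deg j) (hQ : ∀ j, 0 ≤ Q.deg j)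
    (n : ℤ) (i : J × J') : i ∈ tfib P Q n ↔ P.deg i.1 + Q.deg i.2 = n := by
  simp only [tfib, Finset.mem_biUnion, Finset.mem_Icc, Finset.mem_product, MC.mem_fib]
  constructor
  · rintro ⟨a, -, h1, h2⟩
    omega
  · intro h
    have := hP i.1
    have := hQ i.2
    exact ⟨P.deg i.1, ⟨by omega, by omega⟩, rfl, by omega⟩

theorem tδ_hom (P : MC A J) (Q : MC B J') (i j : J × J') (h : tδ k P Q i j ≠ 0) :
    P.deg j.1 + Q.deg j.2 = P.deg i.1 + Q.deg i.2 - 1 := by
  by_contra h'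
  refine h ?_
  unfold tδ
  have e1 : i.2 = j.2 → P.δ i.1 j.1 = 0 := fun e => by
    by_contra h0
    have := P.hom _ _ h0
    rw [e] at h'
    omega
  have e2 : i.1 = j.1 → Q.δ i.2 j.2 = 0 := fun e => by
    by_contra h0
    have := Q.hom _ _ h0
    rw [e] at h'
    omega
  split_ifs with h1 h2 h2 <;> simp_all

/-- sums over a row of the differential of a tensor product -/
theorem sum_tδ {M : Type*} [AddCommGroup M] (P : MC A J) (Q : MC B J') (hP : ∀ j, 0 ≤ P.deg j)
    (hQ : ∀ j, 0 ≤ Q.deg j) (i : J × J') (g : J × J' → A ⊗[k] B →+ M) :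
    ∑ j ∈ tfib P Q (P.deg i.1 + Q.deg i.2 - 1), g j (tδ k P Q i j) =
      ∑ j ∈ P.fib (P.deg i.1 - 1), g (j, i.2) (P.δ i.1 j ⊗ₜ Q.ε i.2) +
      ∑ j ∈ Q.fib (Q.deg i.2 - 1), g (i.1, j) (P.ε i.1 ⊗ₜ Q.δ i.2 j) := by
  classical
  simp only [tδ, map_add, Finset.sum_add_distrib]
  congr 1
  · symm
    refine Finset.sum_bij_ne_zero (fun j _ _ => (j, i.2)) (fun j hj _ => ?_)
      (fun _ _ _ _ _ _ h => (Prod.ext_iff.1 h).1) (fun j hj hj' => ?_) (fun j _ _ => by simp)
    · rw [mem_tfib P Q hP hQ]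
      rw [P.mem_fib] at hj
      simp only
      omega
    · have e : i.2 = j.2 := by
        by_contra h
        simp [h] at hj'
      rw [mem_tfib P Q hP hQ, ← e] at hj
      rw [if_pos e] at hj'
      exact ⟨j.1, (P.mem_fib _ _).2 (by omega), by rwa [e] at hj' ⊢, by rw [e]⟩
  · symm
    refine Finset.sum_bij_ne_zero (fun j _ _ => (i.1, j)) (fun j hj _ => ?_)
      (fun _ _ _ _ _ _ h => (Prod.ext_iff.1 h).2) (fun j hj hj' => ?_) (fun j _ _ => by simp)
    · rw [mem_tfib P Q hP hQ]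
      rw [Q.mem_fib] at hj
      simp only
      omega
    · have e : i.1 = j.1 := by
        by_contra h
        simp [h] at hj'
      rw [mem_tfib P Q hP hQ, ← e] at hj
      rw [if_pos e] at hj'
      exact ⟨j.2, (Q.mem_fib _ _).2 (by omega), by rwa [e] at hj' ⊢, by rw [e]⟩

variable [CharP k 2]

variable (k) in
/-- the tensor product of two complexes concentrated in nonnegative degrees -/
def MC.tensor (P : MC A J) (Q : MC B J') (hP : ∀ j, 0 ≤ P.deg j) (hQ : ∀ j, 0 ≤ Q.deg j) :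
    MC (A ⊗[k] B) (J × J') :=
  MC.ofFun (fun i => P.deg i.1 + Q.deg i.2) (tfib P Q) (mem_tfib P Q hP hQ)
    (fun i => P.ε i.1 ⊗ₜ Q.ε i.2) (tδ k P Q) (fun i => by simp [P.εε, Q.εε])
    (fun i j => by unfold tδ; split_ifs <;> simp [mul_add, P.εε, Q.εε, P.εδ, Q.εδ])
    (fun i j => by
      unfold tδ
      rw [add_mul]
      congr 1 <;> split_ifs with h <;> simp [h, P.εε, Q.εε, P.δε, Q.δε])
    (tδ_hom P Q) (fun i l => by
      classical
      have := sum_tδ (k := k) P Q hP hQ i fun j => AddMonoidHom.mulRight (tδ k P Q j l)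
      simp only [AddMonoidHom.coe_mulRight] at this
      rw [this]
      simp only [tδ, mul_add, mul_ite, mul_zero, Algebra.TensorProduct.tmul_mul_tmul,
        Finset.sum_add_distrib, Finset.sum_ite_irrel, ← sum_tmul, ← tmul_sum, MC.sum_δδ,
        Finset.sum_ite_eq', MC.mem_fib, P.εδ, Q.εδ, P.δε, Q.δε]
      have e1 : (if P.deg l.1 = P.deg i.1 - 1 then P.δ i.1 l.1 ⊗ₜ[k] Q.δ i.2 l.2 else 0) =
          P.δ i.1 l.1 ⊗ₜ[k] Q.δ i.2 l.2 := by
        split_ifs with h
        · rfl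
        · rw [of_not_not (mt (P.hom _ _) h), zero_tmul]
      have e2 : (if Q.deg l.2 = Q.deg i.2 - 1 then P.δ i.1 l.1 ⊗ₜ[k] Q.δ i.2 l.2 else 0) =
          P.δ i.1 l.1 ⊗ₜ[k] Q.δ i.2 l.2 := by
        split_ifs with h
        · rfl
        · rw [of_not_not (mt (Q.hom _ _) h), tmul_zero]
      rw [e1, e2]
      simpa using add_self k _)

theorem MC.tensor_deg (P : MC A J) (Q : MC B J') (hP : ∀ j, 0 ≤ P.deg j) (hQ : ∀ j, 0 ≤ Q.deg j)
    (i : J × J') : (P.tensor k Q hP hQ).deg i = P.deg i.1 + Q.deg i.2 := rfl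
theorem MC.tensor_ε (P : MC A J) (Q : MC B J') (hP : ∀ j, 0 ≤ P.deg j) (hQ : ∀ j, 0 ≤ Q.deg j)
    (i : J × J') : (P.tensor k Q hP hQ).ε i = P.ε i.1 ⊗ₜ Q.ε i.2 := rfl
theorem MC.tensor_δ (P : MC A J) (Q : MC B J') (hP : ∀ j, 0 ≤ P.deg j) (hQ : ∀ j, 0 ≤ Q.deg j)
    (i j : J × J') : (P.tensor k Q hP hQ).δ i j = tδ k P Q i j := rfl

end Tensor

/-- A projective resolution `Q` of a one-dimensional module `χ` over a symmetric algebra with an
anti-involution. -/
structure Half (k E J : Type*) [Field k] [Ring E] [Algebra k E] where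
  fin : Module.Finite k E
  χ : E →ₐ[k] k
  tr : E →ₗ[k] k
  tr_comm : ∀ a b, tr (a * b) = tr (b * a)
  tr_nondeg : ∀ a, (∀ b, tr (a * b) = 0) → a = 0
  ω : E
  mul_ω : ∀ a, a * ω = χ a • ω
  ω_mul : ∀ a, ω * a = χ a • ω
  χ_ω : χ ω = 0
  tr_ω : tr ω = 1
  σ : E →ₗ[k] E
  σ_mul : ∀ a b, σ (a * b) = σ b * σ a
  σ_σ : ∀ a, σ (σ a) = a
  σ_ω : σ ω = ω
  χ_σ : ∀ a, χ (σ a) = χ a
  Q : MC E J
  deg_nonneg : ∀ j, 0 ≤ Q.deg j
  σ_ε : ∀ j, σ (Q.ε j) = Q.ε j
  χ_δ : ∀ i j, χ (Q.δ i j) = 0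
  j₀ : J
  deg_j₀ : Q.deg j₀ = 0
  deg_zero : ∀ j, Q.deg j = 0 → j = j₀
  χ_ε₀ : χ (Q.ε j₀) = 1
  exact : ∀ r : J →₀ E, (∀ j, r j * Q.ε j = r j) → (r.sum fun j a => a • Q.δ j) = 0 →
    χ (r j₀) = 0 → ∃ r' : J →₀ E, (r'.sum fun j a => a • Q.δ j) = r

/-- the resolution of a seed -/
def Seed.half {A : Type*} [Ring A] [Algebra k A] (S : Seed k A J) : Half k A J :=
  { S with
    j₀ := S.s 0
    deg_j₀ := by simpa using S.deg_s 0
    χ_ε₀ := S.χ_ε_s 0 }

namespace Half

variable {E : Type*} [Ring E] [Algebra k E] (H : Half k E J)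

open Classical in
/-- the entries of the differential of the complete resolution -/
def sδ : J ⊕ J → J ⊕ J → E
  | .inl i, .inl j => H.Q.δ i j
  | .inl i, .inr j => if i = H.j₀ ∧ j = H.j₀ then H.ω else 0
  | .inr _, .inl _ => 0
  | .inr i, .inr j => H.σ (H.Q.δ j i)

/-- the complete resolution -/
def splice : MC E (J ⊕ J) :=
  MC.ofFun (Sum.elim H.Q.deg fun j => -1 - H.Q.deg j)
    (fun n => (H.Q.fib n).disjSum (H.Q.fib (-1 - n)))
    (fun n i => by
      rcases i with i | i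
      · simp [H.Q.mem_fib]
      · simp only [Finset.inr_mem_disjSum, H.Q.mem_fib, Sum.elim_inr]
        omega)
    (Sum.elim H.Q.ε H.Q.ε) H.sδ (fun i => by rcases i with i | i <;> exact H.Q.εε i)
    (fun i j => by
      rcases i with i | i <;> rcases j with j | j <;> simp only [sδ, Sum.elim_inl, Sum.elim_inr]
      · exact H.Q.εδ i j
      · split_ifs with h
        · rw [H.mul_ω, h.1, H.χ_ε₀, one_smul]
        · exact mul_zero _
      · exact mul_zero _
      · rw [← H.σ_ε, ← H.σ_mul, H.Q.δε])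
    (fun i j => by
      rcases i with i | i <;> rcases j with j | j <;> simp only [sδ, Sum.elim_inl, Sum.elim_inr]
      · exact H.Q.δε i j
      · split_ifs with h
        · rw [H.ω_mul, h.2, H.χ_ε₀, one_smul]
        · exact zero_mul _
      · exact zero_mul _
      · rw [← H.σ_ε, ← H.σ_mul, H.Q.εδ])
    (fun i j h => by
      rcases i with i | i <;> rcases j with j | j <;>
        simp only [sδ, Sum.elim_inl, Sum.elim_inr] at h ⊢
      · exact H.Q.hom i j h
      · split_ifs at h with h'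
        · rw [h'.1, h'.2, H.deg_j₀]
          rfl
        · exact absurd rfl h
      · exact absurd rfl h
      · have := H.Q.hom j i fun h0 => h (by rw [h0, map_zero])
        omega)
    (fun i l => by
      rw [Finset.sum_disjSum]
      rcases i with i | i <;> rcases l with l | l <;>
        simp only [sδ, Sum.elim_inl, Sum.elim_inr, mul_zero, zero_mul, Finset.sum_const_zero,
          add_zero, zero_add]
      · exact H.Q.sum_δδ i l
      · rw [Finset.sum_eq_zero, Finset.sum_eq_zero, add_zero]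
        · intro j _
          split_ifs
          · rw [H.ω_mul, H.χ_σ, H.χ_δ, zero_smul]
          · exact zero_mul _
        · intro j _
          split_ifs
          · rw [H.mul_ω, H.χ_δ, zero_smul]
          · exact mul_zero _
      · simp only [← H.σ_mul, ← map_sum]
        rw [show -1 - (-1 - H.Q.deg i - 1) = H.Q.deg i + 1 by ring, H.Q.sum_δδ', map_zero])

@[simp] theorem splice_deg_inl (j : J) : H.splice.deg (.inl j) = H.Q.deg j := rfl
@[simp] theorem splice_deg_inr (j : J) : H.splice.deg (.inr j) = -1 - H.Q.deg j := rfl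
@[simp] theorem splice_ε_inl (j : J) : H.splice.ε (.inl j) = H.Q.ε j := rfl
@[simp] theorem splice_ε_inr (j : J) : H.splice.ε (.inr j) = H.Q.ε j := rfl
theorem splice_δ (i j : J ⊕ J) : H.splice.δ i j = H.sδ i j := rfl

theorem χ_splice_δ (i j : J ⊕ J) : H.χ (H.splice.δ i j) = 0 := by
  rw [splice_δ]
  rcases i with i | i <;> rcases j with j | j <;> simp only [sδ]
  · exact H.χ_δ i j
  · split_ifs
    exacts [H.χ_ω, map_zero _]
  · exact map_zero _
  · rw [H.χ_σ, H.χ_δ]

end Half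

end Crest.Agent.R186
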