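import Crest.Agent.R186.Half

/-!
The tensor product of two resolutions (Kuenneth formula).
-/

set_option autoImplicit false

noncomputable section

namespace Crest.Agent.R186

open TensorProduct

variable {k : Type*} [Field k]

/-- a contracting homotopy -/
theorem exists_homotopy {V : Type*} [AddCommGroup V] [Module k V] (D e : V →ₗ[k] V)
    (φ : V →ₗ[k] k) (v : V) (DD : ∀ x, D (D x) = 0) (ee : ∀ x, e (e x) = e x)
    (De : ∀ x, D (e x) = D x) (eD : ∀ x, e (D x) = D x) (φD : ∀ x, φ (D x) = 0)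
    (φe : ∀ x, φ (e x) = φ x) (φv : φ v = 1) (ev : e v = v) (Dv : D v = 0)
    (ex : ∀ x, e x = x → D x = 0 → φ x = 0 → ∃ y, D y = x) :
    ∃ h : V →ₗ[k] V, (∀ x, e (h x) = h x) ∧ (∀ x, h (e x) = h x) ∧
      ∀ x, D (h x) + h (D x) = e x - φ x • v := by
  obtain ⟨g, hg⟩ := D.rangeRestrict.exists_rightInverse_of_surjective D.range_rangeRestrict
  obtain ⟨g', hg'⟩ := g.exists_extend
  have h1 : ∀ x, D (g' (D x)) = D x := fun x => by
    have a1 := LinearMap.congr_fun hg' (D.rangeRestrict x)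
    have a2 := congrArg Subtype.val (LinearMap.congr_fun hg (D.rangeRestrict x))
    simp only [LinearMap.comp_apply, Submodule.subtype_apply, LinearMap.codRestrict_apply,
      LinearMap.id_apply] at a1 a2
    rw [a1, a2]
  obtain ⟨s, hs⟩ : ∃ s : V →ₗ[k] V, ∀ x, s x = e (g' x) - φ (g' x) • v :=
    ⟨(e - φ.smulRight v) ∘ₗ g', fun x => by simp⟩
  obtain ⟨π, hπ⟩ : ∃ π : V →ₗ[k] V, ∀ x, π x = e x - φ x • v - s (D x) :=
    ⟨e - φ.smulRight v - s ∘ₗ D, fun x => by simp⟩
  have h2 : ∀ x, D (s (D x)) = D x := fun x => by simp [hs, De, Dv, h1]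
  have h3 : ∀ x, e (s x) = s x := fun x => by simp [hs, ee, ev]
  have h4 : ∀ x, φ (s x) = 0 := fun x => by simp [hs, φe, φv]
  refine ⟨s ∘ₗ π, fun x => h3 _, fun x => by simp [hπ, ee, φe, De], fun x => ?_⟩
  obtain ⟨y, hy⟩ := ex (π x) (by simp [hπ, ee, ev, h3]) (by simp [hπ, De, Dv, h2])
    (by simp [hπ, φe, φv, h4])
  rw [LinearMap.comp_apply, LinearMap.comp_apply, ← hy, h2, hy, hπ, hπ, DD, φD, eD]
  simp

theorem kuenneth [CharP k 2] {V W : Type*} [AddCommGroup V] [Module k V] [AddCommGroup W]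
    [Module k W] (D e h : V →ₗ[k] V) (φ : V →ₗ[k] k) (v : V) (D' e' h' : W →ₗ[k] W)
    (φ' : W →ₗ[k] k) (v' : W) (ee : ∀ x, e' (e' x) = e' x) (De : ∀ x, D' (e' x) = D' x)
    (eD : ∀ x, e' (D' x) = D' x) (φD : ∀ x, φ (D x) = 0) (φe : ∀ x, φ (e x) = φ x)
    (ev : e v = v) (Dv : D v = 0) (a1 : ∀ x, e (h x) = h x) (a2 : ∀ x, h (e x) = h x)
    (a3 : ∀ x, D (h x) + h (D x) = e x - φ x • v) (b1 : ∀ x, e' (h' x) = h' x)
    (b2 : ∀ x, h' (e' x) = h' x) (b3 : ∀ x, D' (h' x) + h' (D' x) = e' x - φ' x • v')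
    (x : V ⊗[k] W) (h1 : map e e' x = x) (h2 : map D e' x + map e D' x = 0)
    (h3 : LinearMap.mul' k k (map φ φ' x) = 0) : ∃ y, map D e' y + map e D' y = x := by
  obtain ⟨T, hT⟩ : ∃ T : V ⊗[k] W →ₗ[k] V ⊗[k] W, T = map h e' + map (φ.smulRight v) h' :=
    ⟨_, rfl⟩
  have key : ∀ x : V ⊗[k] W, (map D e' (T x) + map e D' (T x)) + T (map D e' x + map e D' x) =
      map e e' x - LinearMap.mul' k k (map φ φ' x) • v ⊗ₜ v' := by
    intro x
    induction x with
    | zero => simp
    | add x y hx hy =>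
      simp only [map_add] at hx hy ⊢
      linear_combination (norm := module) hx + hy
    | tmul x y =>
      have d1 := congrArg (fun z => z ⊗ₜ[k] e' y) (a3 x)
      have d2 := congrArg (fun z => φ x • v ⊗ₜ[k] z) (b3 y)
      have d3 := add_self k (h x ⊗ₜ[k] D' y)
      simp only [add_tmul, sub_tmul, tmul_add, tmul_sub, ← smul_tmul', tmul_smul] at d1 d2
      simp only [hT, LinearMap.add_apply, map_add, map_tmul, LinearMap.smulRight_apply, map_smul,
        ee, eD, De, a1, a2, b1, b2, ev, Dv, φD, φe, ← smul_tmul', zero_tmul,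
        smul_zero, zero_smul, LinearMap.mul'_apply]
      linear_combination (norm := module) d1 + d2 + d3
  have := key x
  rw [h1, h2, h3, map_zero, add_zero, zero_smul, sub_zero] at this
  exact ⟨_, this⟩

section

variable {R I : Type*} [Ring R] [Algebra k R]

variable (k) in
/-- the differential on rows -/
def MC.D (P : MC R I) : (I →₀ R) →ₗ[k] (I →₀ R) := rmul (LinearMap.mul k R) P.δ

variable (k) in
/-- the projection on rows -/
def MC.e (P : MC R I) : (I →₀ R) →ₗ[k] (I →₀ R) := rmul (LinearMap.mul k R) (diag P.ε)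

theorem MC.D_single (P : MC R I) (i : I) (a : R) (j : I) :
    P.D k (Finsupp.single i a) j = a * P.δ i j := rmul_single_apply _ _ _ _ _

theorem MC.D_eq (P : MC R I) (r : I →₀ R) : P.D k r = r.sum fun j a => a • P.δ j := by
  ext l
  rw [MC.D, rmul_apply, Finsupp.sum_apply]
  rfl

theorem MC.e_apply (P : MC R I) (r : I →₀ R) (j : I) : P.e k r j = r j * P.ε j :=
  mmul_diag_right (LinearMap.mul k R) (fun _ : Unit => r) P.ε () j

theorem MC.D_D (P : MC R I) (r : I →₀ R) : P.D k (P.D k r) = 0 := by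
  have := mmul_assoc (μ := LinearMap.mul k R) (ν := LinearMap.mul k R) (μ' := LinearMap.mul k R)
    (ν' := LinearMap.mul k R) mul_assoc (fun _ : Unit => r) P.δ P.δ
  rw [P.δδ', map_zero] at this
  exact congrFun this ()

theorem MC.e_e (P : MC R I) (r : I →₀ R) : P.e k (P.e k r) = P.e k r := by
  ext j; simp [MC.e_apply, mul_assoc, P.εε]

theorem MC.e_single (P : MC R I) (i : I) (a : R) :
    P.e k (Finsupp.single i a) = Finsupp.single i (a * P.ε i) := by
  classical
  ext j
  rw [MC.e_apply, Finsupp.single_apply, Finsupp.single_apply]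
  split_ifs with h
  · rw [h]
  · exact zero_mul _

theorem MC.D_e (P : MC R I) (r : I →₀ R) : P.D k (P.e k r) = P.D k r := by
  induction r using Finsupp.induction_linear with
  | zero => simp
  | add x y hx hy => simp [hx, hy]
  | single i a => ext j; rw [MC.e_single, MC.D_single, MC.D_single, mul_assoc, P.εδ]

theorem MC.e_D (P : MC R I) (r : I →₀ R) : P.e k (P.D k r) = P.D k r := by
  induction r using Finsupp.induction_linear with
  | zero => simp
  | add x y hx hy => simp [hx, hy]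
  | single i a => ext j; rw [MC.e_apply, MC.D_single, mul_assoc, P.δε]

end

namespace Half

variable {A B J J' : Type*} [Ring A] [Algebra k A] [Ring B] [Algebra k B]

/-- the augmentation -/
def φ (H : Half k A J) : (J →₀ A) →ₗ[k] k := H.χ.toLinearMap ∘ₗ Finsupp.lapply H.j₀

theorem φ_apply (H : Half k A J) (r : J →₀ A) : H.φ r = H.χ (r H.j₀) := rfl

theorem φ_D (H : Half k A J) (r : J →₀ A) : H.φ (H.Q.D k r) = 0 := by
  induction r using Finsupp.induction_linear with
  | zero => simp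
  | add x y hx hy => simp [hx, hy]
  | single i a => rw [φ_apply, MC.D_single, map_mul, H.χ_δ, mul_zero]

theorem φ_e (H : Half k A J) (r : J →₀ A) : H.φ (H.Q.e k r) = H.φ r := by
  rw [φ_apply, φ_apply, MC.e_apply, map_mul, H.χ_ε₀, mul_one]

theorem D_j₀ (H : Half k A J) (a : A) : H.Q.D k (Finsupp.single H.j₀ a) = 0 := by
  ext j
  rw [MC.D_single]
  by_cases h : H.Q.δ H.j₀ j = 0
  · rw [h, mul_zero]; rfl
  · have h1 := H.Q.hom _ _ h
    have h2 := H.deg_nonneg j
    rw [H.deg_j₀] at h1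
    omega

theorem homotopy (H : Half k A J) : ∃ h : (J →₀ A) →ₗ[k] (J →₀ A),
    (∀ x, H.Q.e k (h x) = h x) ∧ (∀ x, h (H.Q.e k x) = h x) ∧
      ∀ x, H.Q.D k (h x) + h (H.Q.D k x) =
        H.Q.e k x - H.φ x • Finsupp.single H.j₀ (H.Q.ε H.j₀) :=
  exists_homotopy _ _ _ _ H.Q.D_D H.Q.e_e H.Q.D_e H.Q.e_D H.φ_D H.φ_e
    (by rw [φ_apply, Finsupp.single_eq_same, H.χ_ε₀]) (by rw [MC.e_single, H.Q.εε]) (H.D_j₀ _)
    fun x h1 h2 h3 => by
      simp only [MC.D_eq] at h2 ⊢
      exact H.exact x (fun j => by rw [← MC.e_apply (k := k), h1]) h2 h3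

variable [CharP k 2]

theorem tensor_e (P : MC A J) (Q : MC B J') (hP : ∀ j, 0 ≤ P.deg j) (hQ : ∀ j, 0 ≤ Q.deg j)
    (x : (J →₀ A) ⊗[k] (J' →₀ B)) :
    (P.tensor k Q hP hQ).e k (finsuppTensorFinsupp k k A B J J' x) =
      finsuppTensorFinsupp k k A B J J' (map (P.e k) (Q.e k) x) := by
  induction x with
  | zero => simp
  | add x y hx hy => simp [hx, hy]
  | tmul x y =>
    ext ⟨i, j⟩
    simp [MC.e_apply, MC.tensor_ε]

theorem tensor_D (P : MC A J) (Q : MC B J') (hP : ∀ j, 0 ≤ P.deg j) (hQ : ∀ j, 0 ≤ Q.deg j)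
    (x : (J →₀ A) ⊗[k] (J' →₀ B)) :
    (P.tensor k Q hP hQ).D k (finsuppTensorFinsupp k k A B J J' x) =
      finsuppTensorFinsupp k k A B J J' (map (P.D k) (Q.e k) x + map (P.e k) (Q.D k) x) := by
  classical
  induction x with
  | zero => simp
  | add x y hx hy => simp only [map_add, hx, hy]; abel
  | tmul x y =>
    induction x using Finsupp.induction_linear with
    | zero => simp
    | add x x' hx hx' => simp only [add_tmul, map_add, hx, hx']; abel
    | single i a =>
      induction y using Finsupp.induction_linear with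
      | zero => simp
      | add x x' hx hx' => simp only [tmul_add, map_add, hx, hx']; abel
      | single i' b =>
        ext ⟨j, j'⟩
        rw [finsuppTensorFinsupp_single, MC.D_single, MC.tensor_δ, tδ]
        simp only [map_tmul, map_add, Finsupp.add_apply, finsuppTensorFinsupp_apply, MC.e_single,
          MC.D_single, Finsupp.single_apply, mul_add]
        congr 1 <;> split_ifs <;> simp

theorem tensor_exact (H : Half k A J) (H' : Half k B J') (r : J × J' →₀ A ⊗[k] B)
    (h1 : (H.Q.tensor k H'.Q H.deg_nonneg H'.deg_nonneg).e k r = r)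
    (h2 : (H.Q.tensor k H'.Q H.deg_nonneg H'.deg_nonneg).D k r = 0)
    (h3 : (Algebra.TensorProduct.lmul' k).comp (Algebra.TensorProduct.map H.χ H'.χ)
      (r (H.j₀, H'.j₀)) = 0) :
    ∃ r', (H.Q.tensor k H'.Q H.deg_nonneg H'.deg_nonneg).D k r' = r := by
  obtain ⟨x, rfl⟩ := (finsuppTensorFinsupp k k A B J J').surjective r
  obtain ⟨h, a1, a2, a3⟩ := H.homotopy
  obtain ⟨h', b1, b2, b3⟩ := H'.homotopy
  rw [tensor_e] at h1
  rw [tensor_D, map_eq_zero_iff _ (finsuppTensorFinsupp k k A B J J').injective] at h2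
  have h4 : ∀ x, LinearMap.mul' k k (map H.φ H'.φ x) =
      (Algebra.TensorProduct.lmul' k).comp (Algebra.TensorProduct.map H.χ H'.χ)
        (finsuppTensorFinsupp k k A B J J' x (H.j₀, H'.j₀)) := by
    intro x
    induction x with
    | zero => simp
    | add x y hx hy => simp only [map_add, Finsupp.add_apply, hx, hy]
    | tmul x y => simp [φ_apply]
  obtain ⟨y, hy⟩ := kuenneth _ _ _ _ _ _ _ _ _ _ H'.Q.e_e H'.Q.D_e H'.Q.e_D H.φ_D H.φ_e
    (by rw [MC.e_single, H.Q.εε]) (H.D_j₀ _) a1 a2 a3 b1 b2 b3 x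
    ((finsuppTensorFinsupp k k A B J J').injective h1) h2 ((h4 x).trans h3)
  exact ⟨finsuppTensorFinsupp k k A B J J' y, by rw [tensor_D, hy]⟩

omit [CharP k 2] in
theorem tensor_nondeg (H : Half k A J) (H' : Half k B J') (x : A ⊗[k] B)
    (hx : ∀ y, (LinearMap.mul' k k ∘ₗ TensorProduct.map H.tr H'.tr) (x * y) = 0) : x = 0 := by
  have := H.fin
  have := H'.fin
  have i1 : Function.Injective ((LinearMap.mul k A).compr₂ H.tr) :=
    (injective_iff_map_eq_zero _).2 fun a ha => H.tr_nondeg a fun b => LinearMap.congr_fun ha b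
  have i2 : Function.Injective ((LinearMap.mul k B).compr₂ H'.tr) :=
    (injective_iff_map_eq_zero _).2 fun a ha => H'.tr_nondeg a fun b => LinearMap.congr_fun ha b
  have i3 := TensorProduct.map_injective_of_flat_flat _ _ i1 i2
  have key : ∀ x y : A ⊗[k] B, dualDistribEquiv k A B
      (map ((LinearMap.mul k A).compr₂ H.tr) ((LinearMap.mul k B).compr₂ H'.tr) x) y =
      (LinearMap.mul' k k ∘ₗ TensorProduct.map H.tr H'.tr) (x * y) := by
    intro x y
    induction x with
    | zero => simp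
    | add x x' hx hx' => simp only [map_add, add_mul, LinearMap.add_apply, hx, hx']
    | tmul a b =>
      induction y with
      | zero => simp
      | add y y' hy hy' => simp only [map_add, mul_add, hy, hy']
      | tmul a' b' => simp
  refine i3 ((dualDistribEquiv k A B).injective (LinearMap.ext fun y => ?_))
  rw [key, key, hx, zero_mul, map_zero]

/-- the tensor product of two resolutions -/
def tensor (H : Half k A J) (H' : Half k B J') : Half k (A ⊗[k] B) (J × J') where
  fin := by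
    have := H.fin
    have := H'.fin
    infer_instance
  χ := (Algebra.TensorProduct.lmul' k).comp (Algebra.TensorProduct.map H.χ H'.χ)
  tr := LinearMap.mul' k k ∘ₗ TensorProduct.map H.tr H'.tr
  tr_comm x y := by
    induction x with
    | zero => simp
    | add x x' hx hx' => simp only [map_add, add_mul, mul_add, hx, hx']
    | tmul a b =>
      induction y with
      | zero => simp
      | add y y' hy hy' => simp only [map_add, add_mul, mul_add, hy, hy']
      | tmul a' b' => simp [H.tr_comm a, H'.tr_comm b]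
  tr_nondeg := tensor_nondeg H H'
  ω := H.ω ⊗ₜ H'.ω
  mul_ω x := by
    induction x with
    | zero => simp
    | add x x' hx hx' => simp only [map_add, add_mul, add_smul, hx, hx']
    | tmul a b => simp [H.mul_ω, H'.mul_ω, ← smul_tmul', smul_smul, mul_comm]
  ω_mul x := by
    induction x with
    | zero => simp
    | add x x' hx hx' => simp only [map_add, mul_add, add_smul, hx, hx']
    | tmul a b => simp [H.ω_mul, H'.ω_mul, ← smul_tmul', smul_smul, mul_comm]
  χ_ω := by simp [H.χ_ω]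
  tr_ω := by simp [H.tr_ω, H'.tr_ω]
  σ := TensorProduct.map H.σ H'.σ
  σ_mul x y := by
    induction x with
    | zero => simp
    | add x x' hx hx' => simp only [map_add, add_mul, mul_add, hx, hx']
    | tmul a b =>
      induction y with
      | zero => simp
      | add y y' hy hy' => simp only [map_add, add_mul, mul_add, hy, hy']
      | tmul a' b' => simp [H.σ_mul, H'.σ_mul]
  σ_σ x := by
    induction x with
    | zero => simp
    | add x x' hx hx' => simp only [map_add, hx, hx']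
    | tmul a b => simp [H.σ_σ, H'.σ_σ]
  σ_ω := by simp [H.σ_ω, H'.σ_ω]
  χ_σ x := by
    induction x with
    | zero => simp
    | add x x' hx hx' => simp only [map_add, hx, hx']
    | tmul a b => simp [H.χ_σ, H'.χ_σ]
  Q := H.Q.tensor k H'.Q H.deg_nonneg H'.deg_nonneg
  deg_nonneg j := add_nonneg (H.deg_nonneg _) (H'.deg_nonneg _)
  σ_ε j := by simp [MC.tensor_ε, H.σ_ε, H'.σ_ε]
  χ_δ i j := by
    rw [MC.tensor_δ, tδ]
    split_ifs <;> simp [H.χ_δ, H'.χ_δ]
  j₀ := (H.j₀, H'.j₀)
  deg_j₀ := by rw [MC.tensor_deg, H.deg_j₀, H'.deg_j₀, add_zero]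
  deg_zero j hj := by
    rw [MC.tensor_deg] at hj
    have h1 := H.deg_nonneg j.1
    have h2 := H'.deg_nonneg j.2
    exact Prod.ext (H.deg_zero _ (by omega)) (H'.deg_zero _ (by omega))
  χ_ε₀ := by simp [MC.tensor_ε, H.χ_ε₀, H'.χ_ε₀]
  exact r h1 h2 h3 := by
    simp only [← MC.D_eq (k := k)] at h2 ⊢
    exact tensor_exact H H' r (Finsupp.ext fun j => by rw [MC.e_apply, h1]) h2 h3

variable (H : Half k A J) (H' : Half k B J')

theorem tensor_χ (a : A) (b : B) : (H.tensor H').χ (a ⊗ₜ b) = H.χ a * H'.χ b := by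
  simp [tensor]

theorem tensor_tr (a : A) (b : B) : (H.tensor H').tr (a ⊗ₜ b) = H.tr a * H'.tr b := by
  simp [tensor]

theorem tensor_ω : (H.tensor H').ω = H.ω ⊗ₜ H'.ω := rfl

theorem tensor_σ : (H.tensor H').σ = TensorProduct.map H.σ H'.σ := rfl

theorem tensor_σ_tmul (a : A) (b : B) : (H.tensor H').σ (a ⊗ₜ b) = H.σ a ⊗ₜ H'.σ b := rfl

theorem tensor_Q : (H.tensor H').Q = H.Q.tensor k H'.Q H.deg_nonneg H'.deg_nonneg := rfl

theorem tensor_j₀ : (H.tensor H').j₀ = (H.j₀, H'.j₀) := rfl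

end Half

end Crest.Agent.R186
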