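import Crest.Agent.R186.Ev

/-!
The three-fold extension attached to the cocycle of a seed (interface).
-/

set_option autoImplicit false

noncomputable section

namespace Crest.Agent.R186

open TensorProduct

universe u

variable {k : Type u} [Field k] {J : Type*} {A : Type u} [Ring A] [Algebra k A]

/-- The complex of bimodules `C₂ → C₁ → C₀` with homology `A` in degrees two and zero that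
represents the cocycle of the seed. -/
structure Tri (S : Seed k A J) {V : Type u} [AddCommGroup V] [Module k V] (C : DG k A A V) where
  fin : Module.Finite k V
  bdd : ∀ m, m < 0 ∨ 2 < m → C.p m = 0
  tot : ∀ x, C.p 0 x + C.p 1 x + C.p 2 x = x
  RP : C.toBim.RP
  LP : C.toBim.LP
  ι : A →ₗ[k] V
  hι : DHom ((Bim.reg k A).at 0) C 2 ι
  ε : V →ₗ[k] A
  hε : DHom C ((Bim.reg k A).at 0) 0 ε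
  h : V →ₗ[k] V
  π : V →ₗ[k] A
  ρ₀ : A →ₗ[k] V
  ρ₁ : A →ₗ[k] A →ₗ[k] V
  ρ₂ : A →ₗ[k] A →ₗ[k] A →ₗ[k] V
  dh : ∀ x, C.d (h x) + h (C.d x) = x + ρ₀ (ε x) + ι (π x)
  ε_h : ∀ x, ε (h x) = 0
  h_ι : ∀ x, h (ι x) = 0
  π_ι : ∀ x, π (ι x) = x
  π_d : ∀ x, π (C.d x) = 0
  ε_ι : ∀ x, ε (ι x) = 0
  ε_ρ₀ : ∀ x, ε (ρ₀ x) = x
  ε_ρ₁ : ∀ a x, ε (ρ₁ a x) = 0
  ε_ρ₂ : ∀ a b x, ε (ρ₂ a b x) = 0
  ρ₀_r : ∀ x y, ρ₀ (x * y) = C.r y (ρ₀ x)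
  ρ₁_r : ∀ a x y, ρ₁ a (x * y) = C.r y (ρ₁ a x)
  ρ₂_r : ∀ a b x y, ρ₂ a b (x * y) = C.r y (ρ₂ a b x)
  d_ρ₀ : ∀ x, C.d (ρ₀ x) = 0
  d_ρ₁ : ∀ a x, C.d (ρ₁ a x) = C.l a (ρ₀ x) + ρ₀ (a * x)
  d_ρ₂ : ∀ a b x, C.d (ρ₂ a b x) = C.l a (ρ₁ b x) + ρ₁ (a * b) x + ρ₁ a (b * x)
  ρ₃ : ∀ a b c x, C.l a (ρ₂ b c x) + ρ₂ (a * b) c x + ρ₂ a (b * c) x + ρ₂ a b (c * x) =
    ι (S.τ a b c * x)
  in₀ : A ⊗[k] A →ₗ[k] V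
  pr₀ : V →ₗ[k] A ⊗[k] A
  in₀_l : ∀ a x, in₀ ((Bim.reg k A).ind.l a x) = C.l a (in₀ x)
  in₀_r : ∀ a x, in₀ ((Bim.reg k A).ind.r a x) = C.r a (in₀ x)
  pr₀_l : ∀ a x, pr₀ (C.l a x) = (Bim.reg k A).ind.l a (pr₀ x)
  pr₀_r : ∀ a x, pr₀ (C.r a x) = (Bim.reg k A).ind.r a (pr₀ x)
  in_pr : ∀ x, in₀ (pr₀ x) = C.p 0 x
  ε_eq : ∀ x, ε x = LinearMap.mul' k A (pr₀ x)
  tw : ∀ (c : k) (T : Twist S c), ∃ (y : V) (ψ : A →ₗ[k] V), C.p 1 y = y ∧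
    (∀ a, C.p 2 (ψ a) = ψ a) ∧ pr₀ (C.d y) = T.z ∧ (∀ a, C.d (ψ a) = C.l a y + C.r (T.h a) y) ∧
    ∀ a b, ψ (a * b) = C.l a (ψ b) + C.r (T.h b) (ψ a)

end Crest.Agent.R186
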