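import Crest.Agent.R186.Les
import Crest.Agent.R186.Tri
import Crest.Agent.R186.Tensor

/-!
Tensor products of the three-fold extension.
-/

set_option autoImplicit false

noncomputable section

namespace Crest.Agent.R186

open TensorProduct

universe u

/-- induction on a tensor in an identity that is additive in it -/
macro "tind " x:ident " with " a:ident b:ident : tactic =>
  `(tactic| (
    induction $x:ident using TensorProduct.induction_on
    · simp
    rotate_left
    · rename_i h1 h2
      refine Eq.trans ?_ ((congrArg₂ (· + ·) h1 h2).trans ?_) <;>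
        simp only [map_add, LinearMap.add_apply, add_mul, mul_add, add_zero,
          TensorProduct.add_tmul, TensorProduct.tmul_add] <;> abel1
    rename_i $a:ident $b:ident))

variable {k : Type u} [Field k]

section

variable {M₁ M₂ M₃ M₄ N₁ N₂ N₃ N₄ : Type*} [AddCommGroup M₁] [Module k M₁] [AddCommGroup M₂]
  [Module k M₂] [AddCommGroup M₃] [Module k M₃] [AddCommGroup M₄] [Module k M₄] [AddCommGroup N₁]
  [Module k N₁] [AddCommGroup N₂] [Module k N₂] [AddCommGroup N₃] [Module k N₃] [AddCommGroup N₄]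
  [Module k N₄]

/-- the tensor product of two trilinear maps -/
def map₃ (f : M₁ →ₗ[k] M₂ →ₗ[k] M₃ →ₗ[k] M₄) (g : N₁ →ₗ[k] N₂ →ₗ[k] N₃ →ₗ[k] N₄) :
    M₁ ⊗[k] N₁ →ₗ[k] M₂ ⊗[k] N₂ →ₗ[k] M₃ ⊗[k] N₃ →ₗ[k] M₄ ⊗[k] N₄ :=
  (map₂ f g).compr₂ (homTensorHomMap _ _ _ _ _)

@[simp] theorem map₃_tmul (f : M₁ →ₗ[k] M₂ →ₗ[k] M₃ →ₗ[k] M₄) (g : N₁ →ₗ[k] N₂ →ₗ[k] N₃ →ₗ[k] N₄)
    (a : M₁) (b : N₁) (c : M₂) (d : N₂) : map₃ f g (a ⊗ₜ b) (c ⊗ₜ d) = map (f a c) (g b d) := rfl

end

section

variable {A A' B B' V W : Type*} [Ring A] [Algebra k A] [Ring B] [Algebra k B] [Ring A']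
  [Algebra k A'] [Ring B'] [Algebra k B'] [AddCommGroup V] [Module k V] [AddCommGroup W] [Module k W]

/-- the tensor product of two bimodules -/
def Bim.tensor (M : Bim k A A' V) (N : Bim k B B' W) :
    Bim k (A ⊗[k] B) (A' ⊗[k] B') (V ⊗[k] W) where
  l := map₂ M.l N.l
  r := map₂ M.r N.r
  l_one x := by
    tind x with x y
    simp [Algebra.TensorProduct.one_def, M.l_one, N.l_one]
  l_mul a b x := by
    tind a with a a'
    tind b with b b'
    tind x with x y
    simp [M.l_mul, N.l_mul]
  r_one x := by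
    tind x with x y
    simp [Algebra.TensorProduct.one_def, M.r_one, N.r_one]
  r_mul a b x := by
    tind a with a a'
    tind b with b b'
    tind x with x y
    simp [M.r_mul, N.r_mul]
  lr a b x := by
    tind a with a a'
    tind b with b b'
    tind x with x y
    simp [M.lr, N.lr]

@[simp] theorem Bim.tensor_l (M : Bim k A A' V) (N : Bim k B B' W) (a : A) (b : B) (x : V) (y : W) :
    (M.tensor N).l (a ⊗ₜ b) (x ⊗ₜ y) = M.l a x ⊗ₜ N.l b y := rfl
@[simp] theorem Bim.tensor_r (M : Bim k A A' V) (N : Bim k B B' W) (a : A') (b : B') (x : V)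
    (y : W) : (M.tensor N).r (a ⊗ₜ b) (x ⊗ₜ y) = M.r a x ⊗ₜ N.r b y := rfl

theorem Bim.RP.tensor {M : Bim k A A' V} {N : Bim k B B' W} (hM : M.RP) (hN : N.RP) :
    (M.tensor N).RP := by
  obtain ⟨n, v, φ, h1, h2⟩ := hM
  obtain ⟨m, w, ψ, h3, h4⟩ := hN
  let e := finProdFinEquiv (m := n) (n := m)
  refine ⟨n * m, fun i => v (e.symm i).1 ⊗ₜ w (e.symm i).2,
    fun i => map (φ (e.symm i).1) (ψ (e.symm i).2), fun i a x => ?_, fun x => ?_⟩
  · tind a with a a'
    tind x with x y
    simp [h1, h3]
  · rw [← e.sum_comp]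
    induction x with
    | zero => simp
    | add x y hx hy => simp only [map_add, LinearMap.add_apply, Finset.sum_add_distrib, hx, hy]
    | tmul x y => simp [Fintype.sum_prod_type, ← tmul_sum, ← sum_tmul, h2, h4]

theorem Bim.LP.tensor {M : Bim k A A' V} {N : Bim k B B' W} (hM : M.LP) (hN : N.LP) :
    (M.tensor N).LP := by
  obtain ⟨n, v, φ, h1, h2⟩ := hM
  obtain ⟨m, w, ψ, h3, h4⟩ := hN
  let e := finProdFinEquiv (m := n) (n := m)
  refine ⟨n * m, fun i => v (e.symm i).1 ⊗ₜ w (e.symm i).2,
    fun i => map (φ (e.symm i).1) (ψ (e.symm i).2), fun i a x => ?_, fun x => ?_⟩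
  · tind a with a a'
    tind x with x y
    simp [h1, h3]
  · rw [← e.sum_comp]
    induction x with
    | zero => simp
    | add x y hx hy => simp only [map_add, LinearMap.add_apply, Finset.sum_add_distrib, hx, hy]
    | tmul x y => simp [Fintype.sum_prod_type, ← tmul_sum, ← sum_tmul, h2, h4]

variable [CharP k 2]

/-- the tensor product of two differential graded bimodules -/
def DG.tensor (M : DG k A A' V) (N : DG k B B' W) (hM : ∀ m, m < 0 ∨ 2 < m → M.p m = 0) :
    DG k (A ⊗[k] B) (A' ⊗[k] B') (V ⊗[k] W) where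
  toBim := M.toBim.tensor N.toBim
  d := M.d.rTensor W + N.d.lTensor V
  p m := map (M.p 0) (N.p m) + map (M.p 1) (N.p (m - 1)) + map (M.p 2) (N.p (m - 2))
  dd x := by
    tind x with x y
    simp [M.dd, N.dd, add_self k]
  dl a x := by
    tind a with a a'
    tind x with x y
    simp [M.dl, N.dl]
  dr a x := by
    tind a with a a'
    tind x with x y
    simp [M.dr, N.dr]
  pp m n x := by
    by_cases h : m = n
    · rw [if_pos h]
      tind x with x y
      simp [M.pp, N.pp, h]
    · rw [if_neg h]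
      tind x with x y
      simp [M.pp, N.pp, h]
  pl m a x := by
    tind a with a a'
    tind x with x y
    simp [M.pl, N.pl]
  pr m a x := by
    tind a with a a'
    tind x with x y
    simp [M.pr, N.pr]
  pd m x := by
    tind x with x y
    have h0 : M.d (M.p 0 x) = 0 := by
      have := M.pd (-1) x
      rw [hM _ (by omega)] at this
      exact this.symm
    have h3 : M.p (2 + 1) x = 0 := by rw [hM _ (by omega)]; rfl
    simp only [LinearMap.add_apply, LinearMap.rTensor_tmul, LinearMap.lTensor_tmul, map_add,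
      map_tmul, M.pd, N.pd, h0, h3, map_zero, zero_tmul, zero_add, add_zero, one_add_one_eq_two,
      add_sub_cancel_right, show m + 1 - 2 = m - 1 by ring, show m - 1 + 1 = m by ring,
      show m - 2 + 1 = m - 1 by ring]
    abel

section

variable (M : DG k A A' V) (N : DG k B B' W) (hM : ∀ m, m < 0 ∨ 2 < m → M.p m = 0)

@[simp] theorem DG.tensor_l (a : A) (b : B) (x : V) (y : W) :
    (M.tensor N hM).l (a ⊗ₜ b) (x ⊗ₜ y) = M.l a x ⊗ₜ N.l b y := rfl
@[simp] theorem DG.tensor_r (a : A') (b : B') (x : V) (y : W) :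
    (M.tensor N hM).r (a ⊗ₜ b) (x ⊗ₜ y) = M.r a x ⊗ₜ N.r b y := rfl
@[simp] theorem DG.tensor_d (x : V) (y : W) :
    (M.tensor N hM).d (x ⊗ₜ y) = M.d x ⊗ₜ y + x ⊗ₜ N.d y := rfl
theorem DG.tensor_p (m : ℤ) (x : V) (y : W) : (M.tensor N hM).p m (x ⊗ₜ y) =
    M.p 0 x ⊗ₜ N.p m y + M.p 1 x ⊗ₜ N.p (m - 1) y + M.p 2 x ⊗ₜ N.p (m - 2) y := rfl

theorem DG.tensor_bdd {s : ℤ} (hN : ∀ m, m < 0 ∨ s < m → N.p m = 0) (m : ℤ)
    (hm : m < 0 ∨ s + 2 < m) : (M.tensor N hM).p m = 0 := by
  refine TensorProduct.ext' fun x y => ?_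
  rw [DG.tensor_p, hN m (by omega), hN (m - 1) (by omega), hN (m - 2) (by omega)]
  simp

end

end

variable [CharP k 2] {J : Type*} {A : Type u} [Ring A] [Algebra k A] {S : Seed k A J}
  {V : Type u} [AddCommGroup V] [Module k V] {C : DG k A A V}

omit [CharP k 2] in
theorem at_bdd {R R' W : Type*} [Ring R] [Algebra k R] [Ring R'] [Algebra k R'] [AddCommGroup W]
    [Module k W] (M : Bim k R R' W) (m : ℤ) (hm : m < 0 ∨ 2 < m) : (M.at 0).p m = 0 :=
  LinearMap.ext fun x => by rw [Bim.at_p, if_neg (by omega)]; rfl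

variable (k A) in
/-- the product of three elements -/
abbrev mul₃ : A →ₗ[k] A →ₗ[k] A →ₗ[k] A := (LinearMap.mul k A).compr₂ (LinearMap.mul k A)

namespace Tri

variable (T : Tri S C)

omit [CharP k 2] in
theorem p_ι (m : ℤ) (x : A) : C.p m (T.ι x) = if m = 2 then T.ι x else 0 := by
  rw [T.hι.hp, Bim.at_p]
  by_cases h : m = 2
  · simp [h]
  · rw [if_neg (by omega), if_neg h, map_zero]

omit [CharP k 2] in
theorem ε_p (m : ℤ) (x : V) : T.ε (C.p m x) = if m = 0 then T.ε x else 0 := by
  have := T.hε.hp m x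
  rw [sub_zero, Bim.at_p] at this
  exact this.symm

omit [CharP k 2] in
theorem d_ι (x : A) : C.d (T.ι x) = 0 := by rw [← T.hι.hd]; simp
omit [CharP k 2] in
theorem ε_d (x : V) : T.ε (C.d x) = 0 := by rw [T.hε.hd]; simp
omit [CharP k 2] in
theorem ι_l (a x : A) : C.l a (T.ι x) = T.ι (a * x) := (T.hι.hl a x).symm
omit [CharP k 2] in
theorem ι_r (a x : A) : C.r a (T.ι x) = T.ι (x * a) := (T.hι.hr a x).symm
omit [CharP k 2] in
theorem ε_l (a : A) (x : V) : T.ε (C.l a x) = a * T.ε x := T.hε.hl a x
omit [CharP k 2] in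
theorem ε_r (a : A) (x : V) : T.ε (C.r a x) = T.ε x * a := T.hε.hr a x

variable (C) in
/-- the extension in the second variable -/
abbrev _root_.Crest.Agent.R186.DG.tL : DG k (A ⊗[k] A) (A ⊗[k] A) (A ⊗[k] V) :=
  ((Bim.reg k A).at 0).tensor C (at_bdd _)

/-- the Koszul bimodule -/
abbrev tK : DG k (A ⊗[k] A) (A ⊗[k] A) (V ⊗[k] V) := C.tensor C T.bdd

/-- the extension in the second variable -/
def three₂ : Three ((Bim.reg k (A ⊗[k] A)).at 0) C.tL (map₃ (mul₃ k A) S.τ) where
  bddM := at_bdd _
  bddN := DG.tensor_bdd _ _ _ T.bdd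
  f := T.ι.lTensor A
  hf :=
    { hl := fun a x => by
        tind a with a a'
        tind x with x y
        simp [T.ι_l]
      hr := fun a x => by
        tind a with a a'
        tind x with x y
        simp [T.ι_r]
      hd := fun x => by
        tind x with x y
        simp [T.d_ι]
      hp := fun m x => by
        tind x with x y
        by_cases h : m = 2 <;> simp [DG.tensor_p, Bim.at_p, T.p_ι, h, sub_eq_zero] }
  g := T.ε.lTensor A
  hg :=
    { hl := fun a x => by
        tind a with a a'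
        tind x with x y
        simp [T.ε_l]
      hr := fun a x => by
        tind a with a a'
        tind x with x y
        simp [T.ε_r]
      hd := fun x => by
        tind x with x y
        simp [T.ε_d]
      hp := fun m x => by
        tind x with x y
        by_cases h : m = 0 <;> simp [DG.tensor_p, Bim.at_p, T.ε_p, h] }
  h := T.h.lTensor A
  π := T.π.lTensor A
  ρ₀ := T.ρ₀.lTensor A
  ρ₁ := map₂ (LinearMap.mul k A) T.ρ₁
  ρ₂ := map₃ (mul₃ k A) T.ρ₂
  dh x := by
    tind x with x y
    simp [← tmul_add, T.dh]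
  g_h x := by
    tind x with x y
    simp [T.ε_h]
  h_f x := by
    tind x with x y
    simp [T.h_ι]
  π_f x := by
    tind x with x y
    simp [T.π_ι]
  π_d x := by
    tind x with x y
    simp [T.π_d]
  g_f x := by
    tind x with x y
    simp [T.ε_ι]
  g_ρ₀ x := by
    tind x with x y
    simp [T.ε_ρ₀]
  g_ρ₁ a x := by
    tind a with a a'
    tind x with x y
    simp [T.ε_ρ₁]
  g_ρ₂ a b x := by
    tind a with a a'
    tind b with b b'
    tind x with x y
    simp [T.ε_ρ₂]
  ρ₀_r a x := by
    tind a with a a'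
    tind x with x y
    simp [T.ρ₀_r]
  ρ₁_r a b x := by
    tind a with a a'
    tind b with b b'
    tind x with x y
    simp [T.ρ₁_r, mul_assoc]
  ρ₂_r a b c x := by
    tind a with a a'
    tind b with b b'
    tind c with c c'
    tind x with x y
    simp [T.ρ₂_r, mul_assoc]
  d_ρ₀ x := by
    tind x with x y
    simp [T.d_ρ₀]
  d_ρ₁ a x := by
    tind a with a a'
    tind x with x y
    simp [T.d_ρ₁, tmul_add]
  d_ρ₂ a b x := by
    tind a with a a'
    tind b with b b'
    tind x with x y
    simp [T.d_ρ₂, tmul_add, mul_assoc]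
  ρ₃ a b c x := by
    tind a with a a'
    tind b with b b'
    tind c with c c'
    tind x with x y
    simp [← T.ρ₃, tmul_add, mul_assoc]

/-- the extension in the first variable -/
def three₁ : Three C.tL T.tK (map₃ S.τ (mul₃ k A)) where
  bddM m hm := TensorProduct.ext' fun x y => by
    simp [DG.tensor_p, Bim.at_p, T.bdd m hm]
  bddN := DG.tensor_bdd _ _ _ T.bdd
  f := T.ι.rTensor V
  hf :=
    { hl := fun a x => by
        tind a with a a'
        tind x with x y
        simp [T.ι_l]
      hr := fun a x => by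
        tind a with a a'
        tind x with x y
        simp [T.ι_r]
      hd := fun x => by
        tind x with x y
        simp [T.d_ι]
      hp := fun m x => by
        tind x with x y
        simp [DG.tensor_p, Bim.at_p, T.p_ι] }
  g := T.ε.rTensor V
  hg :=
    { hl := fun a x => by
        tind a with a a'
        tind x with x y
        simp [T.ε_l]
      hr := fun a x => by
        tind a with a a'
        tind x with x y
        simp [T.ε_r]
      hd := fun x => by
        tind x with x y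
        simp [T.ε_d]
      hp := fun m x => by
        tind x with x y
        simp [DG.tensor_p, Bim.at_p, T.ε_p] }
  h := T.h.rTensor V
  π := T.π.rTensor V
  ρ₀ := T.ρ₀.rTensor V
  ρ₁ := map₂ T.ρ₁ C.l
  ρ₂ := map₃ T.ρ₂ ((LinearMap.mul k A).compr₂ C.l)
  dh x := by
    tind x with x y
    have := congrArg (· ⊗ₜ[k] y) (T.dh x)
    simp only [add_tmul] at this
    simp only [LinearMap.rTensor_tmul, DG.tensor_d, map_add, ← this]
    char2 k
  g_h x := by
    tind x with x y
    simp [T.ε_h]
  h_f x := by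
    tind x with x y
    simp [T.h_ι]
  π_f x := by
    tind x with x y
    simp [T.π_ι]
  π_d x := by
    tind x with x y
    simp [T.π_d]
  g_f x := by
    tind x with x y
    simp [T.ε_ι]
  g_ρ₀ x := by
    tind x with x y
    simp [T.ε_ρ₀]
  g_ρ₁ a x := by
    tind a with a a'
    tind x with x y
    simp [T.ε_ρ₁]
  g_ρ₂ a b x := by
    tind a with a a'
    tind b with b b'
    tind x with x y
    simp [T.ε_ρ₂]
  ρ₀_r a x := by
    tind a with a a'
    tind x with x y
    simp [T.ρ₀_r]
  ρ₁_r a b x := by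
    tind a with a a'
    tind b with b b'
    tind x with x y
    simp [T.ρ₁_r, C.lr]
  ρ₂_r a b c x := by
    tind a with a a'
    tind b with b b'
    tind c with c c'
    tind x with x y
    simp [T.ρ₂_r, C.lr]
  d_ρ₀ x := by
    tind x with x y
    simp [T.d_ρ₀]
  d_ρ₁ a x := by
    tind a with a a'
    tind x with x y
    simp [T.d_ρ₁, add_tmul, C.dl]
  d_ρ₂ a b x := by
    tind a with a a'
    tind b with b b'
    tind x with x y
    simp [T.d_ρ₂, add_tmul, C.dl, C.l_mul]
  ρ₃ a b c x := by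
    tind a with a a'
    tind b with b b'
    tind c with c c'
    tind x with x y
    simp [← T.ρ₃, add_tmul, C.l_mul]

end Tri

end Crest.Agent.R186
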