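import Crest.Agent.R186.Coord

/-!
The Koszul bimodule has the properties used by the gluing.
-/

set_option autoImplicit false

noncomputable section

namespace Crest.Agent.R186

open TensorProduct

universe u

variable {k : Type u} [Field k] [CharP k 2]

theorem one_Z {I : Type*} {E : Type u} [Ring E] [Algebra k E] (P : MC E I) :
    (ecx k P).Z 0 (diag P.ε) := by
  classical
  refine ⟨Mat.ext' fun i j => ?_, Mat.ext' fun i j => ?_⟩
  · rw [cx_P_at]
    by_cases h : i = j
    · subst h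
      simp [diag, P.εε]
    · simp [diag, Finsupp.single_eq_of_ne (Ne.symm h)]
  · rw [cx_D_at, Pi.add_apply, Finsupp.add_apply, mmul_diag_left, mmul_diag_right]
    simp [P.εδ, P.δε, add_self k]

theorem ml_one {I : Type*} {E : Type u} [Ring E] [Algebra k E] {P : MC E I} {n : ℤ} {a : Mat I I E}
    (ha : (ecx k P).P n a = a) : (Bim.reg k E).ml a (diag P.ε) = a := Mat.ext' fun i j => by
  rw [mmul_diag_right]
  exact (entry_of_P ha i j).2.1

variable {J : Type*} {A : Type u} [Ring A] [Algebra k A] {S : Seed k A J}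
  {V : Type u} [AddCommGroup V] [Module k V] {C : DG k A A V}

namespace Tri

variable (T : Tri S C)

include T in
theorem Z₂ {I : Type*} (P : MC (A ⊗[k] A) I) :
    (ecx k P).Z 3 (tcoc P (map₃ (mul₃ k A) S.τ)) := by
  have := (T.three₂.les P).tZ 0 _ (one_Z P)
  rwa [zero_add, Bim.ml, Bim.at_l, ml_one (n := 3) (a := tcoc _ _) (Cx.PP _ _ _)] at this

include T in
theorem Z₁ {I : Type*} (P : MC (A ⊗[k] A) I) :
    (ecx k P).Z 3 (tcoc P (map₃ S.τ (mul₃ k A))) := by
  have h := (T.three₁.les P).tZ (-2) _ ((T.three₂.les P).hf.Z (by ring) (one_Z P))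
  refine ⟨Cx.PP _ _ _, mmap_injective T.three₂.f_inj ?_⟩
  rw [(T.three₂.les P).hf.hD, map_zero, ← h.2, ← T.three₂.hf.ml, Bim.ml, Bim.at_l,
    ml_one (n := 3) (a := tcoc _ _) (Cx.PP _ _ _)]

theorem kos_B {n : ℤ} (hn : n ≠ -4) {x : Mat (J × J ⊕ J × J) (J × J ⊕ J × J) (V ⊗[k] V)}
    (hx : (cx S.sq.splice S.sq.splice T.tK).Z n x)
    (h : n = -1 → (ecx k S.sq.splice).B (mmap (map T.ε T.ε) x)) :
    (cx S.sq.splice S.sq.splice T.tK).B x := by
  have co := S.coord (map₃ S.τ (mul₃ k A)) (map₃ (mul₃ k A) S.τ) (by simp) (by simp) (T.Z₁ _) (T.Z₂ _)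
  refine koszul (T.three₂.les S.sq.splice) (T.three₁.les S.sq.splice)
    (fun a => (T.three₂.hf.ml _ _).symm) (fun c => T.three₂.hg.ml _ _)
    (fun c hc => B_ml (T.Z₁ _).2 hc) co.Z₁ co.K1 co.K1' co.K2 hn hx fun h₁ h₂ => ?_
  by_cases h' : n = -1
  · refine (h h').of_eq (Mat.ext' fun i j => ?_)
    rw [mmap_apply, mmap_apply, mmap_apply, ← LinearMap.lTensor_comp_rTensor]
    rfl
  · exact co.K0 h' ((T.three₂.les _).hg.Z (add_zero n).symm
      ((T.three₁.les _).hg.Z (add_zero n).symm hx)) h₁ h₂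

theorem tK_p₀ : T.tK.p 0 = map (C.p 0) (C.p 0) := TensorProduct.ext' fun x y => by
  simp [DG.tensor_p, T.bdd]

theorem van₀ (n : ℤ) : (cx S.sq.splice S.sq.splice ((T.tK.comp 0).at 0)).Van n := by
  let Φ := TensorProduct.tensorTensorTensorComm k A A A A
  have hl : ∀ a x, Φ ((Bim.reg k (A ⊗[k] A)).ind.l a x) =
      ((Bim.reg k A).ind.tensor (Bim.reg k A).ind).l a (Φ x) := fun a x => by
    tind a with a a'
    tind x with x y
    tind x with x x'
    tind y with y y'
    simp [Φ]
  have hr : ∀ a x, Φ ((Bim.reg k (A ⊗[k] A)).ind.r a x) =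
      ((Bim.reg k A).ind.tensor (Bim.reg k A).ind).r a (Φ x) := fun a x => by
    tind a with a a'
    tind x with x y
    tind x with x x'
    tind y with y y'
    simp [Φ]
  have il : ∀ a x, map T.in₀ T.in₀ (((Bim.reg k A).ind.tensor (Bim.reg k A).ind).l a x) =
      T.tK.l a (map T.in₀ T.in₀ x) := fun a x => by
    tind a with a a'
    tind x with x y
    simp [T.in₀_l]
  have ir : ∀ a x, map T.in₀ T.in₀ (((Bim.reg k A).ind.tensor (Bim.reg k A).ind).r a x) =
      T.tK.r a (map T.in₀ T.in₀ x) := fun a x => by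
    tind a with a a'
    tind x with x y
    simp [T.in₀_r]
  have pl : ∀ a x, map T.pr₀ T.pr₀ (T.tK.l a x) =
      ((Bim.reg k A).ind.tensor (Bim.reg k A).ind).l a (map T.pr₀ T.pr₀ x) := fun a x => by
    tind a with a a'
    tind x with x y
    simp [T.pr₀_l]
  have pr : ∀ a x, map T.pr₀ T.pr₀ (T.tK.r a x) =
      ((Bim.reg k A).ind.tensor (Bim.reg k A).ind).r a (map T.pr₀ T.pr₀ x) := fun a x => by
    tind a with a a'
    tind x with x y
    simp [T.pr₀_r]
  refine van_of_sum {()} (fun _ => (T.tK.p 0).rangeRestrict ∘ₗ map T.in₀ T.in₀ ∘ₗ Φ.toLinearMap)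
    (fun _ => Φ.symm.toLinearMap ∘ₗ map T.pr₀ T.pr₀ ∘ₗ Submodule.subtype _)
    (fun _ => dhom_at 0 (fun a x => Subtype.ext ?_) (fun a x => Subtype.ext ?_))
    (fun _ => dhom_at 0 (fun a x => Φ.injective ?_) (fun a x => Φ.injective ?_))
    (fun x => Subtype.ext ?_) (S.sq.rowEx.van_ind' _ 0 n)
  · exact (congrArg (T.tK.p 0) ((congrArg _ (hl a x)).trans (il _ _))).trans (T.tK.pl _ _ _)
  · exact (congrArg (T.tK.p 0) ((congrArg _ (hr a x)).trans (ir _ _))).trans (T.tK.pr _ _ _)
  · rw [hl]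
    exact (Φ.apply_symm_apply _).trans ((pl a x).trans (congrArg _ (Φ.apply_symm_apply _).symm))
  · rw [hr]
    exact (Φ.apply_symm_apply _).trans ((pr a x).trans (congrArg _ (Φ.apply_symm_apply _).symm))
  · have e : ∀ y, map T.in₀ T.in₀ (map T.pr₀ T.pr₀ y) = T.tK.p 0 y := fun y => by
      rw [T.tK_p₀]
      tind y with y y'
      simp [T.in_pr]
    simp [e, DG.p_comp]

/-- the functional on one factor -/
def lam : V →ₗ[k] k := LinearMap.mul' k k ∘ₗ map S.tr S.χ.toLinearMap ∘ₗ T.pr₀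

omit [CharP k 2] in
theorem lam_l (x : V) : T.lam (C.l S.ω x) = S.χ (T.ε x) := by
  simp only [lam, LinearMap.comp_apply, T.pr₀_l, T.ε_eq]
  generalize T.pr₀ x = y
  tind y with y y'
  simp [S.ω_mul, S.tr_ω]

omit [CharP k 2] in
theorem lam_r (a : A) (x : V) : T.lam (C.r a x) = S.χ a * T.lam x := by
  simp only [lam, LinearMap.comp_apply, T.pr₀_r]
  generalize T.pr₀ x = y
  tind y with y y'
  simp only [Bim.ind_r, Bim.reg_r, map_tmul, AlgHom.toLinearMap_apply, map_mul, LinearMap.mul'_apply]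
  ring

/-- the Koszul bimodule -/
def kos : Kos S.sq T.tK where
  fin := by
    have := T.fin
    infer_instance
  bdd := T.three₁.bddN
  row := S.sq.rowEx.of_RP (T.RP.tensor T.RP)
  col := S.sq.colEx.of_LP (T.LP.tensor T.LP)
  van₀ := T.van₀
  van n h1 h4 x hx := T.kos_B h4 hx fun h => absurd h h1
  e := map T.ε T.ε
  he :=
    { hl := fun a x => by
        tind a with a a'
        tind x with x y
        simp [T.ε_l]
      hr := fun a x => by
        tind a with a a'
        tind x with x y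
        simp [T.ε_r]
      hd := fun x => by
        tind x with x y
        simp [T.ε_d]
      hp := fun m x => by
        tind x with x y
        by_cases h : m = 0 <;> simp [DG.tensor_p, Bim.at_p, T.ε_p, h] }
  inj c hc h := T.kos_B (by decide) hc fun _ => h
  lam := LinearMap.mul' k k ∘ₗ map T.lam T.lam
  lam_l x := by
    rw [Half.tensor_ω]
    tind x with x y
    simp [Seed.half, T.lam_l, S.sq_χ]
  lam_r a x := by
    tind a with a a'
    tind x with x y
    simp only [DG.tensor_r, LinearMap.comp_apply, map_tmul, LinearMap.mul'_apply, T.lam_r, S.sq_χ]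
    ring
  wt := Sum.elim (fun j => S.wt j.1 + S.wt j.2) fun j => -2 - S.wt j.1 - S.wt j.2
  wt_o := by
    change S.wt (S.s 0) + S.wt (S.s 0) = 0
    simp [S.wt_s]
  wt_eq i j hi hj h := by
    obtain ⟨x, rfl⟩ := S.exists_sT hi
    obtain ⟨y, rfl⟩ := S.exists_sT hj
    rw [S.deg_sT, S.deg_sT] at h
    rcases x with x | x <;> rcases y with y | y <;> simp only [dT] at h <;>
      simp [Seed.sT, S.wt_s] <;> omega
  wt_ne i hi h := by
    obtain ⟨x, rfl⟩ := S.exists_sT hi
    have := mt S.sq.eq_o h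
    rw [S.deg_sT] at this
    rcases x with x | x <;> simp only [dT] at this <;> simp [Seed.sT, S.wt_s] <;> omega

theorem ktw {c : k} (W : Twist S c) : Nonempty (KTw T.kos c) := by
  classical
  obtain ⟨y, ψ, h1, h2, h3, h4, h5⟩ := T.tw c W
  have hy : ∀ a, C.l a (C.d y) = C.r (W.h a) (C.d y) := fun a => by
    rw [← add_eq_zero_iff k, ← C.dl, ← C.dr, ← map_add, ← h4, C.dd]
  have p0 : C.p 0 (C.d y) = C.d y := by rw [C.pd, zero_add, h1]
  have hp : ∀ {x : V} {m : ℤ}, C.p m x = x → ∀ n, C.p n x = if n = m then x else 0 :=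
    fun {x m} h n => by rw [← h, C.pp, h]
  have hδ : ∀ i j, Algebra.TensorProduct.map W.h W.h (tδ k S.Q S.Q i j) =
      c ^ (S.wt i.1 + S.wt i.2 - (S.wt j.1 + S.wt j.2)) • tδ k S.Q S.Q i j := fun i j => by
    rw [tδ, map_add, smul_add]
    congr 1 <;> split_ifs with h
    · simp [W.h_δ, W.h_ε, smul_tmul', h]
    · simp
    · simp [W.h_δ, W.h_ε, h]
    · simp
  have hσ : ∀ x, Algebra.TensorProduct.map W.h W.h (S.sq.σ x) =
      S.sq.σ (Algebra.TensorProduct.map W.h W.h x) := fun x => by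
    tind x with x x'
    simp [Half.tensor_σ_tmul, Seed.half, W.h_σ]
  refine ⟨
    { g := Algebra.TensorProduct.map W.h W.h
      χ_g := fun a => by
        tind a with a a'
        simp [S.sq_χ, W.χ_h]
      g_ε := fun i => by
        rcases i with i | i <;>
          exact congrArg₂ (fun a b : A => a ⊗ₜ[k] b) (W.h_ε i.1) (W.h_ε i.2)
      g_δ := fun i j => ?_
      η₀ := y ⊗ₜ C.d y
      η₁ := map ψ (C.l.flip (C.d y))
      p_η₀ := by simp [DG.tensor_p, hp h1, hp p0]
      p_η₁ := fun a => by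
        tind a with a a'
        simp [DG.tensor_p, hp (h2 a), C.pl, hp p0]
      d_η₁ := fun a => by
        tind a with a a'
        simp [h4, C.dr, C.dd, add_tmul, hy]
      η₁_mul := fun a b => by
        tind a with a a'
        tind b with b b'
        simp only [Algebra.TensorProduct.tmul_mul_tmul, map_tmul, LinearMap.flip_apply, h5, add_tmul,
          DG.tensor_l, DG.tensor_r, Algebra.TensorProduct.map_tmul, C.l_mul]
        rw [← C.lr, ← hy]
      val := by
        have : T.lam (C.d y) = 1 := by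
          simp only [lam, LinearMap.comp_apply, h3]
          exact W.z_val
        simp [kos, C.dd, this] }⟩
  rw [Half.splice_δ]
  rcases i with i | i <;> rcases j with j | j <;> simp only [Half.sδ]
  · exact hδ i j
  · split_ifs with h
    · rw [h.1, h.2, Half.tensor_ω]
      simp [kos, Seed.half, Half.tensor_j₀, S.wt_s, W.h_ω, smul_tmul', smul_smul, pow_two]
    · simp
  · simp
  · rw [hσ]
    change S.sq.σ (Algebra.TensorProduct.map W.h W.h (tδ k S.Q S.Q j i)) = _
    rw [hδ, map_smul]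
    congr 2
    simp only [kos, Sum.elim_inr]
    ring

end Tri

end Crest.Agent.R186
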