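import Crest.Agent.R186.Red

/-!
Long exact sequences of three-fold extensions and the Koszul diagram chase.
-/

set_option autoImplicit false

noncomputable section

namespace Crest.Agent.R186

variable {k : Type*} [Field k] [CharP k 2]
variable {U V W : Type*} [AddCommGroup U] [Module k U] [AddCommGroup V] [Module k V]
  [AddCommGroup W] [Module k W]

/-- the long exact sequence of a three-fold extension with connecting map `t` -/
structure LES (C₁ : Cx k U) (C₂ : Cx k V) (f : U →ₗ[k] V) (g : V →ₗ[k] U) (t : U →ₗ[k] U) :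
    Prop where
  hf : CMap C₁ C₂ 2 f
  hg : CMap C₂ C₁ 0 g
  gf : ∀ y, g (f y) = 0
  surj : Function.Surjective g
  tZ : ∀ n a, C₁.Z n a → C₁.Z (n + 3) (t a)
  lift : ∀ n a, C₁.Z n a → ∃ u, C₂.P n u = u ∧ g u = a ∧ C₂.D u = f (t a)
  three : ∀ n c y, C₂.P n c = c → g c = 0 → C₁.Z (n + 3) y → C₂.D c = f y →
    ∃ c' y', C₁.P (n + 2) y' = y' ∧ c = C₂.D c' + f y' ∧ y = C₁.D y'

namespace LES

variable {C₁ : Cx k U} {C₂ : Cx k V} {f : U →ₗ[k] V} {g : V →ₗ[k] U} {t : U →ₗ[k] U}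
  (h : LES C₁ C₂ f g t)
include h

theorem tg {n : ℤ} {c : V} (hc : C₂.Z n c) : C₁.B (t (g c)) := by
  have ha := h.hg.Z (add_zero n).symm hc
  obtain ⟨u, hu, hu', hD⟩ := h.lift n _ ha
  obtain ⟨-, y', -, -, e⟩ := h.three n (c + u) _ (by rw [map_add, hc.1, hu])
    (by rw [map_add, hu', add_self k]) (h.tZ n _ ha) (by rw [map_add, hc.2, hD, zero_add])
  exact ⟨y', e.symm⟩

theorem mid {n m : ℤ} (hm : m = n + 2) {c : V} (hc : C₂.Z n c) (hg : C₁.B (g c)) :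
    ∃ b, C₁.Z m b ∧ C₂.B (c + f b) := by
  obtain ⟨a, ha⟩ := hg
  obtain ⟨a, rfl⟩ := h.surj a
  have e1 : C₂.P n (c + C₂.D a) = c + C₂.D (C₂.P (n - 1) a) := by
    rw [map_add, hc.1, C₂.PD' (n := n - 1) (by ring)]
  obtain ⟨c', y', hy, e, e'⟩ := h.three n (C₂.P n (c + C₂.D a)) 0 (C₂.PP _ _)
    (by rw [← add_zero n, ← h.hg.hP, map_add, h.hg.hD, ha, add_self k, map_zero]) (Cx.Z.zero _)
    (by rw [e1, map_add, hc.2, C₂.DD, add_zero, map_zero])
  refine ⟨y', ⟨hm ▸ hy, e'.symm⟩, c' + C₂.P (n - 1) a, ?_⟩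
  rw [e1] at e
  rw [map_add, (add_eq_zero_iff k).1 (show c + (C₂.D c' + f y' + C₂.D (C₂.P (n - 1) a)) = 0 by
    rw [← e]; char2 k)]
  char2 k

theorem left {n m : ℤ} (hm : m = n + 3) {b : U} (hb : C₁.Z m b) (hf : C₂.B (f b)) :
    ∃ a, C₁.Z n a ∧ C₁.B (b + t a) := by
  subst hm
  obtain ⟨c, hc, hc'⟩ := hf.graded (n := n) rfl (h.hf.Z (by ring) hb).1
  have ha : C₁.Z n (g c) := ⟨by rw [h.hg.hP, add_zero, hc], by rw [← h.hg.hD, hc', h.gf]⟩
  obtain ⟨u, hu, hu', hD⟩ := h.lift n _ ha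
  obtain ⟨-, y', -, -, e⟩ := h.three n (c + u) _ (by rw [map_add, hc, hu])
    (by rw [map_add, hu', add_self k]) (hb.add (h.tZ n _ ha)) (by rw [map_add, hc', hD, map_add])
  exact ⟨_, ha, y', e.symm⟩

omit [CharP k 2] in
theorem ft {n : ℤ} {a : U} (ha : C₁.Z n a) : C₂.B (f (t a)) := by
  obtain ⟨u, -, -, hD⟩ := h.lift n _ ha
  exact ⟨u, hD⟩

theorem right {n : ℤ} {a : U} (ha : C₁.Z n a) (ht : C₁.B (t a)) : ∃ u, C₂.Z n u ∧ g u = a := by
  obtain ⟨u, hu, hu', hD⟩ := h.lift n _ ha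
  obtain ⟨b, hb, hb'⟩ := ht.graded (n := n + 2) (by ring) (h.tZ n _ ha).1
  refine ⟨u + f b, ⟨by rw [map_add, hu, h.hf.hP, hb], ?_⟩, by rw [map_add, hu', h.gf, add_zero]⟩
  rw [map_add, hD, ← h.hf.hD, hb', add_self k]

end LES

/-- the Koszul diagram chase -/
theorem koszul {R : Cx k U} {L : Cx k V} {K : Cx k W} {f : U →ₗ[k] V} {g : V →ₗ[k] U}
    {t₁ t₂ : U →ₗ[k] U} {f' : V →ₗ[k] W} {g' : W →ₗ[k] V} {t : V →ₗ[k] V}
    (h₂ : LES R L f g t₂) (h₁ : LES L K f' g' t) (tf : ∀ a, t (f a) = f (t₁ a))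
    (tg : ∀ c, g (t c) = t₁ (g c)) (tB : ∀ c, L.B c → L.B (t c))
    (t₁Z : ∀ n a, R.Z n a → R.Z (n + 3) (t₁ a))
    (K1 : ∀ n b b', R.Z (n + 3) b → R.Z (n + 3) b' → R.B (t₁ b + t₂ b') →
      ∃ e, R.Z n e ∧ R.B (b + t₂ e))
    (K1' : ∀ n a, R.Z (n + 3) a → R.B (t₂ a) → ∃ e, R.Z n e ∧ R.B (t₂ e) ∧ R.B (a + t₁ e))
    (K2 : ∀ n b, n + 3 ≠ 0 → R.Z (n + 3) b →
      ∃ e e', R.Z n e ∧ R.Z n e' ∧ R.B (b + t₁ e + t₂ e'))
    {n : ℤ} (hn : n ≠ -4) {x : W} (hx : K.Z n x)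
    (K0 : R.B (t₁ (g (g' x))) → R.B (t₂ (g (g' x))) → R.B (g (g' x))) : K.B x := by
  have hy := h₁.hg.Z (add_zero n).symm hx
  have hty := h₁.tg hx
  obtain ⟨b, hb, hb'⟩ := h₂.mid rfl hy (K0 (tg _ ▸ h₂.hg.B hty) (h₂.tg hy))
  have e1 : L.B (f (t₁ b)) := (hty.add (tB _ hb')).of_eq (by rw [map_add, tf]; char2 k)
  obtain ⟨b', hb1, hb2⟩ := h₂.left (n := n + 2) rfl (t₁Z _ _ hb) e1
  obtain ⟨e, he, he'⟩ := K1 (n - 1) b b' (by convert hb using 1; ring)
    (by convert hb1 using 1; ring) hb2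
  have e2 : L.B (g' x) :=
    ((hb'.add (h₂.hf.B he')).add (h₂.ft he)).of_eq (by rw [map_add]; char2 k)
  obtain ⟨u, hu, hu'⟩ := h₁.mid rfl hx e2
  obtain ⟨e₀, h0, h0', h0''⟩ := K1' (n - 1) (g u) (h₂.hg.Z (by ring) hu) (h₂.tg hu)
  obtain ⟨u₀, hu₀, rfl⟩ := h₂.right h0 h0'
  have z1 : L.Z (n + 2) (u + t u₀) := hu.add (by convert h₁.tZ _ _ hu₀ using 1; ring)
  obtain ⟨c, hc, hc'⟩ := h₂.mid (m := n + 1 + 3) (by ring) z1 (by rwa [map_add, tg])
  obtain ⟨e₁, e₂, h1, h2, h3⟩ := K2 (n + 1) c (by omega) hc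
  have z2 : L.Z (n - 1) (u₀ + f e₁) := hu₀.add (h₂.hf.Z (by ring) h1)
  have e3 : L.B (u + t (u₀ + f e₁)) := ((hc'.add (h₂.hf.B h3)).add (h₂.ft h2)).of_eq (by
    simp only [map_add, tf]; char2 k)
  exact ((hu'.add (h₁.hf.B e3)).add (h₁.ft z2)).of_eq (by simp only [map_add]; char2 k)

section Three

variable {I J : Type*} {R S : Type*} [Ring R] [Algebra k R] [Ring S] [Algebra k S]
  (P : MC R I) (Q : MC S J)

theorem mmap_p_D (M : DG k R S V) (m : ℤ) (c : Mat I J V) :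
    mmap (M.p m) ((cx P Q M).D c) = M.ml P.δ (mmap (M.p m) c) + M.mr (mmap (M.p m) c) Q.δ +
      mmap M.d (mmap (M.p (m + 1)) c) := by
  rw [cx_D, map_add, map_add]
  refine congrArg₂ _ (congrArg₂ _ ?_ ?_) (Mat.ext' fun i j => M.pd _ _)
  · exact mmap_mmul _ _ _ _ fun _ _ _ => M.pl _ _ _
  · exact mmap_mmul _ _ _ _ fun _ _ _ => M.pr _ _ _

theorem mmap_p_P (M : DG k R S V) (m n : ℤ) (c : Mat I J V) :
    mmap (M.p m) ((cx P Q M).P n c) = (cx P Q M).P n (mmap (M.p m) c) := Mat.ext' fun i j => by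
  simp only [mmap_apply, cx_P, M.pl, M.pr, M.pp]
  split_ifs with h h' h'
  · rw [h]
  · exact absurd h.symm h'
  · exact absurd h'.symm h
  · rfl

/-- matrices with entries in a bounded exact complex form an exact complex -/
theorem van_of_exact (M : DG k R S V) (lo hi : ℤ) (hM : ∀ m, m < lo ∨ hi < m → M.p m = 0)
    (hex : ∀ x, M.d x = 0 → ∃ y, M.d y = x) (n : ℤ) : (cx P Q M).Van n := by
  have key : ∀ (N : ℕ) c, (cx P Q M).Z n c → (∀ m, m ≤ hi - N → mmap (M.p m) c = 0) →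
      (cx P Q M).B c := by
    intro N
    induction N with
    | zero =>
      intro c hc h
      refine Cx.B.zero.of_eq (Mat.ext' fun i j => ?_)
      rw [← (entry_of_P' hc.1 i j).2.2]
      by_cases hm : hi < P.deg i - Q.deg j - n
      · rw [hM _ (Or.inr hm)]
        rfl
      · exact (congrArg (fun x => x i j) (h (P.deg i - Q.deg j - n) (by omega))).symm
    | succ N ih =>
      intro c hc h
      have e := mmap_p_D P Q M (hi - N - 1) c
      rw [hc.2, h _ (by omega), sub_add_cancel] at e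
      simp only [map_zero, LinearMap.zero_apply, zero_add] at e
      obtain ⟨b, hb, hb'⟩ := exists_mat (f := fun _ _ => M.d)
        (p := fun _ _ x => M.p (hi - N + 1) x = x) (fun _ _ => map_zero _)
        (mmap (M.p (hi - N)) c) fun i j => by
          obtain ⟨y, hy⟩ := hex _ (congrArg (fun x => x i j) e).symm
          exact ⟨M.p (hi - N + 1) y, by rw [M.pp, if_pos rfl], by
            rw [← M.pd, hy, mmap_apply, M.pp, if_pos rfl]⟩
      have hp : ∀ m, mmap (M.p m) b = if m = hi - N + 1 then b else 0 := fun m =>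
        Mat.ext' fun i j => by
          rw [mmap_apply, ← hb i j, M.pp]
          split_ifs
          · exact hb i j
          · rfl
      have e1 : (cx P Q M).P n (c + (cx P Q M).D b) = c + (cx P Q M).D ((cx P Q M).P (n - 1) b) := by
        rw [map_add, hc.1, Cx.PD' _ (n := n - 1) (by ring)]
      have := ih _ (hc.add (Cx.Z.D (n := n - 1) (by ring) (Cx.PP _ _ b))) fun m hm => ?_
      · exact (this.add (Cx.B.D _)).of_eq (by char2 k)
      · rw [← e1, mmap_p_P, map_add, mmap_p_D, hp, hp, if_neg (by omega)]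
        by_cases h' : m = hi - N
        · rw [if_pos (by omega), h', ← hb']
          simp only [map_zero, LinearMap.zero_apply, zero_add]
          exact (congrArg _ (add_self k _)).trans (map_zero _)
        · rw [if_neg (by omega), h m (by push_cast; omega)]
          simp
  intro c hc
  exact key (hi - lo + 1).toNat c hc fun m hm => Mat.ext' fun i j => by
    rw [mmap_apply, hM m (by omega)]
    rfl

variable {M₁ : DG k R S U} {M₂ : DG k R S V} {M₃ : DG k R S W} {f : U →ₗ[k] V} {g : V →ₗ[k] W}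

/-- the mapping cone -/
def DHom.cone {s : ℤ} (hf : DHom M₁ M₂ s f) : DG k R S (V × U) where
  toBim := M₂.toBim.prod M₁.toBim
  d := (M₂.d.coprod f).prod (M₁.d ∘ₗ LinearMap.snd k V U)
  p m := (M₂.p m).prodMap (M₁.p (m - s - 1))
  dd x := by simp [M₂.dd, M₁.dd, hf.hd, add_self k]
  dl a x := by simp [M₂.dl, M₁.dl, hf.hl]
  dr a x := by simp [M₂.dr, M₁.dr, hf.hr]
  pp m n x := by
    rw [LinearMap.prodMap_apply, LinearMap.prodMap_apply, DG.pp, DG.pp]
    by_cases h : m = n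
    · simp [h]
    · rw [if_neg h, if_neg h, if_neg (by omega)]
      rfl
  pl m a x := Prod.ext (M₂.pl m a _) (M₁.pl _ a _)
  pr m a x := Prod.ext (M₂.pr m a _) (M₁.pr _ a _)
  pd m x := by
    simp [M₂.pd, M₁.pd, hf.hp, show m + 1 - s - 1 = m - s by ring]

end Three

section Lift

open TensorProduct

universe u

variable {k : Type u} [Field k] [CharP k 2] {I : Type*} {E : Type u} [Ring E] [Algebra k E]
variable {U V : Type*} [AddCommGroup U] [Module k U] [AddCommGroup V] [Module k V]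

/-- a three-fold extension of a differential graded bimodule by itself -/
structure Three (M : DG k E E U) (N : DG k E E V) (τ : E →ₗ[k] E →ₗ[k] E →ₗ[k] E) where
  bddM : ∀ m, m < 0 ∨ 2 < m → M.p m = 0
  bddN : ∀ m, m < 0 ∨ 4 < m → N.p m = 0
  f : U →ₗ[k] V
  hf : DHom M N 2 f
  g : V →ₗ[k] U
  hg : DHom N M 0 g
  h : V →ₗ[k] V
  π : V →ₗ[k] U
  ρ₀ : U →ₗ[k] V
  ρ₁ : E →ₗ[k] U →ₗ[k] V
  ρ₂ : E →ₗ[k] E →ₗ[k] U →ₗ[k] V
  dh : ∀ x, N.d (h x) + h (N.d x) = x + ρ₀ (g x) + f (π x)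
  g_h : ∀ x, g (h x) = 0
  h_f : ∀ x, h (f x) = 0
  π_f : ∀ x, π (f x) = x
  π_d : ∀ x, π (N.d x) = M.d (π x)
  g_f : ∀ x, g (f x) = 0
  g_ρ₀ : ∀ x, g (ρ₀ x) = x
  g_ρ₁ : ∀ a x, g (ρ₁ a x) = 0
  g_ρ₂ : ∀ a b x, g (ρ₂ a b x) = 0
  ρ₀_r : ∀ y x, ρ₀ (M.r y x) = N.r y (ρ₀ x)
  ρ₁_r : ∀ a y x, ρ₁ a (M.r y x) = N.r y (ρ₁ a x)
  ρ₂_r : ∀ a b y x, ρ₂ a b (M.r y x) = N.r y (ρ₂ a b x)
  d_ρ₀ : ∀ x, N.d (ρ₀ x) = ρ₀ (M.d x)
  d_ρ₁ : ∀ a x, N.d (ρ₁ a x) = N.l a (ρ₀ x) + ρ₀ (M.l a x) + ρ₁ a (M.d x)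
  d_ρ₂ : ∀ a b x, N.d (ρ₂ a b x) =
    N.l a (ρ₁ b x) + ρ₁ (a * b) x + ρ₁ a (M.l b x) + ρ₂ a b (M.d x)
  ρ₃ : ∀ a b c x, N.l a (ρ₂ b c x) + ρ₂ (a * b) c x + ρ₂ a (b * c) x + ρ₂ a b (M.l c x) =
    f (M.l (τ a b c) x)

omit [CharP k 2] in
theorem sum_mmul {J L X Y Z T : Type*} [AddCommGroup X] [Module k X] [AddCommGroup Y] [Module k Y]
    [AddCommGroup Z] [Module k Z] [AddCommGroup T] (μ : X →ₗ[k] Y →ₗ[k] Z) (a : Mat I J X)
    (b : Mat J L Y) (i : I) (F : L → Z → T) (h0 : ∀ l, F l 0 = 0)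
    (hF : ∀ l x y, F l (x + y) = F l x + F l y) :
    (mmul μ a b i).sum F = (a i).sum fun j x => (b j).sum fun l y => F l (μ x y) := by
  classical
  rw [mmul_row]
  induction a i using Finsupp.induction_linear with
  | zero => simp
  | add x y hx hy =>
    rw [map_add, Finsupp.sum_add_index' h0 hF, hx, hy, Finsupp.sum_add_index' (by simp [h0])]
    simp [hF, Finsupp.sum_add]
  | single j x =>
    rw [rmul_single, Finsupp.sum_mapRange_index h0, Finsupp.sum_single_index (by simp [h0])]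

theorem MC.sum_sum_δ (k : Type u) [Field k] {E : Type u} [Ring E] [Algebra k E] {T : Type*}
    [AddCommGroup T] (P : MC E I) (i : I) (F : I → E → T)
    (h0 : ∀ l, F l 0 = 0) (hF : ∀ l x y, F l (x + y) = F l x + F l y) :
    ((P.δ i).sum fun j x => (P.δ j).sum fun l y => F l (x * y)) = 0 := by
  have := sum_mmul (LinearMap.mul k E) P.δ P.δ i F h0 hF
  rw [P.δδ'] at this
  exact this.symm

/-- the matrix of a three-cocycle evaluated on the differential -/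
def tmat (P : MC E I) (τ : E →ₗ[k] E →ₗ[k] E →ₗ[k] E) : Mat I I E :=
  mmul LinearMap.id (mmul τ P.δ P.δ) P.δ

/-- the cocycle attached to a three-cocycle -/
def tcoc (P : MC E I) (τ : E →ₗ[k] E →ₗ[k] E →ₗ[k] E) : Mat I I E := (ecx k P).P 3 (tmat P τ)

theorem ml_P {P : MC E I} {M : DG k E E U} {n m l : ℤ} (hl : l = m + n) (a : Mat I I E)
    {c : Mat I I U} (hc : (cx P P M).P m c = c) :
    (cx P P M).P l (M.ml a c) = M.ml ((ecx k P).P n a) c := by
  refine emap_mmul _ _ _ _ fun i j o => ?_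
  have h2 := entry_of_P' hc j o
  rw [DG.ep_apply, M.pl, ← h2.2.2, M.pp, cx_P_at]
  split_ifs with h h' h'
  · rw [h2.2.2, ← M.lr, h2.2.1, Bim.reg_l, Bim.reg_r, M.l_mul, M.l_mul, h2.1]
  · omega
  · omega
  · simp

namespace Three

variable {M : DG k E E U} {N : DG k E E V} {τ : E →ₗ[k] E →ₗ[k] E →ₗ[k] E} (T : Three M N τ)
  (P : MC E I)

/-- the lift of a matrix -/
def up (c : Mat I I U) : Mat I I V :=
  mmap T.ρ₀ c + mmul T.ρ₁ P.δ c + mmul LinearMap.id (mmul T.ρ₂ P.δ P.δ) c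

omit [CharP k 2] in
theorem up_apply (c : Mat I I U) (i l : I) : T.up P c i l = T.ρ₀ (c i l) +
    ((P.δ i).sum fun j a => T.ρ₁ a (c j l)) +
      (P.δ i).sum fun j a => (P.δ j).sum fun j' b => T.ρ₂ a b (c j' l) := by
  simp only [up, Pi.add_apply, Finsupp.add_apply, mmap_apply, mmul_apply]
  rw [sum_mmul _ _ _ _ _ (by simp) (by simp)]
  rfl

omit [CharP k 2] in
theorem g_up (c : Mat I I U) : mmap T.g (T.up P c) = c := Mat.ext' fun i l => by
  simp [up_apply, map_finsuppSum, T.g_ρ₀, T.g_ρ₁, T.g_ρ₂]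

theorem D_up {c : Mat I I U} (hc : (cx P P M).D c = 0) :
    (cx P P N).D (T.up P c) = mmap T.f (M.ml (tmat P τ) c) := by
  have e1 : N.mr (T.up P c) P.δ = T.up P (M.mr c P.δ) := by
    simp only [up, map_add, LinearMap.add_apply]
    refine congrArg₂ _ (congrArg₂ _ (mmap_mmul _ _ _ _ fun _ _ _ => T.ρ₀_r _ _).symm
      (mmul_assoc (fun a x y => (T.ρ₁_r a y x).symm) _ _ _)) (Mat.ext' fun i l => ?_)
    rw [mmul_apply, mmul_apply, sum_mmul _ _ _ _ _ (by simp) (by simp),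
      sum_mmul _ _ _ _ _ (by simp) (by simp [Finsupp.sum_add]), sum_mmul _ _ _ _ _ (by simp) (by simp)]
    simp [mmul_apply, map_finsuppSum, T.ρ₂_r]
  have e2 : M.mr c P.δ = M.ml P.δ c + mmap M.d c := by
    rw [← add_eq_zero_iff k, ← hc, cx_D]
    abel
  rw [cx_D, e1, e2]
  refine Mat.ext' fun i l => ?_
  have h1 := P.sum_sum_δ k i (fun j x => T.ρ₁ x (c j l)) (by simp) (by simp)
  have h2 := P.sum_sum_δ k i (fun j x => (P.δ j).sum fun j' y => T.ρ₂ x y (c j' l)) (by simp)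
    (by simp [Finsupp.sum_add])
  have h3 : ((P.δ i).sum fun j x => (P.δ j).sum fun j' y => (P.δ j').sum fun j'' z =>
      T.ρ₂ x (y * z) (c j'' l)) = 0 := Finset.sum_eq_zero fun j _ =>
    P.sum_sum_δ k j (fun j' y => T.ρ₂ _ y (c j' l)) (by simp) (by simp)
  rw [mmap_apply, mmul_apply M.l, tmat, sum_mmul _ _ _ _ _ (by simp) (by simp),
    sum_mmul _ _ _ _ _ (by simp) (by simp [Finsupp.sum_add])]
  simp only [Pi.add_apply, Finsupp.add_apply, mmap_apply, mmul_apply, up_apply, map_add,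
    map_finsuppSum, Finsupp.sum_add, T.d_ρ₀, T.d_ρ₁, T.d_ρ₂, LinearMap.id_apply, ← T.ρ₃, h1, h2, h3]
  char2 k

omit [CharP k 2] in
theorem f_inj : Function.Injective T.f := fun x y h => by rw [← T.π_f x, h, T.π_f]

theorem three (n : ℤ) (c : Mat I I V) (y : Mat I I U) (hc : (cx P P N).P n c = c)
    (hg : mmap T.g c = 0) (hy : (cx P P M).Z (n + 3) y) (hD : (cx P P N).D c = mmap T.f y) :
    ∃ c' y', (cx P P M).P (n + 2) y' = y' ∧ c = (cx P P N).D c' + mmap T.f y' ∧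
      y = (cx P P M).D y' := by
  have G : DHom T.hf.cone M 0 (T.g ∘ₗ LinearMap.fst k V U) :=
    ⟨by simp [DHom.cone, T.hg.hl], by simp [DHom.cone, T.hg.hr],
      by simp [DHom.cone, T.hg.hd, T.g_f], by simp [DHom.cone, T.hg.hp]⟩
  have G2 : DHom T.hf.cone M (-3) (LinearMap.snd k V U) :=
    ⟨by simp [DHom.cone], by simp [DHom.cone], by simp [DHom.cone], fun m x => by
      simp [DHom.cone, show m + 3 - 2 - 1 = m by ring]⟩
  have G1 : DHom N T.hf.cone 0 (LinearMap.inl k V U) :=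
    ⟨by simp [DHom.cone], by simp [DHom.cone], by simp [DHom.cone], by simp [DHom.cone]⟩
  have hv := van_of_exact P P G.ker 0 5 (fun m hm => LinearMap.ext fun x => Subtype.ext
    (Prod.ext (by change N.p m _ = 0; rw [T.bddN m (by omega)]; rfl)
      (by change M.p (m - 2 - 1) _ = 0; rw [T.bddM _ (by omega)]; rfl))) (fun x hx => ?_) n
  swap
  · obtain ⟨⟨x, y⟩, hxy⟩ := x
    have h0 : T.g x = 0 := hxy
    have h1 : N.d x + T.f y = 0 := congrArg (fun z => z.1.1) hx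
    rw [add_eq_zero_iff k] at h1
    have h2 := T.dh x
    rw [h0, h1, T.h_f, map_zero, add_zero, add_zero] at h2
    refine ⟨⟨(T.h x, T.π x), T.g_h x⟩, Subtype.ext (Prod.ext ?_ ?_)⟩
    · change N.d (T.h x) + T.f (T.π x) = x
      rw [h2]
      char2 k
    · change M.d (T.π x) = y
      rw [← T.π_d, h1, T.π_f]
  have hD' : ∀ w, mmap (LinearMap.fst k V U) ((cx P P T.hf.cone).D w) =
      (cx P P N).D (mmap (LinearMap.fst k V U) w) + mmap T.f (mmap (LinearMap.snd k V U) w) := by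
    intro w
    rw [cx_D, cx_D, map_add, map_add, add_assoc (N.ml _ _ + _)]
    exact congrArg₂ _ (congrArg₂ _ (mmap_mmul _ _ _ _ fun _ _ _ => rfl)
      (mmap_mmul _ _ _ _ fun _ _ _ => rfl)) (Mat.ext' fun i j => rfl)
  have hext : ∀ w w' : Mat I I (V × U), mmap (LinearMap.fst k V U) w = mmap (LinearMap.fst k V U) w' →
      mmap (LinearMap.snd k V U) w = mmap (LinearMap.snd k V U) w' → w = w' := fun w w' h1 h2 =>
    Mat.ext' fun i j => Prod.ext (congrArg (fun x => x i j) h1) (congrArg (fun x => x i j) h2)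
  let w : Mat I I (V × U) := mmap (LinearMap.inl k V U) c + mmap (LinearMap.inr k V U) y
  have w1 : mmap (LinearMap.fst k V U) w = c := Mat.ext' fun i j => by simp [w]
  have w2 : mmap (LinearMap.snd k V U) w = y := Mat.ext' fun i j => by simp [w]
  have wZ : (cx P P T.hf.cone).Z n w := by
    refine ⟨Mat.ext' fun i j => Prod.ext ?_ ?_, hext _ _ ?_ ?_⟩
    · have := congrArg (fun x => x i j) hc
      simpa [w, cx_P, DHom.cone] using this
    · have := congrArg (fun x => x i j) hy.1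
      simpa [w, cx_P, DHom.cone, sub_sub, add_assoc, show (2 : ℤ) + 1 = 3 from rfl] using this
    · rw [hD', w1, w2, hD, add_self k, map_zero]
    · rw [(G2.cmap P P).hD, w2, hy.2, map_zero]
  obtain ⟨z, hz⟩ := (mmap_exact (LinearMap.exact_subtype_ker_map (T.g ∘ₗ LinearMap.fst k V U)) w).1
    (Mat.ext' fun i j => by simpa [w] using congrArg (fun x => x i j) hg)
  have inc := G.ker_incl.cmap P P
  have inj := mmap_injective (I := I) (J := I)
    (Submodule.injective_subtype (LinearMap.ker (T.g ∘ₗ LinearMap.fst k V U)))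
  have zZ : (cx P P G.ker).Z n z :=
    ⟨inj (by rw [← add_zero n, ← inc.hP, hz, wZ.1]), inj (by rw [inc.hD, hz, wZ.2, map_zero])⟩
  obtain ⟨b, hb, hb'⟩ := (inc.B (hv z zZ)).graded (n := n - 1) (by ring) (hz ▸ wZ.1)
  rw [hz] at hb'
  refine ⟨mmap (LinearMap.fst k V U) b, mmap (LinearMap.snd k V U) b, ?_, ?_, ?_⟩
  · rw [(G2.cmap P P).hP, show n + 2 + -3 = n - 1 by ring, hb]
  · rw [← hD', hb', w1]
  · rw [← (G2.cmap P P).hD, hb', w2]

theorem les : LES (cx P P M) (cx P P N) (mmap T.f) (mmap T.g) (M.ml (tcoc P τ)) := by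
  have key : ∀ n a, (cx P P M).Z n a → (cx P P N).D ((cx P P N).P n (T.up P a)) =
      mmap T.f (M.ml (tcoc P τ) a) := fun n a ha => by
    rw [← Cx.PD, T.D_up P ha.2, (T.hf.cmap P P).hP, ml_P (n := 3) (by ring) _ ha.1, tcoc]
  exact
    { hf := T.hf.cmap P P
      hg := T.hg.cmap P P
      gf := fun y => Mat.ext' fun i j => T.g_f _
      surj := mmap_surjective fun x => ⟨_, T.g_ρ₀ x⟩
      tZ := fun n a ha => ⟨P_ml (by ring) (Cx.PP _ _ _) ha.1, mmap_injective T.f_inj (by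
        rw [(T.hf.cmap P P).hD, ← key n a ha, Cx.DD, map_zero])⟩
      lift := fun n a ha => ⟨_, Cx.PP _ _ _, by
        rw [← add_zero n, ← (T.hg.cmap P P).hP, T.g_up, ha.1], key n a ha⟩
      three := T.three P }

end Three

end Lift

end Crest.Agent.R186
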