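import Crest.Agent.R186.TrivA

/-!
The triangular algebra of a bimodule and the symmetric algebra built from it.
-/

set_option autoImplicit false

noncomputable section

namespace Crest.Agent.R186

variable {k : Type*} [Field k]
variable {U V W U' V' W' : Type*} [AddCommGroup U] [Module k U] [AddCommGroup V] [Module k V]
  [AddCommGroup W] [Module k W] [AddCommGroup U'] [Module k U'] [AddCommGroup V'] [Module k V']
  [AddCommGroup W'] [Module k W']
variable {I J L I₁ I₂ J₁ J₂ L₁ L₂ : Type*}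

theorem rmul_sumElim (μ : U →ₗ[k] V →ₗ[k] W) (y : Mat (J₁ ⊕ J₂) L V) (r : J₁ →₀ U) (s : J₂ →₀ U)
    (l : L) : rmul μ y (r.sumElim s) l =
      rmul μ (fun j => y (.inl j)) r l + rmul μ (fun j => y (.inr j)) s l := by
  rw [rmul_apply, rmul_apply, rmul_apply, Finsupp.sum_sumElim]
  rfl

theorem rmul_eq {μ : U →ₗ[k] V →ₗ[k] W} {ν : U' →ₗ[k] V' →ₗ[k] W'} (f : W' →ₗ[k] W)
    {y : Mat J L V} {y' : Mat J L₁ V'} {r : J →₀ U} {r' : J →₀ U'} {l : L} {l' : L₁}
    (h : ∀ j, μ (r j) (y j l) = f (ν (r' j) (y' j l'))) : rmul μ y r l = f (rmul ν y' r' l') := by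
  classical
  rw [rmul_apply_of_subset (S := r.support ∪ r'.support),
    rmul_apply_of_subset (S := r.support ∪ r'.support), map_sum]
  · exact Finset.sum_congr rfl fun j _ => h j
  · intro j hj
    refine Finset.mem_union_right _ (Finsupp.mem_support_iff.2 fun h0 => hj ?_)
    simp [h0]
  · intro j hj
    refine Finset.mem_union_left _ (Finsupp.mem_support_iff.2 fun h0 => hj ?_)
    simp [h0]

theorem rmul_eq_zero {μ : U →ₗ[k] V →ₗ[k] W} {y : Mat J L V} {r : J →₀ U} {l : L}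
    (h : ∀ j, μ (r j) (y j l) = 0) : rmul μ y r l = 0 := by
  rw [rmul_apply_of_subset (S := ∅) _ _ _ _ (fun j hj => absurd (h j) hj), Finset.sum_empty]

/-- a block of a matrix -/
def Mat.blk (f : I₁ → I) (g : J₁ → J) (hg : Function.Injective g) (x : Mat I J V) : Mat I₁ J₁ V :=
  fun i => (x (f i)).comapDomain g hg.injOn

omit [Module k V] in
@[simp] theorem Mat.blk_apply (f : I₁ → I) (g : J₁ → J) (hg : Function.Injective g) (x : Mat I J V)
    (i : I₁) (j : J₁) : Mat.blk f g hg x i j = x (f i) (g j) := rfl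

section

variable [CharP k 2]

theorem Cx.van_glue {C : Cx k V} {A₁ : Cx k U} {A₂ : Cx k U'} {G : Cx k W} (Φ : U → U' → W → V)
    (f : U →ₗ[k] W) (g : U' →ₗ[k] W) {n n₁ n₂ n₃ : ℤ}
    (hD : ∀ a b c, C.D (Φ a b c) = Φ (A₁.D a) (A₂.D b) (G.D c + (g b + f a)))
    (hinj : ∀ a b c, Φ a b c = 0 → a = 0 ∧ b = 0 ∧ c = 0)
    (hdec : ∀ x, C.P n x = x →
      ∃ a b c, A₁.P n₁ a = a ∧ A₂.P n₂ b = b ∧ G.P n₃ c = c ∧ Φ a b c = x)
    (hf : ∀ a, G.D (f a) = f (A₁.D a)) (hg : ∀ b, G.D (g b) = g (A₂.D b))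
    (hfP : ∀ a, A₁.P (n₁ - 1) a = a → G.P n₃ (f a) = f a)
    (hgP : ∀ b, A₂.P (n₂ - 1) b = b → G.P n₃ (g b) = g b)
    (h1 : ∀ a b, A₁.Z n₁ a → A₂.Z n₂ b → G.B (g b + f a) → A₁.B a ∧ A₂.B b)
    (h2 : ∀ c, G.Z n₃ c → ∃ a b, A₁.D a = 0 ∧ A₂.D b = 0 ∧ G.B (c + (g b + f a))) : C.Van n := by
  intro x hx
  obtain ⟨a, b, c, ha, hb, hc, rfl⟩ := hdec x hx.1
  obtain ⟨e1, e2, e3⟩ := hinj _ _ _ ((hD a b c).symm.trans hx.2)
  rw [add_eq_zero_iff k] at e3
  obtain ⟨hB1, hB2⟩ := h1 a b ⟨ha, e1⟩ ⟨hb, e2⟩ ⟨c, e3⟩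
  obtain ⟨a', ha', rfl⟩ := hB1.graded (n := n₁ - 1) (by ring) ha
  obtain ⟨b', hb', rfl⟩ := hB2.graded (n := n₂ - 1) (by ring) hb
  obtain ⟨a'', b'', e4, e5, c', hc'⟩ := h2 (c + (g b' + f a'))
    ⟨by rw [map_add, map_add, hc, hfP a' ha', hgP b' hb'], by
      rw [map_add, map_add, e3, hf, hg, add_self k]⟩
  refine ⟨Φ (a' + a'') (b' + b'') c', ?_⟩
  rw [hD, map_add, map_add, e4, e5, add_zero, add_zero, hc', map_add, map_add]
  congr 1
  char2 k

variable {R S T : Type*} [Ring R] [Algebra k R] [Ring S] [Algebra k S] [Ring T] [Algebra k T]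

theorem P_fix {P : MC R I} {Q : MC S J} {M : Bim k R S V} {s n : ℤ} {x : Mat I J V}
    (h : ∀ i j, M.l (P.ε i) (x i j) = x i j ∧ M.r (Q.ε j) (x i j) = x i j ∧
      (P.deg i - Q.deg j - n ≠ s → x i j = 0)) : (cx P Q (M.at s)).P n x = x := by
  refine Mat.ext' fun i j => ?_
  rw [cx_P_at]
  split_ifs with h0
  · rw [(h i j).2.1, (h i j).1]
  · exact ((h i j).2.2 h0).symm

theorem Pairing.P_at {M₁ : Bim k R S U} {M₂ : Bim k S T V} {M₃ : Bim k R T W} {s₁ s₂ s₃ : ℤ}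
    {μ : U →ₗ[k] V →ₗ[k] W} (h : Pairing (M₁.at s₁) (M₂.at s₂) (M₃.at s₃) μ) {P : MC R I}
    {Q : MC S J} {O : MC T L} {n m l : ℤ} (hl : l + s₃ = n + s₁ + (m + s₂)) {x : Mat I J U}
    {y : Mat J L V} (hx : (cx P Q (M₁.at s₁)).P n x = x) (hy : (cx Q O (M₂.at s₂)).P m y = y) :
    (cx P O (M₃.at s₃)).P l (mmul μ x y) = mmul μ x y := by
  refine emap_mmul _ _ _ _ fun i j o => ?_
  by_cases h1 : x i j = 0
  · simp [h1]
  by_cases h2 : y j o = 0
  · simp [h2]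
  have e1 := entry_of_P hx i j
  have e2 := entry_of_P hy j o
  have e3 : P.deg i - O.deg o - l = s₃ := by
    have := mt e1.2.2 h1
    have := mt e2.2.2 h2
    omega
  rw [DG.ep_apply, Bim.at_p, if_pos e3, ← h.hr, ← h.hl, Bim.at_l, Bim.at_r, e1.1, e2.2.1]

end

variable {E : Type*} [Ring E] [Algebra k E] {F : Type*} [AddCommGroup F] [Module k F]

/-- the triangular algebra -/
abbrev TriAlg (B : Bim k E E F) := Triv (B.res (AlgHom.snd k E E) (AlgHom.fst k E E))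

namespace TriAlg

variable (B : Bim k E E F)

/-- the first diagonal entry -/
def p₁ : TriAlg B →ₐ[k] E := (AlgHom.fst k E E).comp (Triv.fst _)
/-- the second diagonal entry -/
def p₂ : TriAlg B →ₐ[k] E := (AlgHom.snd k E E).comp (Triv.fst _)
/-- the corner entry -/
def p₃ : TriAlg B →ₗ[k] F := Triv.snd _
/-- the first diagonal block -/
def ι₁ : E →ₗ[k] TriAlg B := (Triv.inl _).toLinearMap ∘ₗ LinearMap.inl k E E
/-- the second diagonal block -/
def ι₂ : E →ₗ[k] TriAlg B := (Triv.inl _).toLinearMap ∘ₗ LinearMap.inr k E E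
/-- the corner block -/
def ι₃ : F →ₗ[k] TriAlg B := Triv.inr _

@[simp] theorem p₁_ι₁ (a : E) : p₁ B (ι₁ B a) = a := rfl
@[simp] theorem p₁_ι₂ (a : E) : p₁ B (ι₂ B a) = 0 := rfl
@[simp] theorem p₁_ι₃ (a : F) : p₁ B (ι₃ B a) = 0 := rfl
@[simp] theorem p₂_ι₁ (a : E) : p₂ B (ι₁ B a) = 0 := rfl
@[simp] theorem p₂_ι₂ (a : E) : p₂ B (ι₂ B a) = a := rfl
@[simp] theorem p₂_ι₃ (a : F) : p₂ B (ι₃ B a) = 0 := rfl
@[simp] theorem p₃_ι₁ (a : E) : p₃ B (ι₁ B a) = 0 := rfl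
@[simp] theorem p₃_ι₂ (a : E) : p₃ B (ι₂ B a) = 0 := rfl
@[simp] theorem p₃_ι₃ (a : F) : p₃ B (ι₃ B a) = a := rfl
@[simp] theorem p₃_mul (x y : TriAlg B) :
    p₃ B (x * y) = B.l (p₂ B x) (p₃ B y) + B.r (p₁ B y) (p₃ B x) := rfl

variable {B} in
theorem ext_iff {x y : TriAlg B} : x = y ↔ p₁ B x = p₁ B y ∧ p₂ B x = p₂ B y ∧ p₃ B x = p₃ B y :=
  ⟨by rintro rfl; exact ⟨rfl, rfl, rfl⟩, fun h => Triv.ext (Prod.ext h.1 h.2.1) h.2.2⟩

/-- block triangular matrices -/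
def blk (a : Mat I₁ J₁ E) (b : Mat I₂ J₂ E) (c : Mat I₂ J₁ F) : Mat (I₁ ⊕ I₂) (J₁ ⊕ J₂) (TriAlg B) :=
  Sum.elim (fun i => (mmap (ι₁ B) a i).sumElim 0)
    (fun i => (mmap (ι₃ B) c i).sumElim (mmap (ι₂ B) b i))

section

variable (a : Mat I₁ J₁ E) (b : Mat I₂ J₂ E) (c : Mat I₂ J₁ F)

@[simp] theorem blk_ll (i : I₁) (j : J₁) : blk B a b c (.inl i) (.inl j) = ι₁ B (a i j) := rfl
@[simp] theorem blk_lr (i : I₁) (j : J₂) : blk B a b c (.inl i) (.inr j) = 0 := rfl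
@[simp] theorem blk_rl (i : I₂) (j : J₁) : blk B a b c (.inr i) (.inl j) = ι₃ B (c i j) := rfl
@[simp] theorem blk_rr (i : I₂) (j : J₂) : blk B a b c (.inr i) (.inr j) = ι₂ B (b i j) := rfl

theorem blk_mul (a' : Mat J₁ L₁ E) (b' : Mat J₂ L₂ E) (c' : Mat J₂ L₁ F) :
    mmul (LinearMap.mul k (TriAlg B)) (blk B a b c) (blk B a' b' c') =
      blk B (mmul (LinearMap.mul k E) a a') (mmul (LinearMap.mul k E) b b')
        (B.ml b c' + B.mr c a') := by
  refine Mat.ext' ?_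
  rintro (i | i) (l | l)
  · refine (rmul_sumElim _ _ _ _ _).trans ?_
    rw [map_zero, Finsupp.zero_apply, add_zero]
    exact rmul_eq (ι₁ B) fun j => by simp [ext_iff]
  · refine (rmul_sumElim _ _ _ _ _).trans ?_
    rw [map_zero, Finsupp.zero_apply, add_zero]
    exact rmul_eq_zero fun j => by simp
  · refine (rmul_sumElim _ _ _ _ _).trans ?_
    rw [blk_rl, Pi.add_apply, Finsupp.add_apply, map_add, add_comm]
    congr 1
    · exact rmul_eq (ι₃ B) fun j => by simp [ext_iff]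
    · exact rmul_eq (ι₃ B) fun j => by simp [ext_iff]
  · refine (rmul_sumElim _ _ _ _ _).trans ?_
    rw [rmul_eq_zero fun j => by simp, zero_add]
    exact rmul_eq (ι₂ B) fun j => by simp [ext_iff]

theorem blk_add (a' : Mat I₁ J₁ E) (b' : Mat I₂ J₂ E) (c' : Mat I₂ J₁ F) :
    blk B a b c + blk B a' b' c' = blk B (a + a') (b + b') (c + c') := by
  refine Mat.ext' ?_
  rintro (i | i) (l | l) <;> simp

theorem blk_zero : blk B (0 : Mat I₁ J₁ E) (0 : Mat I₂ J₂ E) 0 = 0 := by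
  refine Mat.ext' ?_
  rintro (i | i) (l | l) <;> simp

end

/-- rows over the triangular algebra -/
def row (a : Mat L J₁ E) (b : Mat L J₂ E) (c : Mat L J₁ F) : Mat L (J₁ ⊕ J₂) (TriAlg B) :=
  fun i => blk B a b c (.inl i) + blk B a b c (.inr i)

theorem row_mul (a : Mat L J₁ E) (b : Mat L J₂ E) (c : Mat L J₁ F) (a' : Mat J₁ L₁ E)
    (b' : Mat J₂ L₂ E) (c' : Mat J₂ L₁ F) :
    mmul (LinearMap.mul k (TriAlg B)) (row B a b c) (blk B a' b' c') =
      row B (mmul (LinearMap.mul k E) a a') (mmul (LinearMap.mul k E) b b')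
        (B.ml b c' + B.mr c a') := by
  funext i
  rw [row, ← blk_mul, mmul_row, row, map_add, mmul_row, mmul_row]

/-- columns over the triangular algebra -/
def col (a : Mat I₁ Unit E) (b : Mat I₂ Unit E) (c : Mat I₂ Unit F) :
    Mat (I₁ ⊕ I₂) Unit (TriAlg B) :=
  fun i => Finsupp.single () (blk B a b c i (.inl ()) + blk B a b c i (.inr ()))

theorem col_apply (a : Mat I₁ Unit E) (b : Mat I₂ Unit E) (c : Mat I₂ Unit F) (i : I₁ ⊕ I₂)
    (u : Unit) : col B a b c i u = blk B a b c i (.inl ()) + blk B a b c i (.inr ()) :=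
  Finsupp.single_eq_same

theorem mul_col (a : Mat I₁ J₁ E) (b : Mat I₂ J₂ E) (c : Mat I₂ J₁ F) (a' : Mat J₁ Unit E)
    (b' : Mat J₂ Unit E) (c' : Mat J₂ Unit F) :
    mmul (LinearMap.mul k (TriAlg B)) (blk B a b c) (col B a' b' c') =
      col B (mmul (LinearMap.mul k E) a a') (mmul (LinearMap.mul k E) b b')
        (B.ml b c' + B.mr c a') := by
  refine Mat.ext' fun i u => ?_
  rw [col_apply, ← blk_mul, mmul_apply, mmul_apply, mmul_apply, ← Finsupp.sum_add]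
  simp only [col_apply, map_add]

end TriAlg

variable [CharP k 2]

/-- the complex over the triangular algebra glued along a cocycle -/
def MC.tri (P : MC E I) (B : Bim k E E F) (v : Mat I I F) (hv : (cx P P (B.at 2)).Z 0 v) :
    MC (TriAlg B) (I ⊕ I) where
  deg := Sum.elim P.deg fun i => P.deg i - 1
  fib n := (P.fib n).disjSum (P.fib (n + 1))
  mem_fib := by
    rintro n (i | i)
    · simp [P.mem_fib]
    · simp [P.mem_fib, sub_eq_iff_eq_add]
  ε := Sum.elim (fun i => TriAlg.ι₁ B (P.ε i)) fun i => TriAlg.ι₂ B (P.ε i)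
  δ := TriAlg.blk B P.δ P.δ v
  εε := by rintro (i | i) <;> simp [TriAlg.ext_iff, P.εε]
  εδ := by rintro (i | i) (j | j) <;> simp [TriAlg.ext_iff, P.εδ, (entry_of_P hv.1 _ _).1]
  δε := by rintro (i | i) (j | j) <;> simp [TriAlg.ext_iff, P.δε, (entry_of_P hv.1 _ _).2.1]
  hom := by
    rintro (i | i) (j | j) h
    · exact P.hom i j fun h0 => h (by simp [h0])
    · exact absurd rfl h
    · have := mt (entry_of_P hv.1 i j).2.2 fun h0 => h (by simp [h0])
      simp only [Sum.elim_inl, Sum.elim_inr]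
      omega
    · have := P.hom i j fun h0 => h (by simp [h0])
      simp only [Sum.elim_inr]
      omega
  δδ i l := by
    have := TriAlg.blk_mul B P.δ P.δ v P.δ P.δ v
    rw [P.δδ', ← cx_D_at P P B 2, hv.2, TriAlg.blk_zero] at this
    exact (mmul_apply (LinearMap.mul k (TriAlg B)) _ _ i l).symm.trans (by rw [this]; rfl)

theorem row_D' {R S : Type*} [Ring R] [Algebra k R] [Ring S] [Algebra k S] (Q : MC S J)
    (M : Bim k R S V) (x : Mat Unit J V) : (cx (MC.pt k) Q (M.fL.at 0)).D x = M.mr x Q.δ :=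
  funext fun i => row_D Q M x i

theorem col_D' {R S : Type*} [Ring R] [Algebra k R] [Ring S] [Algebra k S] (P : MC R I)
    (M : Bim k R S V) (x : Mat I Unit V) : (cx P (MC.pt k) (M.fR.at 0)).D x = M.ml P.δ x :=
  Mat.ext' fun i j => (col_D P M x i j).trans (mmul_apply _ _ _ _ _).symm

section

variable {P : MC E I} {B : Bim k E E F} {v : Mat I I F} (hv : (cx P P (B.at 2)).Z 0 v)

theorem RowEx.tri (h : RowEx P (Bim.reg k E)) (hB : RowEx P B) :
    RowEx (P.tri B v hv) (Bim.reg k (TriAlg B)) := by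
  intro n
  have hp : Pairing ((Bim.reg k E).fL.at 0) (B.at 2) (B.fL.at 0) B.l :=
    ⟨fun a x y => by simp, fun a x y => B.l_mul x a y, fun a x y => B.lr x a y, fun x y => by simp⟩
  refine Cx.van_glue (A₁ := cx (MC.pt k) P ((Bim.reg k E).fL.at 0))
    (A₂ := cx (MC.pt k) P ((Bim.reg k E).fL.at 0)) (G := cx (MC.pt k) P (B.fL.at 0))
    (n₁ := n) (n₂ := n - 1) (n₃ := n) (TriAlg.row B) 0 (B.ml.flip v) (fun a b c => ?_)
    (fun a b c h0 => ?_) (fun x hx => ?_) (by simp) (fun b => ?_) (by simp) (fun b hb => ?_)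
    (fun a b ha hb _ => ⟨h _ a ha, h _ b hb⟩) (fun c hc => ⟨0, 0, by simp, by simp, ?_⟩)
  · simp only [row_D', LinearMap.zero_apply, add_zero, LinearMap.flip_apply]
    rw [add_comm]
    exact TriAlg.row_mul B a b c P.δ P.δ v
  · have h1 := fun i j => congrArg (fun x => x i j) h0
    refine ⟨Mat.ext' fun i j => ?_, Mat.ext' fun i j => ?_, Mat.ext' fun i j => ?_⟩
    · simpa [TriAlg.row] using congrArg (TriAlg.p₁ B) (h1 i (.inl j))
    · simpa [TriAlg.row] using congrArg (TriAlg.p₂ B) (h1 i (.inr j))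
    · simpa [TriAlg.row] using congrArg (TriAlg.p₃ B) (h1 i (.inl j))
  · have h1 := entry_of_P hx
    refine ⟨mmap (TriAlg.p₁ B).toLinearMap (Mat.blk id .inl Sum.inl_injective x),
      mmap (TriAlg.p₂ B).toLinearMap (Mat.blk id .inr Sum.inr_injective x),
      mmap (TriAlg.p₃ B) (Mat.blk id .inl Sum.inl_injective x), P_fix fun i j => ?_,
      P_fix fun i j => ?_, P_fix fun i j => ?_, Mat.ext' ?_⟩
    · obtain ⟨-, e2, e3⟩ := h1 i (.inl j)
      refine ⟨by simp [MC.pt], by simpa [MC.tri] using congrArg (TriAlg.p₁ B) e2, fun h0 => ?_⟩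
      simp [e3 h0]
    · obtain ⟨-, e2, e3⟩ := h1 i (.inr j)
      refine ⟨by simp [MC.pt], by simpa [MC.tri] using congrArg (TriAlg.p₂ B) e2, fun h0 => ?_⟩
      simp [e3 (by simp only [MC.tri, Sum.elim_inr]; omega)]
    · obtain ⟨-, e2, e3⟩ := h1 i (.inl j)
      refine ⟨by simp [MC.pt], by simpa [MC.tri] using congrArg (TriAlg.p₃ B) e2, fun h0 => ?_⟩
      simp [e3 h0]
    · rintro i (j | j)
      · simpa [TriAlg.row, TriAlg.ext_iff, MC.tri] using congrArg (TriAlg.p₂ B) (h1 i (.inl j)).2.1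
      · have e1 := congrArg (TriAlg.p₁ B) (h1 i (.inr j)).2.1
        have e2 := congrArg (TriAlg.p₃ B) (h1 i (.inr j)).2.1
        simp [MC.tri] at e1 e2
        simp [TriAlg.row, TriAlg.ext_iff, ← e1, ← e2]
  · simpa [hv.2] using hp.D (MC.pt k) P P b v
  · exact hp.P_at (by ring) hb hv.1
  · simpa using hB _ c hc

theorem ColEx.tri (h : ColEx P (Bim.reg k E)) (hB : ColEx P B) :
    ColEx (P.tri B v hv) (Bim.reg k (TriAlg B)) := by
  intro n
  have hp : Pairing (B.at 2) ((Bim.reg k E).fR.at 0) (B.fR.at 0) B.r.flip :=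
    ⟨fun a x y => (B.lr a y x).symm, fun a x y => (B.r_mul a y x).symm, fun a x y => by simp,
      fun x y => by simp⟩
  refine Cx.van_glue (A₁ := cx P (MC.pt k) ((Bim.reg k E).fR.at 0))
    (A₂ := cx P (MC.pt k) ((Bim.reg k E).fR.at 0)) (G := cx P (MC.pt k) (B.fR.at 0))
    (n₁ := n) (n₂ := n + 1) (n₃ := n + 1) (TriAlg.col B) (B.mr v) 0 (fun a b c => ?_)
    (fun a b c h0 => ?_) (fun x hx => ?_) (fun a => ?_) (by simp) (fun a ha => ?_) (by simp)
    (fun a b ha hb _ => ⟨h _ a ha, h _ b hb⟩) (fun c hc => ⟨0, 0, by simp, by simp, ?_⟩)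
  · simp only [col_D', LinearMap.zero_apply, zero_add]
    exact TriAlg.mul_col B P.δ P.δ v a b c
  · have h1 := fun i j => congrArg (fun x => x i j) h0
    refine ⟨Mat.ext' fun i j => ?_, Mat.ext' fun i j => ?_, Mat.ext' fun i j => ?_⟩
    · simpa [TriAlg.col_apply] using congrArg (TriAlg.p₁ B) (h1 (.inl i) j)
    · simpa [TriAlg.col_apply] using congrArg (TriAlg.p₂ B) (h1 (.inr i) j)
    · simpa [TriAlg.col_apply] using congrArg (TriAlg.p₃ B) (h1 (.inr i) j)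
  · have h1 := entry_of_P hx
    refine ⟨mmap (TriAlg.p₁ B).toLinearMap (fun i => x (.inl i)),
      mmap (TriAlg.p₂ B).toLinearMap (fun i => x (.inr i)),
      mmap (TriAlg.p₃ B) (fun i => x (.inr i)), P_fix fun i j => ?_,
      P_fix fun i j => ?_, P_fix fun i j => ?_, Mat.ext' ?_⟩
    · obtain ⟨e2, -, e3⟩ := h1 (.inl i) j
      refine ⟨by simpa [MC.tri] using congrArg (TriAlg.p₁ B) e2, by simp [MC.pt], fun h0 => ?_⟩
      simp [e3 h0]
    · obtain ⟨e2, -, e3⟩ := h1 (.inr i) j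
      refine ⟨by simpa [MC.tri] using congrArg (TriAlg.p₂ B) e2, by simp [MC.pt], fun h0 => ?_⟩
      simp [e3 (by simp only [MC.tri, Sum.elim_inr]; omega)]
    · obtain ⟨e2, -, e3⟩ := h1 (.inr i) j
      refine ⟨by simpa [MC.tri] using congrArg (TriAlg.p₃ B) e2, by simp [MC.pt], fun h0 => ?_⟩
      simp [e3 (by simp only [MC.tri, Sum.elim_inr]; omega)]
    · rintro (i | i) j
      · have e1 := congrArg (TriAlg.p₂ B) (h1 (.inl i) j).1
        have e2 := congrArg (TriAlg.p₃ B) (h1 (.inl i) j).1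
        simp [MC.tri] at e1 e2
        simp [TriAlg.col_apply, TriAlg.ext_iff, ← e1, ← e2]
      · simpa [TriAlg.col_apply, TriAlg.ext_iff, MC.tri] using congrArg (TriAlg.p₁ B) (h1 (.inr i) j).1
  · simpa [hv.2] using hp.D P P (MC.pt k) v a
  · exact hp.P_at (by ring) hv.1 ha
  · simpa using hB _ c hc

theorem van_tri {n : ℤ}
    (h1 : ∀ a b, (cx P P ((Bim.reg k E).at 0)).Z n a → (cx P P ((Bim.reg k E).at 0)).Z n b →
      (cx P P (B.at 2)).B (B.ml a v + B.mr v b) →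
      (cx P P ((Bim.reg k E).at 0)).B a ∧ (cx P P ((Bim.reg k E).at 0)).B b)
    (h2 : ∀ c, (cx P P (B.at 2)).Z (n - 1) c → ∃ a b, (cx P P ((Bim.reg k E).at 0)).Z (n - 1) a ∧
      (cx P P ((Bim.reg k E).at 0)).Z (n - 1) b ∧
      (cx P P (B.at 2)).B (c + (B.ml a v + B.mr v b))) :
    (cx (P.tri B v hv) (P.tri B v hv) ((Bim.reg k (TriAlg B)).at 0)).Van n := by
  refine Cx.van_glue (A₁ := cx P P ((Bim.reg k E).at 0)) (A₂ := cx P P ((Bim.reg k E).at 0))
    (G := cx P P (B.at 2))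
    (n₁ := n) (n₂ := n) (n₃ := n - 1) (TriAlg.blk B) (B.mr v) (B.ml.flip v) (fun a b c => ?_)
    (fun a b c h0 => ?_) (fun x hx => ?_) (fun a => ?_) (fun b => ?_) (fun a ha => ?_)
    (fun b hb => ?_) (fun a b ha hb hB => (h1 b a hb ha hB).symm) (fun c hc => ?_)
  · simp only [cx_D_at, LinearMap.flip_apply]
    refine (congrArg₂ (· + ·) (TriAlg.blk_mul B P.δ P.δ v a b c)
      (TriAlg.blk_mul B a b c P.δ P.δ v)).trans ?_
    rw [TriAlg.blk_add]
    congr 1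
    abel
  · have h1 := fun i j => congrArg (fun x => x i j) h0
    refine ⟨Mat.ext' fun i j => ?_, Mat.ext' fun i j => ?_, Mat.ext' fun i j => ?_⟩
    · simpa using congrArg (TriAlg.p₁ B) (h1 (.inl i) (.inl j))
    · simpa using congrArg (TriAlg.p₂ B) (h1 (.inr i) (.inr j))
    · simpa using congrArg (TriAlg.p₃ B) (h1 (.inr i) (.inl j))
  · have h1 := entry_of_P hx
    refine ⟨mmap (TriAlg.p₁ B).toLinearMap (Mat.blk .inl .inl Sum.inl_injective x),
      mmap (TriAlg.p₂ B).toLinearMap (Mat.blk .inr .inr Sum.inr_injective x),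
      mmap (TriAlg.p₃ B) (Mat.blk .inr .inl Sum.inl_injective x), P_fix fun i j => ?_,
      P_fix fun i j => ?_, P_fix fun i j => ?_, Mat.ext' ?_⟩
    · obtain ⟨e1, e2, e3⟩ := h1 (.inl i) (.inl j)
      refine ⟨by simpa [MC.tri] using congrArg (TriAlg.p₁ B) e1,
        by simpa [MC.tri] using congrArg (TriAlg.p₁ B) e2, fun h0 => ?_⟩
      simp [e3 h0]
    · obtain ⟨e1, e2, e3⟩ := h1 (.inr i) (.inr j)
      refine ⟨by simpa [MC.tri] using congrArg (TriAlg.p₂ B) e1,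
        by simpa [MC.tri] using congrArg (TriAlg.p₂ B) e2, fun h0 => ?_⟩
      simp [e3 (by simp only [MC.tri, Sum.elim_inr]; omega)]
    · obtain ⟨e1, e2, e3⟩ := h1 (.inr i) (.inl j)
      refine ⟨by simpa [MC.tri] using congrArg (TriAlg.p₃ B) e1,
        by simpa [MC.tri] using congrArg (TriAlg.p₃ B) e2, fun h0 => ?_⟩
      simp [e3 (by simp only [MC.tri, Sum.elim_inr, Sum.elim_inl]; omega)]
    · rintro (i | i) (j | j)
      · have e1 := congrArg (TriAlg.p₂ B) (h1 (.inl i) (.inl j)).1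
        have e2 := congrArg (TriAlg.p₃ B) (h1 (.inl i) (.inl j)).1
        simp [MC.tri] at e1 e2
        simp [TriAlg.ext_iff, ← e1, ← e2]
      · have e1 := congrArg (TriAlg.p₂ B) (h1 (.inl i) (.inr j)).1
        have e2 := congrArg (TriAlg.p₃ B) (h1 (.inl i) (.inr j)).1
        have e3 := congrArg (TriAlg.p₁ B) (h1 (.inl i) (.inr j)).2.1
        simp [MC.tri] at e1 e2 e3
        simp [TriAlg.ext_iff, ← e1, ← e2, ← e3]
      · have e1 := congrArg (TriAlg.p₁ B) (h1 (.inr i) (.inl j)).1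
        have e2 := congrArg (TriAlg.p₂ B) (h1 (.inr i) (.inl j)).2.1
        simp [MC.tri] at e1 e2
        simp [TriAlg.ext_iff, ← e1, ← e2]
      · have e1 := congrArg (TriAlg.p₁ B) (h1 (.inr i) (.inr j)).2.1
        have e2 := congrArg (TriAlg.p₃ B) (h1 (.inr i) (.inr j)).2.1
        simp [MC.tri] at e1 e2
        simp [TriAlg.ext_iff, ← e1, ← e2]
  · exact (D_mr P P (B.at 2) v a).trans (by rw [hv.2, map_zero, LinearMap.zero_apply, zero_add]; rfl)
  · exact (D_ml P P (B.at 2) b v).trans (by rw [hv.2, map_zero, add_zero]; rfl)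
  · exact P_mr (M := B.at 2) (by ring) ha hv.1
  · exact P_ml (M := B.at 2) (by ring) hb hv.1
  · obtain ⟨a, b, ha, hb, hB⟩ := h2 c hc
    exact ⟨b, a, hb.2, ha.2, hB⟩

end

universe u

theorem core_of_good (K : Type u) [Field K] [CharP K 2] (E : Type u) [Ring E] [Algebra K E]
    [Module.Finite K E] {I : Type} (P : MC E I) (hr : RowEx P (Bim.reg K E))
    (hc : ColEx P (Bim.reg K E)) (F : Type u) [AddCommGroup F] [Module K F] [Module.Finite K F]
    (B : Bim K E E F) (hrB : RowEx P B) (hcB : ColEx P B) (hg : Good P (B.at 2)) (χ : E →ₐ[K] K)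
    (hχ : ∀ i j, χ (P.δ i j) = 0) (i₀ : I) (h₀ : P.deg i₀ = 0) (hχ₀ : χ (P.ε i₀) = 1)
    (π : E →ₐ[K] (Fin 4 → K)) (hπ : Function.Surjective π) (hnil : ∀ x, π x = 0 → IsNilpotent x)
    (h4 : ∃ a b c d : E, π a = 0 ∧ π b = 0 ∧ π c = 0 ∧ π d = 0 ∧ a * b * c * d ≠ 0) :
    ∃ (T : Type u) (_ : Ring T) (_ : Algebra K T) (M : Type u) (_ : AddCommGroup M)
      (_ : Module T M) (_ : Module K M) (_ : IsScalarTower K T M),
      Crest.AlgebraR.IsSymmetricAlgebra K T ∧ Crest.AlgebraR.GorProjVanishingData K T M := by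
  obtain ⟨v, hv, g1, g2⟩ := hg
  let Q := P.tri B v hv
  have hrQ : RowEx Q (Bim.reg K (TriAlg B)) := hr.tri hv hrB
  have hcQ : ColEx Q (Bim.reg K (TriAlg B)) := hc.tri hv hcB
  have hvQ : ∀ n, n ≠ 0 → n ≠ -1 → (cx Q Q ((Bim.reg K (TriAlg B)).at 0)).Van n := fun n h1 h2 =>
    van_tri hv (g1 n h1) (g2 (n - 1) (by omega))
  let N := (Bim.reg K (TriAlg B)).dual
  let φ : Module.Dual K (TriAlg B) ≃ₗ[K] Module.Dual K (TriAlg B) := LinearEquiv.refl K _
  have hl : ∀ a x' x, φ (N.l a x') x = φ x' ((Bim.reg K (TriAlg B)).r a x) := fun _ _ _ => rfl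
  have hr' : ∀ a x' x, φ (N.r a x') x = φ x' ((Bim.reg K (TriAlg B)).l a x) := fun _ _ _ => rfl
  let e : ((Fin 4 → K) × (Fin 4 → K)) ≃ₐ[K] (Fin 8 → K) :=
    (AlgEquiv.sumArrowEquivProdArrow (Fin 4) (Fin 4) K K).symm.trans
      (AlgEquiv.piCongrLeft' K (fun _ : Fin 4 ⊕ Fin 4 => K) (finSumFinEquiv (m := 4) (n := 4)))
  let π' : Triv N →ₐ[K] (Fin 8 → K) :=
    e.toAlgHom.comp ((π.prodMap π).comp ((Triv.fst _).comp (Triv.fst N)))
  have hπ' : ∀ x, π' x = 0 ↔ π (TriAlg.p₁ B (Triv.fst N x)) = 0 ∧ π (TriAlg.p₂ B (Triv.fst N x)) = 0 :=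
    fun x => (map_eq_zero_iff _ e.injective).trans Prod.ext_iff
  obtain ⟨M, i1, i2, i3, i4, hM⟩ := gorProj_of_mc K (Triv N) (Q.map (Triv.inl N))
    (hrQ.triv (rowEx_dual φ hl hr' hcQ)) (hcQ.triv (colEx_dual φ hl hr' hrQ))
    (fun n hn => van_triv (hvQ n (by omega) (by omega))
      (van_dual φ hl hr' hrQ hcQ (hvQ _ (by omega) (by omega))))
    (χ.comp ((TriAlg.p₁ B).comp (Triv.fst N)))
    (by rintro (i | i) (j | j) <;> simp [MC.map, Q, MC.tri, hχ]) (.inl i₀) h₀ hχ₀ π'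
    (e.surjective.comp ((hπ.prodMap hπ).comp (Triv.fst_surjective.comp Triv.fst_surjective)))
    (fun x hx => by
      obtain ⟨⟨n, hn⟩, ⟨m, hm⟩⟩ := ((hπ' x).1 hx).imp (hnil _) (hnil _)
      refine Triv.isNilpotent (Triv.isNilpotent ⟨n + m, Prod.ext ?_ ?_⟩)
      · exact (pow_add (TriAlg.p₁ B (Triv.fst N x)) n m).trans (by rw [hn, zero_mul]; rfl)
      · exact (pow_add (TriAlg.p₂ B (Triv.fst N x)) n m).trans (by rw [hm, mul_zero]; rfl))
    (by
      obtain ⟨a, b, c, d, ha, hb, hc, hd, hne⟩ := h4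
      refine ⟨Triv.inl N (TriAlg.ι₁ B a), Triv.inl N (TriAlg.ι₁ B b), Triv.inl N (TriAlg.ι₁ B c),
        Triv.inl N (TriAlg.ι₁ B d), by simp [hπ', ha], by simp [hπ', hb], by simp [hπ', hc],
        by simp [hπ', hd], fun h => hne ?_⟩
      simpa using congrArg (fun x => TriAlg.p₁ B (Triv.fst N x)) h)
  exact ⟨Triv N, inferInstance, inferInstance, M, i1, i2, i3, i4, Triv.symmetric, hM⟩

end Crest.Agent.R186
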