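import Crest.Agent.R186.Kos2
import Crest.Agent.R186.Bar
import Crest.Agent.R186.Glue
import Crest.Agent.R186.Triv
import Crest.Agent.R186.Explicit

/-!
The symmetric algebra with a self-orthogonal non-projective module.
-/

set_option autoImplicit false

noncomputable section

namespace Crest.Agent.R186

open Crest.AlgebraR

universe u

theorem core (K : Type u) [Field K] [CharP K 2] (q : K) (hq0 : q ≠ 0)
    (hq : ∀ n : ℕ, 0 < n → q ^ n ≠ 1) :
    ∃ (T : Type u) (_ : Ring T) (_ : Algebra K T) (M : Type u) (_ : AddCommGroup M)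
      (_ : Module T M) (_ : Module K M) (_ : IsScalarTower K T M),
      IsSymmetricAlgebra K T ∧ GorProjVanishingData K T M := by
  obtain ⟨A, _, _, S, hS⟩ := exists_seed K q hq0 hq
  obtain ⟨V, _, _, C, ⟨T⟩⟩ := exists_tri S
  obtain ⟨W₁⟩ := hS 1 one_ne_zero
  obtain ⟨W₂⟩ := hS q hq0
  obtain ⟨T₁⟩ := T.ktw W₁
  obtain ⟨T₂⟩ := T.ktw W₂
  obtain ⟨W, _, _, _, M, hM, hr, hc, hg⟩ := glue T.kos q hq0 hq T₁ T₂
  have := S.sq.fin
  obtain ⟨F, _, _, _, B, hrB, hcB, hgB⟩ := reduce S.sq.splice S.sq.colEx 2 3 W M hM hr hc hg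
  obtain ⟨π, hπ, hnil, h4⟩ := S.pi_tensor
  exact core_of_good K _ S.sq.splice S.sq.rowEx S.sq.colEx F B hrB hcB hgB S.sq.χ S.sq.χ_splice_δ
    S.sq.o S.sq.deg_o S.sq.χ_ε_o π hπ hnil h4

theorem core' (K : Type u) [Field K] [Algebra (FractionRing (MvPolynomial (Fin 3) (ZMod 2))) K] :
    ∃ (T : Type u) (_ : Ring T) (_ : Algebra K T) (M : Type u) (_ : AddCommGroup M)
      (_ : Module T M) (_ : Module K M) (_ : IsScalarTower K T M),
      IsSymmetricAlgebra K T ∧ GorProjVanishingData K T M := by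
  let f : MvPolynomial (Fin 3) (ZMod 2) →+* K :=
    (algebraMap (FractionRing (MvPolynomial (Fin 3) (ZMod 2))) K).comp (algebraMap _ _)
  have hf : Function.Injective f :=
    (algebraMap (FractionRing (MvPolynomial (Fin 3) (ZMod 2))) K).injective.comp
      (IsFractionRing.injective (MvPolynomial (Fin 3) (ZMod 2)) _)
  have : CharP K 2 := charP_of_injective_ringHom hf 2
  refine core K (f (MvPolynomial.X 0)) ((map_ne_zero_iff f hf).2 (MvPolynomial.X_ne_zero 0))
    fun n hn h => ?_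
  rw [← map_pow, ← map_one f] at h
  have := congrArg MvPolynomial.constantCoeff (hf h)
  simp [hn.ne'] at this

end Crest.Agent.R186
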