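import Crest.Agent.R186.Cx

/-!
Row-finite matrices, bimodules and the complex of matrices with entries in a bimodule.
-/

set_option autoImplicit false

noncomputable section

namespace Crest.Agent.R186

variable {k : Type*} [Field k]
variable {U V W X Y Z : Type*} [AddCommGroup U] [Module k U] [AddCommGroup V] [Module k V]
  [AddCommGroup W] [Module k W] [AddCommGroup X] [Module k X] [AddCommGroup Y] [Module k Y]
  [AddCommGroup Z] [Module k Z]
variable {I J L N : Type*}

/-- row-finite matrices -/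
abbrev Mat (I J V : Type*) [Zero V] := I → J →₀ V

/-- a row times a matrix -/
def rmul (μ : U →ₗ[k] V →ₗ[k] W) (b : Mat J L V) : (J →₀ U) →ₗ[k] (L →₀ W) :=
  Finsupp.lsum k fun j =>
    { toFun := fun x => Finsupp.mapRange (μ x) (map_zero _) (b j)
      map_add' := fun x y => by ext l; simp
      map_smul' := fun c x => by ext l; simp }

theorem rmul_single (μ : U →ₗ[k] V →ₗ[k] W) (b : Mat J L V) (j : J) (x : U) :
    rmul μ b (Finsupp.single j x) = Finsupp.mapRange (μ x) (map_zero _) (b j) :=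
  Finsupp.lsum_single _ _ _ _

theorem rmul_single_apply (μ : U →ₗ[k] V →ₗ[k] W) (b : Mat J L V) (j : J) (x : U) (l : L) :
    rmul μ b (Finsupp.single j x) l = μ x (b j l) := by
  rw [rmul_single, Finsupp.mapRange_apply]

theorem rmul_apply (μ : U →ₗ[k] V →ₗ[k] W) (b : Mat J L V) (r : J →₀ U) (l : L) :
    rmul μ b r l = r.sum fun j x => μ x (b j l) := by
  simp [rmul, Finsupp.lsum_apply, Finsupp.sum_apply]

theorem rmul_apply_of_subset (μ : U →ₗ[k] V →ₗ[k] W) (b : Mat J L V) (r : J →₀ U) (l : L)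
    {S : Finset J} (hS : ∀ j, μ (r j) (b j l) ≠ 0 → j ∈ S) :
    rmul μ b r l = ∑ j ∈ S, μ (r j) (b j l) := by
  classical
  rw [rmul_apply, Finsupp.sum]
  refine Finset.sum_subset_zero_on_sdiff (s₁ := r.support ∩ S) Finset.inter_subset_left
    (fun j hj => ?_) (fun _ _ => rfl) |>.symm.trans
    (Finset.sum_subset_zero_on_sdiff Finset.inter_subset_right (fun j hj => ?_) (fun _ _ => rfl))
  · by_contra h
    simp only [Finset.mem_sdiff, Finset.mem_inter, not_and] at hj
    exact hj.2 hj.1 (hS j h)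
  · simp only [Finset.mem_sdiff, Finset.mem_inter, not_and, Finsupp.mem_support_iff] at hj
    have : r j = 0 := by
      by_contra h
      exact hj.2 h hj.1
    simp [this]

/-- the product of matrices along a bilinear map -/
def mmul (μ : U →ₗ[k] V →ₗ[k] W) : Mat I J U →ₗ[k] Mat J L V →ₗ[k] Mat I L W :=
  LinearMap.mk₂ k (fun a b i => rmul μ b (a i))
    (fun a a' b => funext fun i => by simp)
    (fun c a b => funext fun i => by simp)
    (fun a b b' => funext fun i => by
      ext l; simp [rmul_apply, Finsupp.sum, Finset.sum_add_distrib])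
    (fun c a b => funext fun i => by ext l; simp [rmul_apply, Finsupp.sum, Finset.smul_sum])

theorem mmul_row (μ : U →ₗ[k] V →ₗ[k] W) (a : Mat I J U) (b : Mat J L V) (i : I) :
    mmul μ a b i = rmul μ b (a i) := rfl

theorem mmul_apply (μ : U →ₗ[k] V →ₗ[k] W) (a : Mat I J U) (b : Mat J L V) (i : I) (l : L) :
    mmul μ a b i l = (a i).sum fun j x => μ x (b j l) := rmul_apply _ _ _ _

theorem mmul_apply_of_subset (μ : U →ₗ[k] V →ₗ[k] W) (a : Mat I J U) (b : Mat J L V) (i : I)
    (l : L) {S : Finset J} (hS : ∀ j, μ (a i j) (b j l) ≠ 0 → j ∈ S) :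
    mmul μ a b i l = ∑ j ∈ S, μ (a i j) (b j l) := rmul_apply_of_subset _ _ _ _ hS

theorem mmul_apply_eq_zero (μ : U →ₗ[k] V →ₗ[k] W) (a : Mat I J U) (b : Mat J L V) (i : I)
    (l : L) (h : ∀ j, μ (a i j) (b j l) = 0) : mmul μ a b i l = 0 := by
  rw [mmul_apply_of_subset (S := ∅) _ _ _ _ _ (fun j hj => absurd (h j) hj), Finset.sum_empty]

theorem mmul_apply_single (μ : U →ₗ[k] V →ₗ[k] W) (a : Mat I J U) (b : Mat J L V) (i : I)
    (l : L) (j : J) (h : ∀ j', j' ≠ j → μ (a i j') (b j' l) = 0) :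
    mmul μ a b i l = μ (a i j) (b j l) := by
  rw [mmul_apply_of_subset (S := {j}) _ _ _ _ _ (fun j' hj => by
    by_contra h'
    exact hj (h j' (by simpa using h'))), Finset.sum_singleton]

/-- associativity -/
theorem mmul_assoc {μ : U →ₗ[k] V →ₗ[k] X} {ν : X →ₗ[k] W →ₗ[k] Z} {μ' : V →ₗ[k] W →ₗ[k] Y}
    {ν' : U →ₗ[k] Y →ₗ[k] Z} (h : ∀ x y z, ν (μ x y) z = ν' x (μ' y z)) (a : Mat I J U)
    (b : Mat J L V) (c : Mat L N W) : mmul ν (mmul μ a b) c = mmul ν' a (mmul μ' b c) := by
  funext i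
  simp only [mmul_row]
  induction a i using Finsupp.induction_linear with
  | zero => simp
  | add x y hx hy => simp [hx, hy]
  | single j x =>
    rw [rmul_single, rmul_single, mmul_row]
    induction b j using Finsupp.induction_linear with
    | zero => simp
    | add y z hy hz =>
      rw [Finsupp.mapRange_add (map_add _), map_add, map_add, Finsupp.mapRange_add (map_add _),
        hy, hz]
    | single l y =>
      ext n
      simp [rmul_single, h]

/-- entrywise maps depending on the position -/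
def emap (f : I → J → V →ₗ[k] W) : Mat I J V →ₗ[k] Mat I J W where
  toFun c i := Finsupp.onFinset (c i).support (fun j => f i j (c i j)) (fun j hj => by
    by_contra h
    rw [Finsupp.notMem_support_iff.1 h] at hj
    exact hj (map_zero _))
  map_add' a b := by funext i; ext j; simp
  map_smul' a b := by funext i; ext j; simp

@[simp] theorem emap_apply (f : I → J → V →ₗ[k] W) (c : Mat I J V) (i : I) (j : J) :
    emap f c i j = f i j (c i j) := rfl

/-- entrywise maps -/
def mmap (f : V →ₗ[k] W) : Mat I J V →ₗ[k] Mat I J W := emap fun _ _ => f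

@[simp] theorem mmap_apply (f : V →ₗ[k] W) (c : Mat I J V) (i : I) (j : J) :
    mmap f c i j = f (c i j) := rfl

theorem Mat.ext' {a b : Mat I J V} (h : ∀ i j, a i j = b i j) : a = b :=
  funext fun i => Finsupp.ext (h i)

theorem emap_mmul {μ : U →ₗ[k] V →ₗ[k] W} {ν : X →ₗ[k] Y →ₗ[k] Z} {f : I → L → W →ₗ[k] Z}
    (a : Mat I J U) (b : Mat J L V) (a' : Mat I J X) (b' : Mat J L Y)
    (h : ∀ i j l, f i l (μ (a i j) (b j l)) = ν (a' i j) (b' j l)) :
    emap f (mmul μ a b) = mmul ν a' b' := by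
  classical
  refine Mat.ext' fun i l => ?_
  rw [emap_apply, mmul_apply_of_subset (S := (a i).support ∪ (a' i).support),
    mmul_apply_of_subset (S := (a i).support ∪ (a' i).support), map_sum]
  · exact Finset.sum_congr rfl fun j _ => h i j l
  · intro j hj
    refine Finset.mem_union_right _ (Finsupp.mem_support_iff.2 fun h0 => hj ?_)
    simp [h0]
  · intro j hj
    refine Finset.mem_union_left _ (Finsupp.mem_support_iff.2 fun h0 => hj ?_)
    simp [h0]

theorem mmap_mmul {μ : U →ₗ[k] V →ₗ[k] W} {ν : X →ₗ[k] Y →ₗ[k] Z} {f : W →ₗ[k] Z}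
    (a : Mat I J U) (b : Mat J L V) (a' : Mat I J X) (b' : Mat J L Y)
    (h : ∀ i j l, f (μ (a i j) (b j l)) = ν (a' i j) (b' j l)) :
    mmap f (mmul μ a b) = mmul ν a' b' := emap_mmul a b a' b' h

theorem mmul_congr {μ : U →ₗ[k] V →ₗ[k] W} {ν : X →ₗ[k] Y →ₗ[k] W}
    (a : Mat I J U) (b : Mat J L V) (a' : Mat I J X) (b' : Mat J L Y)
    (h : ∀ i j l, μ (a i j) (b j l) = ν (a' i j) (b' j l)) : mmul μ a b = mmul ν a' b' :=
  (show mmul μ a b = mmap LinearMap.id (mmul μ a b) from Mat.ext' fun _ _ => rfl).trans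
    (mmap_mmul (f := LinearMap.id) a b a' b' h)

theorem mmul_add_pair (μ ν : U →ₗ[k] V →ₗ[k] W) (a : Mat I J U) (b : Mat J L V) :
    mmul (μ + ν) a b = mmul μ a b + mmul ν a b :=
  Mat.ext' fun i l => by simp [mmul_apply, Finsupp.sum, Finset.sum_add_distrib]

theorem mmap_injective {f : V →ₗ[k] W} (hf : Function.Injective f) :
    Function.Injective (mmap f : Mat I J V → Mat I J W) :=
  fun a b h => Mat.ext' fun i j => hf (by simpa using congrArg (fun c => c i j) h)

theorem exists_mat {f : I → J → V →ₗ[k] W} {p : I → J → V → Prop} (hp : ∀ i j, p i j 0)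
    (c : Mat I J W) (h : ∀ i j, ∃ x, p i j x ∧ f i j x = c i j) :
    ∃ b : Mat I J V, (∀ i j, p i j (b i j)) ∧ emap f b = c := by
  classical
  choose g hg hg' using h
  refine ⟨fun i => Finsupp.onFinset (c i).support (fun j => if c i j = 0 then 0 else g i j)
    (fun j hj => Finsupp.mem_support_iff.2 fun h0 => hj (if_pos h0)), fun i j => ?_,
    Mat.ext' fun i j => ?_⟩
  · rw [Finsupp.onFinset_apply]
    split_ifs
    exacts [hp i j, hg i j]
  · rw [emap_apply, Finsupp.onFinset_apply]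
    split_ifs with h0
    · rw [map_zero, h0]
    · exact hg' i j

theorem mmap_surjective {f : V →ₗ[k] W} (hf : Function.Surjective f) :
    Function.Surjective (mmap f : Mat I J V → Mat I J W) := fun c => by
  obtain ⟨b, -, hb⟩ := exists_mat (f := fun _ _ => f) (p := fun _ _ _ => True) (fun _ _ => trivial) c
    (fun i j => by simpa using hf (c i j))
  exact ⟨b, hb⟩

theorem mmap_exact {f : U →ₗ[k] V} {g : V →ₗ[k] W} (h : Function.Exact f g) :
    Function.Exact (mmap f : Mat I J U → Mat I J V) (mmap g : Mat I J V → Mat I J W) := by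
  intro c
  constructor
  · intro hc
    obtain ⟨b, -, hb⟩ := exists_mat (f := fun _ _ => f) (p := fun _ _ _ => True)
      (fun _ _ => trivial) c
      (fun i j => by simpa using (h (c i j)).1 (by simpa using congrArg (fun c => c i j) hc))
    exact ⟨b, hb⟩
  · rintro ⟨b, rfl⟩
    exact Mat.ext' fun i j => h.apply_apply_eq_zero _

/-- diagonal matrices -/
def diag (u : I → V) : Mat I I V := fun i => Finsupp.single i (u i)

theorem mmul_diag_left (μ : U →ₗ[k] V →ₗ[k] W) (u : I → U) (b : Mat I L V) (i : I) (l : L) :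
    mmul μ (diag u) b i l = μ (u i) (b i l) := rmul_single_apply _ _ _ _ _

theorem mmul_diag_right (μ : U →ₗ[k] V →ₗ[k] W) (a : Mat I J U) (u : J → V) (i : I) (j : J) :
    mmul μ a (diag u) i j = μ (a i j) (u j) := by
  rw [mmul_apply_single _ _ _ _ _ j (fun j' hj' => by simp [diag, Finsupp.single_eq_of_ne hj'.symm])]
  simp [diag]

/-! ### Bimodules -/

/-- a bimodule structure on a vector space -/
structure Bim (k : Type*) [Field k] (R S : Type*) [Ring R] [Algebra k R] [Ring S] [Algebra k S]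
    (V : Type*) [AddCommGroup V] [Module k V] where
  l : R →ₗ[k] V →ₗ[k] V
  r : S →ₗ[k] V →ₗ[k] V
  l_one : ∀ x, l 1 x = x
  l_mul : ∀ a b x, l (a * b) x = l a (l b x)
  r_one : ∀ x, r 1 x = x
  r_mul : ∀ a b x, r (a * b) x = r b (r a x)
  lr : ∀ a b x, l a (r b x) = r b (l a x)

/-- a differential graded bimodule -/
structure DG (k : Type*) [Field k] (R S : Type*) [Ring R] [Algebra k R] [Ring S] [Algebra k S]
    (V : Type*) [AddCommGroup V] [Module k V] extends Bim k R S V where
  d : V →ₗ[k] V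
  p : ℤ → V →ₗ[k] V
  dd : ∀ x, d (d x) = 0
  dl : ∀ a x, d (l a x) = l a (d x)
  dr : ∀ a x, d (r a x) = r a (d x)
  pp : ∀ m n x, p m (p n x) = if m = n then p n x else 0
  pl : ∀ m a x, p m (l a x) = l a (p m x)
  pr : ∀ m a x, p m (r a x) = r a (p m x)
  pd : ∀ m x, p m (d x) = d (p (m + 1) x)

variable {R S R' S' : Type*} [Ring R] [Algebra k R] [Ring S] [Algebra k S] [Ring R'] [Algebra k R']
  [Ring S'] [Algebra k S']

/-- a bimodule placed in degree `s` -/
def Bim.at (M : Bim k R S V) (s : ℤ) : DG k R S V where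
  toBim := M
  d := 0
  p m := if m = s then LinearMap.id else 0
  dd _ := rfl
  dl _ _ := by simp
  dr _ _ := by simp
  pp m n x := by split_ifs <;> simp_all
  pl m a x := by split_ifs <;> simp
  pr m a x := by split_ifs <;> simp
  pd m x := by simp

@[simp] theorem Bim.at_l (M : Bim k R S V) (s : ℤ) : (M.at s).l = M.l := rfl
@[simp] theorem Bim.at_r (M : Bim k R S V) (s : ℤ) : (M.at s).r = M.r := rfl
@[simp] theorem Bim.at_d (M : Bim k R S V) (s : ℤ) : (M.at s).d = 0 := rfl
theorem Bim.at_p (M : Bim k R S V) (s m : ℤ) (x : V) :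
    (M.at s).p m x = if m = s then x else 0 := by
  simp only [Bim.at]
  split_ifs <;> rfl

variable (k R) in
/-- the regular bimodule -/
def Bim.reg : Bim k R R R where
  l := LinearMap.mul k R
  r := (LinearMap.mul k R).flip
  l_one := one_mul
  l_mul := mul_assoc
  r_one := mul_one
  r_mul a b x := (mul_assoc x a b).symm
  lr a b x := (mul_assoc a x b).symm

@[simp] theorem Bim.reg_l (a x : R) : (Bim.reg k R).l a x = a * x := rfl
@[simp] theorem Bim.reg_r (a x : R) : (Bim.reg k R).r a x = x * a := rfl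

/-- forgetting the left action -/
def Bim.fL (M : Bim k R S V) : Bim k k S V where
  l := LinearMap.lsmul k V
  r := M.r
  l_one := one_smul k
  l_mul := mul_smul
  r_one := M.r_one
  r_mul := M.r_mul
  lr a b x := ((M.r b).map_smul a x).symm

/-- forgetting the right action -/
def Bim.fR (M : Bim k R S V) : Bim k R k V where
  l := M.l
  r := LinearMap.lsmul k V
  l_one := M.l_one
  l_mul := M.l_mul
  r_one := one_smul k
  r_mul a b x := by rw [LinearMap.lsmul_apply, mul_comm, mul_smul]; rfl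
  lr a b x := (M.l a).map_smul b x

@[simp] theorem Bim.fL_l (M : Bim k R S V) (a : k) (x : V) : M.fL.l a x = a • x := rfl
@[simp] theorem Bim.fL_r (M : Bim k R S V) : M.fL.r = M.r := rfl
@[simp] theorem Bim.fR_r (M : Bim k R S V) (a : k) (x : V) : M.fR.r a x = a • x := rfl
@[simp] theorem Bim.fR_l (M : Bim k R S V) : M.fR.l = M.l := rfl

variable (k) in
/-- the one-point complex -/
def MC.pt : MC k Unit where
  deg _ := 0
  fib n := if n = 0 then {()} else ∅
  mem_fib n i := by split_ifs with h <;> simp [h, eq_comm]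
  ε _ := 1
  δ _ := 0
  εε _ := mul_one _
  εδ _ _ := mul_zero _
  δε _ _ := zero_mul _
  hom _ _ h := absurd rfl h
  δδ _ _ := rfl

theorem MC.δδ' (P : MC R I) : mmul (LinearMap.mul k R) P.δ P.δ = 0 :=
  Mat.ext' fun i l => by rw [mmul_apply]; exact P.δδ i l

/-- the projection on the entries of cochains of degree `n` -/
def DG.ep (M : DG k R S V) (P : MC R I) (Q : MC S J) (n : ℤ) (i : I) (j : J) : V →ₗ[k] V :=
  M.l (P.ε i) ∘ₗ M.r (Q.ε j) ∘ₗ M.p (P.deg i - Q.deg j - n)

theorem DG.ep_apply (M : DG k R S V) (P : MC R I) (Q : MC S J) (n : ℤ) (i : I) (j : J) (x : V) :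
    M.ep P Q n i j x = M.l (P.ε i) (M.r (Q.ε j) (M.p (P.deg i - Q.deg j - n) x)) := rfl

/-- left multiplication of matrices -/
abbrev Bim.ml (M : Bim k R S V) : Mat I J R →ₗ[k] Mat J L V →ₗ[k] Mat I L V := mmul M.l
/-- right multiplication of matrices -/
abbrev Bim.mr (M : Bim k R S V) : Mat I J V →ₗ[k] Mat J L S →ₗ[k] Mat I L V := mmul M.r.flip

theorem Bim.ml_ml (M : Bim k R S V) (a : Mat I J R) (b : Mat J L R) (c : Mat L N V) :
    M.ml a (M.ml b c) = M.ml (mmul (LinearMap.mul k R) a b) c :=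
  (mmul_assoc (fun x y z => M.l_mul x y z) a b c).symm

theorem Bim.mr_mr (M : Bim k R S V) (c : Mat I J V) (a : Mat J L S) (b : Mat L N S) :
    M.mr (M.mr c a) b = M.mr c (mmul (LinearMap.mul k S) a b) :=
  mmul_assoc (fun x y z => (M.r_mul y z x).symm) c a b

theorem Bim.mr_ml (M : Bim k R S V) (a : Mat I J R) (c : Mat J L V) (b : Mat L N S) :
    M.mr (M.ml a c) b = M.ml a (M.mr c b) :=
  mmul_assoc (fun x y z => (M.lr x z y).symm) a c b

theorem DG.d_ml (M : DG k R S V) (a : Mat I J R) (c : Mat J L V) :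
    mmap M.d (M.ml a c) = M.ml a (mmap M.d c) := mmap_mmul _ _ _ _ fun _ _ _ => M.dl _ _

theorem DG.d_mr (M : DG k R S V) (c : Mat I J V) (a : Mat J L S) :
    mmap M.d (M.mr c a) = M.mr (mmap M.d c) a := mmap_mmul _ _ _ _ fun _ _ _ => M.dr _ _

theorem DG.ep_ml (M : DG k R S V) (P : MC R I) (Q : MC S J) (n : ℤ) (x : Mat I J V) :
    emap (M.ep P Q (n + 1)) (M.ml P.δ x) = M.ml P.δ (emap (M.ep P Q n) x) := by
  refine emap_mmul _ _ _ _ fun i j l => ?_
  by_cases h : P.δ i j = 0
  · simp [h]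
  · simp only [emap_apply, DG.ep_apply, M.pl, ← M.lr, ← M.l_mul, P.εδ, P.δε, P.hom i j h]
    rw [show P.deg i - Q.deg l - (n + 1) = P.deg i - 1 - Q.deg l - n by ring]

theorem DG.ep_mr (M : DG k R S V) (P : MC R I) (Q : MC S J) (n : ℤ) (x : Mat I J V) :
    emap (M.ep P Q (n + 1)) (M.mr x Q.δ) = M.mr (emap (M.ep P Q n) x) Q.δ := by
  refine emap_mmul _ _ _ _ fun i j l => ?_
  by_cases h : Q.δ j l = 0
  · simp [h]
  · simp only [emap_apply, DG.ep_apply, LinearMap.flip_apply, M.pr, ← M.lr, ← M.r_mul,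
      Q.εδ, Q.δε, Q.hom j l h]
    rw [show P.deg i - (Q.deg j - 1) - (n + 1) = P.deg i - Q.deg j - n by ring]

theorem DG.ep_d (M : DG k R S V) (P : MC R I) (Q : MC S J) (n : ℤ) (x : Mat I J V) :
    emap (M.ep P Q (n + 1)) (mmap M.d x) = mmap M.d (emap (M.ep P Q n) x) := by
  refine Mat.ext' fun i j => ?_
  simp only [emap_apply, mmap_apply, DG.ep_apply, M.pd, M.dl, M.dr]
  rw [show P.deg i - Q.deg j - (n + 1) + 1 = P.deg i - Q.deg j - n by ring]

variable [CharP k 2]

/-- the complex of matrices with entries in a differential graded bimodule -/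
def cx (P : MC R I) (Q : MC S J) (M : DG k R S V) : Cx k (Mat I J V) where
  D := M.ml P.δ + M.mr.flip Q.δ + mmap M.d
  P n := emap (M.ep P Q n)
  DD x := by
    have h1 : mmap M.d (mmap M.d x) = 0 := Mat.ext' fun i j => M.dd _
    simp only [LinearMap.add_apply, LinearMap.flip_apply, map_add, M.ml_ml, M.mr_mr, M.mr_ml,
      MC.δδ', M.d_ml, M.d_mr, h1, map_zero, LinearMap.zero_apply]
    char2 k
  PP n x := Mat.ext' fun i j => by
    simp only [emap_apply, DG.ep_apply, M.pl, M.pr, M.pp, if_true, ← M.lr, ← M.l_mul, ← M.r_mul,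
      P.εε, Q.εε]
  PD n x := by
    simp only [LinearMap.add_apply, LinearMap.flip_apply, map_add, M.ep_ml, M.ep_mr, M.ep_d]

theorem cx_D (P : MC R I) (Q : MC S J) (M : DG k R S V) (x : Mat I J V) :
    (cx P Q M).D x = M.ml P.δ x + M.mr x Q.δ + mmap M.d x := rfl

theorem cx_P (P : MC R I) (Q : MC S J) (M : DG k R S V) (n : ℤ) (x : Mat I J V) (i : I) (j : J) :
    (cx P Q M).P n x i j = M.l (P.ε i) (M.r (Q.ε j) (M.p (P.deg i - Q.deg j - n) (x i j))) := rfl

theorem cx_P' (P : MC R I) (Q : MC S J) (M : DG k R S V) (n : ℤ) :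
    (cx P Q M).P n = emap (M.ep P Q n) := rfl

theorem cx_D_at (P : MC R I) (Q : MC S J) (M : Bim k R S V) (s : ℤ) (x : Mat I J V) :
    (cx P Q (M.at s)).D x = M.ml P.δ x + M.mr x Q.δ := by
  rw [cx_D, show mmap (M.at s).d x = 0 from Mat.ext' fun _ _ => rfl, add_zero]
  rfl

theorem cx_P_at (P : MC R I) (Q : MC S J) (M : Bim k R S V) (s n : ℤ) (x : Mat I J V) (i : I)
    (j : J) : (cx P Q (M.at s)).P n x i j =
      if P.deg i - Q.deg j - n = s then M.l (P.ε i) (M.r (Q.ε j) (x i j)) else 0 := by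
  rw [cx_P, Bim.at_p]
  split_ifs <;> simp

theorem cx_P_row (P : MC R I) (Q : MC S J) (M : DG k R S V) (n : ℤ) {x y : Mat I J V} {i : I}
    (h : x i = y i) : (cx P Q M).P n x i = (cx P Q M).P n y i := by
  ext j
  rw [cx_P, cx_P, h]

theorem cx_P_row_zero (P : MC R I) (Q : MC S J) (M : DG k R S V) (n : ℤ) {x : Mat I J V} {i : I}
    (h : x i = 0) : (cx P Q M).P n x i = 0 := by
  ext j
  simp [cx_P, h]

/-- maps of differential graded bimodules raising the degree by `s` -/
structure DHom (M : DG k R S V) (N : DG k R S W) (s : ℤ) (f : V →ₗ[k] W) : Prop where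
  hl : ∀ a x, f (M.l a x) = N.l a (f x)
  hr : ∀ a x, f (M.r a x) = N.r a (f x)
  hd : ∀ x, f (M.d x) = N.d (f x)
  hp : ∀ m x, N.p m (f x) = f (M.p (m - s) x)

namespace DHom

variable {M : DG k R S V} {N : DG k R S W} {s : ℤ} {f : V →ₗ[k] W} (h : DHom M N s f)
include h

omit [CharP k 2] in
theorem ml (a : Mat I J R) (c : Mat J L V) : mmap f (M.ml a c) = N.ml a (mmap f c) :=
  mmap_mmul _ _ _ _ fun _ _ _ => h.hl _ _

omit [CharP k 2] in
theorem mr (c : Mat I J V) (a : Mat J L S) : mmap f (M.mr c a) = N.mr (mmap f c) a :=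
  mmap_mmul _ _ _ _ fun _ _ _ => h.hr _ _

theorem cmap (P : MC R I) (Q : MC S J) : CMap (cx P Q M) (cx P Q N) s (mmap f) where
  hD x := by
    simp only [cx_D, map_add, h.ml, h.mr]
    congr 1
    exact Mat.ext' fun i j => h.hd _
  hP n x := Mat.ext' fun i j => by
    simp only [cx_P, mmap_apply, h.hl, h.hr, h.hp, sub_sub, add_assoc]

end DHom

theorem cses {M₁ : DG k R S U} {M₂ : DG k R S V} {M₃ : DG k R S W} {s t : ℤ} {f : U →ₗ[k] V}
    {g : V →ₗ[k] W} (hf : DHom M₁ M₂ s f) (hg : DHom M₂ M₃ t g) (inj : Function.Injective f)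
    (ex : Function.Exact f g) (surj : Function.Surjective g) (P : MC R I) (Q : MC S J) :
    CSES (cx P Q M₁) (cx P Q M₂) (cx P Q M₃) s t (mmap f) (mmap g) :=
  ⟨hf.cmap P Q, hg.cmap P Q, mmap_injective inj, mmap_exact ex, mmap_surjective surj⟩

end Crest.Agent.R186
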