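import Crest.Agent.R186.Half

/-!
Closure properties of exact rows and columns, one-sided projective bimodules, induced bimodules
and products of matrices along pairings.
-/

set_option autoImplicit false

noncomputable section

namespace Crest.Agent.R186

open TensorProduct

variable {k : Type*} [Field k]
variable {U V W : Type*} [AddCommGroup U] [Module k U] [AddCommGroup V] [Module k V]
  [AddCommGroup W] [Module k W]
variable {I J L : Type*}
variable {R S T : Type*} [Ring R] [Algebra k R] [Ring S] [Algebra k S] [Ring T] [Algebra k T]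

theorem dhom_at {M : Bim k R S V} {N : Bim k R S W} {f : V →ₗ[k] W} (s : ℤ)
    (hl : ∀ a x, f (M.l a x) = N.l a (f x)) (hr : ∀ a x, f (M.r a x) = N.r a (f x)) :
    DHom (M.at s) (N.at s) 0 f where
  hl := hl
  hr := hr
  hd _ := map_zero f
  hp m x := by
    rw [Bim.at_p, Bim.at_p, sub_zero]
    split_ifs <;> simp

theorem dhom_fL {M : Bim k R S V} {N : Bim k R S W} {f : V →ₗ[k] W}
    (hr : ∀ a x, f (M.r a x) = N.r a (f x)) : DHom (M.fL.at 0) (N.fL.at 0) 0 f :=
  dhom_at 0 (fun a x => f.map_smul a x) hr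

theorem dhom_fR {M : Bim k R S V} {N : Bim k R S W} {f : V →ₗ[k] W}
    (hl : ∀ a x, f (M.l a x) = N.l a (f x)) : DHom (M.fR.at 0) (N.fR.at 0) 0 f :=
  dhom_at 0 hl fun a x => f.map_smul a x

/-- finitely generated projective on the right -/
def Bim.RP (M : Bim k R S V) : Prop :=
  ∃ (n : ℕ) (v : Fin n → V) (φ : Fin n → V →ₗ[k] S), (∀ i a x, φ i (M.r a x) = φ i x * a) ∧
    ∀ x, ∑ i, M.r (φ i x) (v i) = x

/-- finitely generated projective on the left -/
def Bim.LP (M : Bim k R S V) : Prop :=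
  ∃ (n : ℕ) (v : Fin n → V) (φ : Fin n → V →ₗ[k] R), (∀ i a x, φ i (M.l a x) = a * φ i x) ∧
    ∀ x, ∑ i, M.l (φ i x) (v i) = x

/-- a sub-bimodule -/
def Bim.sub (M : Bim k R S V) (X : Submodule k V) (hl : ∀ a, ∀ x ∈ X, M.l a x ∈ X)
    (hr : ∀ a, ∀ x ∈ X, M.r a x ∈ X) : Bim k R S X where
  l := { toFun := fun a => (M.l a).restrict (hl a)
         map_add' := fun a b => by ext x; simp
         map_smul' := fun a b => by ext x; simp }
  r := { toFun := fun a => (M.r a).restrict (hr a)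
         map_add' := fun a b => by ext x; simp
         map_smul' := fun a b => by ext x; simp }
  l_one x := Subtype.ext (M.l_one x)
  l_mul a b x := Subtype.ext (M.l_mul a b x)
  r_one x := Subtype.ext (M.r_one x)
  r_mul a b x := Subtype.ext (M.r_mul a b x)
  lr a b x := Subtype.ext (M.lr a b x)

@[simp] theorem Bim.sub_l (M : Bim k R S V) (X : Submodule k V) (hl hr) (a : R) (x : X) :
    ((M.sub X hl hr).l a x : V) = M.l a x := rfl
@[simp] theorem Bim.sub_r (M : Bim k R S V) (X : Submodule k V) (hl hr) (a : S) (x : X) :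
    ((M.sub X hl hr).r a x : V) = M.r a x := rfl

/-- the product of two bimodules -/
def Bim.prod (M : Bim k R S V) (N : Bim k R S W) : Bim k R S (V × W) where
  l := { toFun := fun a => (M.l a).prodMap (N.l a)
         map_add' := fun a b => by ext x <;> simp
         map_smul' := fun a b => by ext x <;> simp }
  r := { toFun := fun a => (M.r a).prodMap (N.r a)
         map_add' := fun a b => by ext x <;> simp
         map_smul' := fun a b => by ext x <;> simp }
  l_one x := Prod.ext (M.l_one _) (N.l_one _)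
  l_mul a b x := Prod.ext (M.l_mul a b _) (N.l_mul a b _)
  r_one x := Prod.ext (M.r_one _) (N.r_one _)
  r_mul a b x := Prod.ext (M.r_mul a b _) (N.r_mul a b _)
  lr a b x := Prod.ext (M.lr a b _) (N.lr a b _)

@[simp] theorem Bim.prod_l (M : Bim k R S V) (N : Bim k R S W) (a : R) (x : V × W) :
    (M.prod N).l a x = (M.l a x.1, N.l a x.2) := rfl
@[simp] theorem Bim.prod_r (M : Bim k R S V) (N : Bim k R S W) (a : S) (x : V × W) :
    (M.prod N).r a x = (M.r a x.1, N.r a x.2) := rfl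

/-- the bimodule induced on the left from the right action -/
def Bim.ind (M : Bim k R S V) : Bim k R S (R ⊗[k] V) where
  l := (LinearMap.rTensorHom V) ∘ₗ LinearMap.mul k R
  r := (LinearMap.lTensorHom R) ∘ₗ M.r
  l_one x := by induction x <;> simp_all
  l_mul a b x := by induction x <;> simp_all [mul_assoc]
  r_one x := by induction x <;> simp_all [M.r_one]
  r_mul a b x := by induction x <;> simp_all [M.r_mul]
  lr a b x := by induction x <;> simp_all

@[simp] theorem Bim.ind_l (M : Bim k R S V) (a b : R) (x : V) :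
    M.ind.l a (b ⊗ₜ x) = (a * b) ⊗ₜ x := rfl
@[simp] theorem Bim.ind_r (M : Bim k R S V) (a : S) (b : R) (x : V) :
    M.ind.r a (b ⊗ₜ x) = b ⊗ₜ M.r a x := rfl

theorem Bim.LP_ind (M : Bim k R S V) [Module.Finite k V] : M.ind.LP := by
  let b := Module.finBasis k V
  refine ⟨_, fun i => 1 ⊗ₜ b i, fun i => (TensorProduct.rid k R).toLinearMap ∘ₗ (b.coord i).lTensor R,
    fun i a x => ?_, fun x => ?_⟩
  · induction x with
    | zero => simp
    | tmul y z => simp
    | add y z hy hz => simp only [map_add, hy, hz, mul_add]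
  · induction x with
    | zero => simp
    | tmul y z => simp [← tmul_smul, ← tmul_sum]
    | add y z hy hz => simp only [map_add, LinearMap.add_apply, Finset.sum_add_distrib, hy, hz]

variable [CharP k 2]

section Closure

variable {P : MC R I} {Q : MC S J} {M₁ : Bim k R S U} {M₂ : Bim k R S V} {M₃ : Bim k R S W}
  {f : U →ₗ[k] V} {g : V →ₗ[k] W}

theorem RowEx.ses₂ (h₁ : RowEx Q M₁) (h₃ : RowEx Q M₃) (hf : ∀ a x, f (M₁.r a x) = M₂.r a (f x))
    (hg : ∀ a x, g (M₂.r a x) = M₃.r a (g x)) (inj : Function.Injective f)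
    (ex : Function.Exact f g) (surj : Function.Surjective g) : RowEx Q M₂ := fun n =>
  (cses (dhom_fL hf) (dhom_fL hg) inj ex surj _ _).van₂ (add_zero n).symm (add_zero n).symm
    (h₁ n) (h₃ n)

theorem RowEx.ses₁ (h₂ : RowEx Q M₂) (h₃ : RowEx Q M₃) (hf : ∀ a x, f (M₁.r a x) = M₂.r a (f x))
    (hg : ∀ a x, g (M₂.r a x) = M₃.r a (g x)) (inj : Function.Injective f)
    (ex : Function.Exact f g) (surj : Function.Surjective g) : RowEx Q M₁ := fun n =>
  (cses (dhom_fL hf) (dhom_fL hg) inj ex surj _ _).van₁ (n := n - 1) (by ring) (add_zero n).symm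
    (h₂ n) (h₃ _)

theorem ColEx.ses₂ (h₁ : ColEx P M₁) (h₃ : ColEx P M₃) (hf : ∀ a x, f (M₁.l a x) = M₂.l a (f x))
    (hg : ∀ a x, g (M₂.l a x) = M₃.l a (g x)) (inj : Function.Injective f)
    (ex : Function.Exact f g) (surj : Function.Surjective g) : ColEx P M₂ := fun n =>
  (cses (dhom_fR hf) (dhom_fR hg) inj ex surj _ _).van₂ (add_zero n).symm (add_zero n).symm
    (h₁ n) (h₃ n)

theorem ColEx.ses₁ (h₂ : ColEx P M₂) (h₃ : ColEx P M₃) (hf : ∀ a x, f (M₁.l a x) = M₂.l a (f x))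
    (hg : ∀ a x, g (M₂.l a x) = M₃.l a (g x)) (inj : Function.Injective f)
    (ex : Function.Exact f g) (surj : Function.Surjective g) : ColEx P M₁ := fun n =>
  (cses (dhom_fR hf) (dhom_fR hg) inj ex surj _ _).van₁ (n := n - 1) (by ring) (add_zero n).symm
    (h₂ n) (h₃ _)

theorem van_of_sum {M : DG k R S V} {N : DG k R S W} {ι : Type*} (X : Finset ι)
    (f : ι → W →ₗ[k] V) (g : ι → V →ₗ[k] W) (hf : ∀ i, DHom N M 0 (f i))
    (hg : ∀ i, DHom M N 0 (g i)) (hfg : ∀ x, ∑ i ∈ X, f i (g i x) = x) {n : ℤ}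
    (h : (cx P Q N).Van n) : (cx P Q M).Van n :=
  Cx.Van.of_sum X (fun i => mmap (f i)) (fun i => mmap (g i)) (fun i => ((hf i).cmap P Q).hD)
    (fun i => (hg i).cmap P Q) (fun x => Mat.ext' fun i j => by
      simp [Finset.sum_apply, Finsupp.finsetSum_apply, hfg]) h

theorem RowEx.of_sum {R' : Type*} [Ring R'] [Algebra k R'] {M : Bim k R S V} {N : Bim k R' S W}
    (h : RowEx Q N) {ι : Type*} (X : Finset ι) (f : ι → W →ₗ[k] V) (g : ι → V →ₗ[k] W)
    (hf : ∀ i a x, f i (N.r a x) = M.r a (f i x)) (hg : ∀ i a x, g i (M.r a x) = N.r a (g i x))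
    (hfg : ∀ x, ∑ i ∈ X, f i (g i x) = x) : RowEx Q M := fun n =>
  van_of_sum X f g (fun i => dhom_at 0 (fun a x => (f i).map_smul a x) (hf i))
    (fun i => dhom_at 0 (fun a x => (g i).map_smul a x) (hg i)) hfg (h n)

theorem ColEx.of_sum {S' : Type*} [Ring S'] [Algebra k S'] {M : Bim k R S V} {N : Bim k R S' W}
    (h : ColEx P N) {ι : Type*} (X : Finset ι) (f : ι → W →ₗ[k] V) (g : ι → V →ₗ[k] W)
    (hf : ∀ i a x, f i (N.l a x) = M.l a (f i x)) (hg : ∀ i a x, g i (M.l a x) = N.l a (g i x))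
    (hfg : ∀ x, ∑ i ∈ X, f i (g i x) = x) : ColEx P M := fun n =>
  van_of_sum X f g (fun i => dhom_at 0 (hf i) fun a x => (f i).map_smul a x)
    (fun i => dhom_at 0 (hg i) fun a x => (g i).map_smul a x) hfg (h n)

theorem RowEx.retract {R' : Type*} [Ring R'] [Algebra k R'] {M : Bim k R S V} {N : Bim k R' S W}
    (h : RowEx Q N) (f : W →ₗ[k] V) (g : V →ₗ[k] W) (hf : ∀ a x, f (N.r a x) = M.r a (f x))
    (hg : ∀ a x, g (M.r a x) = N.r a (g x)) (hfg : ∀ x, f (g x) = x) : RowEx Q M :=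
  h.of_sum {()} (fun _ => f) (fun _ => g) (fun _ => hf) (fun _ => hg) (by simpa using hfg)

theorem ColEx.retract {S' : Type*} [Ring S'] [Algebra k S'] {M : Bim k R S V} {N : Bim k R S' W}
    (h : ColEx P N) (f : W →ₗ[k] V) (g : V →ₗ[k] W) (hf : ∀ a x, f (N.l a x) = M.l a (f x))
    (hg : ∀ a x, g (M.l a x) = N.l a (g x)) (hfg : ∀ x, f (g x) = x) : ColEx P M :=
  h.of_sum {()} (fun _ => f) (fun _ => g) (fun _ => hf) (fun _ => hg) (by simpa using hfg)

theorem RowEx.of_RP {M : Bim k R S V} (h : RowEx Q (Bim.reg k S)) (hM : M.RP) : RowEx Q M := by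
  obtain ⟨n, v, φ, h1, h2⟩ := hM
  exact h.of_sum Finset.univ (fun i => M.r.flip (v i)) φ (fun i a x => M.r_mul _ _ _) h1 h2

theorem ColEx.of_LP {M : Bim k R S V} (h : ColEx P (Bim.reg k R)) (hM : M.LP) : ColEx P M := by
  obtain ⟨n, v, φ, h1, h2⟩ := hM
  exact h.of_sum Finset.univ (fun i => M.l.flip (v i)) φ (fun i a x => M.l_mul _ _ _) h1 h2

theorem RowEx.prod (h₁ : RowEx Q M₁) (h₃ : RowEx Q M₃) : RowEx Q (M₁.prod M₃) :=
  h₁.ses₂ h₃ (f := LinearMap.inl k U W) (g := LinearMap.snd k U W) (by simp) (by simp)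
    LinearMap.inl_injective Function.Exact.inl_snd Prod.snd_surjective

theorem ColEx.prod (h₁ : ColEx P M₁) (h₃ : ColEx P M₃) : ColEx P (M₁.prod M₃) :=
  h₁.ses₂ h₃ (f := LinearMap.inl k U W) (g := LinearMap.snd k U W) (by simp) (by simp)
    LinearMap.inl_injective Function.Exact.inl_snd Prod.snd_surjective

end Closure

section Induced

variable {P : MC R I} {Q : MC S J}

/-- the rows of an exact complex have a linear contraction -/
theorem RowEx.contraction {M : Bim k R S V} (h : RowEx Q M) :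
    ∃ (H e : (J →₀ V) →ₗ[k] (J →₀ V)), (∀ r j, e r j = M.r (Q.ε j) (r j)) ∧
      ∀ r, rmul M.r.flip Q.δ (H (e r)) + H (rmul M.r.flip Q.δ (e r)) = e r := by
  classical
  set D := rmul M.r.flip Q.δ with hD
  let e : (J →₀ V) →ₗ[k] (J →₀ V) := rmul M.r.flip (diag Q.ε)
  have he : ∀ r j, e r j = M.r (Q.ε j) (r j) := fun r j =>
    mmul_diag_right M.r.flip (fun _ : Unit => r) Q.ε () j
  have hee : ∀ r, e (e r) = e r := fun r => by
    ext j
    rw [he, he, ← M.r_mul, Q.εε]
  have hDe : ∀ r, D (e r) = D r := fun r => by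
    ext l
    rw [rmul_apply_of_subset (S := r.support), rmul_apply_of_subset (S := r.support)]
    · exact Finset.sum_congr rfl fun j _ => by simp [he, ← M.r_mul, Q.εδ]
    · intro j hj
      exact Finsupp.mem_support_iff.2 fun h0 => hj (by simp [h0])
    · intro j hj
      exact Finsupp.mem_support_iff.2 fun h0 => hj (by simp [he, h0])
  have hDD : ∀ r, D (D r) = 0 := fun r => by
    have := (cx (MC.pt k) Q (M.fL.at 0)).DD (fun _ => r)
    have := congrFun this ()
    rwa [row_D, row_D] at this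
  have hex : ∀ r, e r = r → D r = 0 → r ∈ LinearMap.range D := by
    intro r hr hr'
    have e1 : r = ∑ m ∈ r.support.image Q.deg, r.filter (fun j => Q.deg j = m) := by
      ext j
      rw [Finsupp.finsetSum_apply]
      simp only [Finsupp.filter_apply, Finset.sum_ite_eq, Finset.mem_image]
      split_ifs with h0
      · rfl
      · by_contra h1
        exact h0 ⟨j, Finsupp.mem_support_iff.2 h1, rfl⟩
    rw [e1]
    refine Submodule.sum_mem _ fun m _ => (row_van_iff Q M m).1 (h _) _ (fun j => ?_)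
      (fun j hj => by simp [hj]) ?_
    · rw [Finsupp.filter_apply]
      split_ifs
      · rw [← he, hr]
      · exact map_zero _
    · ext l
      rw [rmul_apply_of_subset (S := r.support) _ _ _ _ (fun j hj =>
        Finsupp.mem_support_iff.2 fun h0 => hj (by simp [Finsupp.filter_apply, h0]))]
      by_cases hl : Q.deg l = m - 1
      · have := congrArg (fun x => x l) hr'
        simp only [hD, rmul_apply, Finsupp.sum] at this
        refine Eq.trans (Finset.sum_congr rfl fun j _ => ?_) this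
        by_cases h0 : Q.δ j l = 0
        · simp [h0]
        · rw [Finsupp.filter_apply, if_pos (by have := Q.hom j l h0; omega)]
      · refine Finset.sum_eq_zero fun j _ => ?_
        by_cases h0 : Q.δ j l = 0
        · simp [h0]
        · rw [Finsupp.filter_apply, if_neg (by have := Q.hom j l h0; omega)]
          simp
  obtain ⟨s₀, hs₀⟩ := D.rangeRestrict.exists_rightInverse_of_surjective D.range_rangeRestrict
  obtain ⟨s, hs⟩ := LinearMap.exists_extend s₀
  have hDs : ∀ y ∈ LinearMap.range D, D (e (s y)) = y := fun y hy => by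
    have h1 : s y = s₀ ⟨y, hy⟩ := LinearMap.congr_fun hs ⟨y, hy⟩
    rw [hDe, h1]
    exact congrArg Subtype.val (LinearMap.congr_fun hs₀ ⟨y, hy⟩)
  refine ⟨e ∘ₗ s ∘ₗ (LinearMap.id + e ∘ₗ s ∘ₗ D), e, he, fun r => ?_⟩
  have h1 : e r + e (s (D (e r))) ∈ LinearMap.range D := hex _ (by rw [map_add, hee, hee])
    (by rw [map_add, hDs _ ⟨_, rfl⟩, add_self k])
  simp only [LinearMap.comp_apply, LinearMap.add_apply, LinearMap.id_apply, hDs _ h1, hDD,
    map_zero, add_zero]
  char2 k

/-- matrices with entries in an induced bimodule form an exact complex -/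
theorem RowEx.van_ind {M : Bim k R S V} (h : RowEx Q M) {N : Bim k T S (R ⊗[k] V)}
    (hN : ∀ a, ∃ u : R →ₗ[k] R, N.l a = u.rTensor V) (hr : N.r = M.ind.r) (P : MC T I) (s n : ℤ) :
    (cx P Q (N.at s)).Van n := by
  classical
  obtain ⟨H, e, he, hH⟩ := h.contraction
  let Φ := TensorProduct.finsuppRight k k R V J
  have hΦ : ∀ a (r : J →₀ V) j, Φ (a ⊗ₜ r) j = a ⊗ₜ r j := fun a r j =>
    TensorProduct.finsuppRight_apply_tmul_apply a r j
  have h1 : ∀ x, Φ ((rmul M.r.flip Q.δ).lTensor R x) = rmul N.r.flip Q.δ (Φ x) := by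
    intro x
    induction x with
    | zero => simp
    | add y z hy hz => simp only [map_add, hy, hz]
    | tmul a r =>
      ext l
      rw [LinearMap.lTensor_tmul, hΦ, rmul_apply_of_subset (S := r.support),
        rmul_apply_of_subset (S := r.support), tmul_sum]
      · exact Finset.sum_congr rfl fun j _ => by simp [hΦ, hr]
      · intro j hj
        exact Finsupp.mem_support_iff.2 fun h0 => hj (by simp [hΦ, h0])
      · intro j hj
        exact Finsupp.mem_support_iff.2 fun h0 => hj (by simp [h0])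
  have h2 : ∀ x j, Φ (e.lTensor R x) j = N.r (Q.ε j) (Φ x j) := by
    intro x j
    induction x with
    | zero => simp
    | add y z hy hz => simp only [map_add, Finsupp.add_apply, hy, hz]
    | tmul a r => simp [hΦ, he, hr]
  have h3 : ∀ (u : R →ₗ[k] R) x j, Φ (u.rTensor _ x) j = u.rTensor V (Φ x j) := by
    intro u x j
    induction x with
    | zero => simp
    | add y z hy hz => simp only [map_add, Finsupp.add_apply, hy, hz]
    | tmul a r => simp [hΦ]
  let G : (J →₀ R ⊗[k] V) →ₗ[k] (J →₀ R ⊗[k] V) := Φ.toLinearMap ∘ₗ H.lTensor R ∘ₗ Φ.symm.toLinearMap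
  have hG : ∀ y, G (Φ y) = Φ (H.lTensor R y) := fun y => by simp [G]
  have h4 : ∀ a y, G (Finsupp.mapRange (N.l a) (map_zero _) y) =
      Finsupp.mapRange (N.l a) (map_zero _) (G y) := by
    intro a y
    obtain ⟨y, rfl⟩ := Φ.surjective y
    obtain ⟨u, hu⟩ := hN a
    have e1 : ∀ z, Finsupp.mapRange (N.l a) (map_zero _) (Φ z) = Φ (u.rTensor _ z) := fun z => by
      ext j
      rw [Finsupp.mapRange_apply, h3, hu]
    rw [e1, hG, hG, e1, ← LinearMap.comp_apply (H.lTensor R), LinearMap.lTensor_comp_rTensor,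
      ← LinearMap.rTensor_comp_lTensor, LinearMap.comp_apply]
  intro c hc
  refine ⟨fun i => G (c i), funext fun i => ?_⟩
  have e1 : N.ml P.δ (fun i => G (c i)) i = G (N.ml P.δ c i) := by
    rw [mmul_row, mmul_row]
    induction P.δ i using Finsupp.induction_linear with
    | zero => simp
    | add y z hy hz => simp only [map_add, hy, hz]
    | single j a => rw [rmul_single, rmul_single, h4]
  have e2 := congrFun hc.2 i
  rw [D_row, Pi.zero_apply, add_eq_zero_iff k] at e2
  rw [D_row, e1, e2]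
  obtain ⟨y, hy⟩ := Φ.surjective (c i)
  have e3 : e.lTensor R y = y := Φ.injective (Finsupp.ext fun j => by
    rw [h2, hy, (entry_of_P hc.1 i j).2.1])
  rw [← hy, ← h1, hG, hG, ← h1, ← map_add, ← e3]
  congr 1
  simp only [← LinearMap.lTensor_comp_apply, ← LinearMap.add_apply, ← LinearMap.lTensor_add]
  congr 2
  refine LinearMap.ext fun r => ?_
  simpa [add_comm] using hH r

theorem RowEx.ind {M : Bim k R S V} (h : RowEx Q M) : RowEx Q M.ind := fun n =>
  h.van_ind (N := M.ind.fL) (fun a => ⟨a • LinearMap.id, by ext; simp [smul_tmul']⟩) rfl _ 0 n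

theorem RowEx.van_ind' {M : Bim k R S V} (h : RowEx Q M) (P : MC R I) (s n : ℤ) :
    (cx P Q (M.ind.at s)).Van n :=
  h.van_ind (fun a => ⟨LinearMap.mul k R a, rfl⟩) rfl P s n

end Induced

section Pairing

/-- a balanced pairing of differential graded bimodules -/
structure Pairing (M₁ : DG k R S U) (M₂ : DG k S T V) (M₃ : DG k R T W)
    (μ : U →ₗ[k] V →ₗ[k] W) : Prop where
  hl : ∀ a x y, μ (M₁.l a x) y = M₃.l a (μ x y)
  hm : ∀ a x y, μ (M₁.r a x) y = μ x (M₂.l a y)
  hr : ∀ a x y, μ x (M₂.r a y) = M₃.r a (μ x y)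
  hd : ∀ x y, M₃.d (μ x y) = μ (M₁.d x) y + μ x (M₂.d y)

theorem Pairing.D {M₁ : DG k R S U} {M₂ : DG k S T V} {M₃ : DG k R T W} {μ : U →ₗ[k] V →ₗ[k] W}
    (h : Pairing M₁ M₂ M₃ μ) (P : MC R I) (Q : MC S J) (O : MC T L) (x : Mat I J U)
    (y : Mat J L V) : (cx P O M₃).D (mmul μ x y) =
      mmul μ ((cx P Q M₁).D x) y + mmul μ x ((cx Q O M₂).D y) := by
  have e1 : mmul μ (M₁.ml P.δ x) y = M₃.ml P.δ (mmul μ x y) := mmul_assoc h.hl _ _ _
  have e2 : mmul μ (M₁.mr x Q.δ) y = mmul μ x (M₂.ml Q.δ y) :=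
    mmul_assoc (fun x a y => h.hm a x y) _ _ _
  have e3 : M₃.mr (mmul μ x y) O.δ = mmul μ x (M₂.mr y O.δ) :=
    mmul_assoc (fun x y a => (h.hr a x y).symm) _ _ _
  have e4 : mmap M₃.d (mmul μ x y) = mmul μ (mmap M₁.d x) y + mmul μ x (mmap M₂.d y) := by
    rw [mmap_mmul (ν := μ ∘ₗ M₁.d + μ.compl₂ M₂.d) x y x y (fun i j l => by simp [h.hd]),
      mmul_add_pair]
    congr 1 <;> exact mmul_congr _ _ _ _ fun _ _ _ => rfl
  simp only [cx_D, map_add, LinearMap.add_apply, e1, e2, e3, e4]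
  char2 k

omit [CharP k 2] in
theorem pairing_l (M : DG k R S V) : Pairing ((Bim.reg k R).at 0) M M M.l :=
  ⟨M.l_mul, fun a x y => M.l_mul x a y, fun a x y => M.lr x a y, fun x y => by simp [M.dl]⟩

omit [CharP k 2] in
theorem pairing_r (M : DG k R S V) : Pairing M ((Bim.reg k S).at 0) M M.r.flip :=
  ⟨fun a x y => (M.lr a y x).symm, fun a x y => (M.r_mul a y x).symm,
    fun a x y => M.r_mul y a x, fun x y => by simp [M.dr]⟩

theorem D_ml (P : MC R I) (Q : MC S J) (M : DG k R S V) (a : Mat I I R) (c : Mat I J V) :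
    (cx P Q M).D (M.ml a c) = M.ml ((cx P P ((Bim.reg k R).at 0)).D a) c +
      M.ml a ((cx P Q M).D c) := (pairing_l M).D P P Q a c

theorem D_mr (P : MC R I) (Q : MC S J) (M : DG k R S V) (c : Mat I J V) (a : Mat J J S) :
    (cx P Q M).D (M.mr c a) = M.mr ((cx P Q M).D c) a +
      M.mr c ((cx Q Q ((Bim.reg k S).at 0)).D a) := (pairing_r M).D P Q Q c a

theorem entry_of_P' {P : MC R I} {Q : MC S J} {M : DG k R S V} {n : ℤ} {x : Mat I J V}
    (hx : (cx P Q M).P n x = x) (i : I) (j : J) : M.l (P.ε i) (x i j) = x i j ∧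
      M.r (Q.ε j) (x i j) = x i j ∧ M.p (P.deg i - Q.deg j - n) (x i j) = x i j := by
  rw [← hx, cx_P]
  refine ⟨by rw [← M.l_mul, P.εε], by rw [← M.lr, ← M.r_mul, Q.εε], ?_⟩
  rw [M.pl, M.pr, M.pp, if_pos rfl]

theorem P_ml {P : MC R I} {Q : MC S J} {M : DG k R S V} {n m l : ℤ} (hl : l = n + m)
    {a : Mat I I R} {c : Mat I J V} (ha : (cx P P ((Bim.reg k R).at 0)).P n a = a)
    (hc : (cx P Q M).P m c = c) : (cx P Q M).P l (M.ml a c) = M.ml a c := by
  refine emap_mmul _ _ _ _ fun i j o => ?_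
  by_cases h : a i j = 0
  · simp [h]
  · have h1 := entry_of_P ha i j
    have h2 := entry_of_P' hc j o
    have h3 : P.deg i - Q.deg o - l = P.deg j - Q.deg o - m := by
      have := mt h1.2.2 h
      omega
    rw [DG.ep_apply, M.pl, h3, h2.2.2, ← M.lr, h2.2.1, ← M.l_mul]
    exact congrArg (fun t => M.l t _) h1.1

theorem P_mr {P : MC R I} {Q : MC S J} {M : DG k R S V} {n m l : ℤ} (hl : l = n + m)
    {a : Mat J J S} {c : Mat I J V} (ha : (cx Q Q ((Bim.reg k S).at 0)).P n a = a)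
    (hc : (cx P Q M).P m c = c) : (cx P Q M).P l (M.mr c a) = M.mr c a := by
  refine emap_mmul _ _ _ _ fun i j o => ?_
  by_cases h : a j o = 0
  · simp [h]
  · have h1 := entry_of_P ha j o
    have h2 := entry_of_P' hc i j
    have h3 : P.deg i - Q.deg o - l = P.deg i - Q.deg j - m := by
      have := mt h1.2.2 h
      omega
    rw [DG.ep_apply, LinearMap.flip_apply, M.pr, h3, h2.2.2, ← M.r_mul, M.lr, h2.1]
    exact congrArg (fun t => M.r t _) h1.2.1

theorem Z_ml {P : MC R I} {Q : MC S J} {M : DG k R S V} {n m l : ℤ} (hl : l = n + m)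
    {a : Mat I I R} {c : Mat I J V} (ha : (cx P P ((Bim.reg k R).at 0)).Z n a)
    (hc : (cx P Q M).Z m c) : (cx P Q M).Z l (M.ml a c) :=
  ⟨P_ml hl ha.1 hc.1, by simp [D_ml, ha.2, hc.2]⟩

theorem Z_mr {P : MC R I} {Q : MC S J} {M : DG k R S V} {n m l : ℤ} (hl : l = n + m)
    {a : Mat J J S} {c : Mat I J V} (ha : (cx Q Q ((Bim.reg k S).at 0)).Z n a)
    (hc : (cx P Q M).Z m c) : (cx P Q M).Z l (M.mr c a) :=
  ⟨P_mr hl ha.1 hc.1, by simp [D_mr, ha.2, hc.2]⟩

theorem B_ml {P : MC R I} {Q : MC S J} {M : DG k R S V} {a : Mat I I R} {c : Mat I J V}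
    (ha : (cx P P ((Bim.reg k R).at 0)).D a = 0) (hc : (cx P Q M).B c) :
    (cx P Q M).B (M.ml a c) := by
  obtain ⟨b, rfl⟩ := hc
  exact ⟨M.ml a b, by simp [D_ml, ha]⟩

theorem B_ml' {P : MC R I} {Q : MC S J} {M : DG k R S V} {a : Mat I I R} {c : Mat I J V}
    (ha : (cx P P ((Bim.reg k R).at 0)).B a) (hc : (cx P Q M).D c = 0) :
    (cx P Q M).B (M.ml a c) := by
  obtain ⟨b, rfl⟩ := ha
  exact ⟨M.ml b c, by simp [D_ml, hc]⟩

theorem B_mr {P : MC R I} {Q : MC S J} {M : DG k R S V} {a : Mat J J S} {c : Mat I J V}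
    (ha : (cx Q Q ((Bim.reg k S).at 0)).D a = 0) (hc : (cx P Q M).B c) :
    (cx P Q M).B (M.mr c a) := by
  obtain ⟨b, rfl⟩ := hc
  exact ⟨M.mr b a, by simp [D_mr, ha]⟩

theorem B_mr' {P : MC R I} {Q : MC S J} {M : DG k R S V} {a : Mat J J S} {c : Mat I J V}
    (ha : (cx Q Q ((Bim.reg k S).at 0)).B a) (hc : (cx P Q M).D c = 0) :
    (cx P Q M).B (M.mr c a) := by
  obtain ⟨b, rfl⟩ := ha
  exact ⟨M.mr c b, by simp [D_mr, hc]⟩

end Pairing

end Crest.Agent.R186
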