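import Crest.Agent.R186.Proj

/-!
Replacing a bounded differential graded bimodule by a bimodule.
-/

set_option autoImplicit false

noncomputable section

namespace Crest.Agent.R186

open TensorProduct

universe u

variable {k : Type u} [Field k] [CharP k 2]
variable {I : Type*} {E : Type u} [Ring E] [Algebra k E]

section

variable {V W : Type*} [AddCommGroup V] [Module k V] [AddCommGroup W] [Module k W]

variable (k) in
/-- the endomorphism complex -/
abbrev ecx (P : MC E I) : Cx k (Mat I I E) := cx P P ((Bim.reg k E).at 0)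

/-- the property of the gluing bimodule -/
def Good (P : MC E I) (M : DG k E E V) : Prop :=
  ∃ v, (cx P P M).Z 0 v ∧
    (∀ n, n ≠ 0 → ∀ a b, (ecx k P).Z n a → (ecx k P).Z n b → (cx P P M).B (M.ml a v + M.mr v b) →
      (ecx k P).B a ∧ (ecx k P).B b) ∧
    ∀ n, n ≠ -2 → ∀ c, (cx P P M).Z n c →
      ∃ a b, (ecx k P).Z n a ∧ (ecx k P).Z n b ∧ (cx P P M).B (c + (M.ml a v + M.mr v b))

variable {P : MC E I} {M : DG k E E V} {N : DG k E E W} {f : V →ₗ[k] W}

theorem Good.map (hf : DHom M N 0 f)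
    (inj : ∀ n c, (cx P P M).Z n c → (cx P P N).B (mmap f c) → (cx P P M).B c)
    (surj : ∀ n c, (cx P P N).Z n c → ∃ c', (cx P P M).Z n c' ∧ (cx P P N).B (c + mmap f c'))
    (h : Good P M) : Good P N := by
  obtain ⟨v, hv, h1, h2⟩ := h
  refine ⟨mmap f v, (hf.cmap P P).Z (by ring) hv, fun n hn a b ha hb hB => ?_, fun n hn c hc => ?_⟩
  · refine h1 n hn a b ha hb (inj n _ ((Z_ml (by ring) ha hv).add (Z_mr (by ring) hb hv)) ?_)
    rwa [map_add, hf.ml, hf.mr]
  · obtain ⟨c', hc', hB⟩ := surj n c hc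
    obtain ⟨a, b, ha, hb, hB'⟩ := h2 n hn c' hc'
    refine ⟨a, b, ha, hb, (hB.add ((hf.cmap P P).B hB')).of_eq ?_⟩
    rw [map_add, map_add, hf.ml, hf.mr]
    char2 k

theorem Good.comap (hf : DHom M N 0 f)
    (inj : ∀ n c, (cx P P M).Z n c → (cx P P N).B (mmap f c) → (cx P P M).B c)
    (surj : ∀ n c, (cx P P N).Z n c → ∃ c', (cx P P M).Z n c' ∧ (cx P P N).B (c + mmap f c'))
    (h : Good P N) : Good P M := by
  obtain ⟨v', hv', h1, h2⟩ := h
  obtain ⟨v, hv, hvv⟩ := surj 0 v' hv'
  have key : ∀ {n a b}, (ecx k P).Z n a → (ecx k P).Z n b →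
      (cx P P N).B (N.ml a v' + N.mr v' b + mmap f (M.ml a v + M.mr v b)) := by
    intro n a b ha hb
    refine ((B_ml ha.2 hvv).add (B_mr hb.2 hvv)).of_eq ?_
    simp only [map_add, LinearMap.add_apply, hf.ml, hf.mr]
    abel
  refine ⟨v, hv, fun n hn a b ha hb hB => ?_, fun n hn c hc => ?_⟩
  · exact h1 n hn a b ha hb (((key ha hb).add ((hf.cmap P P).B hB)).of_eq (by char2 k))
  · obtain ⟨a, b, ha, hb, hB⟩ := h2 n hn _ ((hf.cmap P P).Z (by ring) hc)
    refine ⟨a, b, ha, hb, inj n _
      (hc.add ((Z_ml (by ring) ha hv).add (Z_mr (by ring) hb hv))) ?_⟩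
    rw [map_add]
    exact (hB.add (key ha hb)).of_eq (by char2 k)

omit [CharP k 2] in
theorem DG.p_p (M : DG k E E V) (m : ℤ) (x : V) : M.p m (M.p m x) = M.p m x := by
  rw [M.pp, if_pos rfl]

/-- the component of degree `m` -/
def DG.comp (M : DG k E E V) (m : ℤ) : Bim k E E (LinearMap.range (M.p m)) :=
  M.toBim.sub _ (by rintro a _ ⟨x, rfl⟩; exact ⟨_, M.pl _ _ _⟩)
    (by rintro a _ ⟨x, rfl⟩; exact ⟨_, M.pr _ _ _⟩)

omit [CharP k 2] in
theorem DG.p_comp (M : DG k E E V) (m n : ℤ) (x : LinearMap.range (M.p m)) :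
    M.p n x = if n = m then (x : V) else 0 := by
  obtain ⟨_, x, rfl⟩ := x
  exact M.pp _ _ _

theorem RowEx.comp {M : DG k E E V} (h : RowEx P M.toBim) (m : ℤ) : RowEx P (M.comp m) :=
  h.retract (M.p m).rangeRestrict (Submodule.subtype _) (fun a x => Subtype.ext (M.pr _ _ _))
    (fun _ _ => rfl) (fun x => Subtype.ext ((M.p_comp m m x).trans (if_pos rfl)))

theorem ColEx.comp {M : DG k E E V} (h : ColEx P M.toBim) (m : ℤ) : ColEx P (M.comp m) :=
  h.retract (M.p m).rangeRestrict (Submodule.subtype _) (fun a x => Subtype.ext (M.pl _ _ _))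
    (fun _ _ => rfl) (fun x => Subtype.ext ((M.p_comp m m x).trans (if_pos rfl)))

theorem Good.comp {M : DG k E E V} {s : ℤ} (hM : ∀ m, m ≠ s → M.p m = 0) (h : Good P M) :
    Good P ((M.comp s).at s) := by
  have h1 : DHom ((M.comp s).at s) M 0 (Submodule.subtype _) :=
    { hl := fun _ _ => rfl
      hr := fun _ _ => rfl
      hd := fun ⟨_, x, rfl⟩ => by
        have := M.pd (s - 1) x
        rw [hM _ (by omega), sub_add_cancel] at this
        exact this
      hp := fun m x => by
        rw [Bim.at_p, sub_zero, Submodule.subtype_apply, M.p_comp]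
        split_ifs <;> rfl }
  have h2 : DHom M ((M.comp s).at s) 0 (M.p s).rangeRestrict :=
    { hl := fun a x => Subtype.ext (M.pl _ _ _)
      hr := fun a x => Subtype.ext (M.pr _ _ _)
      hd := fun x => Subtype.ext (by
        change M.p s (M.d x) = 0
        rw [M.pd, hM _ (by omega), LinearMap.zero_apply, map_zero])
      hp := fun m x => Subtype.ext (by
        rw [Bim.at_p, sub_zero]
        change _ = M.p s (M.p m x)
        rw [M.pp]
        by_cases hm : m = s
        · subst hm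
          simp
        · simp [hm, Ne.symm hm]) }
  refine h.comap h1 (fun n c _ hB => ((h2.cmap P P).B hB).of_eq (Mat.ext' fun i j => ?_))
    (fun n c hc => ⟨_, (h2.cmap P P).Z (by ring) hc, Cx.B.zero.of_eq (Mat.ext' fun i j => ?_)⟩)
  · exact Subtype.ext ((M.p_comp s s _).trans (if_pos rfl))
  · have e := (entry_of_P' hc.1 i j).2.2
    change 0 = c i j + M.p s (c i j)
    by_cases hm : P.deg i - P.deg j - n = s
    · rw [← hm, e, add_self k]
    · rw [← e, hM _ hm]
      simp

/-- a sub-object -/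
def DG.sub (M : DG k E E V) (X : Submodule k V) (hl : ∀ a, ∀ x ∈ X, M.l a x ∈ X)
    (hr : ∀ a, ∀ x ∈ X, M.r a x ∈ X) (hd : ∀ x ∈ X, M.d x ∈ X) (hp : ∀ m, ∀ x ∈ X, M.p m x ∈ X) :
    DG k E E X where
  toBim := M.toBim.sub X hl hr
  d := M.d.restrict hd
  p m := (M.p m).restrict (hp m)
  dd x := Subtype.ext (M.dd x)
  dl a x := Subtype.ext (M.dl a x)
  dr a x := Subtype.ext (M.dr a x)
  pp m n x := Subtype.ext (by
    split_ifs with h
    · exact (M.pp m n x).trans (if_pos h)
    · exact (M.pp m n x).trans (if_neg h))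
  pl m a x := Subtype.ext (M.pl m a x)
  pr m a x := Subtype.ext (M.pr m a x)
  pd m x := Subtype.ext (M.pd m x)

/-- the kernel of a map -/
def DHom.ker (hf : DHom M N 0 f) : DG k E E (LinearMap.ker f) :=
  M.sub _ (fun a x hx => by simp [hf.hl, LinearMap.mem_ker.1 hx])
    (fun a x hx => by simp [hf.hr, LinearMap.mem_ker.1 hx])
    (fun x hx => by simp [hf.hd, LinearMap.mem_ker.1 hx])
    (fun m x hx => by
      have := hf.hp m x
      rw [sub_zero, LinearMap.mem_ker.1 hx, map_zero] at this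
      exact this.symm)

omit [CharP k 2] in
theorem DHom.ker_incl (hf : DHom M N 0 f) : DHom hf.ker M 0 (Submodule.subtype _) :=
  ⟨fun _ _ => rfl, fun _ _ => rfl, fun _ => rfl, fun m x => by rw [sub_zero]; rfl⟩

/-- the cone of the identity -/
def Bim.cone (B : Bim k E E V) (s : ℤ) : DG k E E (V × V) where
  toBim := B.prod B
  d := LinearMap.inl k V V ∘ₗ LinearMap.snd k V V
  p m := ((B.at s).p m).prodMap ((B.at (s + 1)).p m)
  dd x := by simp
  dl a x := by simp
  dr a x := by simp
  pp m n x := by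
    rw [LinearMap.prodMap_apply, LinearMap.prodMap_apply, DG.pp, DG.pp]
    split_ifs <;> rfl
  pl m a x := Prod.ext ((B.at s).pl m a _) ((B.at (s + 1)).pl m a _)
  pr m a x := Prod.ext ((B.at s).pr m a _) ((B.at (s + 1)).pr m a _)
  pd m x := by simp [Bim.at_p]

theorem Bim.van_cone (B : Bim k E E V) (s n : ℤ) : (cx P P (B.cone s)).Van n := by
  intro c hc
  let h : V × V →ₗ[k] V × V := LinearMap.inr k V V ∘ₗ LinearMap.fst k V V
  have h1 : mmap h ((B.cone s).ml P.δ c) = (B.cone s).ml P.δ (mmap h c) :=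
    mmap_mmul _ _ _ _ fun _ _ _ => by simp [h, Bim.cone]
  have h2 : mmap h ((B.cone s).mr c P.δ) = (B.cone s).mr (mmap h c) P.δ :=
    mmap_mmul _ _ _ _ fun _ _ _ => by simp [h, Bim.cone]
  have h3 : mmap (B.cone s).d (mmap h c) = c + mmap h (mmap (B.cone s).d c) :=
    Mat.ext' fun i j => by simp [h, Bim.cone, Prod.ext_iff, add_self k]
  have h4 := congrArg (mmap h) hc.2
  rw [cx_D, map_add, map_add, map_zero, add_eq_zero_iff k] at h4
  exact ⟨mmap h c, by rw [cx_D, ← h1, ← h2, h3, h4]; char2 k⟩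

/-- the action map -/
def Bim.act (B : Bim k E E V) : E ⊗[k] V →ₗ[k] V := TensorProduct.lift B.l

omit [CharP k 2] in
theorem Bim.act_l (B : Bim k E E V) (a : E) (x : E ⊗[k] V) :
    B.act (B.ind.l a x) = B.l a (B.act x) := by
  induction x <;> simp_all [Bim.act, B.l_mul]

omit [CharP k 2] in
theorem Bim.act_r (B : Bim k E E V) (a : E) (x : E ⊗[k] V) :
    B.act (B.ind.r a x) = B.r a (B.act x) := by
  induction x <;> simp_all [Bim.act, B.lr]

/-- adding an induced bimodule that covers the lowest component -/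
def DG.ext (M : DG k E E V) (lo : ℤ) (hlo : M.p (lo - 1) = 0) :
    DG k E E (V × E ⊗[k] LinearMap.range (M.p lo)) where
  toBim := M.toBim.prod (M.comp lo).ind
  d := LinearMap.inl k _ _ ∘ₗ M.d.coprod (Submodule.subtype _ ∘ₗ (M.comp lo).act)
  p m := (M.p m).prodMap (((M.comp lo).ind.at (lo + 1)).p m)
  dd x := by
    obtain ⟨y, hy⟩ := ((M.comp lo).act x.2).2
    have := M.pd (lo - 1) y
    rw [hlo, sub_add_cancel, hy] at this
    simp [M.dd, ← this]
  dl a x := by simp [M.dl, Bim.act_l, DG.comp]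
  dr a x := by simp [M.dr, Bim.act_r, DG.comp]
  pp m n x := by
    rw [LinearMap.prodMap_apply, LinearMap.prodMap_apply, DG.pp, DG.pp]
    split_ifs <;> rfl
  pl m a x := Prod.ext (M.pl m a _) (((M.comp lo).ind.at (lo + 1)).pl m a _)
  pr m a x := Prod.ext (M.pr m a _) (((M.comp lo).ind.at (lo + 1)).pr m a _)
  pd m x := by
    by_cases h : m = lo <;> simp [Bim.at_p, M.pd, M.p_comp, h]

end

theorem reduce (P : MC E I) [Module.Finite k E] (hc : ColEx P (Bim.reg k E)) (hi : ℤ) (N : ℕ) :
    ∀ (V : Type u) [AddCommGroup V] [Module k V] [Module.Finite k V] (M : DG k E E V),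
      (∀ m, m < hi - N ∨ hi < m → M.p m = 0) → RowEx P M.toBim → ColEx P M.toBim → Good P M →
      ∃ (F : Type u) (_ : AddCommGroup F) (_ : Module k F) (_ : Module.Finite k F)
        (B : Bim k E E F), RowEx P B ∧ ColEx P B ∧ Good P (B.at hi) := by
  induction N with
  | zero =>
    intro V _ _ _ M hM h1 h2 h3
    exact ⟨_, _, _, inferInstance, M.comp hi, h1.comp hi, h2.comp hi,
      h3.comp fun m hm => hM m (by omega)⟩
  | succ N ih =>
    intro V _ _ _ M hM h1 h2 h3
    set lo := hi - (N + 1 : ℕ) with hlo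
    have hlo' : M.p (lo - 1) = 0 := hM _ (by omega)
    let M'' := M.ext lo hlo'
    have f1 : DHom M M'' 0 (LinearMap.inl k _ _) :=
      ⟨by simp [M'', DG.ext], by simp [M'', DG.ext], by simp [M'', DG.ext], by simp [M'', DG.ext]⟩
    have g1 : DHom M'' ((M.comp lo).ind.at (lo + 1)) 0 (LinearMap.snd k _ _) :=
      ⟨by simp [M'', DG.ext], by simp [M'', DG.ext], by simp [M'', DG.ext], by simp [M'', DG.ext]⟩
    have s1 := cses f1 g1 LinearMap.inl_injective Function.Exact.inl_snd Prod.snd_surjective P P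
    have v1 := (h1.comp lo).van_ind' P (lo + 1)
    have h3' : Good P M'' := h3.map f1 (fun n c hc hB => s1.inj_f (by ring) (v1 (n - 1)) hc hB)
      (fun n c hc => s1.surj_f (by ring) (by ring) (v1 n) hc)
    let ρ := (M.p lo).rangeRestrict
    let g : V × E ⊗[k] LinearMap.range (M.p lo) →ₗ[k]
        LinearMap.range (M.p lo) × LinearMap.range (M.p lo) :=
      (ρ ∘ₗ LinearMap.fst k _ _).prod ((ρ ∘ₗ M.d).coprod (M.comp lo).act)
    have hρ : ∀ x : LinearMap.range (M.p lo), ρ x = x := fun x =>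
      Subtype.ext ((M.p_comp lo lo x).trans (if_pos rfl))
    have g2 : DHom M'' ((M.comp lo).cone lo) 0 g :=
      { hl := fun a x => Prod.ext (Subtype.ext (M.pl _ _ _)) (Subtype.ext (by
          simp [g, ρ, M'', DG.ext, Bim.cone, Bim.act_l, M.dl, M.pl, DG.comp]))
        hr := fun a x => Prod.ext (Subtype.ext (M.pr _ _ _)) (Subtype.ext (by
          simp [g, ρ, M'', DG.ext, Bim.cone, Bim.act_r, M.dr, M.pr, DG.comp]))
        hd := fun x => by
          have := congrArg Prod.fst (M''.dd x)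
          simp only [M'', DG.ext, LinearMap.comp_apply, LinearMap.inl_apply, LinearMap.coprod_apply,
            map_zero, add_zero, Prod.fst_zero] at this
          have h' : ρ (M.d (M.d x.1)) + ρ (M.d ((M.comp lo).act x.2)) = 0 := by
            rw [← map_add, ← map_add]
            exact (congrArg ρ this).trans (map_zero _)
          simp [g, M'', DG.ext, Bim.cone, -map_add]
          simpa [hρ] using h'
        hp := fun m x => by
          refine Prod.ext (Subtype.ext ?_) (Subtype.ext ?_)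
          · by_cases h : m = lo <;> simp [g, ρ, M'', DG.ext, Bim.cone, Bim.at_p, M.pp, h, eq_comm]
          · have := M.pd (m - 1) x.1
            rw [sub_add_cancel] at this
            by_cases h : m = lo + 1
            · simp [g, ρ, M'', DG.ext, Bim.cone, Bim.at_p, M.pp, h, M.pd]
            · simp [g, ρ, M'', DG.ext, Bim.cone, Bim.at_p, M.pp, h, ← this,
                show lo ≠ m - 1 by omega] }
    have gs : Function.Surjective g := fun y =>
      ⟨(y.1, 1 ⊗ₜ (y.2 + ρ (M.d y.1))), by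
        refine Prod.ext (hρ _) ?_
        change ρ (M.d y.1) + (M.comp lo).l 1 (y.2 + ρ (M.d y.1)) = y.2
        rw [Bim.l_one, add_comm y.2, ← add_assoc, add_self k, zero_add]⟩
    have s2 := cses g2.ker_incl g2 (Submodule.injective_subtype _) (LinearMap.exact_subtype_ker_map g)
      gs P P
    have v2 := (M.comp lo).van_cone (P := P) lo
    refine ih _ g2.ker (fun m hm => ?_) ?_ ?_ ?_
    · refine LinearMap.ext fun x => Subtype.ext (Prod.ext ?_ ?_)
      · change M.p m x.1.1 = 0
        by_cases h : m = lo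
        · subst h
          exact congrArg (fun y => (y.1 : V)) (LinearMap.mem_ker.1 x.2)
        · rw [hM m (by omega), LinearMap.zero_apply]
      · change ((M.comp lo).ind.at (lo + 1)).p m x.1.2 = 0
        rw [Bim.at_p, if_neg (by omega)]
    · exact (h1.prod (h1.comp lo).ind).ses₁ ((h1.comp lo).prod (h1.comp lo)) g2.ker_incl.hr g2.hr
        (Submodule.injective_subtype _) (LinearMap.exact_subtype_ker_map g) gs
    · exact (h2.prod (hc.of_LP (M.comp lo).LP_ind)).ses₁ ((h2.comp lo).prod (h2.comp lo))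
        g2.ker_incl.hl g2.hl (Submodule.injective_subtype _) (LinearMap.exact_subtype_ker_map g) gs
    · exact h3'.comap g2.ker_incl (fun n c hc hB => s2.inj_f (by ring) (v2 (n - 1)) hc hB)
        (fun n c hc => s2.surj_f (by ring) (by ring) (v2 n) hc)

end Crest.Agent.R186
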