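import Mathlib

/-!
Matrix complexes over a ring and the data of the seed algebra of the construction.
-/

set_option autoImplicit false

noncomputable section

namespace Crest.Agent.R186

open TensorProduct

/-- A complex of finitely generated projective modules written with matrices: the generator `i`
has degree `deg i` and type `ε i`, and its differential is the row `δ i`. -/
structure MC (R : Type*) [Ring R] (I : Type*) where
  deg : I → ℤ
  fib : ℤ → Finset I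
  mem_fib : ∀ n i, i ∈ fib n ↔ deg i = n
  ε : I → R
  δ : I → I →₀ R
  εε : ∀ i, ε i * ε i = ε i
  εδ : ∀ i j, ε i * δ i j = δ i j
  δε : ∀ i j, δ i j * ε j = δ i j
  hom : ∀ i j, δ i j ≠ 0 → deg j = deg i - 1
  δδ : ∀ i l, ((δ i).sum fun j a => a * δ j l) = 0

/-- The seed: a symmetric algebra with two simple modules, a projective resolution `Q` of the
simple module `χ` and a Hochschild three-cocycle `τ`. -/
structure Seed (k A J : Type*) [Field k] [Ring A] [Algebra k A] where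
  fin : Module.Finite k A
  /-- the semisimple quotient -/
  π : A →ₐ[k] (Fin 2 → k)
  π_surj : Function.Surjective π
  π_nil : ∃ N : ℕ, (LinearMap.ker π.toLinearMap) ^ N = ⊥
  π_two : ∃ x y : A, π x = 0 ∧ π y = 0 ∧ x * y ≠ 0
  /-- the character of the simple module -/
  χ : A →ₐ[k] k
  /-- the symmetrizing form -/
  tr : A →ₗ[k] k
  tr_comm : ∀ a b, tr (a * b) = tr (b * a)
  tr_nondeg : ∀ a, (∀ b, tr (a * b) = 0) → a = 0
  /-- the socle element -/
  ω : A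
  mul_ω : ∀ a, a * ω = χ a • ω
  ω_mul : ∀ a, ω * a = χ a • ω
  χ_ω : χ ω = 0
  tr_ω : tr ω = 1
  /-- the anti-involution -/
  σ : A →ₗ[k] A
  σ_mul : ∀ a b, σ (a * b) = σ b * σ a
  σ_σ : ∀ a, σ (σ a) = a
  σ_ω : σ ω = ω
  χ_σ : ∀ a, χ (σ a) = χ a
  /-- the resolution -/
  Q : MC A J
  deg_nonneg : ∀ j, 0 ≤ Q.deg j
  σ_ε : ∀ j, σ (Q.ε j) = Q.ε j
  χ_δ : ∀ i j, χ (Q.δ i j) = 0
  /-- the generators of the type of the simple module -/
  s : ℕ → J
  deg_s : ∀ m, Q.deg (s m) = 3 * m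
  deg_zero : ∀ j, Q.deg j = 0 → j = s 0
  χ_ε_s : ∀ m, χ (Q.ε (s m)) = 1
  χ_ε : ∀ j, χ (Q.ε j) ≠ 0 → ∃ m, j = s m
  exact : ∀ r : J →₀ A, (∀ j, r j * Q.ε j = r j) → (r.sum fun j a => a • Q.δ j) = 0 →
    χ (r (s 0)) = 0 → ∃ r' : J →₀ A, (r'.sum fun j a => a • Q.δ j) = r
  /-- the weights of the generators -/
  wt : J → ℤ
  wt_s : ∀ m, wt (s m) = m
  /-- the cocycle -/
  τ : A →ₗ[k] A →ₗ[k] A →ₗ[k] A
  τ_coc : ∀ a b c d, a * τ b c d + τ (a * b) c d + τ a (b * c) d + τ a b (c * d) + τ a b c * d = 0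
  τ_one : ∀ a b, τ a 1 b = 0
  τ_pos : ∀ m, ((Q.δ (s (m + 1))).sum fun j a => (Q.δ j).sum fun j' b =>
    χ (τ a b (Q.δ j' (s m)))) ≠ 0
  τ_neg : ∀ m, ((Q.δ (s (m + 1))).sum fun j a => (Q.δ j).sum fun j' b =>
    χ (τ (σ (Q.δ j' (s m))) (σ b) (σ a))) ≠ 0

/-- An automorphism `h` of the seed scaling weight one by `H`, and a twisted central element `z`. -/
structure Twist {k A J : Type*} [Field k] [Ring A] [Algebra k A] (S : Seed k A J) (H : k) where
  h : A →ₐ[k] A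
  χ_h : ∀ a, S.χ (h a) = S.χ a
  h_σ : ∀ a, h (S.σ a) = S.σ (h a)
  h_ω : h S.ω = H • S.ω
  h_ε : ∀ j, h (S.Q.ε j) = S.Q.ε j
  h_δ : ∀ i j, h (S.Q.δ i j) = H ^ (S.wt i - S.wt j) • S.Q.δ i j
  z : A ⊗[k] A
  z_comm : ∀ a, (LinearMap.mulLeft k a).rTensor A z = (LinearMap.mulRight k (h a)).lTensor A z
  z_mul : LinearMap.mul' k A z = 0
  z_τ : ∀ a b, LinearMap.mul' k A ((S.τ a b).rTensor A z) = 0
  z_val : LinearMap.mul' k k (TensorProduct.map S.tr S.χ.toLinearMap z) = 1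

end Crest.Agent.R186
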