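import Crest.Agent.R186.Red
import Crest.Agent.R186.Dual
import Crest.Agent.R186.Final
import Crest.Prelude.Def_SymmetricAlgebra

/-!
Trivial extensions, the semisimple quotient of the tensor square of the seed.
-/

set_option autoImplicit false

noncomputable section

namespace Crest.Agent.R186

open TensorProduct

variable {k : Type*} [Field k]
variable {U V W : Type*} [AddCommGroup U] [Module k U] [AddCommGroup V] [Module k V]
  [AddCommGroup W] [Module k W]
variable {I J L : Type*}
variable {R S R' S' : Type*} [Ring R] [Algebra k R] [Ring S] [Algebra k S] [Ring R'] [Algebra k R']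
  [Ring S'] [Algebra k S']

/-- the trivial extension of a ring by a bimodule -/
def Triv (_N : Bim k R R V) : Type _ := R × V

namespace Triv

variable {N : Bim k R R V}

instance : Ring (Triv N) :=
  { (inferInstance : AddCommGroup (R × V)) with
    mul := fun x y => (x.1 * y.1, N.l x.1 y.2 + N.r y.1 x.2)
    one := (1, 0)
    mul_assoc := fun x y z => Prod.ext (mul_assoc x.1 y.1 z.1) (by
      change N.l (x.1 * y.1) z.2 + N.r z.1 (N.l x.1 y.2 + N.r y.1 x.2) =
        N.l x.1 (N.l y.1 z.2 + N.r z.1 y.2) + N.r (y.1 * z.1) x.2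
      simp only [map_add, N.l_mul, N.r_mul, N.lr, add_assoc])
    one_mul := fun x => Prod.ext (one_mul x.1) (by
      change N.l 1 x.2 + N.r x.1 0 = x.2
      rw [N.l_one, map_zero, add_zero])
    mul_one := fun x => Prod.ext (mul_one x.1) (by
      change N.l x.1 0 + N.r 1 x.2 = x.2
      rw [N.r_one, map_zero, zero_add])
    zero_mul := fun x => Prod.ext (zero_mul x.1) (by
      change N.l 0 x.2 + N.r x.1 0 = 0
      simp)
    mul_zero := fun x => Prod.ext (mul_zero x.1) (by
      change N.l x.1 0 + N.r 0 x.2 = 0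
      simp)
    left_distrib := fun x y z => Prod.ext (mul_add x.1 y.1 z.1) (by
      change N.l x.1 (y.2 + z.2) + N.r (y.1 + z.1) x.2 =
        N.l x.1 y.2 + N.r y.1 x.2 + (N.l x.1 z.2 + N.r z.1 x.2)
      simp only [map_add, LinearMap.add_apply]
      abel)
    right_distrib := fun x y z => Prod.ext (add_mul x.1 y.1 z.1) (by
      change N.l (x.1 + y.1) z.2 + N.r z.1 (x.2 + y.2) =
        N.l x.1 z.2 + N.r z.1 x.2 + (N.l y.1 z.2 + N.r z.1 y.2)
      simp only [map_add, LinearMap.add_apply]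
      abel) }

instance : Algebra k (Triv N) :=
  letI : Module k (Triv N) := (inferInstance : Module k (R × V))
  Algebra.ofModule
    (fun c x y => Prod.ext (smul_mul_assoc c x.1 y.1) (by
      change N.l (c • x.1) y.2 + N.r y.1 (c • x.2) = c • (N.l x.1 y.2 + N.r y.1 x.2)
      simp))
    (fun c x y => Prod.ext (mul_smul_comm c x.1 y.1) (by
      change N.l x.1 (c • y.2) + N.r (c • y.1) x.2 = c • (N.l x.1 y.2 + N.r y.1 x.2)
      simp))

variable (N) in
/-- the underlying vector space -/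
def equiv : Triv N ≃ₗ[k] R × V where
  toFun x := x
  invFun x := x
  map_add' _ _ := rfl
  map_smul' _ _ := rfl
  left_inv _ := rfl
  right_inv _ := rfl

instance [Module.Finite k R] [Module.Finite k V] : Module.Finite k (Triv N) :=
  Module.Finite.equiv (equiv N).symm

variable (N) in
/-- the second component -/
def snd : Triv N →ₗ[k] V := LinearMap.snd k R V ∘ₗ (equiv N).toLinearMap

variable (N) in
/-- the first component -/
def fst : Triv N →ₐ[k] R :=
  AlgHom.ofLinearMap (LinearMap.fst k R V ∘ₗ (equiv N).toLinearMap) rfl fun _ _ => rfl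

theorem ext {x y : Triv N} (h1 : fst N x = fst N y) (h2 : snd N x = snd N y) : x = y :=
  Prod.ext h1 h2

theorem snd_mul (x y : Triv N) :
    snd N (x * y) = N.l (fst N x) (snd N y) + N.r (fst N y) (snd N x) := rfl

@[simp] theorem snd_one : snd N 1 = 0 := rfl

variable (N) in
/-- the inclusion of the bimodule -/
def inr : V →ₗ[k] Triv N := (equiv N).symm.toLinearMap ∘ₗ LinearMap.inr k R V

@[simp] theorem fst_inr (x : V) : fst N (inr N x) = 0 := rfl
@[simp] theorem snd_inr (x : V) : snd N (inr N x) = x := rfl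

variable (N) in
/-- the inclusion of the ring -/
def inl : R →ₐ[k] Triv N :=
  AlgHom.ofLinearMap ((equiv N).symm.toLinearMap ∘ₗ LinearMap.inl k R V) rfl fun a b =>
    Prod.ext rfl (by
      change 0 = N.l a 0 + N.r b 0
      simp)

@[simp] theorem fst_inl (a : R) : fst N (inl N a) = a := rfl
@[simp] theorem snd_inl (a : R) : snd N (inl N a) = 0 := rfl

theorem fst_surjective : Function.Surjective (fst N) := fun a => ⟨inl N a, rfl⟩

theorem inr_injective : Function.Injective (inr N) := fun _ _ h => congrArg (snd N) h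

theorem exact_inr_fst : Function.Exact (inr N) (fst N).toLinearMap := fun x =>
  ⟨fun h => ⟨snd N x, ext h.symm rfl⟩, by rintro ⟨y, rfl⟩; rfl⟩

theorem isNilpotent {x : Triv N} (h : IsNilpotent (fst N x)) : IsNilpotent x := by
  obtain ⟨n, hn⟩ := h
  rw [← map_pow] at hn
  refine ⟨n + n, ext ?_ ?_⟩
  · rw [pow_add, map_mul, hn, zero_mul, map_zero]
  · rw [pow_add, snd_mul, hn]
    simp

end Triv

/-- restriction of scalars -/
def Bim.res (M : Bim k R' S' V) (φ : R →ₐ[k] R') (ψ : S →ₐ[k] S') : Bim k R S V where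
  l := M.l ∘ₗ φ.toLinearMap
  r := M.r ∘ₗ ψ.toLinearMap
  l_one x := by simp [M.l_one]
  l_mul a b x := by simp [M.l_mul]
  r_one x := by simp [M.r_one]
  r_mul a b x := by simp [M.r_mul]
  lr a b x := M.lr _ _ _

@[simp] theorem Bim.res_l (M : Bim k R' S' V) (φ : R →ₐ[k] R') (ψ : S →ₐ[k] S') (a : R) :
    (M.res φ ψ).l a = M.l (φ a) := rfl
@[simp] theorem Bim.res_r (M : Bim k R' S' V) (φ : R →ₐ[k] R') (ψ : S →ₐ[k] S') (a : S) :
    (M.res φ ψ).r a = M.r (ψ a) := rfl

/-- the dual bimodule -/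
def Bim.dual (M : Bim k R S V) : Bim k S R (Module.Dual k V) where
  l := { toFun := fun a => (M.r a).dualMap
         map_add' := fun a b => by ext; simp
         map_smul' := fun a b => by ext; simp }
  r := { toFun := fun a => (M.l a).dualMap
         map_add' := fun a b => by ext; simp
         map_smul' := fun a b => by ext; simp }
  l_one f := by ext; simp [M.r_one]
  l_mul a b f := by ext; simp [M.r_mul]
  r_one f := by ext; simp [M.l_one]
  r_mul a b f := by ext; simp [M.l_mul]
  lr a b f := by ext; simp [M.lr]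

@[simp] theorem Bim.dual_l (M : Bim k R S V) (a : S) (f : Module.Dual k V) (x : V) :
    M.dual.l a f x = f (M.r a x) := rfl
@[simp] theorem Bim.dual_r (M : Bim k R S V) (a : R) (f : Module.Dual k V) (x : V) :
    M.dual.r a f x = f (M.l a x) := rfl

/-- the trivial extension by the dual bimodule is symmetric -/
theorem Triv.symmetric [Module.Finite k R] :
    Crest.AlgebraR.IsSymmetricAlgebra k (Triv (Bim.reg k R).dual) := by
  set N := (Bim.reg k R).dual
  let tr : Triv N →ₗ[k] k := LinearMap.applyₗ (1 : R) ∘ₗ Triv.snd N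
  have htr : ∀ x y, tr (x * y) = Triv.snd N y (Triv.fst N x) + Triv.snd N x (Triv.fst N y) :=
    fun x y => by simp [tr, Triv.snd_mul, N]
  let f : Triv N →ₗ[k] Module.Dual k (Triv N) := (LinearMap.mul k (Triv N)).compr₂ tr
  have hf : Function.Injective f := by
    rw [injective_iff_map_eq_zero]
    intro a ha
    have h : ∀ b, tr (a * b) = 0 := fun b => LinearMap.congr_fun ha b
    refine Triv.ext ?_ (LinearMap.ext fun b => ?_)
    · rw [map_zero, ← Module.forall_dual_apply_eq_zero_iff k]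
      intro g
      simpa [htr] using h (Triv.inr N g)
    · simpa [htr] using h (Triv.inl N b)
  refine ⟨LinearMap.linearEquivOfInjective f hf (Subspace.dual_finrank_eq).symm, fun a x b y => ?_⟩
  change tr (a * x * b * y) = tr (x * (b * y * a))
  rw [mul_assoc a, mul_assoc a, htr a, add_comm, ← htr, mul_assoc x b y, mul_assoc x]

/-- the image of a matrix complex under a ring map -/
def MC.map (P : MC R I) (φ : R →ₐ[k] S) : MC S I where
  deg := P.deg
  fib := P.fib
  mem_fib := P.mem_fib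
  ε i := φ (P.ε i)
  δ := mmap φ.toLinearMap P.δ
  εε i := by rw [← map_mul, P.εε]
  εδ i j := by simp [← map_mul, P.εδ]
  δε i j := by simp [← map_mul, P.δε]
  hom i j h := P.hom i j fun h0 => h (by simp [h0])
  δδ i l := by
    have := mmap_mmul (μ := LinearMap.mul k R) (ν := LinearMap.mul k S) (f := φ.toLinearMap)
      P.δ P.δ (mmap φ.toLinearMap P.δ) (mmap φ.toLinearMap P.δ) (fun _ _ _ => by simp)
    rw [P.δδ', map_zero] at this
    exact (mmul_apply (LinearMap.mul k S) _ _ i l).symm.trans (by rw [← this]; rfl)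

section

variable [CharP k 2]

theorem van_transfer {P : MC R I} {P' : MC R' I} {Q : MC S J} {Q' : MC S' J} {M : Bim k R S V}
    {M' : Bim k R' S' V} {s n : ℤ} (h : (cx P Q (M.at s)).Van n) (h1 : P'.deg = P.deg)
    (h2 : ∀ i, M'.l (P'.ε i) = M.l (P.ε i))
    (h3 : ∀ i j, M'.l (P'.δ i j) = M.l (P.δ i j)) (h4 : Q'.deg = Q.deg)
    (h5 : ∀ i, M'.r (Q'.ε i) = M.r (Q.ε i)) (h6 : ∀ i j, M'.r (Q'.δ i j) = M.r (Q.δ i j)) :
    (cx P' Q' (M'.at s)).Van n := by
  have hD : ∀ x, (cx P' Q' (M'.at s)).D x = (cx P Q (M.at s)).D x := fun x => by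
    rw [cx_D_at, cx_D_at]
    congr 1
    · exact mmul_congr _ _ _ _ fun i j l => by rw [h3]
    · exact mmul_congr _ _ _ _ fun i j l => by simp [h6]
  intro x hx
  obtain ⟨b, hb⟩ := h x ⟨Mat.ext' fun i j => by
    conv_rhs => rw [← hx.1]
    rw [cx_P_at, cx_P_at, h1, h2, h4, h5], by rw [← hD, hx.2]⟩
  exact ⟨b, by rw [hD, hb]⟩

theorem RowEx.map {P : MC R I} (φ : R →ₐ[k] S) (h : RowEx P ((Bim.reg k S).res φ φ)) :
    RowEx (P.map φ) (Bim.reg k S) := fun n =>
  van_transfer (h n) rfl (fun _ => rfl) (fun _ _ => rfl) rfl (fun _ => rfl) (fun _ _ => rfl)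

theorem ColEx.map {P : MC R I} (φ : R →ₐ[k] S) (h : ColEx P ((Bim.reg k S).res φ φ)) :
    ColEx (P.map φ) (Bim.reg k S) := fun n =>
  van_transfer (h n) rfl (fun _ => rfl) (fun _ _ => rfl) rfl (fun _ => rfl) (fun _ _ => rfl)

theorem van_map {P : MC R I} (φ : R →ₐ[k] S) {n : ℤ}
    (h : (cx P P (((Bim.reg k S).res φ φ).at 0)).Van n) :
    (cx (P.map φ) (P.map φ) ((Bim.reg k S).at 0)).Van n :=
  van_transfer h rfl (fun _ => rfl) (fun _ _ => rfl) rfl (fun _ => rfl) (fun _ _ => rfl)

section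

variable {P : MC R I} {N : Bim k R R V}

omit [CharP k 2] in
theorem Triv.inr_l (a : R) (x : V) : Triv.inr N (N.l a x) =
    ((Bim.reg k (Triv N)).res (Triv.inl N) (Triv.inl N)).l a (Triv.inr N x) :=
  Triv.ext (by simp) (by simp [Triv.snd_mul])

omit [CharP k 2] in
theorem Triv.inr_r (a : R) (x : V) : Triv.inr N (N.r a x) =
    ((Bim.reg k (Triv N)).res (Triv.inl N) (Triv.inl N)).r a (Triv.inr N x) :=
  Triv.ext (by simp) (by simp [Triv.snd_mul])

theorem RowEx.triv (h : RowEx P (Bim.reg k R)) (hN : RowEx P N) :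
    RowEx (P.map (Triv.inl N)) (Bim.reg k (Triv N)) :=
  RowEx.map _ (hN.ses₂ h Triv.inr_r (fun a x => by simp) Triv.inr_injective Triv.exact_inr_fst
    Triv.fst_surjective)

theorem ColEx.triv (h : ColEx P (Bim.reg k R)) (hN : ColEx P N) :
    ColEx (P.map (Triv.inl N)) (Bim.reg k (Triv N)) :=
  ColEx.map _ (hN.ses₂ h Triv.inr_l (fun a x => by simp) Triv.inr_injective Triv.exact_inr_fst
    Triv.fst_surjective)

theorem van_triv {n : ℤ} (h : (cx P P ((Bim.reg k R).at 0)).Van n)
    (hN : (cx P P (N.at 0)).Van n) :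
    (cx (P.map (Triv.inl N)) (P.map (Triv.inl N)) ((Bim.reg k (Triv N)).at 0)).Van n :=
  van_map _ ((cses (dhom_at 0 Triv.inr_l Triv.inr_r)
    (dhom_at (N := Bim.reg k R) 0 (fun a x => by simp) (fun a x => by simp)) Triv.inr_injective
    Triv.exact_inr_fst Triv.fst_surjective P P).van₂ (add_zero n).symm (add_zero n).symm hN h)

end

end

section Tensor

variable {A B C : Type*} [Ring A] [Algebra k A] [Ring B] [Algebra k B] [Ring C] [Algebra k C]

theorem nil_rTensor (f : A →ₐ[k] C) (hf : Function.Surjective f)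
    (hN : ∃ N : ℕ, (LinearMap.ker f.toLinearMap) ^ N = ⊥) (x : A ⊗[k] B)
    (hx : Algebra.TensorProduct.map f (AlgHom.id k B) x = 0) : IsNilpotent x := by
  obtain ⟨N, hN⟩ := hN
  set X := LinearMap.ker f.toLinearMap
  have key : ∀ (Y Z : Submodule k A) (y z : A ⊗[k] B), y ∈ LinearMap.range (Y.subtype.rTensor B) →
      z ∈ LinearMap.range (Z.subtype.rTensor B) →
      y * z ∈ LinearMap.range ((Y * Z).subtype.rTensor B) := by
    rintro Y Z _ _ ⟨y, rfl⟩ ⟨z, rfl⟩
    induction y with
    | zero => simp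
    | add y y' hy hy' => rw [map_add, add_mul]; exact add_mem hy hy'
    | tmul a b =>
      induction z with
      | zero => simp
      | add z z' hz hz' => rw [map_add, mul_add]; exact add_mem hz hz'
      | tmul a' b' => exact ⟨⟨a * a', Submodule.mul_mem_mul a.2 a'.2⟩ ⊗ₜ (b * b'), by simp⟩
  have h1 : x ∈ LinearMap.range (X.subtype.rTensor B) :=
    (rTensor_exact B (LinearMap.exact_subtype_ker_map f.toLinearMap) hf x).1 hx
  have h2 : ∀ m : ℕ, x ^ (m + 1) ∈ LinearMap.range ((X ^ (m + 1)).subtype.rTensor B) := by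
    intro m
    induction m with
    | zero => rwa [zero_add, pow_one, pow_one]
    | succ m ih =>
      rw [pow_succ x, pow_succ X]
      exact key _ _ _ _ ih h1
  refine ⟨N + 1, ?_⟩
  obtain ⟨y, hy⟩ := h2 N
  rw [← hy]
  have : (X ^ (N + 1)).subtype = 0 := LinearMap.ext fun a => by
    have := a.2
    simp only [pow_succ, hN, Submodule.bot_mul, Submodule.mem_bot] at this
    exact this
  rw [this]
  simp

theorem nil_lTensor (f : A →ₐ[k] C) (hf : Function.Surjective f)
    (hN : ∃ N : ℕ, (LinearMap.ker f.toLinearMap) ^ N = ⊥) (x : B ⊗[k] A)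
    (hx : Algebra.TensorProduct.map (AlgHom.id k B) f x = 0) : IsNilpotent x := by
  have e : ∀ y : B ⊗[k] A, Algebra.TensorProduct.map f (AlgHom.id k B)
      (Algebra.TensorProduct.comm k B A y) =
      Algebra.TensorProduct.comm k B C (Algebra.TensorProduct.map (AlgHom.id k B) f y) := by
    intro y
    induction y <;> simp_all
  obtain ⟨n, hn⟩ := nil_rTensor f hf hN (Algebra.TensorProduct.comm k B A x) (by
    rw [e, hx, map_zero])
  exact ⟨n, by rwa [← map_pow, map_eq_zero_iff _ (AlgEquiv.injective _)] at hn⟩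

theorem exists_four (k : Type*) [Field k] :
    ∃ e : (Fin 2 → k) ⊗[k] (Fin 2 → k) →ₐ[k] (Fin 4 → k), Function.Bijective e := by
  let e : (Fin 2 → k) ⊗[k] (Fin 2 → k) →ₐ[k] (Fin 2 × Fin 2 → k) := AlgHom.pi fun p =>
    Algebra.TensorProduct.productMap (Pi.evalAlgHom k (fun _ => k) p.1)
      (Pi.evalAlgHom k (fun _ => k) p.2)
  have he : ⇑e = ((Pi.basisFun k (Fin 2)).tensorProduct (Pi.basisFun k (Fin 2))).equivFun := by
    funext x
    induction x with
    | zero => simp
    | add x y hx hy => rw [map_add, map_add, hx, hy]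
    | tmul a b =>
      funext p
      obtain ⟨i, j⟩ := p
      simp [e, Module.Basis.equivFun_apply, mul_comm]
  let e' : (Fin 2 × Fin 2 → k) ≃ₐ[k] (Fin 4 → k) :=
    AlgEquiv.piCongrLeft' k (fun _ : Fin 2 × Fin 2 => k) (finProdFinEquiv (m := 2) (n := 2))
  have hb : Function.Bijective e := he ▸ LinearEquiv.bijective _
  exact ⟨e'.toAlgHom.comp e, e'.bijective.comp hb⟩

theorem Seed.pi_tensor {k A J : Type*} [Field k] [Ring A] [Algebra k A] (S : Seed k A J) :
    ∃ π : A ⊗[k] A →ₐ[k] (Fin 4 → k), Function.Surjective π ∧ (∀ x, π x = 0 → IsNilpotent x) ∧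
      ∃ a b c d : A ⊗[k] A, π a = 0 ∧ π b = 0 ∧ π c = 0 ∧ π d = 0 ∧ a * b * c * d ≠ 0 := by
  obtain ⟨e, he⟩ := exists_four k
  obtain ⟨x, y, hx, hy, hxy⟩ := S.π_two
  refine ⟨e.comp (Algebra.TensorProduct.map S.π S.π),
    he.2.comp (TensorProduct.map_surjective S.π_surj S.π_surj), fun z hz => ?_,
    x ⊗ₜ 1, y ⊗ₜ 1, 1 ⊗ₜ x, 1 ⊗ₜ y, by simp [hx], by simp [hy], by simp [hx], by simp [hy], ?_⟩
  · have e1 : ∀ w : A ⊗[k] A, Algebra.TensorProduct.map S.π (AlgHom.id k _)
        (Algebra.TensorProduct.map (AlgHom.id k A) S.π w) = Algebra.TensorProduct.map S.π S.π w := by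
      intro w
      induction w <;> simp_all
    rw [AlgHom.comp_apply, map_eq_zero_iff _ he.1, ← e1] at hz
    obtain ⟨n, hn⟩ := nil_rTensor S.π S.π_surj S.π_nil _ hz
    rw [← map_pow] at hn
    exact (nil_lTensor S.π S.π_surj S.π_nil _ hn).of_pow
  · intro h
    obtain ⟨φ, hφ⟩ : ∃ φ : Module.Dual k A, φ (x * y) ≠ 0 := by
      by_contra h'
      push Not at h'
      exact hxy ((Module.forall_dual_apply_eq_zero_iff k _).1 h')
    have := congrArg (LinearMap.mul' k k ∘ₗ TensorProduct.map φ φ) h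
    simp [hφ] at this

end Tensor

end Crest.Agent.R186
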